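import Crest.Agent.R85.HhB

/-!
# The Caccioppoli inequality (task Cacc)

`η = cut 0 R 1`, `μ0 = ∫ η² f / ∫ η²` (`∫ η² ≥ 1/C`), `F = f - μ0`, `ψ = η² F` (mean zero test
function on `ball 0 (R+1)`), `X = En 0 (ηF) (ηF)`.
* `(a-b)(p²a - q²b) = (pa - qb)² - ab(p-q)²`, so `X = En F ψ + Y`,
  `Y = ∬ F x F y (η x - η y)² κ_0`.
* `ψ x - ψ y = η x (ηF x - ηF y) + ηF y (η x - η y)` and `(η x - η y)² ≤ min(‖x-y‖², 1)`
  (`Up.min_sq`) give `En ψ ψ ≤ 2 X + c ∫ (ηF)²`; so `En F ψ = En f ψ ≤ √(2X + c) ≤ X/2 + c'`.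
* `Y = Y₁ + Y₂` with `κ_0 = κ_1 + (κ_0 - κ_1)`.  `|Y₂| ≤ ∫ F² w`, where
  `w x = ∫ (η x - η y)² (κ_0-κ_1)(x-y) dν(y) ≤ c_R kap (n+3) 1 x` (`Up.diff` for `‖x‖ ≤ 2R+2`,
  `kap_diff_le` beyond).  `Y₁ = 2 ∫ F y (∫ ψ x κ_1(x-y) dν x) dν y - 2 ∬ (ηF)(x) (ηF)(y) κ_1`;
  `conv_mean_zero` and Cauchy–Schwarz `∫ |F| kap (n+2) ≤ √(∫ F² kap (n+3)) √(∫ kap (n+1))`.
* `∫ F² kap (n+3) 1 ≤ c_R`.  On `ball 0 R`, `η = 1`.
All integrands are integrable because `ν` is finite and `|F| ≤ c N 1`.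
-/

set_option autoImplicit false

open MeasureTheory Metric Filter Topology
open scoped RealInnerProductSpace

noncomputable section

namespace Crest.Agent.R85

variable {m : ℕ}

theorem Cacc_N_kap (p : ℕ) (y : Eu m) : N 1 y * kap (p + 1) 1 y ≤ 1 := by
  have := kap_mul_N_pow p 1 one_pos y
  rw [pow_one] at this
  rw [mul_comm, this]
  exact kap_le_one _ _

theorem Cacc_meas (p : ℕ) (s : ℝ) : Measurable fun q : Eu m × Eu m => kap p s (q.1 - q.2) :=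
  (measurable_kap p s).comp (measurable_fst.sub measurable_snd)

theorem Lip.integrable_sq_kap {n : ℕ} {ν : Measure (Eu m)} [IsFiniteMeasure ν] {L : ℝ}
    {f : Eu m → ℝ} (hf : Lip L f) : Integrable (fun y => f y ^ 2 * kap (n + 3) 1 y) ν := by
  refine Integrable.of_bound
    ((hf.continuous.pow 2).mul (continuous_kap _ one_pos)).aestronglyMeasurable
    ((|f 0| + |L|) ^ 2) (ae_of_all _ fun y => ?_)
  have h1 := hf.abs_le y
  have h2 := kap_mul_N_pow (n + 1) 2 one_pos y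
  have h3 := kap_le_one (n + 1) y
  have h4 := kap_nonneg (n + 3) 1 y
  rw [Real.norm_of_nonneg (by positivity), ← sq_abs]
  calc |f y| ^ 2 * kap (n + 3) 1 y ≤ ((|f 0| + |L|) * N 1 y) ^ 2 * kap (n + 3) 1 y := by gcongr
    _ = (|f 0| + |L|) ^ 2 * (kap (n + 1 + 2) 1 y * N 1 y ^ 2) := by ring
    _ ≤ (|f 0| + |L|) ^ 2 * 1 := by rw [h2]; gcongr
    _ = _ := mul_one _

theorem Cacc_int1 {ν : Measure (Eu m)} [IsFiniteMeasure ν] {L : ℝ} {f : Eu m → ℝ} (hf : Lip L f)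
    (p : ℕ) : Integrable (fun y => |f y| * kap (p + 1) 1 y) ν := by
  refine Integrable.of_bound
    (hf.continuous.abs.mul (continuous_kap _ one_pos)).aestronglyMeasurable
    (|f 0| + |L|) (ae_of_all _ fun y => ?_)
  have h1 := hf.abs_le y
  have h2 := Cacc_N_kap p y
  have h4 := kap_nonneg (p + 1) 1 y
  rw [Real.norm_of_nonneg (by positivity)]
  calc |f y| * kap (p + 1) 1 y ≤ (|f 0| + |L|) * N 1 y * kap (p + 1) 1 y := by gcongr
    _ = (|f 0| + |L|) * (N 1 y * kap (p + 1) 1 y) := by ring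
    _ ≤ (|f 0| + |L|) * 1 := by gcongr
    _ = _ := mul_one _

theorem Cacc_M1 {n : ℕ} {C : ℝ} {ν : Measure (Eu m)} [IsFiniteMeasure ν] (hν : Up n C ν)
    (hC : 0 ≤ C) {L M : ℝ} {f : Eu m → ℝ} (hf : Lip L f)
    (hM : ∫ y, f y ^ 2 * kap (n + 3) 1 y ∂ν ≤ M) :
    ∫ y, |f y| * kap (n + 2) 1 y ∂ν ≤ M + cK n * C := by
  obtain ⟨i1, i2⟩ := hν.int_kap_one hC
  have i3 := hf.integrable_sq_kap (n := n) (ν := ν)
  refine (integral_mono (Cacc_int1 hf (n + 1)) (i3.add i1) fun y => ?_).trans ?_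
  · show |f y| * kap (n + 1 + 1) 1 y ≤ f y ^ 2 * kap (n + 1 + 1 + 1) 1 y + kap (n + 1) 1 y
    rw [kap_add (n + 1 + 1) 1, kap_add (n + 1) 1, ← sq_abs]
    have h1 := kap_nonneg (n + 1) 1 y
    have h2 := kap_nonneg 1 1 y
    have h3 : 0 ≤ |f y| * kap 1 1 y := by positivity
    have h4 : |f y| * kap 1 1 y ≤ (|f y| * kap 1 1 y) ^ 2 + 1 := by nlinarith
    nlinarith [mul_le_mul_of_nonneg_left h4 h1]
  · simp only [Pi.add_apply]
    rw [integral_add i3 i1]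
    linarith

theorem Cacc_one_le (p : ℕ) {r : ℝ} {x : Eu m} (h : ‖x‖ ≤ r) : 1 ≤ (r + 1) ^ p * kap p 1 x := by
  have h1 := N_le zero_le_one x
  have h2 := N_pos one_pos x
  rw [kap, ← div_eq_mul_inv, one_le_div (by positivity)]
  gcongr
  linarith

theorem Cacc_cut_zero {R : ℝ} {x : Eu m} (h : R + 1 ≤ ‖x‖) : cut 0 R 1 x = 0 :=
  (cut_tst 0 R one_pos).supp x (by simpa using h)

theorem Cacc_cut_le (p : ℕ) {R : ℝ} (hR : 0 ≤ R) (x : Eu m) :
    cut 0 R 1 x ≤ (R + 2) ^ p * kap p 1 x := by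
  by_cases h : R + 1 ≤ ‖x‖
  · have := kap_nonneg p 1 x
    rw [Cacc_cut_zero h]
    positivity
  · have := Cacc_one_le p (not_le.1 h).le
    rw [add_assoc, one_add_one_eq_two] at this
    exact (cut_le_one _ _ _ _).trans this

theorem Cacc_cut_sq (R : ℝ) (x y : Eu m) :
    (cut 0 R 1 x - cut 0 R 1 y) ^ 2 ≤ min (‖x - y‖ ^ 2) (1 ^ 2) := by
  have h1 := (cut_tst 0 R one_pos).lip x y
  rw [div_one, one_mul] at h1
  rw [← sq_abs]
  refine le_min (by gcongr) ?_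
  gcongr
  rw [abs_le]
  constructor <;> linarith [cut_nonneg 0 R 1 x, cut_nonneg 0 R 1 y, cut_le_one 0 R 1 x,
    cut_le_one 0 R 1 y]

theorem Cacc_diff_nonneg (n : ℕ) {x y : Eu m} (h : x ≠ y) :
    0 ≤ kap (n + 1) 0 (x - y) - kap (n + 1) 1 (x - y) :=
  sub_nonneg.2 (kap_anti _ le_rfl zero_le_one (by rw [N_zero]; exact norm_sub_pos_iff.2 h))

theorem Cacc_D_nonneg (n : ℕ) (η : Eu m → ℝ) (x y : Eu m) :
    0 ≤ (η x - η y) ^ 2 * (kap (n + 1) 0 (x - y) - kap (n + 1) 1 (x - y)) := by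
  by_cases h : x = y
  · simp [h]
  · exact mul_nonneg (sq_nonneg _) (Cacc_diff_nonneg n h)

theorem Cacc_D_le (n m : ℕ) {R : ℝ} (hR : 0 ≤ R) : ∃ c : ℝ, 0 ≤ c ∧ ∀ x y : Eu m,
    (cut 0 R 1 x - cut 0 R 1 y) ^ 2 * (kap (n + 1) 0 (x - y) - kap (n + 1) 1 (x - y)) ≤
      c * kap (n + 3) 1 x * (‖x - y‖ ^ 2 * (kap (n + 1) 0 (x - y) - kap (n + 1) 1 (x - y)) +
        kap (n + 1) 1 y) := by
  obtain ⟨a, ha⟩ : ∃ a : ℝ, a = (R + 2 + 1) ^ (n + 3) := ⟨_, rfl⟩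
  obtain ⟨b, hb⟩ : ∃ b : ℝ,
    b = (R + 2) ^ (n + 1) * ((n + 1 : ℕ) * (2 ^ (n + 3) * (R + 2) ^ (n + 3))) := ⟨_, rfl⟩
  have ha0 : 0 ≤ a := by rw [ha]; positivity
  have hb0 : 0 ≤ b := by rw [hb]; positivity
  refine ⟨a + b, by positivity, fun x y => ?_⟩
  have k1 := kap_nonneg (n + 3) 1 x
  have k2 := kap_nonneg (n + 1) 1 y
  have k3 := sq_mul_kap_diff_nonneg n le_rfl zero_le_one (x - y)
  by_cases hxy : x = y
  · rw [hxy, sub_self (cut 0 R 1 y), zero_pow two_ne_zero, zero_mul]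
    rw [hxy] at k1 k3
    positivity
  have k4 := Cacc_diff_nonneg n hxy
  set d := kap (n + 1) 0 (x - y) - kap (n + 1) 1 (x - y) with hd
  by_cases hx : ‖x‖ ≤ R + 2
  · have h1 := Cacc_one_le (n + 3) hx
    rw [← ha] at h1
    calc (cut 0 R 1 x - cut 0 R 1 y) ^ 2 * d ≤ 1 * (‖x - y‖ ^ 2 * d) := by
          rw [one_mul]
          exact mul_le_mul_of_nonneg_right ((Cacc_cut_sq R x y).trans (min_le_left _ _)) k4
      _ ≤ a * kap (n + 3) 1 x * (‖x - y‖ ^ 2 * d) := by gcongr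
      _ ≤ _ := by gcongr <;> linarith
  · rw [not_le] at hx
    rw [Cacc_cut_zero (by linarith : R + 1 ≤ ‖x‖)]
    by_cases hy : R + 1 ≤ ‖y‖
    · rw [Cacc_cut_zero hy, sub_self, zero_pow two_ne_zero, zero_mul]
      positivity
    rw [not_le] at hy
    have h1 : 1 ≤ ‖x - y‖ := by linarith [norm_sub_norm_le x y]
    have h2 := kap_diff_le (n + 1) le_rfl zero_le_one (z := x - y) (by rw [N_zero]; linarith)
    have h3 := kap_zero_le (n + 3) one_pos h1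
    have h4 := kap_peetre (n + 3) one_pos (x - y) x
    rw [sub_sub_cancel_left, norm_neg, div_one] at h4
    have h5 : kap (n + 3) 1 (x - y) ≤ (R + 2) ^ (n + 3) * kap (n + 3) 1 x :=
      h4.trans (by gcongr ?_ ^ _ * _; linarith)
    have h6 : d ≤ (n + 1 : ℕ) * (2 ^ (n + 3) * ((R + 2) ^ (n + 3) * kap (n + 3) 1 x)) := by
      refine h2.trans ?_
      rw [one_pow, mul_one]
      gcongr
      exact h3.trans (by gcongr)
    have h7 : (0 - cut 0 R 1 y) ^ 2 ≤ (R + 2) ^ (n + 1) * kap (n + 1) 1 y := by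
      refine le_trans ?_ (Cacc_cut_le (n + 1) hR y)
      nlinarith [cut_nonneg 0 R 1 y, cut_le_one 0 R 1 y]
    calc (0 - cut 0 R 1 y) ^ 2 * d ≤ (R + 2) ^ (n + 1) * kap (n + 1) 1 y *
          ((n + 1 : ℕ) * (2 ^ (n + 3) * ((R + 2) ^ (n + 3) * kap (n + 3) 1 x))) := by gcongr
      _ = b * kap (n + 3) 1 x * kap (n + 1) 1 y := by rw [hb]; ring
      _ ≤ _ := by gcongr <;> linarith

theorem Cacc_schur {ν : Measure (Eu m)} [IsFiniteMeasure ν] {h : Eu m → ℝ}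
    {G : Eu m × Eu m → ℝ} {B : ℝ} (hh : Integrable h ν) (hm : Measurable h) (h0 : ∀ x, 0 ≤ h x)
    (hG : Measurable G) (hG0 : ∀ p, 0 ≤ G p)
    (hB : ∀ x, Integrable (fun y => G (x, y)) ν ∧ ∫ y, G (x, y) ∂ν ≤ B) :
    Integrable (fun p => h p.1 * G p) (ν.prod ν) ∧
      ∫ p, h p.1 * G p ∂(ν.prod ν) ≤ B * ∫ x, h x ∂ν := by
  have hm' : Measurable fun p : Eu m × Eu m => h p.1 * G p := (hm.comp measurable_fst).mul hG
  have hx : ∀ x, ∫ y, h x * G (x, y) ∂ν ≤ h x * B := fun x => by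
    rw [integral_const_mul]
    exact mul_le_mul_of_nonneg_left (hB x).2 (h0 x)
  have hi : Integrable (fun p => h p.1 * G p) (ν.prod ν) := by
    rw [integrable_prod_iff hm'.aestronglyMeasurable]
    refine ⟨ae_of_all _ fun x => (hB x).1.const_mul (h x), ?_⟩
    refine (hh.mul_const B).mono'
      hm'.stronglyMeasurable.norm.integral_prod_right'.aestronglyMeasurable
      (ae_of_all _ fun x => ?_)
    rw [Real.norm_of_nonneg (integral_nonneg fun y => norm_nonneg _)]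
    refine le_trans (le_of_eq ?_) (hx x)
    exact integral_congr_ae (ae_of_all _ fun y => Real.norm_of_nonneg (mul_nonneg (h0 _) (hG0 _)))
  refine ⟨hi, ?_⟩
  rw [integral_prod _ hi, mul_comm, ← integral_mul_const]
  exact integral_mono hi.integral_prod_left (hh.mul_const B) hx

theorem Cacc_sym {ν : Measure (Eu m)} [IsFiniteMeasure ν] {u Φ : Eu m × Eu m → ℝ}
    (hu : Integrable u (ν.prod ν)) (hΦ : Integrable Φ (ν.prod ν))
    (h : ∀ x y, u (x, y) ≤ Φ (x, y) + Φ (y, x)) :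
    ∫ p, u p ∂(ν.prod ν) ≤ 2 * ∫ p, Φ p ∂(ν.prod ν) := by
  have h1 : Integrable (fun p : Eu m × Eu m => Φ p.swap) (ν.prod ν) := hΦ.swap
  refine (integral_mono hu (hΦ.add h1) fun p => h p.1 p.2).trans (le_of_eq ?_)
  simp only [Pi.add_apply]
  rw [integral_add hΦ h1, integral_prod_swap, two_mul]

/-- The term with the cancellation. -/
theorem Cacc_T2 (n m : ℕ) {R : ℝ} (hR : 0 ≤ R) : ∃ c : ℝ, 0 ≤ c ∧
    ∀ (ν : Measure (Eu m)) [IsFiniteMeasure ν] (L : ℝ) (F ψ : Eu m → ℝ), Lip L F →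
      Continuous ψ → (∀ y, |ψ y| ≤ cut 0 R 1 y * |F y|) → ∫ y, ψ y ∂ν = 0 →
      Integrable (fun p : Eu m × Eu m => F p.1 * (ψ p.2 * kap (n + 1) 1 (p.1 - p.2))) (ν.prod ν) ∧
      ∫ p : Eu m × Eu m, F p.1 * (ψ p.2 * kap (n + 1) 1 (p.1 - p.2)) ∂(ν.prod ν) ≤
        c * (∫ y, |F y| * kap (n + 2) 1 y ∂ν) ^ 2 := by
  obtain ⟨c, hc, hconv⟩ := conv_mean_zero n m one_pos (R + 1)
  refine ⟨c * (R + 2) ^ (n + 2), by positivity, fun ν _ L F ψ hF hψ hle h0 => ?_⟩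
  have hsupp : ∀ y, R + 1 ≤ ‖y‖ → ψ y = 0 := fun y hy => by
    have := hle y
    rwa [Cacc_cut_zero hy, zero_mul, abs_nonpos_iff] at this
  have i2 := Cacc_int1 (ν := ν) hF (n + 1)
  have hle' : ∀ y, |ψ y| ≤ (R + 2) ^ (n + 2) * (|F y| * kap (n + 2) 1 y) := fun y => by
    refine (hle y).trans ?_
    calc cut 0 R 1 y * |F y| ≤ (R + 2) ^ (n + 2) * kap (n + 2) 1 y * |F y| := by
          gcongr; exact Cacc_cut_le _ hR y
      _ = _ := by ring
  have iψ : Integrable ψ ν :=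
    (i2.const_mul _).mono' hψ.aestronglyMeasurable (ae_of_all _ hle')
  have hi : Integrable (fun p : Eu m × Eu m => F p.1 * (ψ p.2 * kap (n + 1) 1 (p.1 - p.2)))
      (ν.prod ν) := by
    refine ((Cacc_int1 (ν := ν) hF n).mul_prod (iψ.abs.const_mul ((R + 2) ^ (n + 1)))).mono'
      ((hF.continuous.measurable.comp measurable_fst).mul
        ((hψ.measurable.comp measurable_snd).mul (Cacc_meas _ _))).aestronglyMeasurable
      (ae_of_all _ fun p => ?_)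
    obtain ⟨x, y⟩ := p
    have k1 := kap_nonneg (n + 1) 1 x
    have k2 := kap_nonneg (n + 1) 1 (x - y)
    show |F x * (ψ y * kap (n + 1) 1 (x - y))| ≤
      |F x| * kap (n + 1) 1 x * ((R + 2) ^ (n + 1) * |ψ y|)
    by_cases hy : R + 1 ≤ ‖y‖
    · simp [hsupp y hy]
    rw [not_le] at hy
    have h4 := kap_peetre (n + 1) one_pos (x - y) x
    rw [sub_sub_cancel_left, norm_neg, div_one] at h4
    have h5 : kap (n + 1) 1 (x - y) ≤ (R + 2) ^ (n + 1) * kap (n + 1) 1 x :=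
      h4.trans (by gcongr ?_ ^ _ * _; linarith)
    rw [abs_mul, abs_mul, abs_of_nonneg k2]
    calc |F x| * (|ψ y| * kap (n + 1) 1 (x - y))
        ≤ |F x| * (|ψ y| * ((R + 2) ^ (n + 1) * kap (n + 1) 1 x)) := by gcongr
      _ = _ := by ring
  refine ⟨hi, ?_⟩
  have h1 : ∫ y, |ψ y| ∂ν ≤ (R + 2) ^ (n + 2) * ∫ y, |F y| * kap (n + 2) 1 y ∂ν := by
    rw [← integral_const_mul]
    exact integral_mono iψ.abs (i2.const_mul _) hle'
  have h2 : 0 ≤ ∫ y, |F y| * kap (n + 2) 1 y ∂ν :=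
    integral_nonneg fun y => mul_nonneg (abs_nonneg _) (kap_nonneg _ _ _)
  rw [integral_prod _ hi]
  calc ∫ x, ∫ y, F x * (ψ y * kap (n + 1) 1 (x - y)) ∂ν ∂ν
      ≤ ∫ x, (c * ∫ y, |ψ y| ∂ν) * (|F x| * kap (n + 2) 1 x) ∂ν := by
        refine integral_mono hi.integral_prod_left (i2.const_mul _) fun x => ?_
        show ∫ y, F x * (ψ y * kap (n + 1) 1 (x - y)) ∂ν ≤ _
        rw [integral_const_mul]
        refine (le_abs_self _).trans ?_
        rw [abs_mul]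
        calc |F x| * |∫ y, ψ y * kap (n + 1) 1 (x - y) ∂ν|
            ≤ |F x| * (c * (∫ y, |ψ y| ∂ν) * kap (n + 2) 1 x) := by
              gcongr; exact hconv ν ψ iψ hsupp h0 x
          _ = _ := by ring
    _ = (c * ∫ y, |ψ y| ∂ν) * ∫ x, |F x| * kap (n + 2) 1 x ∂ν := integral_const_mul _ _
    _ ≤ (c * ((R + 2) ^ (n + 2) * ∫ y, |F y| * kap (n + 2) 1 y ∂ν)) *
          ∫ x, |F x| * kap (n + 2) 1 x ∂ν := by gcongr
    _ = _ := by ring

theorem Cacc_pt {a b p q D k₁ u v : ℝ} (hD : 0 ≤ D) (hk : 0 ≤ k₁) (hu : D ≤ u) (hv : D ≤ v) :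
    a * b * D + a * b * (p - q) ^ 2 * k₁ ≤
      (a ^ 2 * u + a * (q * (q * b) * k₁) + (p * a) ^ 2 * k₁) +
      (b ^ 2 * v + b * (p * (p * a) * k₁) + (q * b) ^ 2 * k₁) := by
  have h1 : a ^ 2 * D ≤ a ^ 2 * u := by gcongr
  have h2 : b ^ 2 * D ≤ b ^ 2 * v := by gcongr
  have h3 : 0 ≤ (p * a + q * b) ^ 2 * k₁ := by positivity
  have h4 : 0 ≤ ((a - b) ^ 2 + a ^ 2 + b ^ 2) * D := by positivity
  nlinarith

theorem Cacc_core (n m : ℕ) (hn : 1 ≤ n) {C : ℝ} (hC : 0 ≤ C) {R : ℝ} (hR : 0 ≤ R) {M : ℝ}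
    (hM : 0 ≤ M) : ∃ cR, 0 < cR ∧ ∀ (ν : Measure (Eu m)) [IsFiniteMeasure ν] (L : ℝ)
      (F : Eu m → ℝ), Up n C ν → Lip L F → ∫ y, F y ^ 2 * kap (n + 3) 1 y ∂ν ≤ M →
      ∫ y, cut 0 R 1 y * (cut 0 R 1 y * F y) ∂ν = 0 →
      En n 0 ν F (fun y => cut 0 R 1 y * (cut 0 R 1 y * F y)) ^ 2 ≤
        En n 0 ν (fun y => cut 0 R 1 y * (cut 0 R 1 y * F y))
          (fun y => cut 0 R 1 y * (cut 0 R 1 y * F y)) →
      En n 0 ν (fun y => cut 0 R 1 y * F y) (fun y => cut 0 R 1 y * F y) ≤ cR := by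
  obtain ⟨c₁, hc₁, hD⟩ := Cacc_D_le n m hR
  obtain ⟨c₂, hc₂, hT⟩ := Cacc_T2 n m hR
  have hK := (cK_pos n).le
  obtain ⟨A, hA⟩ : ∃ A : ℝ, A = (R + 2) ^ (n + 3) * M := ⟨_, rfl⟩
  have hA0 : 0 ≤ A := by rw [hA]; positivity
  refine ⟨4 * (c₁ * (((n + 2) * cK n * C * 1 + cK n * C) * M) + c₂ * (M + cK n * C) ^ 2 +
    cK n * C / 1 ^ (1 + 0) * A) + 2 * cK n * C * 1 * A + 2, by positivity,
    fun ν _ L F hν hF hFM h0 hE => ?_⟩
  set η := cut (0 : Eu m) R 1 with hη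
  have η0 : ∀ y, 0 ≤ η y := cut_nonneg _ _ _
  have η1 : ∀ y, η y ≤ 1 := cut_le_one _ _ _
  obtain ⟨Lg, hg⟩ := (cut_tst 0 R one_pos).mul_lip hF
  obtain ⟨Lψ, hψ⟩ := (cut_tst 0 R one_pos).mul_lip hg.lip
  rw [← hη] at hg hψ
  have iF := hF.integrable_sq_kap (n := n) (ν := ν)
  have hg2 : ∀ y, (η y * F y) ^ 2 ≤ (R + 2) ^ (n + 3) * (F y ^ 2 * kap (n + 3) 1 y) := fun y => by
    have h1 : η y ^ 2 ≤ (R + 2) ^ (n + 3) * kap (n + 3) 1 y :=
      le_trans (by nlinarith [η0 y, η1 y]) (Cacc_cut_le (n + 3) hR y)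
    calc (η y * F y) ^ 2 = η y ^ 2 * F y ^ 2 := mul_pow _ _ _
      _ ≤ (R + 2) ^ (n + 3) * kap (n + 3) 1 y * F y ^ 2 := by gcongr
      _ = _ := by ring
  have cg : Continuous fun y => (η y * F y) ^ 2 := hg.lip.continuous.pow 2
  have ig : Integrable (fun y => (η y * F y) ^ 2) ν :=
    (iF.const_mul _).mono' cg.aestronglyMeasurable
      (ae_of_all _ fun y => by rw [Real.norm_of_nonneg (sq_nonneg _)]; exact hg2 y)
  have hgA : ∫ y, (η y * F y) ^ 2 ∂ν ≤ A := by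
    refine (integral_mono ig (iF.const_mul _) hg2).trans ?_
    rw [integral_const_mul, hA]
    gcongr
  have mn : Measurable fun p : Eu m × Eu m => ‖p.1 - p.2‖ ^ 2 := by fun_prop
  -- the three Schur integrals
  obtain ⟨i1, b1⟩ := Cacc_schur (G := fun p => min (‖p.1 - p.2‖ ^ 2) (1 ^ 2) *
      kap (n + 1) 0 (p.1 - p.2)) ig cg.measurable (fun _ => sq_nonneg _)
    ((mn.min measurable_const).mul (Cacc_meas _ _))
    (fun p => mul_nonneg (by positivity) (kap_nonneg _ _ _)) fun x => hν.min_sq hn hC x one_pos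
  obtain ⟨i2, b2⟩ := Cacc_schur (G := fun p => ‖p.1 - p.2‖ ^ 2 *
      (kap (n + 1) 0 (p.1 - p.2) - kap (n + 1) 1 (p.1 - p.2)) + kap (n + 1) 1 p.2)
    (B := (n + 2) * cK n * C * 1 + cK n * C) iF
    ((hF.continuous.pow 2).measurable.mul (measurable_kap _ _))
    (fun _ => mul_nonneg (sq_nonneg _) (kap_nonneg _ _ _))
    ((mn.mul ((Cacc_meas _ _).sub (Cacc_meas _ _))).add
      ((measurable_kap _ _).comp measurable_snd))
    (fun p => add_nonneg (sq_mul_kap_diff_nonneg n le_rfl zero_le_one _) (kap_nonneg _ _ _))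
    fun x => by
      obtain ⟨a1, a2⟩ := hν.diff hn hC x le_rfl zero_le_one one_pos
      obtain ⟨a3, a4⟩ := hν.int_kap_one hC
      exact ⟨a1.add a3, (integral_add a1 a3).trans_le (add_le_add a2 a4)⟩
  obtain ⟨i3, b3⟩ := Cacc_schur (G := fun p => kap (n + 1) 1 (p.1 - p.2)) ig cg.measurable
    (fun _ => sq_nonneg _) (Cacc_meas _ _) (fun p => kap_nonneg _ _ _)
    fun x => hν.int_kap hC x one_pos 0
  obtain ⟨i4, b4⟩ := hT ν L F (fun y => η y * (η y * F y)) hF hψ.lip.continuous (fun y => by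
    rw [abs_mul, abs_mul, abs_of_nonneg (η0 y)]
    exact mul_le_of_le_one_left (mul_nonneg (η0 y) (abs_nonneg _)) (η1 y)) h0
  have iX := En_integrable hν hn le_rfl hg.lip hg.lip
  have iE := En_integrable hν hn le_rfl hF hψ.lip
  have iψ := En_integrable hν hn le_rfl hψ.lip hψ.lip
  -- energy of the test function
  have e1 : En n 0 ν (fun y => η y * (η y * F y)) (fun y => η y * (η y * F y)) ≤
      2 * En n 0 ν (fun y => η y * F y) (fun y => η y * F y) + 2 * (2 * cK n * C * 1 * A) := by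
    refine (integral_mono iψ ((iX.const_mul 2).add (i1.const_mul 2)) fun p => ?_).trans ?_
    · obtain ⟨x, y⟩ := p
      have k := kap_nonneg (n + 1) 0 (x - y)
      have h1 : (η x - η y) ^ 2 ≤ min (‖x - y‖ ^ 2) (1 ^ 2) := Cacc_cut_sq R x y
      have h2 : η y ^ 2 ≤ 1 := by nlinarith [η0 y, η1 y]
      have h3 : (η x * (η x * F x) - η y * (η y * F y)) ^ 2 ≤
          2 * (η x * F x - η y * F y) ^ 2 + 2 * ((η x * F x) ^ 2 * min (‖x - y‖ ^ 2) (1 ^ 2)) := by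
        have a1 : η y ^ 2 * (η x * F x - η y * F y) ^ 2 ≤ 1 * (η x * F x - η y * F y) ^ 2 := by
          gcongr
        have a2 : (η x * F x) ^ 2 * (η x - η y) ^ 2 ≤
            (η x * F x) ^ 2 * min (‖x - y‖ ^ 2) (1 ^ 2) := by gcongr
        nlinarith [sq_nonneg (η y * (η x * F x - η y * F y) - η x * F x * (η x - η y))]
      have h4 := mul_le_mul_of_nonneg_right h3 k
      simp only [Pi.add_apply]
      linarith
    · simp only [Pi.add_apply]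
      rw [integral_add (iX.const_mul 2) (i1.const_mul 2), integral_const_mul, integral_const_mul]
      have : 2 * cK n * C * 1 * ∫ y, (η y * F y) ^ 2 ∂ν ≤ 2 * cK n * C * 1 * A := by gcongr
      unfold En
      linarith
  -- the commutator term
  have e2 := Cacc_sym (iX.sub iE) (((i2.const_mul c₁).add i4).add i3) (fun x y => by
    have h1 := hD x y
    have h2 := hD y x
    have h3 := Cacc_D_nonneg n η x y
    have s0 := kap_sub_comm (n + 1) 0 y x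
    have s1 := kap_sub_comm (n + 1) 1 y x
    rw [show (η y - η x) ^ 2 = (η x - η y) ^ 2 by ring] at h2
    simp only [Pi.add_apply, Pi.sub_apply]
    rw [s0, s1] at h2 ⊢
    have := Cacc_pt (a := F x) (b := F y) (p := η x) (q := η y) h3
      (kap_nonneg (n + 1) 1 (x - y)) h1 h2
    linarith)
  rw [integral_sub' iX iE, integral_add' ((i2.const_mul c₁).add i4) i3,
    integral_add' (i2.const_mul c₁) i4, integral_const_mul] at e2
  have b2' : c₁ * ∫ p : Eu m × Eu m, F p.1 ^ 2 * kap (n + 3) 1 p.1 * (‖p.1 - p.2‖ ^ 2 *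
      (kap (n + 1) 0 (p.1 - p.2) - kap (n + 1) 1 (p.1 - p.2)) + kap (n + 1) 1 p.2) ∂(ν.prod ν) ≤
      c₁ * (((n + 2) * cK n * C * 1 + cK n * C) * M) := by
    gcongr
    exact b2.trans (by gcongr)
  have b3' : cK n * C / 1 ^ (1 + 0) * ∫ y, (η y * F y) ^ 2 ∂ν ≤ cK n * C / 1 ^ (1 + 0) * A := by
    gcongr
  have b4' : c₂ * (∫ y, |F y| * kap (n + 2) 1 y ∂ν) ^ 2 ≤ c₂ * (M + cK n * C) ^ 2 := by
    have : 0 ≤ ∫ y, |F y| * kap (n + 2) 1 y ∂ν :=
      integral_nonneg fun y => mul_nonneg (abs_nonneg _) (kap_nonneg _ _ _)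
    gcongr
    exact Cacc_M1 hν hC hF hFM
  have e3 := sq_nonneg (En n 0 ν F (fun y => η y * (η y * F y)) - 2)
  unfold En at *
  linarith

theorem cacc (n m : ℕ) (hn : 1 ≤ n) (hm : 1 ≤ m) {C : ℝ} (hC : 1 ≤ C) {R : ℝ} (hR : 1 ≤ R) :
    ∃ cR, 0 < cR ∧ ∀ (ν : Measure (Eu m)) [IsFiniteMeasure ν] (L : ℝ) (f : Eu m → ℝ),
      Up n C ν → ENNReal.ofReal (1 / C) ≤ ν (ball 0 1) → Lip L f →
      ∫ y, f y ^ 2 * kap (n + 3) 1 y ∂ν ≤ 1 →
      (∀ L' ψ, Tst L' 0 (R + 1) ψ → ∫ y, ψ y ∂ν = 0 → En n 0 ν f ψ ^ 2 ≤ En n 0 ν ψ ψ) →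
      ∫ p in ball (0 : Eu m) R ×ˢ ball (0 : Eu m) R,
        (f p.1 - f p.2) ^ 2 * kap (n + 1) 0 (p.1 - p.2) ∂(ν.prod ν) ≤ cR := by
  have hC0 : 0 ≤ C := by linarith
  have hR0 : 0 ≤ R := by linarith
  have hK := (cK_pos n).le
  obtain ⟨b, hb⟩ : ∃ b : ℝ, b = C * ((R + 2) ^ (n + 2) * (1 + cK n * C)) := ⟨_, rfl⟩
  obtain ⟨cR, hcR, hcore⟩ := Cacc_core n m hn hC0 hR0 (M := 2 + 2 * b ^ 2 * (cK n * C))
    (by positivity)
  refine ⟨cR, hcR, fun ν _ L f hν hlow hf hf1 hE => ?_⟩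
  set η := cut (0 : Eu m) R 1 with hη
  have η0 : ∀ y, 0 ≤ η y := cut_nonneg _ _ _
  have η1 : ∀ y, η y ≤ 1 := cut_le_one _ _ _
  have hηt : Tst (1 / 1) 0 (R + 1) η := cut_tst 0 R one_pos
  have ηone : ∀ y ∈ ball (0 : Eu m) R, η y = 1 := fun y hy => cut_eq_one one_pos (mem_ball.1 hy).le
  obtain ⟨L₁, h₁⟩ := hηt.mul_lip hηt.lip
  obtain ⟨L₂, h₂⟩ := h₁.mul_lip hf
  have i1 := h₁.integrable hν
  have i2 := h₂.integrable hν
  have hI : 1 / C ≤ ∫ y, η y * η y ∂ν := by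
    refine (hν.le_real hlow).trans ?_
    calc ν.real (ball 0 1) = ∫ y in ball (0 : Eu m) 1, η y * η y ∂ν := by
          rw [setIntegral_congr_fun measurableSet_ball (g := fun _ => (1 : ℝ)) fun y hy => by
            simp [ηone y (ball_subset_ball hR hy)]]
          simp
      _ ≤ _ := setIntegral_le_integral i1 (ae_of_all _ fun y => mul_self_nonneg _)
  have hI0 : 0 < ∫ y, η y * η y ∂ν := lt_of_lt_of_le (by positivity) hI
  have hJ : |∫ y, η y * η y * f y ∂ν| ≤ (R + 2) ^ (n + 2) * (1 + cK n * C) := by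
    refine abs_integral_le_integral_abs.trans ((integral_mono i2.abs
      ((Cacc_int1 hf (n + 1)).const_mul ((R + 2) ^ (n + 2))) fun y => ?_).trans ?_)
    · have a1 : η y * η y ≤ (R + 2) ^ (n + 2) * kap (n + 2) 1 y :=
        le_trans (by nlinarith [η0 y, η1 y]) (Cacc_cut_le (n + 2) hR0 y)
      show |η y * η y * f y| ≤ (R + 2) ^ (n + 2) * (|f y| * kap (n + 2) 1 y)
      rw [abs_mul, abs_mul_self]
      calc η y * η y * |f y| ≤ (R + 2) ^ (n + 2) * kap (n + 2) 1 y * |f y| := by gcongr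
        _ = _ := by ring
    · rw [integral_const_mul]
      gcongr
      exact Cacc_M1 hν hC0 hf hf1
  obtain ⟨μ, hμ, hμb⟩ : ∃ μ : ℝ, μ * ∫ y, η y * η y ∂ν = ∫ y, η y * η y * f y ∂ν ∧ |μ| ≤ b := by
    refine ⟨_, div_mul_cancel₀ _ hI0.ne', ?_⟩
    rw [abs_div, abs_of_pos hI0, div_le_iff₀ hI0, hb]
    refine hJ.trans ?_
    rw [div_le_iff₀ (by positivity)] at hI
    calc (R + 2) ^ (n + 2) * (1 + cK n * C) = 1 * ((R + 2) ^ (n + 2) * (1 + cK n * C)) :=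
          (one_mul _).symm
      _ ≤ (∫ y, η y * η y ∂ν) * C * ((R + 2) ^ (n + 2) * (1 + cK n * C)) := by gcongr
      _ = _ := by ring
  have hF := hf.sub_const μ
  obtain ⟨Lg, hg⟩ := hηt.mul_lip hF
  obtain ⟨Lψ, hψ⟩ := hηt.mul_lip hg.lip
  have h0 : ∫ y, η y * (η y * (f y - μ)) ∂ν = 0 := by
    have : ∀ y, η y * (η y * (f y - μ)) = η y * η y * f y - μ * (η y * η y) := fun y => by ring
    simp only [this]
    rw [integral_sub i2 (i1.const_mul μ), integral_const_mul, hμ, sub_self]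
  have hM : ∫ y, (f y - μ) ^ 2 * kap (n + 3) 1 y ∂ν ≤ 2 + 2 * b ^ 2 * (cK n * C) := by
    obtain ⟨a1, a2⟩ := hν.int_kap_one hC0
    have a3 := (hf.integrable_sq_kap (n := n) (ν := ν)).const_mul 2
    refine (integral_mono hF.integrable_sq_kap (a3.add (a1.const_mul (2 * b ^ 2)))
      fun y => ?_).trans ?_
    · have k1 := kap_nonneg (n + 3) 1 y
      have k2 : kap (n + 3) 1 y ≤ kap (n + 1) 1 y := kap_anti_exp (by omega) y
      have k3 : μ ^ 2 ≤ b ^ 2 := by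
        rw [← sq_abs μ]; gcongr
      have k4 : (f y - μ) ^ 2 ≤ 2 * f y ^ 2 + 2 * b ^ 2 := by nlinarith [sq_nonneg (f y + μ)]
      have k5 := mul_le_mul_of_nonneg_right k4 k1
      have k6 := mul_le_mul_of_nonneg_left k2 (by positivity : 0 ≤ 2 * b ^ 2)
      simp only [Pi.add_apply]
      linarith
    · simp only [Pi.add_apply]
      rw [integral_add a3 (a1.const_mul _), integral_const_mul, integral_const_mul]
      have := mul_le_mul_of_nonneg_left a2 (by positivity : 0 ≤ 2 * b ^ 2)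
      linarith
  have hX := hcore ν L (fun y => f y - μ) hν hF hM h0 (by
    have := hE Lψ _ hψ h0
    simpa only [En, sub_sub_sub_cancel_right] using this)
  refine le_trans ?_ hX
  have iX := En_integrable hν hn le_rfl hg.lip hg.lip
  refine le_trans (le_of_eq ?_) (setIntegral_le_integral (s := ball (0 : Eu m) R ×ˢ ball 0 R) iX
    (ae_of_all _ fun p => mul_nonneg (mul_self_nonneg _) (kap_nonneg _ _ _)))
  refine setIntegral_congr_fun (measurableSet_ball.prod measurableSet_ball) fun p hp => ?_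
  simp only [ηone _ hp.1, ηone _ hp.2]
  ring

end Crest.Agent.R85
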