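import Crest.Agent.R85.Cacc

/-!
# Auxiliary lemmas for `En_diff_le` (task CoreA-a)

Pointwise: with `σ = √s`, `Δ = κ_0 - κ_s`, `b y = (1 + f y²) kap (n+3) 1 y`,
`|(fx-fy)(ψx-ψy) Δ| ≤ L/2 (σ 1_{B×B} (fx-fy)² κ_0 + σ⁻¹ 1_B(x) ‖x-y‖² Δ) + c L s² b x b y`.
-/

set_option autoImplicit false

open MeasureTheory Metric Filter Topology
open scoped RealInnerProductSpace

noncomputable section

namespace Crest.Agent.R85

variable {m n : ℕ}

/-- The weight of the far part. -/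
def CoreAa_b (n : ℕ) (f : Eu m → ℝ) (y : Eu m) : ℝ := (1 + f y ^ 2) * kap (n + 3) 1 y

theorem CoreAa_b_nonneg (f : Eu m → ℝ) (y : Eu m) : 0 ≤ CoreAa_b n f y :=
  mul_nonneg (by positivity) (kap_nonneg _ _ _)

theorem CoreAa_near {L s σ : ℝ} {f ψ : Eu m → ℝ} (hψ : Lip L ψ) (hL : 0 ≤ L) (hs : 0 ≤ s)
    (hσ : 0 < σ) (x y : Eu m) :
    |(f x - f y) * (ψ x - ψ y) * (kap (n + 1) 0 (x - y) - kap (n + 1) s (x - y))| ≤
      L / 2 * σ * ((f x - f y) ^ 2 * kap (n + 1) 0 (x - y)) +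
        L / 2 * σ⁻¹ * (‖x - y‖ ^ 2 * (kap (n + 1) 0 (x - y) - kap (n + 1) s (x - y))) := by
  rcases eq_or_ne x y with rfl | hxy
  · simp
  have hN : 0 < N 0 (x - y) := by
    rw [N_zero]
    exact norm_pos_iff.2 (sub_ne_zero.2 hxy)
  have h1 : 0 ≤ kap (n + 1) 0 (x - y) - kap (n + 1) s (x - y) :=
    sub_nonneg.2 (kap_anti _ le_rfl hs hN)
  have h2 : kap (n + 1) 0 (x - y) - kap (n + 1) s (x - y) ≤ kap (n + 1) 0 (x - y) :=
    sub_le_self _ (kap_nonneg _ _ _)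
  generalize kap (n + 1) 0 (x - y) - kap (n + 1) s (x - y) = Δ at h1 h2 ⊢
  have h3 : |f x - f y| * ‖x - y‖ ≤ (σ * (f x - f y) ^ 2 + σ⁻¹ * ‖x - y‖ ^ 2) / 2 := by
    have h4 := sq_nonneg (σ * |f x - f y| - ‖x - y‖)
    have h5 : σ * (σ * (f x - f y) ^ 2 + σ⁻¹ * ‖x - y‖ ^ 2) =
        (σ * |f x - f y|) ^ 2 + ‖x - y‖ ^ 2 := by
      rw [mul_pow, sq_abs]
      field_simp
    refine le_of_mul_le_mul_left ?_ hσ
    nlinarith
  rw [abs_mul, abs_mul, abs_of_nonneg h1]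
  calc |f x - f y| * |ψ x - ψ y| * Δ ≤ |f x - f y| * (L * ‖x - y‖) * Δ := by
        gcongr
        exact hψ x y
    _ = L * (|f x - f y| * ‖x - y‖) * Δ := by ring
    _ ≤ L * ((σ * (f x - f y) ^ 2 + σ⁻¹ * ‖x - y‖ ^ 2) / 2) * Δ := by gcongr
    _ = L / 2 * σ * ((f x - f y) ^ 2 * Δ) + L / 2 * σ⁻¹ * (‖x - y‖ ^ 2 * Δ) := by ring
    _ ≤ _ := by gcongr

theorem CoreAa_far (hm : 1 ≤ m) {L R s : ℝ} {f ψ : Eu m → ℝ} (hψ : Tst L 0 R ψ) (hL : 0 ≤ L)
    (hR : 1 ≤ R) (hs : 0 ≤ s) (x : Eu m) {y : Eu m} (hy : 2 * R ≤ ‖y‖) :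
    |(f x - f y) * (ψ x - ψ y) * (kap (n + 1) 0 (x - y) - kap (n + 1) s (x - y))| ≤
      (n + 1) * R * (6 * R) ^ (n + 3) * L * s ^ 2 * (CoreAa_b n f x * CoreAa_b n f y) := by
  have hb := mul_nonneg (CoreAa_b_nonneg (n := n) f x) (CoreAa_b_nonneg (n := n) f y)
  have hy0 : ψ y = 0 := hψ.supp y (by rw [dist_zero_right]; linarith)
  rcases le_or_gt R ‖x‖ with hx | hx
  · rw [hψ.supp x (by rwa [dist_zero_right]), hy0, sub_self, mul_zero, zero_mul, abs_zero]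
    positivity
  have hxy : ‖y‖ - ‖x‖ ≤ ‖x - y‖ := by
    rw [norm_sub_rev]
    exact norm_sub_norm_le y x
  have hpos : 0 < ‖x - y‖ := by linarith
  have hN : 0 < N 0 (x - y) := by rwa [N_zero]
  have h1 : 0 ≤ kap (n + 1) 0 (x - y) - kap (n + 1) s (x - y) :=
    sub_nonneg.2 (kap_anti _ le_rfl hs hN)
  have h2 := kap_diff_le (n + 1) le_rfl hs hN
  have h3 : kap (n + 3) 0 (x - y) ≤ 3 ^ (n + 3) * kap (n + 3) 1 y := by
    have h4 : N 1 y ≤ 3 * ‖x - y‖ := (N_le zero_le_one y).trans (by linarith)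
    have h5 := N_pos one_pos y
    rw [kap_zero, kap, ← div_eq_mul_inv, le_div_iff₀ (by positivity), inv_mul_le_iff₀ (by positivity),
      ← mul_pow, mul_comm]
    exact pow_le_pow_left₀ h5.le h4 _
  have h4 : 1 ≤ (2 * R) ^ (n + 3) * kap (n + 3) 1 x := by
    have h5 : N 1 x ≤ 2 * R := (N_le zero_le_one x).trans (by linarith)
    have h6 := N_pos one_pos x
    rw [kap, ← div_eq_mul_inv, le_div_iff₀ (by positivity), one_mul]
    exact pow_le_pow_left₀ h6.le h5 _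
  have h5 : |f x - f y| ≤ (1 + f x ^ 2) * (1 + f y ^ 2) := by
    have a1 := abs_sub (f x) (f y)
    have a2 := sq_nonneg (|f x| - 1)
    have a3 := sq_nonneg (|f y| - 1)
    have a4 := sq_abs (f x)
    have a5 := sq_abs (f y)
    nlinarith [mul_nonneg (sq_nonneg (f x)) (sq_nonneg (f y)), sq_nonneg (f x), sq_nonneg (f y)]
  have h6 : |ψ x - ψ y| ≤ L * R := by
    rw [hy0, sub_zero]
    exact hψ.abs_le hm hL (by linarith) x
  have h7 : kap (n + 1) 0 (x - y) - kap (n + 1) s (x - y) ≤ (n + 1) * s ^ 2 *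
      (3 ^ (n + 3) * kap (n + 3) 1 y * ((2 * R) ^ (n + 3) * kap (n + 3) 1 x)) := by
    refine h2.trans ?_
    push_cast
    refine mul_le_mul_of_nonneg_left (h3.trans ?_) (by positivity)
    exact le_mul_of_one_le_right (mul_nonneg (by positivity) (kap_nonneg _ _ _)) h4
  rw [abs_mul, abs_mul, abs_of_nonneg h1]
  calc |f x - f y| * |ψ x - ψ y| * (kap (n + 1) 0 (x - y) - kap (n + 1) s (x - y))
      ≤ (1 + f x ^ 2) * (1 + f y ^ 2) * (L * R) * ((n + 1) * s ^ 2 *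
        (3 ^ (n + 3) * kap (n + 3) 1 y * ((2 * R) ^ (n + 3) * kap (n + 3) 1 x))) := by gcongr
    _ = _ := by
      rw [CoreAa_b, CoreAa_b, show 6 * R = 3 * (2 * R) by ring, mul_pow 3 (2 * R)]
      ring

theorem CoreAa_ptw (hm : 1 ≤ m) {L R s σ : ℝ} {f ψ : Eu m → ℝ} (hψ : Tst L 0 R ψ) (hL : 0 ≤ L)
    (hR : 1 ≤ R) (hs : 0 ≤ s) (hσ : 0 < σ) (p : Eu m × Eu m) :
    |(f p.1 - f p.2) * (ψ p.1 - ψ p.2) * (kap (n + 1) 0 (p.1 - p.2) - kap (n + 1) s (p.1 - p.2))| ≤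
      L / 2 * σ * (ball (0 : Eu m) (2 * R) ×ˢ ball (0 : Eu m) (2 * R)).indicator
        (fun p => (f p.1 - f p.2) ^ 2 * kap (n + 1) 0 (p.1 - p.2)) p +
      L / 2 * σ⁻¹ * (ball (0 : Eu m) (2 * R) ×ˢ (Set.univ : Set (Eu m))).indicator
        (fun p => ‖p.1 - p.2‖ ^ 2 * (kap (n + 1) 0 (p.1 - p.2) - kap (n + 1) s (p.1 - p.2))) p +
      (n + 1) * R * (6 * R) ^ (n + 3) * L * s ^ 2 * (CoreAa_b n f p.1 * CoreAa_b n f p.2) := by
  obtain ⟨x, y⟩ := p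
  have h1 : 0 ≤ L / 2 * σ * (ball (0 : Eu m) (2 * R) ×ˢ ball (0 : Eu m) (2 * R)).indicator
      (fun p => (f p.1 - f p.2) ^ 2 * kap (n + 1) 0 (p.1 - p.2)) (x, y) :=
    mul_nonneg (by positivity) (Set.indicator_nonneg
      (fun p _ => mul_nonneg (sq_nonneg _) (kap_nonneg _ _ _)) _)
  have h2 : 0 ≤ L / 2 * σ⁻¹ * (ball (0 : Eu m) (2 * R) ×ˢ (Set.univ : Set (Eu m))).indicator
      (fun p => ‖p.1 - p.2‖ ^ 2 * (kap (n + 1) 0 (p.1 - p.2) - kap (n + 1) s (p.1 - p.2))) (x, y) :=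
    mul_nonneg (by positivity) (Set.indicator_nonneg
      (fun p _ => sq_mul_kap_diff_nonneg n le_rfl hs _) _)
  by_cases hy : y ∈ ball (0 : Eu m) (2 * R)
  · by_cases hx : x ∈ ball (0 : Eu m) (2 * R)
    · rw [Set.indicator_of_mem (Set.mk_mem_prod hx hy),
        Set.indicator_of_mem (Set.mk_mem_prod hx (Set.mem_univ y))]
      refine (CoreAa_near hψ.lip hL hs hσ x y).trans (le_add_of_nonneg_right ?_)
      have := mul_nonneg (CoreAa_b_nonneg (n := n) f x) (CoreAa_b_nonneg (n := n) f y)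
      positivity
    · have := CoreAa_far (n := n) (f := f) hm hψ hL hR hs y (not_lt.1 (mt mem_ball_zero_iff.2 hx))
      rw [kap_sub_comm _ 0 y, kap_sub_comm _ s y, ← neg_sub (f x), ← neg_sub (ψ x), neg_mul_neg,
        mul_comm (CoreAa_b n f y)] at this
      exact this.trans (le_add_of_nonneg_left (add_nonneg h1 h2))
  · exact (CoreAa_far hm hψ hL hR hs x (not_lt.1 (mt mem_ball_zero_iff.2 hy))).trans
      (le_add_of_nonneg_left (add_nonneg h1 h2))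

variable {C : ℝ} {ν : Measure (Eu m)} [IsFiniteMeasure ν]

theorem CoreAa_int_b (h : Up n C ν) (hC : 0 ≤ C) {Lf : ℝ} {f : Eu m → ℝ} (hf : Lip Lf f)
    (h1 : ∫ y, f y ^ 2 * kap (n + 3) 1 y ∂ν ≤ 1) :
    Integrable (CoreAa_b n f) ν ∧ ∫ y, CoreAa_b n f y ∂ν ≤ cK n * C + 1 := by
  obtain ⟨a1, a2⟩ := h.int_kap_one hC
  have a3 : Integrable (fun y => kap (n + 3) 1 y) ν :=
    a1.mono' (measurable_kap _ _).aestronglyMeasurable (Eventually.of_forall fun y => by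
      rw [Real.norm_of_nonneg (kap_nonneg _ _ _)]
      exact kap_anti_exp (by omega) y)
  have a4 := hf.integrable_sq_kap (n := n) (ν := ν)
  have e : CoreAa_b n f = fun y => kap (n + 3) 1 y + f y ^ 2 * kap (n + 3) 1 y := by
    funext y
    rw [CoreAa_b]
    ring
  rw [e]
  refine ⟨a3.add a4, ?_⟩
  rw [integral_add a3 a4]
  exact add_le_add ((integral_mono a3 a1 fun y => kap_anti_exp (by omega) y).trans a2) h1

theorem CoreAa_int_diff (h : Up n C ν) (hn : 1 ≤ n) (hC : 0 ≤ C) {s r : ℝ} (hs : 0 < s)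
    (hr : 0 < r) :
    Integrable (fun p : Eu m × Eu m => ‖p.1 - p.2‖ ^ 2 *
      (kap (n + 1) 0 (p.1 - p.2) - kap (n + 1) s (p.1 - p.2))) (ν.prod ν) ∧
    ∫ p in ball (0 : Eu m) r ×ˢ (Set.univ : Set (Eu m)), ‖p.1 - p.2‖ ^ 2 *
      (kap (n + 1) 0 (p.1 - p.2) - kap (n + 1) s (p.1 - p.2)) ∂(ν.prod ν) ≤
      C * r ^ n * ((n + 2) * cK n * C * s) := by
  have a1 : Integrable (fun p : Eu m × Eu m => ‖p.1 - p.2‖ ^ 2 *
      (kap (n + 1) 0 (p.1 - p.2) - kap (n + 1) s (p.1 - p.2))) (ν.prod ν) := by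
    simp only [mul_sub]
    exact (h.integrable_sq_kap hn le_rfl).sub (h.integrable_sq_kap hn hs.le)
  refine ⟨a1, ?_⟩
  rw [setIntegral_prod _ a1.integrableOn, Measure.restrict_univ]
  have a2 := cK_pos n
  calc _ ≤ ∫ _ in ball (0 : Eu m) r, (n + 2) * cK n * C * s ∂ν :=
        integral_mono_of_nonneg (Eventually.of_forall fun x =>
          integral_nonneg fun y => sq_mul_kap_diff_nonneg n le_rfl hs.le _) (integrable_const _)
          (Eventually.of_forall fun x => (h.diff hn hC x le_rfl hs.le hs).2)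
    _ = ν.real (ball 0 r) * ((n + 2) * cK n * C * s) := by rw [setIntegral_const, smul_eq_mul]
    _ ≤ _ := mul_le_mul_of_nonneg_right (h.real_le hC 0 hr) (by positivity)

theorem CoreAa_main (hn : 1 ≤ n) (hm : 1 ≤ m) (hC : 0 ≤ C) {R : ℝ} (hR : 1 ≤ R) {M Lf L s : ℝ}
    {f ψ : Eu m → ℝ} (h : Up n C ν) (hf : Lip Lf f)
    (h1 : ∫ y, f y ^ 2 * kap (n + 3) 1 y ∂ν ≤ 1)
    (hM : ∫ p in ball (0 : Eu m) (2 * R) ×ˢ ball (0 : Eu m) (2 * R),
      (f p.1 - f p.2) ^ 2 * kap (n + 1) 0 (p.1 - p.2) ∂(ν.prod ν) ≤ M)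
    (hL : 0 ≤ L) (hψ : Tst L 0 R ψ) (hs : 0 < s) (hs1 : s ≤ 1) :
    |En n 0 ν f ψ - En n s ν f ψ| ≤ (|M| / 2 + C * (2 * R) ^ n * ((n + 2) * cK n * C) / 2 +
      (n + 1) * R * (6 * R) ^ (n + 3) * (cK n * C + 1) ^ 2) * L * √s := by
  have hσ : 0 < √s := Real.sqrt_pos.2 hs
  have hcK := cK_pos n
  obtain ⟨b1, b2⟩ := CoreAa_int_b h hC hf h1
  obtain ⟨d1, d2⟩ := CoreAa_int_diff h hn hC hs (by linarith : 0 < 2 * R)
  have e1 : Integrable (fun p : Eu m × Eu m => (f p.1 - f p.2) ^ 2 * kap (n + 1) 0 (p.1 - p.2))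
      (ν.prod ν) := by
    simp only [sq]
    exact En_integrable h hn le_rfl hf hf
  have hB : MeasurableSet (ball (0 : Eu m) (2 * R) ×ˢ ball (0 : Eu m) (2 * R)) :=
    measurableSet_ball.prod measurableSet_ball
  have hB' : MeasurableSet (ball (0 : Eu m) (2 * R) ×ˢ (Set.univ : Set (Eu m))) :=
    measurableSet_ball.prod MeasurableSet.univ
  have i1 := (e1.indicator hB).const_mul (L / 2 * √s)
  have i2 := (d1.indicator hB').const_mul (L / 2 * (√s)⁻¹)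
  have i3 := (b1.mul_prod b1).const_mul ((n + 1) * R * (6 * R) ^ (n + 3) * L * s ^ 2)
  have key := norm_integral_le_of_norm_le (f := fun p : Eu m × Eu m => (f p.1 - f p.2) *
    (ψ p.1 - ψ p.2) * (kap (n + 1) 0 (p.1 - p.2) - kap (n + 1) s (p.1 - p.2))) ((i1.add i2).add i3)
    (Eventually.of_forall fun p => CoreAa_ptw (n := n) (f := f) hm hψ hL hR hs.le hσ p)
  rw [En, En, ← integral_sub (En_integrable h hn le_rfl hf hψ.lip)
    (En_integrable h hn hs.le hf hψ.lip)]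
  simp only [← mul_sub]
  refine key.trans ?_
  rw [integral_add' (i1.add i2) i3, integral_add' i1 i2, integral_const_mul, integral_const_mul,
    integral_const_mul, integral_indicator hB, integral_indicator hB', integral_prod_mul]
  have b0 : 0 ≤ ∫ y, CoreAa_b n f y ∂ν := integral_nonneg (CoreAa_b_nonneg f)
  have hs2 : s ^ 2 ≤ √s := by
    have : s ≤ √s := Real.le_sqrt_of_sq_le (by nlinarith)
    nlinarith
  have hs3 : (√s)⁻¹ * s = √s := by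
    rw [inv_mul_eq_div, Real.div_sqrt]
  have hM' := hM.trans (le_abs_self M)
  calc _ ≤ L / 2 * √s * |M| + L / 2 * (√s)⁻¹ * (C * (2 * R) ^ n * ((n + 2) * cK n * C * s)) +
        (n + 1) * R * (6 * R) ^ (n + 3) * L * √s * ((cK n * C + 1) * (cK n * C + 1)) := by
        gcongr
    _ = L / 2 * √s * |M| + L / 2 * ((√s)⁻¹ * s) * (C * (2 * R) ^ n * ((n + 2) * cK n * C)) +
        (n + 1) * R * (6 * R) ^ (n + 3) * L * √s * ((cK n * C + 1) * (cK n * C + 1)) := by ring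
    _ = _ := by
      rw [hs3]
      ring

end Crest.Agent.R85
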