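import Crest.Agent.R85.HhB

/-!
# Auxiliary lemmas for `strong` (task CoreA-b)
-/

set_option autoImplicit false

open MeasureTheory Metric Filter Topology
open scoped RealInnerProductSpace

noncomputable section

namespace Crest.Agent.R85

variable {m : ℕ}

theorem sb_cut_comm (x y : Eu m) (R w : ℝ) : cut x R w y = cut y R w x := by
  unfold cut; rw [dist_comm]

theorem sb_cut_cont (x : Eu m) {s : ℝ} (hs : 0 < s) : Continuous (cut x (s / 2) (s / 2)) :=
  (cut_tst x (s / 2) (half_pos hs)).lip.continuous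

theorem sb_cut_zero (x : Eu m) {s : ℝ} (hs : 0 < s) {y : Eu m} (h : s ≤ dist y x) :
    cut x (s / 2) (s / 2) y = 0 :=
  (cut_tst x (s / 2) (half_pos hs)).supp y (by linarith)

theorem sb_cut_zero' {x : Eu m} (hx : ‖x‖ ≤ 1) {s : ℝ} (hs : 0 < s) (hs1 : s ≤ 1) {y : Eu m}
    (h : y ∉ ball (0 : Eu m) 2) : cut x (s / 2) (s / 2) y = 0 := by
  apply sb_cut_zero x hs
  rw [mem_ball_zero_iff, not_lt] at h
  have h1 : ‖y‖ - ‖x‖ ≤ ‖y - x‖ := norm_sub_norm_le y x
  rw [dist_eq_norm]; linarith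

theorem sb_int_mul {ν : Measure (Eu m)} [IsFiniteMeasure ν] (x : Eu m) {s : ℝ} (hs : 0 < s)
    {g : Eu m → ℝ} (hg : Continuous g) :
    Integrable (fun y => cut x (s / 2) (s / 2) y * g y) ν := by
  apply Continuous.integrable_of_hasCompactSupport ((sb_cut_cont x hs).mul hg)
  exact (cut_tst x (s / 2) (half_pos hs)).hasCompactSupport.mul_right

theorem sb_intOn_ball {ν : Measure (Eu m)} [IsFiniteMeasure ν] {g : Eu m → ℝ} (hg : Continuous g)
    (R : ℝ) : IntegrableOn g (ball (0 : Eu m) R) ν :=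
  (hg.continuousOn.integrableOn_compact (isCompact_closedBall (0 : Eu m) R)).mono_set
    ball_subset_closedBall

/-- Lower bound for the mass of the bump. -/
theorem sb_mass {n : ℕ} {C : ℝ} {ν : Measure (Eu m)} [IsFiniteMeasure ν] (h : Up n C ν)
    (hl : Low n C ν 0 1) {x : Eu m} (hx : x ∈ ν.support) (hx1 : ‖x‖ < 1) {s : ℝ} (hs : 0 < s)
    (hs1 : s ≤ 1) : (s / 2) ^ n / C ≤ ∫ y, cut x (s / 2) (s / 2) y ∂ν := by
  have h1 := h.le_real (hl x hx (by simpa using hx1) (s / 2) (half_pos hs) (by linarith))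
  refine h1.trans ?_
  rw [← integral_indicator_one measurableSet_ball]
  apply integral_mono
  · exact (integrable_const (1 : ℝ)).indicator measurableSet_ball
  · simpa using sb_int_mul (ν := ν) x hs (g := fun _ => 1) continuous_const
  · intro y
    by_cases hy : y ∈ ball x (s / 2)
    · rw [Set.indicator_of_mem hy, cut_eq_one (half_pos hs) (mem_ball.1 hy).le]; simp
    · rw [Set.indicator_of_notMem hy]; exact cut_nonneg _ _ _ _

/-- The pointwise estimate. -/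
theorem sb_point {n : ℕ} {ν : Measure (Eu m)} [IsFiniteMeasure ν] {F : Eu m → ℝ}
    (hF : Continuous F) {x : Eu m} (hx1 : ‖x‖ < 1) {s a ε : ℝ} (hs : 0 < s) (hs1 : s ≤ 1)
    (ha : 0 < a) (hμ : a ≤ ∫ y, cut x (s / 2) (s / 2) y ∂ν)
    (hG : |∫ y, cut x (s / 2) (s / 2) y * F y ∂ν| ≤ ε)
    (hI : IntegrableOn (fun y => (F x - F y) ^ 2 * kap (n + 1) 0 (x - y)) (ball (0 : Eu m) 2) ν) :
    F x ^ 2 ≤ 2 * s ^ (n + 1) / a *
      (∫ y in ball (0 : Eu m) 2, (F x - F y) ^ 2 * kap (n + 1) 0 (x - y) ∂ν) + 4 * ε ^ 2 / a ^ 2 := by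
  set J := ∫ y in ball (0 : Eu m) 2, (F x - F y) ^ 2 * kap (n + 1) 0 (x - y) ∂ν with hJ
  set μ := ∫ y, cut x (s / 2) (s / 2) y ∂ν with hμd
  set G := ∫ y, cut x (s / 2) (s / 2) y * F y ∂ν with hGd
  have i0 : Integrable (fun y => cut x (s / 2) (s / 2) y) ν := by
    simpa using sb_int_mul (ν := ν) x hs (g := fun _ => 1) continuous_const
  have i1 : Integrable (fun y => cut x (s / 2) (s / 2) y * F y) ν := sb_int_mul x hs hF
  have key : F x ^ 2 * μ - 2 * F x * G ≤ s ^ (n + 1) * J := by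
    have e1 : F x ^ 2 * μ - 2 * F x * G =
        ∫ y, (F x ^ 2 * cut x (s / 2) (s / 2) y - 2 * F x * (cut x (s / 2) (s / 2) y * F y)) ∂ν := by
      rw [integral_sub (i0.const_mul _) (i1.const_mul _), integral_const_mul, integral_const_mul]
    rw [e1, hJ, ← integral_const_mul, ← integral_indicator measurableSet_ball]
    apply integral_mono ((i0.const_mul _).sub (i1.const_mul _))
    · exact (IntegrableOn.integrable_indicator (hI.const_mul _) measurableSet_ball)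
    · intro y
      have c0 := cut_nonneg x (s / 2) (s / 2) y
      have c1 := cut_le_one x (s / 2) (s / 2) y
      have hk := kap_nonneg (n + 1) 0 (x - y)
      show F x ^ 2 * cut x (s / 2) (s / 2) y - 2 * F x * (cut x (s / 2) (s / 2) y * F y) ≤ _
      have b1 : F x ^ 2 * cut x (s / 2) (s / 2) y - 2 * F x * (cut x (s / 2) (s / 2) y * F y)
          ≤ cut x (s / 2) (s / 2) y * (F x - F y) ^ 2 := by
        have := mul_nonneg c0 (sq_nonneg (F y))
        nlinarith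
      refine b1.trans ?_
      by_cases hy : y ∈ ball (0 : Eu m) 2
      · rw [Set.indicator_of_mem hy]
        by_cases hd : s ≤ dist y x
        · rw [sb_cut_zero x hs hd, zero_mul]; positivity
        · rw [not_le] at hd
          by_cases hxy : x = y
          · subst hxy; simp
          · have hpos : 0 < ‖x - y‖ := norm_pos_iff.2 (sub_ne_zero.2 hxy)
            have hle : ‖x - y‖ ≤ s := by rw [← dist_eq_norm, dist_comm]; exact hd.le
            have h1 : 1 ≤ s ^ (n + 1) * kap (n + 1) 0 (x - y) := by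
              rw [kap_zero, ← div_eq_mul_inv, one_le_div (by positivity)]
              exact pow_le_pow_left₀ hpos.le hle _
            calc cut x (s / 2) (s / 2) y * (F x - F y) ^ 2 ≤ 1 * (F x - F y) ^ 2 := by
                  gcongr
              _ ≤ (s ^ (n + 1) * kap (n + 1) 0 (x - y)) * (F x - F y) ^ 2 := by gcongr
              _ = _ := by ring
      · rw [Set.indicator_of_notMem hy, sb_cut_zero' hx1.le hs hs1 hy, zero_mul]
  have h2 : F x ^ 2 * a ≤ F x ^ 2 * μ := by gcongr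
  have h3 : 2 * F x * G ≤ F x ^ 2 * a / 2 + 2 * ε ^ 2 / a := by
    have hG2 : G ^ 2 ≤ ε ^ 2 := by
      rw [← sq_abs G]; exact pow_le_pow_left₀ (abs_nonneg _) hG 2
    have e : F x ^ 2 * a / 2 + 2 * G ^ 2 / a - 2 * F x * G = (a * F x - 2 * G) ^ 2 / (2 * a) := by
      field_simp; ring
    have p : 0 ≤ (a * F x - 2 * G) ^ 2 / (2 * a) := by positivity
    have q : 2 * G ^ 2 / a ≤ 2 * ε ^ 2 / a := by gcongr
    linarith
  have h4 : F x ^ 2 * a / 2 ≤ s ^ (n + 1) * J + 2 * ε ^ 2 / a := by linarith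
  have h5 : F x ^ 2 = (F x ^ 2 * a / 2) * (2 / a) := by field_simp
  rw [h5]
  calc (F x ^ 2 * a / 2) * (2 / a) ≤ (s ^ (n + 1) * J + 2 * ε ^ 2 / a) * (2 / a) := by gcongr
    _ = _ := by field_simp; ring

/-- The integrated estimate. -/
theorem sb_int {n : ℕ} (hn : 1 ≤ n) {C : ℝ} (hC : 1 ≤ C) {ν : Measure (Eu m)} [IsFiniteMeasure ν]
    (h : Up n C ν) (hl : Low n C ν 0 1) {F : Eu m → ℝ} {L : ℝ} (hF : Lip L F) {M : ℝ}
    (hE : ∫ p in ball (0 : Eu m) 2 ×ˢ ball (0 : Eu m) 2,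
      (F p.1 - F p.2) ^ 2 * kap (n + 1) 0 (p.1 - p.2) ∂(ν.prod ν) ≤ M)
    {s ε : ℝ} (hs : 0 < s) (hs1 : s ≤ 1)
    (hG : ∀ x : Eu m, ‖x‖ ≤ 1 → |∫ y, cut x (s / 2) (s / 2) y * F y ∂ν| ≤ ε) :
    ∫ y in ball (0 : Eu m) 1, F y ^ 2 ∂ν ≤
      2 ^ (n + 1) * C * s * M + 4 * ε ^ 2 / ((s / 2) ^ n / C) ^ 2 * C := by
  set a := (s / 2) ^ n / C with ha
  have hC0 : 0 < C := by linarith
  have ha0 : 0 < a := by positivity
  have hFc := hF.continuous
  set B2 := ball (0 : Eu m) 2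
  set B1 := ball (0 : Eu m) 1
  have hsub : B1 ⊆ B2 := ball_subset_ball (by norm_num)
  have iH : Integrable (fun p : Eu m × Eu m => (F p.1 - F p.2) ^ 2 * kap (n + 1) 0 (p.1 - p.2))
      (ν.prod ν) := by
    simpa only [sq] using En_integrable h hn le_rfl hF hF
  have iH2 : Integrable (fun p : Eu m × Eu m => (F p.1 - F p.2) ^ 2 * kap (n + 1) 0 (p.1 - p.2))
      ((ν.restrict B2).prod (ν.restrict B2)) := by
    rw [Measure.prod_restrict]; exact iH.integrableOn
  set J : Eu m → ℝ := fun x => ∫ y in B2, (F x - F y) ^ 2 * kap (n + 1) 0 (x - y) ∂ν with hJ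
  have iJ : IntegrableOn J B2 ν := iH2.integral_prod_left
  have eJ : ∫ x in B2, J x ∂ν ≤ M := by
    rw [← Measure.prod_restrict, integral_prod _ iH2] at hE
    exact hE
  have J0 : ∀ x, 0 ≤ J x := fun x =>
    integral_nonneg fun y => mul_nonneg (sq_nonneg _) (kap_nonneg _ _ _)
  have eJ1 : ∫ x in B1, J x ∂ν ≤ M :=
    (setIntegral_mono_set iJ (Eventually.of_forall J0) hsub.eventuallyLE).trans eJ
  have hae : ∀ᵐ x ∂(ν.restrict B1), F x ^ 2 ≤ 2 * s ^ (n + 1) / a * J x + 4 * ε ^ 2 / a ^ 2 := by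
    have a1 : ∀ᵐ x ∂(ν.restrict B1), x ∈ ν.support := ae_restrict_of_ae ν.support_mem_ae
    have a2 : ∀ᵐ x ∂(ν.restrict B1), x ∈ B1 := ae_restrict_mem measurableSet_ball
    have a3 : ∀ᵐ x ∂(ν.restrict B1),
        Integrable (fun y => (F x - F y) ^ 2 * kap (n + 1) 0 (x - y)) ν :=
      ae_restrict_of_ae iH.prod_right_ae
    filter_upwards [a1, a2, a3] with x h1 h2 h3
    have hx1 : ‖x‖ < 1 := mem_ball_zero_iff.1 h2
    exact sb_point hFc hx1 hs hs1 ha0 (sb_mass h hl h1 hx1 hs hs1) (hG x hx1.le) h3.integrableOn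
  have iJ1 : IntegrableOn J B1 ν := iJ.mono_set hsub
  have step : ∫ y in B1, F y ^ 2 ∂ν ≤
      ∫ x in B1, (2 * s ^ (n + 1) / a * J x + 4 * ε ^ 2 / a ^ 2) ∂ν :=
    integral_mono_ae (sb_intOn_ball (hFc.pow 2) 1) ((iJ1.const_mul _).add (integrable_const _)) hae
  refine step.trans ?_
  rw [integral_add (iJ1.const_mul _) (integrable_const _), integral_const_mul, integral_const,
    smul_eq_mul]
  have e1 : 2 * s ^ (n + 1) / a = 2 ^ (n + 1) * C * s := by
    rw [ha, div_pow]; field_simp; ring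
  have e2 : (ν.restrict B1).real Set.univ ≤ C := by
    rw [measureReal_restrict_apply_univ]
    simpa using h.real_le hC0.le 0 one_pos
  rw [e1]
  have : (ν.restrict B1).real Set.univ * (4 * ε ^ 2 / a ^ 2) ≤ 4 * ε ^ 2 / a ^ 2 * C := by
    rw [mul_comm]; gcongr
  have h2 : 2 ^ (n + 1) * C * s * ∫ x in B1, J x ∂ν ≤ 2 ^ (n + 1) * C * s * M := by gcongr
  linarith

/-- Equi-Lipschitz bound for the averages. -/
theorem sb_lip {n : ℕ} {C : ℝ} (hC : 1 ≤ C) {ν : Measure (Eu m)} [IsFiniteMeasure ν]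
    (h : Up n C ν) {F : Eu m → ℝ} (hF : Continuous F) {M : ℝ}
    (hM : ∫ y in ball (0 : Eu m) 2, F y ^ 2 ∂ν ≤ M) {s : ℝ} (hs : 0 < s) (hs1 : s ≤ 1)
    {x x' : Eu m} (hx : ‖x‖ ≤ 1) (hx' : ‖x'‖ ≤ 1) :
    |∫ y, cut x (s / 2) (s / 2) y * F y ∂ν - ∫ y, cut x' (s / 2) (s / 2) y * F y ∂ν|
      ≤ (C * 2 ^ n + M) / s * ‖x - x'‖ := by
  have hC0 : 0 < C := by linarith
  set B2 := ball (0 : Eu m) 2
  rw [← integral_sub (sb_int_mul x hs hF) (sb_int_mul x' hs hF), ← Real.norm_eq_abs]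
  have i2 : IntegrableOn (fun y => ‖x - x'‖ / s * (1 + F y ^ 2)) B2 ν :=
    sb_intOn_ball (by fun_prop) 2
  have b : ∀ y, ‖cut x (s / 2) (s / 2) y * F y - cut x' (s / 2) (s / 2) y * F y‖ ≤
      B2.indicator (fun y => ‖x - x'‖ / s * (1 + F y ^ 2)) y := by
    intro y
    by_cases hy : y ∈ B2
    · rw [Set.indicator_of_mem hy, ← sub_mul, norm_mul, Real.norm_eq_abs, Real.norm_eq_abs,
        sb_cut_comm x y, sb_cut_comm x' y]
      have l1 := (cut_tst y (s / 2) (half_pos hs)).lip x x'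
      have l2 : |F y| ≤ (1 + F y ^ 2) / 2 := by
        rw [← sq_abs (F y)]; nlinarith [sq_nonneg (|F y| - 1)]
      calc _ ≤ (1 / (s / 2) * ‖x - x'‖) * ((1 + F y ^ 2) / 2) := by gcongr
        _ = _ := by field_simp
    · rw [Set.indicator_of_notMem hy, sb_cut_zero' hx hs hs1 hy, sb_cut_zero' hx' hs hs1 hy]
      simp
  refine (norm_integral_le_of_norm_le (i2.integrable_indicator measurableSet_ball)
    (Eventually.of_forall b)).trans ?_
  rw [integral_indicator measurableSet_ball, integral_const_mul,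
    integral_add (integrable_const _) (sb_intOn_ball (g := fun y => F y ^ 2) (hF.pow 2) 2),
    integral_const, smul_eq_mul,
    mul_one, measureReal_restrict_apply_univ]
  have e2 : ν.real B2 ≤ C * 2 ^ n := h.real_le hC0.le 0 two_pos
  calc ‖x - x'‖ / s * (ν.real B2 + ∫ y in B2, F y ^ 2 ∂ν) ≤ ‖x - x'‖ / s * (C * 2 ^ n + M) := by
        gcongr
    _ = _ := by ring

theorem sb_strong {n : ℕ} (hn : 1 ≤ n) {C : ℝ} (hC : 1 ≤ C) {l : Filter ℕ}
    {νk : ℕ → Measure (Eu m)}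
    [∀ k, IsFiniteMeasure (νk k)] (h : ∀ k, Up n C (νk k))
    (hl : ∀ᶠ k in l, Low n C (νk k) 0 1) {F : ℕ → Eu m → ℝ} {L : ℕ → ℝ}
    (hF : ∀ k, Lip (L k) (F k)) {M : ℝ}
    (hE : ∀ᶠ k in l, ∫ p in ball (0 : Eu m) 2 ×ˢ ball (0 : Eu m) 2,
      (F k p.1 - F k p.2) ^ 2 * kap (n + 1) 0 (p.1 - p.2) ∂((νk k).prod (νk k)) ≤ M)
    (hM : ∀ᶠ k in l, ∫ y in ball (0 : Eu m) 2, F k y ^ 2 ∂νk k ≤ M)
    (hw : ∀ φ : Eu m → ℝ, Continuous φ → HasCompactSupport φ →
      Tendsto (fun k => ∫ y, φ y * F k y ∂νk k) l (𝓝 0)) :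
    Tendsto (fun k => ∫ y in ball (0 : Eu m) 1, F k y ^ 2 ∂νk k) l (𝓝 0) := by
  have hC0 : 0 < C := by linarith
  rw [Metric.tendsto_nhds]
  intro δ hδ
  set K : ℝ := 2 ^ (n + 1) * C * (|M| + 1) with hK
  have hK0 : 0 < K := by positivity
  set s : ℝ := min 1 (δ / (4 * K)) with hsd
  have hs : 0 < s := lt_min one_pos (by positivity)
  have hs1 : s ≤ 1 := min_le_left _ _
  have hs2 : s ≤ δ / (4 * K) := min_le_right _ _
  set a := (s / 2) ^ n / C with ha
  have ha0 : 0 < a := by positivity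
  set ε : ℝ := a * √(δ / (16 * C)) with hε
  have hε0 : 0 < ε := by positivity
  have hu := unif_of_equilip (l := l) (F := ℝ)
    (g := fun k x => ∫ y, cut x (s / 2) (s / 2) y * F k y ∂νk k) (g0 := fun _ => 0) (R := 1)
    (L := (C * 2 ^ n + |M|) / s) ?_ ?_ ?_ hε0
  · filter_upwards [hu, hl, hE] with k k1 k2 k3
    have b := sb_int hn hC (h k) k2 (hF k) k3 hs hs1 (ε := ε)
      (fun x hx => by simpa using k1 x hx)
    have p0 : 0 ≤ ∫ y in ball (0 : Eu m) 1, F k y ^ 2 ∂νk k :=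
      integral_nonneg fun y => sq_nonneg _
    rw [Real.dist_eq, sub_zero, abs_of_nonneg p0]
    have e1 : 4 * ε ^ 2 / a ^ 2 * C = δ / 4 := by
      rw [hε, mul_pow, Real.sq_sqrt (by positivity)]; field_simp; norm_num
    have e2 : 2 ^ (n + 1) * C * s * M ≤ δ / 4 := by
      calc 2 ^ (n + 1) * C * s * M ≤ 2 ^ (n + 1) * C * s * (|M| + 1) := by
            gcongr; linarith [le_abs_self M]
        _ = K * s := by rw [hK]; ring
        _ ≤ K * (δ / (4 * K)) := by gcongr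
        _ = δ / 4 := by field_simp
    rw [← ha, e1] at b
    linarith
  · filter_upwards [hM] with k k1 x y hx hy
    exact sb_lip hC (h k) (hF k).continuous (k1.trans (le_abs_self M)) hs hs1 hx hy
  · intro x y _ _
    simp only [sub_self, norm_zero]; positivity
  · intro x _
    exact hw _ (sb_cut_cont x hs) (cut_tst x (s / 2) (half_pos hs)).hasCompactSupport

end Crest.Agent.R85
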