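import Crest.Agent.R85.KernB

/-!
# Auxiliary lemmas for `R85/Lim` (part a): cutoffs against measures, portmanteau-type bounds
-/

set_option autoImplicit false

open MeasureTheory Metric Filter Topology
open scoped RealInnerProductSpace

noncomputable section

namespace Crest.Agent.R85

variable {m : ℕ}

variable {n : ℕ} {C : ℝ} {νk : ℕ → Measure (Eu m)} {ν : Measure (Eu m)}

theorem La_cut_cont (x : Eu m) (R : ℝ) {w : ℝ} (hw : 0 < w) : Continuous (cut x R w) :=
  (cut_tst x R hw).lip.continuous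

theorem La_cut_supp (x : Eu m) (R : ℝ) {w : ℝ} (hw : 0 < w) : HasCompactSupport (cut x R w) :=
  (cut_tst x R hw).hasCompactSupport

theorem La_ofReal_cut (μ : Measure (Eu m)) [IsFiniteMeasureOnCompacts μ] (x : Eu m) (R : ℝ) {w : ℝ}
    (hw : 0 < w) :
    ENNReal.ofReal (∫ y, cut x R w y ∂μ) = ∫⁻ y, ENNReal.ofReal (cut x R w y) ∂μ :=
  ofReal_integral_eq_lintegral_ofReal
    ((La_cut_cont x R hw).integrable_of_hasCompactSupport (La_cut_supp x R hw))
    (Eventually.of_forall fun y => cut_nonneg x R w y)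

theorem La_le_cut (μ : Measure (Eu m)) [IsFiniteMeasureOnCompacts μ] (x : Eu m) (R : ℝ) {w : ℝ}
    (hw : 0 < w) : μ (closedBall x R) ≤ ENNReal.ofReal (∫ y, cut x R w y ∂μ) := by
  rw [La_ofReal_cut μ x R hw, ← lintegral_indicator_one measurableSet_closedBall]
  refine lintegral_mono fun y => ?_
  by_cases hy : y ∈ closedBall x R
  · rw [Set.indicator_of_mem hy, cut_eq_one hw (mem_closedBall.1 hy)]
    simp
  · rw [Set.indicator_of_notMem hy]
    exact zero_le

theorem La_cut_le (μ : Measure (Eu m)) [IsFiniteMeasureOnCompacts μ] (x : Eu m) (R : ℝ) {w : ℝ}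
    (hw : 0 < w) : ENNReal.ofReal (∫ y, cut x R w y ∂μ) ≤ μ (ball x (R + w)) := by
  rw [La_ofReal_cut μ x R hw, ← lintegral_indicator_one measurableSet_ball]
  refine lintegral_mono fun y => ?_
  by_cases hy : y ∈ ball x (R + w)
  · rw [Set.indicator_of_mem hy]
    exact ENNReal.ofReal_le_one.2 (cut_le_one x R w y)
  · rw [(cut_tst x R hw).supp y (not_lt.1 fun h => hy (mem_ball.2 h))]
    simp

theorem La_tendsto_cut (hv : Vag νk ν) (x : Eu m) (R : ℝ) {w : ℝ} (hw : 0 < w) :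
    Tendsto (fun k => ENNReal.ofReal (∫ y, cut x R w y ∂νk k)) UF
      (𝓝 (ENNReal.ofReal (∫ y, cut x R w y ∂ν))) :=
  ENNReal.tendsto_ofReal (hv _ (La_cut_cont x R hw) (La_cut_supp x R hw))

theorem La_vag_le (hv : Vag νk ν) (h : ∀ k, Up n C (νk k)) [IsFiniteMeasureOnCompacts ν]
    {x : Eu m} {R w : ℝ} (hw : 0 < w) {a : ENNReal} (ha : ∀ᶠ k in UF, νk k (ball x (R + w)) ≤ a) :
    ν (closedBall x R) ≤ a := by
  refine (La_le_cut ν x R hw).trans (le_of_tendsto (La_tendsto_cut hv x R hw) ?_)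
  filter_upwards [ha] with k hk
  have := (h k).isLocallyFinite
  exact (La_cut_le _ x R hw).trans hk

theorem La_vag_ge (hv : Vag νk ν) (h : ∀ k, Up n C (νk k)) [IsFiniteMeasureOnCompacts ν]
    {x : Eu m} {R w : ℝ} (hw : 0 < w) {a : ENNReal} (ha : ∀ᶠ k in UF, a ≤ νk k (closedBall x R)) :
    a ≤ ν (ball x (R + w)) := by
  refine le_trans (ge_of_tendsto (La_tendsto_cut hv x R hw) ?_) (La_cut_le ν x R hw)
  filter_upwards [ha] with k hk
  have := (h k).isLocallyFinite
  exact hk.trans (La_le_cut _ x R hw)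

theorem La_dec_nonneg {p : ℕ} {K : ℝ} {φ : Eu m → ℝ} (hφ : Dec p K φ) : 0 ≤ K :=
  nonneg_of_mul_nonneg_left ((abs_nonneg _).trans (hφ.2 0)) (kap_pos p one_pos 0)

/-- A function that is small on a big ball and decays outside has a small integral. -/
theorem La_split (hν : Up n C ν) (hC : 0 ≤ C) {f : Eu m → ℝ} {K ε R : ℝ} (hK : 0 ≤ K) (hε : 0 ≤ ε)
    (hR : 0 < R) (h1 : ∀ y, ‖y‖ ≤ R → |f y| ≤ ε) (h2 : ∀ y, |f y| ≤ K * kap (n + 1) 1 y) :
    |∫ y, f y ∂ν| ≤ ε * (C * R ^ n) + K * (cK n * C / R) := by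
  obtain ⟨t1, t2⟩ := hν.tail hC 0 1 hR
  simp only [zero_sub, kap_neg] at t1 t2
  have hb : MeasurableSet (ball (0 : Eu m) R) := measurableSet_ball
  have i1 : Integrable ((ball (0 : Eu m) R).indicator fun _ => ε) ν :=
    (integrable_indicator_iff hb).2 (integrableOn_const (hν.ball_lt_top 0 R).ne)
  have i2 : Integrable ((ball (0 : Eu m) R)ᶜ.indicator fun y => K * kap (n + 1) 1 y) ν :=
    (integrable_indicator_iff hb.compl).2 (t1.const_mul K)
  refine (norm_integral_le_of_norm_le (f := f) (i1.add i2) (Eventually.of_forall fun y => ?_)).trans ?_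
  · by_cases hy : y ∈ ball (0 : Eu m) R
    · simp only [Pi.add_apply, Set.indicator_of_mem hy,
        Set.indicator_of_notMem (Set.notMem_compl_iff.2 hy), add_zero, Real.norm_eq_abs]
      exact h1 y (mem_ball_zero_iff.1 hy).le
    · simp only [Pi.add_apply, Set.indicator_of_notMem hy,
        Set.indicator_of_mem (Set.mem_compl hy), zero_add, Real.norm_eq_abs]
      exact h2 y
  · simp only [Pi.add_apply]
    rw [integral_add i1 i2, integral_indicator hb, integral_indicator hb.compl, setIntegral_const,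
      integral_const_mul, smul_eq_mul, mul_comm]
    exact add_le_add (mul_le_mul_of_nonneg_left (hν.real_le hC 0 hR) hε)
      (mul_le_mul_of_nonneg_left t2 hK)

theorem La_cut_tail (hν : Up n C ν) (hC : 0 ≤ C) {K : ℝ} {φ : Eu m → ℝ} (hφ : Dec (n + 1) K φ)
    {R : ℝ} (hR : 0 < R) :
    |∫ y, φ y ∂ν - ∫ y, φ y * cut 0 R 1 y ∂ν| ≤ K * (cK n * C / R) := by
  have := hν.isLocallyFinite
  have i2 : Integrable (fun y => φ y * cut 0 R 1 y) ν :=
    (hφ.1.mul (La_cut_cont 0 R one_pos)).integrable_of_hasCompactSupport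
      (La_cut_supp 0 R one_pos).mul_left
  rw [← integral_sub (hν.integrable_dec hφ) i2]
  have := La_split hν hC (f := fun y => φ y - φ y * cut 0 R 1 y) (La_dec_nonneg hφ) le_rfl hR
    (fun y hy => by rw [cut_eq_one one_pos (by simpa using hy)]; simp) fun y => by
      refine le_trans ?_ (hφ.2 y)
      rw [← mul_one_sub, abs_mul]
      refine mul_le_of_le_one_right (abs_nonneg _) (abs_le.2 ⟨?_, ?_⟩)
      · linarith [cut_le_one (0 : Eu m) R 1 y]
      · linarith [cut_nonneg (0 : Eu m) R 1 y]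
  simpa using this

theorem La_exists_R (A : ℝ) {ε : ℝ} (hε : 0 < ε) : ∃ R : ℝ, 0 < R ∧ A / R ≤ ε :=
  ⟨(|A| + 1) / ε, by positivity, by
    rw [div_le_iff₀ (by positivity), mul_div_cancel₀ _ hε.ne']
    linarith [le_abs_self A]⟩

theorem La_dec_le (hν : Up n C ν) (hC : 0 ≤ C) {K : ℝ} {φ : Eu m → ℝ} (hφ : Dec (n + 1) K φ) :
    ‖∫ y, φ y ∂ν‖ ≤ K * (cK n * C) := by
  obtain ⟨t1, t2⟩ := hν.int_kap_one hC
  refine (norm_integral_le_of_norm_le (t1.const_mul K) (Eventually.of_forall hφ.2)).trans ?_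
  rw [integral_const_mul]
  exact mul_le_mul_of_nonneg_left t2 (La_dec_nonneg hφ)

end Crest.Agent.R85
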