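import Crest.Agent.R85.HhB

/-!
# Auxiliary lemmas for `Lim` (part b)
-/

set_option autoImplicit false

open MeasureTheory Metric Filter Topology
open scoped RealInnerProductSpace

noncomputable section

namespace Crest.Agent.R85

variable {m n : ℕ} {C : ℝ} {ν : Measure (Eu m)}

theorem limb_coord {ι : Type*} {l : Filter ι} {a : ι → Eu m} {a0 : Eu m}
    (h : ∀ i, Tendsto (fun k => a k i) l (𝓝 (a0 i))) : Tendsto a l (𝓝 a0) :=
  ((PiLp.continuous_toLp 2 _).tendsto _).comp (tendsto_pi_nhds.2 h)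

theorem limb_int {f : Eu m → Eu m} (hf : Integrable f ν) (i : Fin m) :
    (∫ y, f y ∂ν) i = ∫ y, f y i ∂ν :=
  ((EuclideanSpace.proj i : Eu m →L[ℝ] ℝ).integral_comp_comm hf).symm

theorem limb_abs (v : Eu m) (i : Fin m) : |v i| ≤ ‖v‖ := PiLp.norm_apply_le v i

theorem limb_hh_bd (n m : ℕ) {C : ℝ} (hC : 0 ≤ C) {s : ℝ} (hs : 0 < s) (R : ℝ) :
    ∃ B : ℝ, 0 ≤ B ∧ ∀ ν : Measure (Eu m), Up n C ν → ∀ x : Eu m, ‖x‖ ≤ R → ‖hh n ν s x‖ ≤ B := by
  obtain ⟨c, hc, h⟩ := hh_integrand_le (m := m) n hs R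
  refine ⟨c * (cK n * C), by have := cK_pos n; positivity, fun ν hν x hx => ?_⟩
  obtain ⟨h1, h2⟩ := hν.int_kap_one hC
  refine (norm_integral_le_of_norm_le (h1.const_mul c)
    (Eventually.of_forall fun y => h x y hx)).trans ?_
  rw [integral_const_mul]
  gcongr

theorem limb_pos (hν : Up n C ν) (h0 : ν ≠ 0) (R : ℝ) :
    ∃ R', R ≤ R' ∧ 0 < R' ∧ 0 < ∫ y, cut 0 R' 1 y ∂ν := by
  have h1 : ∃ N : ℕ, ν (ball 0 N) ≠ 0 := by
    by_contra h
    push Not at h
    apply h0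
    rw [← Measure.measure_univ_eq_zero, ← iUnion_ball_nat (0 : Eu m)]
    exact measure_iUnion_null h
  obtain ⟨N, hN⟩ := h1
  refine ⟨max R (N + 1), le_max_left _ _, lt_max_of_lt_right (by positivity), ?_⟩
  rw [integral_pos_iff_support_of_nonneg (fun y => cut_nonneg _ _ _ y)
    ((cut_tst 0 _ one_pos).integrable hν)]
  refine (pos_iff_ne_zero.2 hN).trans_le (measure_mono fun y hy => ?_)
  rw [Function.mem_support, cut_eq_one one_pos]
  · exact one_ne_zero
  · exact (mem_ball.1 hy).le.trans (le_max_of_le_right (by linarith))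

end Crest.Agent.R85
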