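import Crest.Agent.R85.KernB

/-!
# Planes and the numbers `bP`, `bb` (task Plane)
`exists_pl_range`: the range of `Lm` has dimension `≤ n ≤ m`; enlarge it to an `n`-dimensional
subspace (`Submodule.exists_le_finrank_eq`-type lemma or `exists_pl_of_finrank`), and use an
orthonormal basis of it (`stdOrthonormalBasis`, `LinearIsometryEquiv.ofFinrankEq`-type).
-/

set_option autoImplicit false

open MeasureTheory Metric Filter Topology
open scoped RealInnerProductSpace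

noncomputable section

namespace Crest.Agent.R85

variable {m : ℕ}

variable {n : ℕ} {C : ℝ} {ν : Measure (Eu m)}

namespace Pl
variable (P : Pl n m)

theorem inner_I (t : Eu n) (y : Eu m) : ⟪P.I t, y⟫ = ⟪t, P.co y⟫ := by
  rw [co, ContinuousLinearMap.adjoint_inner_right]

theorem co_I (t : Eu n) : P.co (P.I t) = t := by
  refine ext_inner_left ℝ fun u => ?_
  rw [← P.inner_I]
  exact (⟨P.I.toLinearMap, P.hI⟩ : Eu n →ₗᵢ[ℝ] Eu m).inner_map_map u t

theorem pr_apply (y : Eu m) : P.pr y = P.I (P.co y) := by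
  rfl

theorem norm_co_le (y : Eu m) : ‖P.co y‖ ≤ ‖y‖ := by
  have h1 := P.inner_I (P.co y) y
  have h2 := real_inner_le_norm (P.I (P.co y)) y
  rw [h1, real_inner_self_eq_norm_sq, P.hI] at h2
  rcases (norm_nonneg (P.co y)).eq_or_lt with h | h
  · rw [← h]
    exact norm_nonneg _
  · nlinarith

theorem norm_pr (y : Eu m) : ‖P.pr y‖ = ‖P.co y‖ := by
  rw [pr_apply, P.hI]

theorem norm_pr_le (y : Eu m) : ‖P.pr y‖ ≤ ‖y‖ := by
  rw [norm_pr]
  exact P.norm_co_le y

theorem pr_I (t : Eu n) : P.pr (P.I t) = P.I t := by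
  rw [pr_apply, co_I]

theorem co_pr (y : Eu m) : P.co (P.pr y) = P.co y := by
  rw [pr_apply, co_I]

theorem pr_pr (y : Eu m) : P.pr (P.pr y) = P.pr y := by
  rw [P.pr_apply (P.pr y), co_pr, pr_apply]

theorem inner_pr (y z : Eu m) : ⟪P.pr y, z⟫ = ⟪y, P.pr z⟫ := by
  rw [pr_apply, inner_I, real_inner_comm (P.pr z) y, pr_apply, inner_I, real_inner_comm]

theorem inner_pr_perp (y z : Eu m) : ⟪P.pr y, z - P.pr z⟫ = 0 := by
  rw [inner_pr, map_sub, pr_pr, sub_self, inner_zero_right]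

theorem pythag (y : Eu m) : ‖y‖ ^ 2 = ‖P.pr y‖ ^ 2 + ‖y - P.pr y‖ ^ 2 := by
  have h := norm_add_sq_real (P.pr y) (y - P.pr y)
  rw [inner_pr_perp, add_sub_cancel] at h
  linarith

theorem norm_sub_pr_le (y : Eu m) : ‖y - P.pr y‖ ≤ ‖y‖ := by
  refine (pow_le_pow_iff_left₀ (norm_nonneg _) (norm_nonneg _) two_ne_zero).1 ?_
  linarith [P.pythag y, sq_nonneg ‖P.pr y‖]

theorem sub_proj (y : Eu m) : y - P.proj y = (y - P.q) - P.pr (y - P.q) := by
  rw [proj]
  abel

theorem proj_sub (y y' : Eu m) : P.proj y - P.proj y' = P.pr (y - y') := by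
  rw [proj, proj, add_sub_add_left_eq_sub, ← map_sub, sub_sub_sub_cancel_right]

theorem proj_proj (y : Eu m) : P.proj (P.proj y) = P.proj y := by
  rw [proj, proj, add_sub_cancel_left, pr_pr]

theorem proj_add_I (y : Eu m) (t : Eu n) : P.proj (P.proj y + P.I t) = P.proj y + P.I t := by
  rw [proj, proj, add_assoc, add_sub_cancel_left, map_add, pr_pr, pr_I]

theorem pr_sub_proj (y : Eu m) : P.pr (y - P.proj y) = 0 := by
  rw [sub_proj, map_sub, pr_pr, sub_self]

theorem co_sub_proj (y : Eu m) : P.co (y - P.proj y) = 0 := by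
  rw [sub_proj, map_sub, co_pr, sub_self]

theorem D_nonneg (y : Eu m) : 0 ≤ P.D y := by
  exact norm_nonneg _

theorem D_le (y : Eu m) (t : Eu n) : P.D y ≤ ‖y - (P.q + P.I t)‖ := by
  refine le_trans (le_of_eq ?_) (P.norm_sub_pr_le _)
  rw [D, sub_proj, ← sub_sub, map_sub P.pr (y - P.q), pr_I, sub_sub_sub_cancel_right]

theorem D_le_proj (y z : Eu m) : P.D y ≤ ‖y - P.proj z‖ := by
  exact P.D_le y _

theorem D_lip : Lip 1 P.D := by
  intro x y
  refine (abs_norm_sub_norm_le _ _).trans ?_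
  rw [one_mul, sub_sub_sub_comm, proj_sub]
  exact P.norm_sub_pr_le _

theorem continuous_D : Continuous P.D := by
  unfold D proj
  fun_prop

theorem continuous_proj : Continuous P.proj := by
  unfold proj
  fun_prop

theorem D_proj (y : Eu m) : P.D (P.proj y) = 0 := by
  rw [D, proj_proj, sub_self, norm_zero]

theorem D_eq_zero_iff (y : Eu m) : P.D y = 0 ↔ ∃ t, y = P.q + P.I t := by
  constructor
  · intro h
    exact ⟨P.co (y - P.q), sub_eq_zero.1 (norm_eq_zero.1 h)⟩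
  · rintro ⟨t, rfl⟩
    simpa using (P.D_le (P.q + P.I t) t).antisymm' (by simpa using P.D_nonneg _) |>.symm

/-- Moving the base point inside the plane. -/
def recenter (x : Eu m) : Pl n m := ⟨P.proj x, P.I, P.hI⟩

theorem recenter_proj (x y : Eu m) : (P.recenter x).proj y = P.proj y := by
  change P.proj x + P.pr (y - P.proj x) = P.proj y
  rw [← proj_sub, proj_proj, add_sub_cancel]

theorem recenter_D (x y : Eu m) : (P.recenter x).D y = P.D y := by
  rw [D, D, recenter_proj]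

theorem Close.proj_le {P P' : Pl n m} {x : Eu m} {r η : ℝ} (h : P.Close P' x r η) (y : Eu m) :
    ‖P.proj y - P'.proj y‖ ≤ η * (r + ‖y - x‖) := by
  have e : P.proj y - P'.proj y = (P.proj x - P'.proj x) + (P.pr - P'.pr) (y - x) := by
    rw [sub_apply, ← proj_sub, ← proj_sub]
    abel
  have h1 := (P.pr - P'.pr).le_of_opNorm_le h.1 (y - x)
  rw [e, mul_add]
  exact (norm_add_le _ _).trans (add_le_add h.2 h1)

theorem Close.symm {P P' : Pl n m} {x : Eu m} {r η : ℝ} (h : P.Close P' x r η) :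
    P'.Close P x r η := by
  exact ⟨by rw [norm_sub_rev]; exact h.1, by rw [norm_sub_rev]; exact h.2⟩

theorem Close.mono {P P' : Pl n m} {x : Eu m} {r η η' : ℝ} (h : P.Close P' x r η) (hr : 0 ≤ r)
    (hη : η ≤ η') : P.Close P' x r η' := by
  exact ⟨h.1.trans hη, h.2.trans (mul_le_mul_of_nonneg_right hη hr)⟩

theorem Close.D_le {P P' : Pl n m} {x : Eu m} {r η : ℝ} (h : P.Close P' x r η) (y : Eu m) :
    P.D y ≤ P'.D y + η * (r + ‖y - x‖) := by
  have h1 := h.symm.proj_le y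
  have h2 := norm_add_le (y - P'.proj y) (P'.proj y - P.proj y)
  rw [sub_add_sub_cancel] at h2
  unfold D
  linarith

theorem Close.pr_le {P P' : Pl n m} {x : Eu m} {r η : ℝ} (h : P.Close P' x r η) (v : Eu m) :
    ‖P.pr v - P'.pr v‖ ≤ η * ‖v‖ := by
  exact (P.pr - P'.pr).le_of_opNorm_le h.1 v

end Pl

theorem Plane_exists_le (V : Submodule ℝ (Eu m)) {k : ℕ} (hV : Module.finrank ℝ V ≤ k)
    (hk : k ≤ m) : ∃ W : Submodule ℝ (Eu m), V ≤ W ∧ Module.finrank ℝ W = k := by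
  induction k, hV using Nat.le_induction with
  | base => exact ⟨V, le_rfl, rfl⟩
  | succ k _ ih =>
    obtain ⟨W, h1, h2⟩ := ih (by omega)
    obtain ⟨v, hv⟩ := W.exists_of_finrank_lt (by rw [h2, finrank_euclideanSpace_fin]; omega)
    refine ⟨W ⊔ Submodule.span ℝ {v}, h1.trans le_sup_left, ?_⟩
    rw [Submodule.finrank_sup_span_singleton (by simpa using hv 1 one_ne_zero), h2]

theorem exists_pl_of_finrank (hnm : n ≤ m) (V : Submodule ℝ (Eu m)) (hV : Module.finrank ℝ V ≤ n)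
    (q : Eu m) : ∃ P : Pl n m, P.q = q ∧ ∀ v ∈ V, P.D (q + v) = 0 := by
  obtain ⟨W, hVW, hW⟩ := Plane_exists_le V hV hnm
  let e : Eu n ≃ₗᵢ[ℝ] W := ((stdOrthonormalBasis ℝ W).reindex (finCongr hW)).repr.symm
  refine ⟨⟨q, (W.subtypeₗᵢ.comp e.toLinearIsometry).toContinuousLinearMap,
    fun t => (W.subtypeₗᵢ.comp e.toLinearIsometry).norm_map t⟩, rfl, fun v hv => ?_⟩
  rw [Pl.D_eq_zero_iff]
  exact ⟨e.symm ⟨v, hVW hv⟩, by simp⟩

theorem exists_pl_range (hnm : n ≤ m) (q : Eu m) (Lm : Eu n →L[ℝ] Eu m) :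
    ∃ P : Pl n m, ∀ y t, P.D y ≤ ‖y - (q + Lm t)‖ := by
  obtain ⟨P, hq, hP⟩ := exists_pl_of_finrank hnm (LinearMap.range Lm.toLinearMap)
    ((LinearMap.finrank_range_le _).trans finrank_euclideanSpace_fin.le) q
  refine ⟨P, fun y t => ?_⟩
  have h1 := P.D_lip y (q + Lm t)
  rw [hP (Lm t) ⟨t, rfl⟩, sub_zero, one_mul] at h1
  exact (le_abs_self _).trans h1

theorem nonempty_pl (hnm : n ≤ m) : Nonempty (Pl n m) := by
  obtain ⟨P, -⟩ := exists_pl_of_finrank hnm ⊥ (by simp) 0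
  exact ⟨P⟩

/-- The identity plane of `Eu n`. -/
def Pl.id (n : ℕ) : Pl n n := ⟨0, ContinuousLinearMap.id ℝ _, fun _ => rfl⟩

theorem Pl.id_co (y : Eu n) : (Pl.id n).co y = y := by
  exact (Pl.id n).co_I y

theorem Pl.id_D (y : Eu n) : (Pl.id n).D y = 0 := by
  exact ((Pl.id n).D_eq_zero_iff y).2 ⟨y, (zero_add y).symm⟩

theorem bP_dec (P : Pl n m) (x : Eu m) {r : ℝ} (hr : 0 < r) :
    ∃ K, Dec (n + 1) K (fun y => P.D y ^ 2 * (r * kap (n + 3) r (y - x))) := by
  have hc : Continuous (fun y => P.D y ^ 2 * (r * kap (n + 3) r (y - x))) :=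
    (P.continuous_D.pow 2).mul (continuous_const.mul
      ((continuous_kap (n + 3) hr).comp (continuous_id.sub continuous_const)))
  refine ⟨(P.D x / r + 1) ^ 2 * r * ((1 + ‖x‖ / r) ^ (n + 1) * (1 + (1 / r) ^ (n + 1))), hc, ?_⟩
  intro y
  have hD := P.D_nonneg y
  have hDx := P.D_nonneg x
  have hk3 := kap_nonneg (n + 3) r (y - x)
  rw [abs_of_nonneg (by positivity)]
  have h1 : P.D y ≤ (P.D x / r + 1) * N r (y - x) := by
    have ha := P.D_lip y x
    have hb := norm_le_N r (y - x)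
    have hc := le_N r (y - x)
    have hd : P.D x ≤ P.D x / r * N r (y - x) := by
      rw [div_mul_eq_mul_div, le_div_iff₀ hr]
      exact mul_le_mul_of_nonneg_left hc hDx
    have := (abs_le.1 ha).2
    nlinarith
  have h2 : P.D y ^ 2 ≤ (P.D x / r + 1) ^ 2 * N r (y - x) ^ 2 := by
    rw [← mul_pow]
    exact pow_le_pow_left₀ hD h1 2
  have h3 : kap (n + 3) r (y - x) * N r (y - x) ^ 2 = kap (n + 1) r (y - x) :=
    kap_mul_N_pow (n + 1) 2 hr (y - x)
  have h4 : kap (n + 1) r (y - x) ≤ (1 + ‖x‖ / r) ^ (n + 1) * kap (n + 1) r y := by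
    have := kap_peetre (n + 1) hr (y - x) y
    have e : ‖y - x - y‖ = ‖x‖ := by
      rw [show y - x - y = -x by abel, norm_neg]
    rwa [e] at this
  have hk1 := kap_nonneg (n + 1) 1 y
  have h5 : kap (n + 1) r y ≤ (1 + (1 / r) ^ (n + 1)) * kap (n + 1) 1 y := by
    have hp : 0 ≤ (1 / r) ^ (n + 1) := by positivity
    rcases le_total r 1 with h | h
    · have := kap_le_mul (n + 1) hr h y
      nlinarith
    · have := kap_anti (n + 1) zero_le_one h (N_pos one_pos y)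
      nlinarith [mul_nonneg hp hk1]
  have h6 : kap (n + 1) r (y - x) ≤
      (1 + ‖x‖ / r) ^ (n + 1) * ((1 + (1 / r) ^ (n + 1)) * kap (n + 1) 1 y) :=
    h4.trans (mul_le_mul_of_nonneg_left h5 (by positivity))
  calc P.D y ^ 2 * (r * kap (n + 3) r (y - x))
      ≤ ((P.D x / r + 1) ^ 2 * N r (y - x) ^ 2) * (r * kap (n + 3) r (y - x)) :=
        mul_le_mul_of_nonneg_right h2 (by positivity)
    _ = (P.D x / r + 1) ^ 2 * r * (kap (n + 3) r (y - x) * N r (y - x) ^ 2) := by ring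
    _ = (P.D x / r + 1) ^ 2 * r * kap (n + 1) r (y - x) := by rw [h3]
    _ ≤ (P.D x / r + 1) ^ 2 * r *
        ((1 + ‖x‖ / r) ^ (n + 1) * ((1 + (1 / r) ^ (n + 1)) * kap (n + 1) 1 y)) :=
        mul_le_mul_of_nonneg_left h6 (by positivity)
    _ = _ := by ring

theorem bP_integrable (h : Up n C ν) (P : Pl n m) (x : Eu m) {r : ℝ} (hr : 0 < r) :
    Integrable (fun y => P.D y ^ 2 * (r * kap (n + 3) r (y - x))) ν := by
  obtain ⟨K, hK⟩ := bP_dec P x hr
  exact h.integrable_dec hK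

theorem bP_nonneg (P : Pl n m) (x : Eu m) {r : ℝ} (hr : 0 < r) : 0 ≤ bP ν P x r := by
  refine integral_nonneg fun y => ?_
  have := kap_nonneg (n + 3) r (y - x)
  positivity

theorem bb_nonneg (x : Eu m) {r : ℝ} (hr : 0 < r) : 0 ≤ bb n ν x r :=
  Real.iInf_nonneg fun P => bP_nonneg P x hr

theorem bb_le_bP (P : Pl n m) (x : Eu m) {r : ℝ} (hr : 0 < r) : bb n ν x r ≤ bP ν P x r :=
  ciInf_le ⟨0, by rintro _ ⟨P', rfl⟩; exact bP_nonneg P' x hr⟩ P

theorem exists_bP_lt (hnm : n ≤ m) {x : Eu m} {r a : ℝ} (h : bb n ν x r < a) :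
    ∃ P : Pl n m, bP ν P x r < a := by
  have := nonempty_pl hnm
  exact exists_lt_of_ciInf_lt h

theorem bb_le_const (hnm : n ≤ m) (h : Up n C ν) (hC : 0 ≤ C) (x : Eu m) {r : ℝ} (hr : 0 < r) :
    bb n ν x r ≤ cK n * C := by
  obtain ⟨P0⟩ := nonempty_pl hnm
  let P : Pl n m := ⟨x, P0.I, P0.hI⟩
  refine (bb_le_bP P x hr).trans ?_
  obtain ⟨hi, hle⟩ := h.int_kap hC x hr 0
  have h1 : bP ν P x r ≤ ∫ y, r * kap (n + 1 + 0) r (x - y) ∂ν := by
    refine integral_mono (bP_integrable h P x hr) (hi.const_mul r) fun y => ?_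
    have ha : P.D y ≤ ‖y - x‖ := by
      have := P.D_le y 0
      simpa [P] using this
    have hb : P.D y ^ 2 ≤ ‖y - x‖ ^ 2 := pow_le_pow_left₀ (P.D_nonneg y) ha 2
    have hc : ‖y - x‖ ^ 2 * kap (n + 3) r (y - x) ≤ kap (n + 1) r (y - x) :=
      norm_pow_mul_kap_le (n + 1) 2 r (y - x)
    have hk3 := kap_nonneg (n + 3) r (y - x)
    show P.D y ^ 2 * (r * kap (n + 3) r (y - x)) ≤ r * kap (n + 1) r (x - y)
    rw [kap_sub_comm (n + 1) r x y]
    calc P.D y ^ 2 * (r * kap (n + 3) r (y - x))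
        ≤ ‖y - x‖ ^ 2 * (r * kap (n + 3) r (y - x)) :=
          mul_le_mul_of_nonneg_right hb (by positivity)
      _ = r * (‖y - x‖ ^ 2 * kap (n + 3) r (y - x)) := by ring
      _ ≤ _ := mul_le_mul_of_nonneg_left hc hr.le
  rw [integral_const_mul] at h1
  refine h1.trans ?_
  calc r * ∫ y, kap (n + 1 + 0) r (x - y) ∂ν ≤ r * (cK n * C / r ^ (1 + 0)) :=
        mul_le_mul_of_nonneg_left hle hr.le
    _ = cK n * C := by rw [add_zero, pow_one]; field_simp

/-- Change of centre and scale. -/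
theorem bP_le_mul (h : Up n C ν) (P : Pl n m) (x x' : Eu m) {r r' : ℝ} (hr' : 0 < r')
    (hrr : r' ≤ r) :
    bP ν P x' r' ≤ (1 + dist x x' / r) ^ (n + 3) * (r / r') ^ (n + 2) * bP ν P x r := by
  have hr : 0 < r := hr'.trans_le hrr
  unfold bP
  rw [← integral_const_mul]
  refine integral_mono (bP_integrable h P x' hr') ((bP_integrable h P x hr).const_mul _)
    fun y => ?_
  have h1 := kap_le_mul (n + 3) hr' hrr (y - x')
  have h2 := kap_peetre (n + 3) hr (y - x') (y - x)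
  have e : ‖y - x' - (y - x)‖ = dist x x' := by
    rw [dist_eq_norm, show y - x' - (y - x) = x - x' by abel]
  rw [e] at h2
  have h3 : kap (n + 3) r' (y - x') ≤
      (r / r') ^ (n + 3) * ((1 + dist x x' / r) ^ (n + 3) * kap (n + 3) r (y - x)) :=
    h1.trans (mul_le_mul_of_nonneg_left h2 (by positivity))
  have h4 : r' * (r / r') ^ (n + 3) = (r / r') ^ (n + 2) * r := by
    rw [pow_succ (r / r') (n + 2)]
    field_simp
  show P.D y ^ 2 * (r' * kap (n + 3) r' (y - x')) ≤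
    (1 + dist x x' / r) ^ (n + 3) * (r / r') ^ (n + 2) * (P.D y ^ 2 * (r * kap (n + 3) r (y - x)))
  calc P.D y ^ 2 * (r' * kap (n + 3) r' (y - x'))
      ≤ P.D y ^ 2 * (r' * ((r / r') ^ (n + 3) *
          ((1 + dist x x' / r) ^ (n + 3) * kap (n + 3) r (y - x)))) :=
        mul_le_mul_of_nonneg_left (mul_le_mul_of_nonneg_left h3 hr'.le) (by positivity)
    _ = P.D y ^ 2 * ((r' * (r / r') ^ (n + 3)) *
          ((1 + dist x x' / r) ^ (n + 3) * kap (n + 3) r (y - x))) := by ring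
    _ = _ := by rw [h4]; ring

theorem bb_le_mul (hnm : n ≤ m) (h : Up n C ν) (x x' : Eu m) {r r' : ℝ} (hr' : 0 < r')
    (hrr : r' ≤ r) :
    bb n ν x' r' ≤ (1 + dist x x' / r) ^ (n + 3) * (r / r') ^ (n + 2) * bb n ν x r := by
  have hr : 0 < r := hr'.trans_le hrr
  have := nonempty_pl hnm
  have hc : 0 < (1 + dist x x' / r) ^ (n + 3) * (r / r') ^ (n + 2) := by positivity
  rw [← div_le_iff₀' hc]
  refine le_ciInf fun P => ?_
  rw [div_le_iff₀' hc]
  exact (bb_le_bP P x' hr').trans (bP_le_mul h P x x' hr' hrr)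

theorem continuous_bb (hnm : n ≤ m) (h : Up n C ν) {r : ℝ} (hr : 0 < r) :
    Continuous (fun x => bb n ν x r) := by
  rw [continuous_iff_continuousAt]
  intro x
  have hg : Continuous (fun x' : Eu m => (1 + dist x x' / r) ^ (n + 3)) := by fun_prop
  have hg1 : Tendsto (fun x' : Eu m => (1 + dist x x' / r) ^ (n + 3)) (𝓝 x) (𝓝 1) := by
    have := hg.tendsto x
    simpa using this
  have hup : Tendsto (fun x' : Eu m => (1 + dist x x' / r) ^ (n + 3) * bb n ν x r) (𝓝 x)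
      (𝓝 (bb n ν x r)) := by
    simpa using hg1.mul_const (bb n ν x r)
  have hlo : Tendsto (fun x' : Eu m => bb n ν x r / (1 + dist x x' / r) ^ (n + 3)) (𝓝 x)
      (𝓝 (bb n ν x r)) := by
    have := (tendsto_const_nhds (x := bb n ν x r)).div hg1 one_ne_zero
    rw [div_one] at this
    exact this
  refine tendsto_of_tendsto_of_tendsto_of_le_of_le hlo hup (fun x' => ?_) (fun x' => ?_)
  · have h1 := bb_le_mul hnm h x' x hr le_rfl
    rw [div_self hr.ne', one_pow, mul_one, dist_comm x' x] at h1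
    have hc : 0 < (1 + dist x x' / r) ^ (n + 3) := by positivity
    exact (div_le_iff₀' hc).2 h1
  · have h1 := bb_le_mul hnm h x x' hr le_rfl
    rw [div_self hr.ne', one_pow, mul_one] at h1
    exact h1

theorem setIntegral_D_sq_le (h : Up n C ν) (P : Pl n m) (x : Eu m) {r : ℝ} (hr : 0 < r) :
    ∫ y in ball x r, P.D y ^ 2 ∂ν ≤ 2 ^ (n + 3) * r ^ (n + 2) * bP ν P x r := by
  have hi := bP_integrable h P x hr
  have hnn : ∀ y, 0 ≤ P.D y ^ 2 * (r * kap (n + 3) r (y - x)) := fun y => by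
    have := kap_nonneg (n + 3) r (y - x)
    positivity
  have h1 : ∫ y in ball x r, P.D y ^ 2 ∂ν ≤ ∫ y in ball x r,
      2 ^ (n + 3) * r ^ (n + 2) * (P.D y ^ 2 * (r * kap (n + 3) r (y - x))) ∂ν := by
    refine integral_mono_of_nonneg (Eventually.of_forall fun y => by positivity)
      (hi.const_mul _).integrableOn ?_
    refine (ae_restrict_iff' measurableSet_ball).2 (Eventually.of_forall fun y hy => ?_)
    have hy' : ‖y - x‖ ≤ r := by
      rw [← dist_eq_norm]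
      exact (mem_ball.1 hy).le
    have h2 := inv_le_kap (n + 3) hr hy'
    have h3 : 1 ≤ 2 ^ (n + 3) * r ^ (n + 2) * (r * kap (n + 3) r (y - x)) := by
      calc (1 : ℝ) = 2 ^ (n + 3) * r ^ (n + 2) * (r * ((2 * r) ^ (n + 3))⁻¹) := by
            rw [mul_pow, pow_succ r (n + 2)]
            field_simp
        _ ≤ _ := by gcongr
    show P.D y ^ 2 ≤ 2 ^ (n + 3) * r ^ (n + 2) * (P.D y ^ 2 * (r * kap (n + 3) r (y - x)))
    calc P.D y ^ 2 = P.D y ^ 2 * 1 := by ring
      _ ≤ P.D y ^ 2 * (2 ^ (n + 3) * r ^ (n + 2) * (r * kap (n + 3) r (y - x))) :=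
          mul_le_mul_of_nonneg_left h3 (by positivity)
      _ = _ := by ring
  refine h1.trans ?_
  rw [integral_const_mul]
  refine mul_le_mul_of_nonneg_left ?_ (by positivity)
  exact setIntegral_le_integral hi (Eventually.of_forall hnn)

/-- A point of the support is close to every plane with small excess. -/
theorem D_le_of_bP (n : ℕ) {C : ℝ} (hC : 1 ≤ C) {lam : ℝ} (hlam : 0 < lam) :
    ∃ η, 0 < η ∧ ∀ {m : ℕ} (ν : Measure (Eu m)) (P : Pl n m) (x : Eu m) (r : ℝ), Up n C ν → 0 < r →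
      (∀ s, 0 < s → s ≤ r → ENNReal.ofReal (s ^ n / C) ≤ ν (ball x s)) →
      bP ν P x r ≤ η → P.D x ≤ lam * r := by
  have hC0 : 0 < C := by linarith
  set μ : ℝ := min (lam / 2) 1 with hμ
  have hμ0 : 0 < μ := lt_min (by linarith) one_pos
  have hμ1 : μ ≤ 1 := min_le_right _ _
  have hμ2 : μ ≤ lam / 2 := min_le_left _ _
  refine ⟨(lam / 2) ^ 2 * μ ^ n / (C * 2 ^ (n + 4)), by positivity, ?_⟩
  intro m ν P x r h hr hlow hb
  by_contra hcon
  rw [not_le] at hcon
  have hs0 : 0 < μ * r := by positivity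
  have hsr : μ * r ≤ r := by nlinarith
  have hi := bP_integrable h P x hr
  have hnn : ∀ y, 0 ≤ P.D y ^ 2 * (r * kap (n + 3) r (y - x)) := fun y => by
    have := kap_nonneg (n + 3) r (y - x)
    positivity
  have hm : (μ * r) ^ n / C ≤ ν.real (ball x (μ * r)) := h.le_real (hlow _ hs0 hsr)
  have h1 : ∫ _ in ball x (μ * r), (lam * r / 2) ^ 2 * (r * ((2 * r) ^ (n + 3))⁻¹) ∂ν ≤
      ∫ y in ball x (μ * r), P.D y ^ 2 * (r * kap (n + 3) r (y - x)) ∂ν := by
    refine integral_mono_of_nonneg (Eventually.of_forall fun y => by positivity)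
      hi.integrableOn ?_
    refine (ae_restrict_iff' measurableSet_ball).2 (Eventually.of_forall fun y hy => ?_)
    have hy0 : ‖x - y‖ < μ * r := by
      rw [← dist_eq_norm, dist_comm]
      exact mem_ball.1 hy
    have hy' : ‖y - x‖ ≤ r := by
      rw [norm_sub_rev]
      linarith
    have h2 := inv_le_kap (n + 3) hr hy'
    have h3 := (abs_le.1 (P.D_lip x y)).2
    have h4 : lam * r / 2 ≤ P.D y := by nlinarith
    have h5 : (lam * r / 2) ^ 2 ≤ P.D y ^ 2 := pow_le_pow_left₀ (by positivity) h4 2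
    show (lam * r / 2) ^ 2 * (r * ((2 * r) ^ (n + 3))⁻¹) ≤ P.D y ^ 2 * (r * kap (n + 3) r (y - x))
    gcongr
  have h2 : ∫ y in ball x (μ * r), P.D y ^ 2 * (r * kap (n + 3) r (y - x)) ∂ν ≤ bP ν P x r :=
    setIntegral_le_integral hi (Eventually.of_forall hnn)
  rw [setIntegral_const, smul_eq_mul] at h1
  have h3 : (μ * r) ^ n / C * ((lam * r / 2) ^ 2 * (r * ((2 * r) ^ (n + 3))⁻¹)) ≤
      (lam / 2) ^ 2 * μ ^ n / (C * 2 ^ (n + 4)) :=
    (mul_le_mul_of_nonneg_right hm (by positivity)).trans (h1.trans (h2.trans hb))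
  have h4 : (μ * r) ^ n / C * ((lam * r / 2) ^ 2 * (r * ((2 * r) ^ (n + 3))⁻¹)) =
      2 * ((lam / 2) ^ 2 * μ ^ n / (C * 2 ^ (n + 4))) := by
    rw [mul_pow, mul_pow 2 r, pow_add r n 3, pow_succ 2 (n + 3)]
    field_simp
  have h5 : 0 < (lam / 2) ^ 2 * μ ^ n / (C * 2 ^ (n + 4)) := by positivity
  linarith

end Crest.Agent.R85
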