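import Crest.Agent.R85.HhB
import Crest.Agent.R85.Plane
import Crest.Agent.R85.Limbx
import Crest.Agent.R85.Limax

/-!
# Vague limits along the ultrafilter (task Lim)

`exists_vag`: `Λ φ = lim_UF ∫ φ dν_k` (bounded sequence, `IsCompact.ultrafilter_le_nhds` /
`Ultrafilter.lim`) is a positive linear functional on `C_c(Eu m, ℝ)`;
take `RealRMK.rieszMeasure`, `RealRMK.integral_rieszMeasure`.  Upper bound: test with
`cut x r w`, `w → 0` (or `ball x r = ⋃ ball x r'`).
`Vag.tendsto_dec`: split with `cut 0 R 1`, tails by `Up.tail` (`≤ K cK C / R`).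
`Vag.tendsto_var`: `|∫ φ_k - φ| ≤ ε ν_k(ball 0 R) + 2 K tail`.
`Vag.hh`: `hh n (ν_k) s x → hh n ν s x` by `tendsto_dec` and `hh_integrand_le` (coordinatewise or
pair with a vector), equi-Lipschitz by `hh_lip`, `unif_of_equilip`.
`Vag.refl`: given a mean-zero test function `ψ` for `ν ≠ 0` take `ψ0 = cut 0 R 1` with
`∫ ψ0 dν > 0`, `ψ_k = ψ - c_k ψ0`, `c_k → 0`; let `k → UF` at fixed `s`, then `ε → 0`, `s → 0`.
-/

set_option autoImplicit false

open MeasureTheory Metric Filter Topology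
open scoped RealInnerProductSpace

noncomputable section

namespace Crest.Agent.R85

variable {m : ℕ}

variable {n : ℕ} {C : ℝ} {νk : ℕ → Measure (Eu m)} {ν : Measure (Eu m)}

theorem UF_le_atTop : UF ≤ atTop := Nat.hyperfilter_le_atTop

theorem exists_tendsto_UF {F : Type*} [NormedAddCommGroup F] [ProperSpace F] {a : ℕ → F} {B : ℝ}
    (h : ∀ᶠ k in UF, ‖a k‖ ≤ B) : ∃ a0, ‖a0‖ ≤ B ∧ Tendsto a UF (𝓝 a0) := by
  obtain ⟨a0, h1, h2⟩ := (isCompact_closedBall (0 : F) B).ultrafilter_le_nhds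
    ((Filter.hyperfilter ℕ).map a)
    (le_principal_iff.2 (h.mono fun k hk => mem_closedBall_zero_iff.2 hk))
  exact ⟨a0, mem_closedBall_zero_iff.1 h1, h2⟩

theorem exists_vag (h : ∀ k, Up n C (νk k)) : ∃ ν, Up n C ν ∧ Vag νk ν := by
  have h' : ∀ k, Up n (max C 0) (νk k) := fun k => (h k).mono (le_max_left _ _)
  have hi : ∀ k (φ : CompactlySupportedContinuousMap (Eu m) ℝ), Integrable φ (νk k) := fun k φ => by
    have := (h k).isLocallyFinite
    exact φ.continuous.integrable_of_hasCompactSupport φ.hasCompactSupport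
  have ex : ∀ φ : CompactlySupportedContinuousMap (Eu m) ℝ, ∃ a : ℝ,
      Tendsto (fun k => ∫ y, φ y ∂νk k) UF (𝓝 a) := fun φ => by
    obtain ⟨K, -, hK⟩ := dec_of_hasCompactSupport (n + 1) φ.continuous φ.hasCompactSupport
    obtain ⟨a, -, ha⟩ := exists_tendsto_UF (a := fun k => ∫ y, φ y ∂νk k)
      (Eventually.of_forall fun k => La_dec_le (h' k) (le_max_right _ _) hK)
    exact ⟨a, ha⟩
  choose Λ hΛ using ex
  let Λl : CompactlySupportedContinuousMap (Eu m) ℝ →ₗ[ℝ] ℝ :=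
    { toFun := Λ
      map_add' := fun φ ψ => tendsto_nhds_unique (hΛ (φ + ψ)) (((hΛ φ).add (hΛ ψ)).congr fun k => by
        rw [← integral_add (hi k φ) (hi k ψ)]
        rfl)
      map_smul' := fun a φ => tendsto_nhds_unique (hΛ (a • φ)) (((hΛ φ).const_mul a).congr fun k => by
        rw [← integral_const_mul]
        rfl) }
  let Λp : CompactlySupportedContinuousMap (Eu m) ℝ →ₚ[ℝ] ℝ :=
    PositiveLinearMap.mk₀ Λl fun φ hφ =>
      ge_of_tendsto' (hΛ φ) fun k => integral_nonneg fun y => hφ y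
  have hv : Vag νk (RealRMK.rieszMeasure Λp) := fun φ h1 h2 => by
    have e := RealRMK.integral_rieszMeasure Λp ⟨⟨φ, h1⟩, h2⟩
    have e' : ∫ y, φ y ∂(RealRMK.rieszMeasure Λp) = Λ ⟨⟨φ, h1⟩, h2⟩ := e
    rw [e']
    exact hΛ ⟨⟨φ, h1⟩, h2⟩
  refine ⟨RealRMK.rieszMeasure Λp, fun x r hr => le_of_forall_lt fun c hc => ?_, hv⟩
  obtain ⟨K, hK1, hK2, hK3⟩ := isOpen_ball.exists_lt_isCompact hc
  obtain ⟨r', hr1, hr2⟩ := exists_lt_subset_ball hK2.isClosed hK1
  refine hK3.trans_le ((measure_mono (hr2.trans ball_subset_closedBall)).trans ?_)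
  refine La_vag_le hv h (sub_pos.2 hr1) (Eventually.of_forall fun k => ?_)
  rw [add_sub_cancel]
  exact h k x r hr

theorem Vag.near_support (hv : Vag νk ν) (h : ∀ k, Up n C (νk k)) (hν : Up n C ν) {x : Eu m}
    (hx : x ∈ ν.support) {t : ℝ} (ht : 0 < t) :
    ∀ᶠ k in UF, ∃ y ∈ (νk k).support, dist y x < t := by
  have := hν.isLocallyFinite
  by_contra hne
  have h1 := Ultrafilter.eventually_not.2 hne
  have h2 : ν (closedBall x (t / 2)) ≤ 0 := by
    refine La_vag_le hv h (half_pos ht) (h1.mono fun k hk => ?_)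
    rw [add_halves, ← Measure.measure_compl_support (μ := νk k)]
    exact measure_mono fun y hy hs => hk ⟨y, hs, mem_ball.1 hy⟩
  exact absurd h2 (not_le.2 ((Measure.mem_support_iff_forall x).1 hx _
    (closedBall_mem_nhds x (half_pos ht))))

theorem Vag.lowAll (hv : Vag νk ν) (h : ∀ k, Up n C (νk k)) (hν : Up n C ν) (hC : 0 < C)
    (hl : ∀ R, ∀ᶠ k in UF, Low n C (νk k) 0 R) : LowAll n C ν := by
  have := hν.isLocallyFinite
  intro x hx r hr
  have key : ∀ r' ∈ Set.Ioo 0 r, ENNReal.ofReal (r' ^ n / C) ≤ ν (ball x r) := by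
    intro r' hr'
    have ht : 0 < (r - r') / 2 := half_pos (sub_pos.2 hr'.2)
    have e : r = (r' + (r - r') / 2) + (r - r') / 2 := by ring
    rw [e]
    refine La_vag_ge hv h ht ?_
    filter_upwards [hv.near_support h hν hx ht, hl (‖x‖ + r)] with k ⟨y, hy1, hy2⟩ hk
    have h1 : dist y 0 < ‖x‖ + r := by
      have := dist_triangle y x 0
      rw [dist_zero_right x] at this
      linarith [hr'.1]
    refine (hk y hy1 h1 r' hr'.1 (by linarith [norm_nonneg x, hr'.2])).trans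
      (measure_mono fun z hz => mem_closedBall.2 ?_)
    linarith [dist_triangle z y x, mem_ball.1 hz]
  have hc : Tendsto (fun r' : ℝ => ENNReal.ofReal (r' ^ n / C)) (𝓝[<] r)
      (𝓝 (ENNReal.ofReal (r ^ n / C))) :=
    ENNReal.tendsto_ofReal
      ((((continuous_pow n).div_const C).tendsto r).mono_left nhdsWithin_le_nhds)
  exact le_of_tendsto hc (mem_of_superset (Ioo_mem_nhdsLT hr) key)

theorem Vag.zero_mem (hv : Vag νk ν) (h : ∀ k, Up n C (νk k)) (hν : Up n C ν) (hC : 0 < C)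
    (hl : ∀ᶠ k in UF, Low n C (νk k) 0 1) (h0 : ∀ᶠ k in UF, (0 : Eu m) ∈ (νk k).support) :
    (0 : Eu m) ∈ ν.support := by
  have := hν.isLocallyFinite
  refine (Measure.mem_support_iff_forall _).2 fun U hU => ?_
  obtain ⟨ε, hε, hU'⟩ := Metric.mem_nhds_iff.1 hU
  have hr : 0 < min (ε / 2) 1 := lt_min (half_pos hε) one_pos
  have h1 : ENNReal.ofReal (min (ε / 2) 1 ^ n / C) ≤ ν (ball 0 (min (ε / 2) 1 + ε / 2)) := by
    refine La_vag_ge hv h (half_pos hε) ?_
    filter_upwards [hl, h0] with k hk hk0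
    exact (hk 0 hk0 (by simp) _ hr (min_le_right _ _)).trans (measure_mono ball_subset_closedBall)
  refine lt_of_lt_of_le (ENNReal.ofReal_pos.2 (by positivity)) (h1.trans (measure_mono ?_))
  exact (ball_subset_ball (by linarith [min_le_left (ε / 2) 1])).trans hU'

theorem Vag.tendsto_dec (hv : Vag νk ν) (h : ∀ k, Up n C (νk k)) (hν : Up n C ν) {K : ℝ}
    {φ : Eu m → ℝ} (hφ : Dec (n + 1) K φ) :
    Tendsto (fun k => ∫ y, φ y ∂νk k) UF (𝓝 (∫ y, φ y ∂ν)) := by
  refine Metric.tendsto_nhds.2 fun ε hε => ?_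
  obtain ⟨R, hR, hR'⟩ := La_exists_R (K * (cK n * max C 0)) (ε := ε / 3) (by positivity)
  rw [mul_div_assoc] at hR'
  have h1 := Metric.tendsto_nhds.1 (hv (fun y => φ y * cut 0 R 1 y)
    (hφ.1.mul (La_cut_cont 0 R one_pos)) (La_cut_supp 0 R one_pos).mul_left) (ε / 3) (by positivity)
  have h2 := abs_le.1
    ((La_cut_tail (hν.mono (le_max_left C 0)) (le_max_right _ _) hφ hR).trans hR')
  filter_upwards [h1] with k hk
  have h3 := abs_le.1
    ((La_cut_tail ((h k).mono (le_max_left C 0)) (le_max_right _ _) hφ hR).trans hR')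
  rw [Real.dist_eq, abs_lt] at hk ⊢
  constructor <;> linarith [h2.1, h2.2, h3.1, h3.2, hk.1, hk.2]

theorem Vag.tendsto_var (hv : Vag νk ν) (h : ∀ k, Up n C (νk k)) (hν : Up n C ν) {K : ℝ}
    {φk : ℕ → Eu m → ℝ} {φ : Eu m → ℝ} (hφk : ∀ᶠ k in UF, Dec (n + 1) K (φk k))
    (hφ : Dec (n + 1) K φ)
    (hu : ∀ R ε, 0 < ε → ∀ᶠ k in UF, ∀ y, ‖y‖ ≤ R → |φk k y - φ y| ≤ ε) :
    Tendsto (fun k => ∫ y, φk k y ∂νk k) UF (𝓝 (∫ y, φ y ∂ν)) := by
  refine Metric.tendsto_nhds.2 fun ε hε => ?_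
  have hK := La_dec_nonneg hφ
  obtain ⟨R, hR, hR'⟩ := La_exists_R (2 * K * (cK n * max C 0)) (ε := ε / 3) (by positivity)
  rw [mul_div_assoc] at hR'
  obtain ⟨S, hS, hS'⟩ := La_exists_R (max C 0 * R ^ n) (ε := ε / 3) (by positivity)
  have h1 := Metric.tendsto_nhds.1 (hv.tendsto_dec h hν hφ) (ε / 3) (by positivity)
  filter_upwards [h1, hφk, hu R S⁻¹ (inv_pos.2 hS)] with k hk hk1 hk2
  have h2 := La_split ((h k).mono (le_max_left C 0)) (le_max_right _ _)
    (f := fun y => φk k y - φ y) (K := 2 * K) (by positivity) (inv_pos.2 hS).le hR hk2 fun y => by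
      have := abs_sub (φk k y) (φ y)
      linarith [hk1.2 y, hφ.2 y]
  rw [integral_sub ((h k).integrable_dec hk1) ((h k).integrable_dec hφ), inv_mul_eq_div, abs_le] at h2
  rw [Real.dist_eq, abs_lt] at hk ⊢
  constructor <;> linarith [h2.1, h2.2, hk.1, hk.2]

theorem Vag.hh (hv : Vag νk ν) (h : ∀ k, Up n C (νk k)) (hν : Up n C ν) {s : ℝ} (hs : 0 < s)
    {L R : ℝ} {x0 : Eu m} {ψ : Eu m → ℝ} (hψ : Tst L x0 R ψ) :
    Tendsto (fun k => ∫ x, ψ x • hh n (νk k) s x ∂νk k) UF (𝓝 (∫ x, ψ x • hh n ν s x ∂ν)) := by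
  wlog hC : 0 ≤ C generalizing C
  · exact this (C := 0) (fun k => (h k).mono (not_le.1 hC).le) (hν.mono (not_le.1 hC).le) le_rfl
  have hpt : ∀ x, Tendsto (fun k => R85.hh n (νk k) s x) UF (𝓝 (R85.hh n ν s x)) := fun x => by
    refine limb_coord fun i => ?_
    obtain ⟨c, -, hc⟩ := hh_integrand_le (m := m) n hs ‖x‖
    simp only [R85.hh, limb_int (hh_integrable (h _) hs x), limb_int (hh_integrable hν hs x)]
    refine hv.tendsto_dec h hν (K := c) ⟨?_, fun y => (limb_abs _ i).trans (hc x y le_rfl)⟩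
    exact (EuclideanSpace.proj i : Eu m →L[ℝ] ℝ).continuous.comp
      (((continuous_KK n hs).comp (continuous_const.sub continuous_id)).add
        (continuous_KK n one_pos))
  obtain ⟨B, hB0, hB⟩ := limb_hh_bd n m hC hs (‖x0‖ + R)
  obtain ⟨K, hK0, hK⟩ := dec_of_hasCompactSupport (n + 1) hψ.lip.continuous hψ.hasCompactSupport
  have hd : ∀ μ : Measure (Eu m), Up n C μ → ∀ i,
      Dec (n + 1) (K * B) fun x => (ψ x • R85.hh n μ s x) i := fun μ hμ i => by
    refine ⟨(EuclideanSpace.proj i : Eu m →L[ℝ] ℝ).continuous.comp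
      (hψ.lip.continuous.smul (continuous_hh hμ hs)), fun y => (limb_abs _ i).trans ?_⟩
    have := kap_nonneg (n + 1) 1 y
    by_cases hy : ‖y‖ ≤ ‖x0‖ + R
    · rw [norm_smul, mul_right_comm]
      exact mul_le_mul (hK.2 y) (hB μ hμ y hy) (norm_nonneg _) (by positivity)
    · rw [hψ.supp y (by rw [dist_eq_norm]; linarith [norm_sub_norm_le y x0]), zero_smul, norm_zero]
      positivity
  refine limb_coord fun i => ?_
  simp only [limb_int (Tst.integrable_smul_hh (h _) hs hψ),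
    limb_int (Tst.integrable_smul_hh hν hs hψ)]
  refine hv.tendsto_var h hν (Eventually.of_forall fun k => hd _ (h k) i) (hd _ hν i)
    fun R' ε hε => ?_
  filter_upwards [unif_of_equilip (R := R') (Eventually.of_forall fun k x y _ _ =>
    hh_lip (h k) hC hs x y) (fun x y _ _ => hh_lip hν hC hs x y) (fun x _ => hpt x)
    (ε := ε / (K + 1)) (by positivity)] with k hk y hy
  rw [← PiLp.sub_apply, ← smul_sub]
  refine (limb_abs _ i).trans ?_
  have h1 : |ψ y| ≤ K + 1 :=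
    (hK.2 y).trans ((mul_le_of_le_one_right hK0 (kap_le_one _ _)).trans (by linarith))
  rw [norm_smul]
  refine (mul_le_mul h1 (hk y hy) (norm_nonneg _) (by positivity)).trans (le_of_eq ?_)
  field_simp

theorem Vag.refl (hv : Vag νk ν) (h : ∀ k, Up n C (νk k)) (hν : Up n C ν) (D : ℝ)
    (hH : ∀ L R ε, 0 ≤ L → 0 < R → 0 < ε → ∀ᶠ k in UF, ∀ ψ, Tst L 0 R ψ → ∫ y, ψ y ∂νk k = 0 →
      ∀ s, 0 < s → ‖∫ x, ψ x • R85.hh n (νk k) s x ∂νk k‖ ≤ ε + D * L * R ^ n * s) :
    Refl n ν := by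
  intro L R ψ hψ h0
  by_cases hz : ν = 0
  · simp only [hz, integral_zero_measure]
    exact tendsto_const_nhds
  obtain ⟨R', hR, hR0, hb⟩ := limb_pos hν hz R
  have t0 := cut_tst (0 : Eu m) R' one_pos
  have t1 : Tst |L| 0 (R' + 1) ψ := hψ.mono (le_abs_self L) (by rw [dist_self]; linarith)
  have ha := hv ψ hψ.lip.continuous hψ.hasCompactSupport
  have hb' := hv _ t0.lip.continuous t0.hasCompactSupport
  have hc := (ha.div hb' hb.ne').neg
  rw [h0, zero_div, neg_zero] at hc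
  have key : ∀ s, 0 < s →
      ‖∫ x, ψ x • R85.hh n ν s x ∂ν‖ ≤ D * (|L| + 1) * (R' + 1) ^ n * s := fun s hs => by
    refine le_of_forall_pos_le_add fun ε hε => ?_
    have h1 := ((hv.hh h hν hs hψ).add (hc.smul (hv.hh h hν hs t0))).norm
    rw [zero_smul, add_zero] at h1
    refine le_of_tendsto h1 ?_
    filter_upwards [hH (|L| + 1) (R' + 1) ε (by positivity) (by positivity) hε,
      hb'.eventually_ne hb.ne', hc.abs.eventually_le_const (by simp : |(0 : ℝ)| < 1)]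
      with k h2 h3 h4
    have h5 := h2 _ ((t1.add (t0.const_mul _)).mono (x1 := 0) (by
      rw [div_one, mul_one]; exact add_le_add le_rfl h4) (by simp)) (by
      rw [integral_add (hψ.integrable (h k)) ((t0.integrable (h k)).const_mul _),
        integral_const_mul]
      simp only [Pi.div_apply]
      field_simp
      ring) s hs
    simp only [add_smul, mul_smul] at h5
    rw [integral_add (Tst.integrable_smul_hh (h k) hs hψ)
      ((Tst.integrable_smul_hh (h k) hs t0).fun_smul _), integral_smul] at h5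
    linarith
  refine squeeze_zero_norm' (eventually_nhdsWithin_of_forall key) ?_
  have : Tendsto (fun s : ℝ => D * (|L| + 1) * (R' + 1) ^ n * s) (𝓝 0)
      (𝓝 (D * (|L| + 1) * (R' + 1) ^ n * 0)) := tendsto_id.const_mul _
  rw [mul_zero] at this
  exact this.mono_left nhdsWithin_le_nhds

/-- Limits of reflectionless measures. -/
theorem Vag.refl_of_refl (hv : Vag νk ν) (hn : 1 ≤ n) (hC : 0 ≤ C) (h : ∀ k, Up n C (νk k))
    (hν : Up n C ν) (hr : ∀ k, Refl n (νk k)) : Refl n ν :=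
  hv.refl h hν ((n + 2) * cK n * C ^ 2) fun _ _ _ hL hR hε => Eventually.of_forall
    fun k _ hψ h0 _ hs => ((hr k).bound (h k) hn hC hψ hL hR h0 hs).trans
      (le_add_of_nonneg_left hε.le)

/-- Limits of finite measures with small `θ` in growing windows (`TT_approx`, `En_tst_le`). -/
theorem Vag.refl_of_small [∀ k, IsFiniteMeasure (νk k)] (hv : Vag νk ν) (hn : 1 ≤ n) (hm : 1 ≤ m)
    (hC : 0 ≤ C) (h : ∀ k, Up n C (νk k)) (hν : Up n C ν)
    (hs : ∀ R θ, 0 < θ → ∀ᶠ k in UF, Small n (νk k) 0 R θ) : Refl n ν := by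
  refine hv.refl h hν ((n + 2) * cK n * C ^ 2) fun L R ε hL hR hε => ?_
  have hE : 0 ≤ 8 * cK n * C ^ 2 * L ^ 2 * R ^ (n + 1) := by have := cK_pos n; positivity
  filter_upwards [hs R (ε ^ 2 / (8 * cK n * C ^ 2 * L ^ 2 * R ^ (n + 1) + 1)) (by positivity)]
    with k hk ψ hψ h0 s hs
  have h1 : ‖TT n (νk k) ψ‖ ≤ ε := by
    refine abs_le_of_sq_le_sq' ((hk L ψ hψ h0).trans ?_) hε.le |>.2
    refine (mul_le_mul_of_nonneg_left (En_tst_le (h k) hn hm hC hψ hL hR) (by positivity)).trans ?_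
    rw [div_mul_eq_mul_div, div_le_iff₀ (by positivity)]
    nlinarith
  have h2 := TT_approx (h k) hn hC hψ hL hR h0 hs
  have h3 := norm_sub_norm_le ((2 : ℝ) • ∫ x, ψ x • R85.hh n (νk k) s x ∂νk k) (TT n (νk k) ψ)
  rw [norm_sub_rev, norm_smul, Real.norm_two] at h3
  linarith

/-- Upper semicontinuity of `bb`. -/
theorem Vag.bb_lt (hv : Vag νk ν) (hnm : n ≤ m) (h : ∀ k, Up n C (νk k)) (hν : Up n C ν)
    {x : Eu m} {r ε : ℝ} (hr : 0 < r) (hb : bb n ν x r < ε) :
    ∃ t, 0 < t ∧ ∀ᶠ k in UF, ∀ y, dist y x < t → bb n (νk k) y r < ε := by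
  obtain ⟨P, hP⟩ := exists_bP_lt hnm hb
  obtain ⟨ε', h1, h2⟩ := exists_between hP
  have h0 : 0 ≤ ε' := (bP_nonneg P x hr).trans h1.le
  obtain ⟨K, hK⟩ := bP_dec P x hr
  have hc : Continuous fun t : ℝ => (1 + t / r) ^ (n + 3) * ε' := by fun_prop
  obtain ⟨t, ht, ht'⟩ := ((((hc.tendsto 0).eventually_lt_const (u := ε)
    (by simpa using h2)).filter_mono nhdsWithin_le_nhds).and
      (self_mem_nhdsWithin (s := Set.Ioi (0 : ℝ)))).exists
  refine ⟨t, ht', ?_⟩
  filter_upwards [(hv.tendsto_dec h hν hK).eventually_lt_const h1] with k hk y hy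
  refine ((bb_le_bP P y hr).trans ((bP_le_mul (h k) P x y hr le_rfl).trans ?_)).trans_lt ht
  rw [div_self hr.ne', one_pow, mul_one, dist_comm]
  have := bP_nonneg (ν := νk k) P x hr
  gcongr
  exact hk.le

/-- Limits of planes through bounded base points. -/
theorem exists_pl_lim (P : ℕ → Pl n m) {B : ℝ} (hB : ∀ᶠ k in UF, ‖(P k).q‖ ≤ B) :
    ∃ P0 : Pl n m, Tendsto (fun k => (P k).q) UF (𝓝 P0.q) ∧
      Tendsto (fun k => (P k).I) UF (𝓝 P0.I) ∧ Tendsto (fun k => (P k).co) UF (𝓝 P0.co) ∧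
      Tendsto (fun k => (P k).pr) UF (𝓝 P0.pr) := by
  obtain ⟨q, -, hq⟩ := exists_tendsto_UF hB
  have : ProperSpace (Eu n →L[ℝ] Eu m) := FiniteDimensional.proper_real _
  obtain ⟨I, -, hI⟩ := exists_tendsto_UF (a := fun k => (P k).I) (B := 1) (Eventually.of_forall
    fun k => ContinuousLinearMap.opNorm_le_bound _ zero_le_one fun t => by rw [(P k).hI, one_mul])
  have h1 : ∀ t, ‖I t‖ = ‖t‖ := fun t => by
    have := (((ContinuousLinearMap.apply ℝ (Eu m) t).continuous.tendsto I).comp hI).norm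
    simp only [Function.comp, ContinuousLinearMap.apply_apply, Pl.hI] at this
    exact tendsto_nhds_unique this tendsto_const_nhds
  have h2 : Tendsto (fun k => (P k).co) UF (𝓝 (Pl.co ⟨q, I, h1⟩)) :=
    (ContinuousLinearMap.adjoint.continuous.tendsto I).comp hI
  exact ⟨⟨q, I, h1⟩, hq, hI, h2,
    ((continuous_fst.clm_comp continuous_snd).tendsto (I, Pl.co ⟨q, I, h1⟩)).comp
      (hI.prodMk_nhds h2)⟩

end Crest.Agent.R85
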