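import Crest.Agent.R85.Cacc
import Crest.Agent.R85.CoreAax
import Crest.Agent.R85.Lim
import Crest.Agent.R85.CoreAbx

/-!
# Two analytic lemmas for the blow-up (task CoreA)

`En_diff_le`: `En 0 f ψ - En s f ψ = ∬ (fx-fy)(ψx-ψy)(κ_0-κ_s)`.  On `B × B`, `B = ball 0 (2R)`,
Cauchy–Schwarz: `≤ √M · √(L² ν(B) (n+2) cK C s)` (`κ_0 - κ_s ≤ κ_0`, `Up.diff`).  If `x ∈ ball 0 R`
and `y ∉ B` then `ψ y = 0`, `(κ_0-κ_s)(x-y) ≤ c s² kap (n+3) 1 y`, `|ψ x| ≤ L R`,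
`|fx - fy| ≤ |fx| + |fy|`, `|f| ≤ (1 + f²)/2`.  If `x ∈ B \ ball 0 R`, `y ∉ B` the integrand is zero.

`strong`: for `x ∈ ball 0 1` in the support and `s < 1/2`, `φ_s = cut 0 (s/2) (s/2)`,
`μ x = ∫ φ_s(x-y) dν_k(y) ≥ (s/2)^n/C`, `F x μ x = ∫ φ_s(x-y)(Fx - Fy) + G_k x`,
`G_k x = ∫ φ_s(x-y) F y dν_k(y) → 0` uniformly on `‖x‖ ≤ 1` (`unif_of_equilip`).  So
`F x² ≤ 2 μ⁻¹ ∫_{‖x-y‖<s} (Fx-Fy)² + 2 μ⁻² G²` and `1 ≤ s^(n+1) κ_0(x-y)` for `0 < ‖x-y‖ < s`.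
-/

set_option autoImplicit false

open MeasureTheory Metric Filter Topology
open scoped RealInnerProductSpace

noncomputable section

namespace Crest.Agent.R85

variable {m : ℕ}

theorem En_diff_le (n m : ℕ) (hn : 1 ≤ n) (hm : 1 ≤ m) {C : ℝ} (hC : 1 ≤ C) {R : ℝ} (hR : 1 ≤ R)
    (M : ℝ) : ∃ c, 0 ≤ c ∧ ∀ (ν : Measure (Eu m)) [IsFiniteMeasure ν] (Lf L : ℝ)
      (f ψ : Eu m → ℝ), Up n C ν → Lip Lf f → ∫ y, f y ^ 2 * kap (n + 3) 1 y ∂ν ≤ 1 →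
      ∫ p in ball (0 : Eu m) (2 * R) ×ˢ ball (0 : Eu m) (2 * R),
        (f p.1 - f p.2) ^ 2 * kap (n + 1) 0 (p.1 - p.2) ∂(ν.prod ν) ≤ M →
      0 ≤ L → Tst L 0 R ψ → ∀ s, 0 < s → s ≤ 1 →
        |En n 0 ν f ψ - En n s ν f ψ| ≤ c * L * √s := by
  refine ⟨_, ?_, fun ν _ Lf L f ψ h hf h1 hM hL hψ s hs hs1 =>
    CoreAa_main hn hm (by linarith) hR h hf h1 hM hL hψ hs hs1⟩
  have := cK_pos n
  have hC0 : 0 ≤ C := by linarith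
  have hR0 : 0 ≤ R := by linarith
  positivity

theorem strong {n : ℕ} (hn : 1 ≤ n) {C : ℝ} (hC : 1 ≤ C) {νk : ℕ → Measure (Eu m)}
    [∀ k, IsFiniteMeasure (νk k)] (h : ∀ k, Up n C (νk k))
    (hl : ∀ᶠ k in UF, Low n C (νk k) 0 1) {F : ℕ → Eu m → ℝ} {L : ℕ → ℝ}
    (hF : ∀ k, Lip (L k) (F k)) {M : ℝ}
    (hE : ∀ᶠ k in UF, ∫ p in ball (0 : Eu m) 2 ×ˢ ball (0 : Eu m) 2,
      (F k p.1 - F k p.2) ^ 2 * kap (n + 1) 0 (p.1 - p.2) ∂((νk k).prod (νk k)) ≤ M)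
    (hM : ∀ᶠ k in UF, ∫ y in ball (0 : Eu m) 2, F k y ^ 2 ∂νk k ≤ M)
    (hw : ∀ φ : Eu m → ℝ, Continuous φ → HasCompactSupport φ →
      Tendsto (fun k => ∫ y, φ y * F k y ∂νk k) UF (𝓝 0)) :
    Tendsto (fun k => ∫ y in ball (0 : Eu m) 1, F k y ^ 2 ∂νk k) UF (𝓝 0) :=
  sb_strong hn hC h hl hF hE hM hw

end Crest.Agent.R85
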