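import Crest.Agent.R85.CoreA

/-!
# Auxiliary lemmas for `core` (task Riesz-a, helper63)
-/

set_option autoImplicit false

open MeasureTheory Metric Filter Topology
open scoped RealInnerProductSpace

noncomputable section

namespace Crest.Agent.R85

variable {m : ℕ}

/-- The local energy of a Lipschitz function is bounded uniformly in the measure. -/
theorem cba_energy {n : ℕ} (hn : 1 ≤ n) (hm : 1 ≤ m) {C : ℝ} (hC : 0 ≤ C) {La : ℝ} {a : Eu m → ℝ}
    (ha : Lip La a) : ∃ M : ℝ, ∀ (ν : Measure (Eu m)) [IsFiniteMeasure ν], Up n C ν →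
      ∫ p in ball (0 : Eu m) 2 ×ˢ ball (0 : Eu m) 2,
        (a p.1 - a p.2) ^ 2 * kap (n + 1) 0 (p.1 - p.2) ∂(ν.prod ν) ≤ M := by
  obtain ⟨L'', hψ⟩ := (cut_tst (0 : Eu m) 2 one_pos).mul_lip ha
  have hψ' : Tst |L''| 0 (2 + 1) (fun y => cut (0 : Eu m) 2 1 y * a y) :=
    hψ.mono (le_abs_self _) (by simp)
  refine ⟨8 * cK n * C ^ 2 * |L''| ^ 2 * (2 + 1) ^ (n + 1), fun ν _ h => ?_⟩
  refine le_trans ?_ (En_tst_le h hn hm hC hψ' (abs_nonneg _) (by norm_num))
  have hI := En_integrable h hn (le_refl (0 : ℝ)) hψ'.lip hψ'.lip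
  unfold En
  refine le_trans (le_of_eq ?_) (setIntegral_le_integral (s := ball (0 : Eu m) 2 ×ˢ ball 0 2) hI
    (Eventually.of_forall fun p => mul_nonneg (mul_self_nonneg _) (kap_nonneg _ _ _)))
  refine setIntegral_congr_fun (measurableSet_ball.prod measurableSet_ball) fun p hp => ?_
  have h1 : cut (0 : Eu m) 2 1 p.1 = 1 := cut_eq_one one_pos (mem_ball.1 hp.1).le
  have h2 : cut (0 : Eu m) 2 1 p.2 = 1 := cut_eq_one one_pos (mem_ball.1 hp.2).le
  simp only [h1, h2, one_mul, sq]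

theorem cba_integrable_sq {ν : Measure (Eu m)} [IsFiniteMeasure ν] {L : ℝ} {f : Eu m → ℝ}
    (hf : Lip L f) (R : ℝ) : IntegrableOn (fun y => f y ^ 2) (ball (0 : Eu m) R) ν :=
  ((hf.continuous.pow 2).continuousOn.integrableOn_compact
    (isCompact_closedBall (0 : Eu m) R)).mono_set ball_subset_closedBall

/-- Local `L²` norm from the weighted norm. -/
theorem cba_mass {n : ℕ} {ν : Measure (Eu m)} [IsFiniteMeasure ν] {L : ℝ} {f : Eu m → ℝ}
    (hf : Lip L f) (h1 : ∫ y, f y ^ 2 * kap (n + 3) 1 y ∂ν ≤ 1) :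
    ∫ y in ball (0 : Eu m) 2, f y ^ 2 ∂ν ≤ 3 ^ (n + 3) := by
  have hI := hf.integrable_sq_kap (n := n) (ν := ν)
  have h3 : (0 : ℝ) < 3 ^ (n + 3) := by positivity
  calc ∫ y in ball (0 : Eu m) 2, f y ^ 2 ∂ν
      ≤ ∫ y in ball (0 : Eu m) 2, 3 ^ (n + 3) * (f y ^ 2 * kap (n + 3) 1 y) ∂ν := by
        refine setIntegral_mono_on (cba_integrable_sq hf 2) (hI.const_mul _).integrableOn
          measurableSet_ball fun y hy => ?_
        have hN : N 1 y ≤ 3 := by
          have := N_le (zero_le_one) y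
          have h2 : ‖y‖ < 2 := mem_ball_zero_iff.1 hy
          linarith
        have hN0 : 0 < N 1 y ^ (n + 3) := pow_pos (N_pos one_pos y) _
        have hk : 1 ≤ 3 ^ (n + 3) * kap (n + 3) 1 y := by
          unfold kap
          rw [← div_eq_mul_inv, le_div_iff₀ hN0, one_mul]
          exact pow_le_pow_left₀ (N_nonneg _ _) hN _
        calc f y ^ 2 = 1 * f y ^ 2 := (one_mul _).symm
          _ ≤ (3 ^ (n + 3) * kap (n + 3) 1 y) * f y ^ 2 :=
              mul_le_mul_of_nonneg_right hk (sq_nonneg _)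
          _ = 3 ^ (n + 3) * (f y ^ 2 * kap (n + 3) 1 y) := by ring
    _ ≤ ∫ y, 3 ^ (n + 3) * (f y ^ 2 * kap (n + 3) 1 y) ∂ν :=
        setIntegral_le_integral (hI.const_mul _) (Eventually.of_forall fun y =>
          mul_nonneg h3.le (mul_nonneg (sq_nonneg _) (kap_nonneg _ _ _)))
    _ ≤ 3 ^ (n + 3) := by
        rw [integral_const_mul]
        exact mul_le_of_le_one_right h3.le h1

/-- Local `L²` norm of a fixed Lipschitz function. -/
theorem cba_mass' {n : ℕ} {C : ℝ} (hC : 0 ≤ C) {ν : Measure (Eu m)} [IsFiniteMeasure ν]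
    (h : Up n C ν) {L : ℝ} {a : Eu m → ℝ} (ha : Lip L a) :
    ∫ y in ball (0 : Eu m) 2, a y ^ 2 ∂ν ≤ ((|a 0| + |L|) * 3) ^ 2 * (C * 2 ^ n) := by
  have hb : ∀ y ∈ ball (0 : Eu m) 2, ‖a y ^ 2‖ ≤ ((|a 0| + |L|) * 3) ^ 2 := by
    intro y hy
    have hN : N 1 y ≤ 3 := by
      have := N_le (zero_le_one) y
      have h2 : ‖y‖ < 2 := mem_ball_zero_iff.1 hy
      linarith
    rw [norm_pow, Real.norm_eq_abs]
    refine pow_le_pow_left₀ (abs_nonneg _) ((ha.abs_le y).trans ?_) 2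
    exact mul_le_mul_of_nonneg_left hN (by positivity)
  have h1 := norm_setIntegral_le_of_norm_le_const (μ := ν) (measure_lt_top _ _) hb
  refine ((le_abs_self _).trans h1).trans ?_
  exact mul_le_mul_of_nonneg_left (h.real_le hC 0 two_pos) (sq_nonneg _)

/-- From weak to strong convergence towards a fixed Lipschitz function. -/
theorem cba_strong {n : ℕ} (hn : 1 ≤ n) (hm : 1 ≤ m) {C : ℝ} (hC : 1 ≤ C)
    {νk : ℕ → Measure (Eu m)} [∀ k, IsFiniteMeasure (νk k)] {f : ℕ → Eu m → ℝ} {L : ℕ → ℝ}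
    (h : ∀ k, Up n C (νk k)) (h1 : ∀ᶠ k in UF, ENNReal.ofReal (1 / C) ≤ νk k (ball 0 1))
    (hl : ∀ᶠ k in UF, Low n C (νk k) 0 1) (hf : ∀ k, Lip (L k) (f k))
    (hw : ∀ k, ∫ y, f k y ^ 2 * kap (n + 3) 1 y ∂νk k ≤ 1)
    (hE : ∀ᶠ k in UF, ∀ L' ψ, Tst L' 0 (2 + 1) ψ → ∫ y, ψ y ∂νk k = 0 →
      En n 0 (νk k) (f k) ψ ^ 2 ≤ 1 * En n 0 (νk k) ψ ψ)
    {La : ℝ} {a : Eu m → ℝ} (ha : Lip La a)
    (hweak : ∀ φ : Eu m → ℝ, Continuous φ → HasCompactSupport φ →
      Tendsto (fun k => ∫ y, φ y * (f k y - a y) ∂νk k) UF (𝓝 0)) :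
    Tendsto (fun k => ∫ y in ball (0 : Eu m) 1, (f k y - a y) ^ 2 ∂νk k) UF (𝓝 0) := by
  have hC0 : 0 ≤ C := zero_le_one.trans hC
  obtain ⟨cR, -, hcR⟩ := cacc n m hn hm hC (R := 2) one_le_two
  obtain ⟨M1, hM1⟩ := cba_energy hn hm hC0 ha
  have hF : ∀ k, Lip (L k + |(-1 : ℝ)| * La) (fun y => f k y - a y) := fun k => by
    have := (hf k).add (ha.const_mul (-1))
    simpa only [neg_mul, one_mul, ← sub_eq_add_neg] using this
  refine strong (M := max (2 * cR + 2 * M1)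
    (2 * 3 ^ (n + 3) + 2 * (((|a 0| + |La|) * 3) ^ 2 * (C * 2 ^ n)))) hn hC h hl hF ?_ ?_ hweak
  · filter_upwards [h1, hE] with k hk1 hkE
    refine le_trans ?_ (le_max_left _ _)
    have e1 := hcR (νk k) (L k) (f k) (h k) hk1 (hf k) (hw k)
      (fun L' ψ hψ h0 => by simpa only [one_mul] using hkE L' ψ hψ h0)
    have e2 := hM1 (νk k) (h k)
    have hint : ∀ {L' : ℝ} {g : Eu m → ℝ}, Lip L' g → IntegrableOn (fun p : Eu m × Eu m =>
        (g p.1 - g p.2) ^ 2 * kap (n + 1) 0 (p.1 - p.2)) (ball (0 : Eu m) 2 ×ˢ ball (0 : Eu m) 2)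
          ((νk k).prod (νk k)) := fun hg => by
      have := En_integrable (h k) hn (le_refl (0 : ℝ)) hg hg
      simp only [← sq] at this
      exact this.integrableOn
    calc _ ≤ ∫ p in ball (0 : Eu m) 2 ×ˢ ball (0 : Eu m) 2,
          (2 * ((f k p.1 - f k p.2) ^ 2 * kap (n + 1) 0 (p.1 - p.2))
            + 2 * ((a p.1 - a p.2) ^ 2 * kap (n + 1) 0 (p.1 - p.2))) ∂((νk k).prod (νk k)) := by
          refine integral_mono (hint (hF k))
            (((hint (hf k)).const_mul 2).add ((hint ha).const_mul 2)) fun p => ?_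
          have hk := kap_nonneg (n + 1) 0 (p.1 - p.2)
          have hq : (f k p.1 - a p.1 - (f k p.2 - a p.2)) ^ 2
              ≤ 2 * (f k p.1 - f k p.2) ^ 2 + 2 * (a p.1 - a p.2) ^ 2 := by
            nlinarith [sq_nonneg (f k p.1 - f k p.2 + (a p.1 - a p.2))]
          have := mul_le_mul_of_nonneg_right hq hk
          beta_reduce
          linarith
      _ ≤ 2 * cR + 2 * M1 := by
          rw [integral_add ((hint (hf k)).const_mul 2) ((hint ha).const_mul 2), integral_const_mul,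
            integral_const_mul]
          linarith
  · refine Eventually.of_forall fun k => le_trans ?_ (le_max_right _ _)
    have e1 := cba_mass (hf k) (hw k)
    have e2 := cba_mass' hC0 (h k) ha
    calc _ ≤ ∫ y in ball (0 : Eu m) 2, (2 * f k y ^ 2 + 2 * a y ^ 2) ∂νk k := by
          refine integral_mono (cba_integrable_sq (hF k) 2)
            (((cba_integrable_sq (hf k) 2).const_mul 2).add
              ((cba_integrable_sq ha 2).const_mul 2)) fun y => ?_
          beta_reduce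
          nlinarith [sq_nonneg (f k y + a y)]
      _ ≤ _ := by
          rw [integral_add ((cba_integrable_sq (hf k) 2).const_mul 2)
            ((cba_integrable_sq ha 2).const_mul 2), integral_const_mul, integral_const_mul]
          linarith

end Crest.Agent.R85
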