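import Crest.Agent.R85.LiouB

/-!
# Auxiliary lemmas for `liou` (task LiouC-b)
-/

set_option autoImplicit false

open MeasureTheory Metric Filter Topology
open scoped RealInnerProductSpace

noncomputable section

namespace Crest.Agent.R85

variable {n p : ℕ} {K K' B : ℝ} {φ ψ χ : Eu n → ℝ} {Φ : (Eu n → ℝ) → ℝ}

theorem lcb_kap_shift (p : ℕ) (x y : Eu n) : kap p 1 (y - x) ≤ (1 + ‖x‖) ^ p * kap p 1 y := by
  simpa using kap_peetre p one_pos (y - x) y

theorem lcb_kap_scale (p : ℕ) {s : ℝ} (hs : 0 < s) (z : Eu n) :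
    kap p 1 (s⁻¹ • z) = s ^ p * kap p s z := by
  have := kap_smul p hs 1 (s⁻¹ • z)
  rw [smul_inv_smul₀ hs.ne', mul_one] at this
  rw [this, mul_inv_cancel_left₀ (pow_ne_zero _ hs.ne')]

theorem lcb_kap_one (p : ℕ) {s : ℝ} (hs : 0 < s) :
    ∃ c : ℝ, 0 ≤ c ∧ ∀ x y : Eu n, kap p s (y - x) ≤ c * (1 + ‖x‖) ^ p * kap p 1 y := by
  rcases le_total s 1 with h | h
  · exact ⟨(1 / s) ^ p, by positivity, fun x y => (kap_le_mul p hs h _).trans (by
      rw [mul_assoc]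
      exact mul_le_mul_of_nonneg_left (lcb_kap_shift p x y) (by positivity))⟩
  · exact ⟨1, zero_le_one, fun x y => (kap_anti p zero_le_one h (N_pos one_pos _)).trans (by
      rw [one_mul]
      exact lcb_kap_shift p x y)⟩

theorem lcb_dec (hc : Continuous φ) {A s : ℝ} (hA : 0 ≤ A) (hs : 0 < s) {x : Eu n}
    (h : ∀ y, |φ y| ≤ A * kap p s (y - x)) : ∃ K, Dec p K φ := by
  obtain ⟨c, -, h1⟩ := lcb_kap_one (n := n) p hs
  exact ⟨A * (c * (1 + ‖x‖) ^ p), hc, fun y => (h y).trans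
    ((mul_le_mul_of_nonneg_left (h1 x y) hA).trans_eq (mul_assoc _ _ _).symm)⟩

theorem lcb_dec_sub (h : Dec p K φ) (h' : Dec p K' ψ) : Dec p (K + K') fun y => φ y - ψ y :=
  ⟨h.1.sub h'.1, fun y => (abs_sub _ _).trans (by rw [add_mul]; exact add_le_add (h.2 y) (h'.2 y))⟩

theorem lcb_sub (h : Fnl B Φ) (h1 : Dec (n + 2) K φ) (h2 : Dec (n + 2) K' ψ) :
    Φ (fun y => φ y - ψ y) = Φ φ - Φ ψ := by
  have := h.add _ _ _ _ (lcb_dec_sub h1 h2) h2
  simp only [sub_add_cancel] at this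
  exact eq_sub_of_add_eq this.symm

/-- The weighted bound at scale `t ≥ 1`. -/
theorem lcb_est (n : ℕ) : ∃ c : ℝ, 0 < c ∧ ∀ {B : ℝ} {Φ : (Eu n → ℝ) → ℝ}, Fnl B Φ →
    ∀ {φ : Eu n → ℝ} {A t : ℝ} {x : Eu n}, Continuous φ → 0 ≤ A → 1 ≤ t →
      (∀ y, |φ y| ≤ A * kap (n + 2) t (y - x)) →
      Φ φ ^ 2 ≤ B ^ 2 * (A ^ 2 * (1 + ‖x‖) ^ (n + 3) * (c / t)) := by
  obtain ⟨C, hC, hU, -⟩ := exists_up_volume n
  refine ⟨cK n * C, mul_pos (cK_pos n) (by linarith), fun {B Φ} h φ A t x hc hA ht hb => ?_⟩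
  have ht0 : 0 < t := by linarith
  obtain ⟨K, hK⟩ := lcb_dec hc hA ht0 hb
  obtain ⟨h1, h2⟩ := hU.int_kap (by linarith) x ht0 0
  rw [add_zero, pow_one] at h2
  refine (h.bound K φ hK).trans (mul_le_mul_of_nonneg_left ?_ (sq_nonneg B))
  refine le_trans ?_ (mul_le_mul_of_nonneg_left h2 (by positivity))
  rw [← integral_const_mul]
  refine integral_mono_of_nonneg (Eventually.of_forall fun y =>
    mul_nonneg (sq_nonneg _) (pow_nonneg (N_nonneg _ _) _)) (h1.const_mul _)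
    (Eventually.of_forall fun y => ?_)
  have a1 : N 1 y ≤ (1 + ‖x‖) * N t (y - x) := by
    have := N_peetre one_pos y (y - x)
    rw [sub_sub_cancel, div_one] at this
    exact this.trans (mul_le_mul_of_nonneg_left (N_mono zero_le_one ht _) (by positivity))
  have a2 : φ y ^ 2 ≤ (A * kap (n + 2) t (y - x)) ^ 2 := by
    rw [← sq_abs]
    exact pow_le_pow_left₀ (abs_nonneg _) (hb y) 2
  have a3 := kap_mul_N_pow (n + 1) (n + 3) ht0 (y - x)
  rw [show n + 1 + (n + 3) = n + 2 + (n + 2) by ring, kap_add] at a3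
  calc φ y ^ 2 * N 1 y ^ (n + 3)
      ≤ (A * kap (n + 2) t (y - x)) ^ 2 * ((1 + ‖x‖) * N t (y - x)) ^ (n + 3) :=
        mul_le_mul a2 (pow_le_pow_left₀ (N_nonneg _ _) a1 _) (pow_nonneg (N_nonneg _ _) _)
          (sq_nonneg _)
    _ = _ := by
        beta_reduce
        rw [kap_sub_comm _ _ x y, ← a3, mul_pow (1 + ‖x‖)]
        ring

theorem lcb_est0 (n : ℕ) : ∃ c : ℝ, 0 < c ∧ ∀ {B : ℝ} {Φ : (Eu n → ℝ) → ℝ}, Fnl B Φ →
    ∀ {φ : Eu n → ℝ} {A : ℝ}, 0 ≤ A → Dec (n + 2) A φ → |Φ φ| ≤ c * |B| * A := by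
  obtain ⟨c, hc, h1⟩ := lcb_est n
  refine ⟨√c, Real.sqrt_pos.2 hc, fun {B Φ} h φ A hA hφ => abs_le_of_sq_le_sq' ?_ (by positivity) |>
    abs_le.2⟩
  have := h1 h (x := 0) hφ.1 hA le_rfl (by simpa using hφ.2)
  rw [mul_pow, mul_pow, Real.sq_sqrt hc.le, sq_abs]
  simp only [norm_zero, add_zero, one_pow, div_one] at this
  linarith

theorem lcb_lam0_cs (hn : 1 ≤ n) (h : Fnl B Φ) (h1 : ContDiff ℝ (⊤ : ℕ∞) ψ)
    (h2 : HasCompactSupport ψ) (h3 : ∫ y, ψ y = 0) (h4 : Tendsto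
      (fun s => 2 * Φ (Lam n volume s ψ) - Φ (Lam n volume (s / 2) ψ)) (𝓝[>] 0) (𝓝 0)) :
    Φ (Lam0 ψ) = 0 := by
  obtain ⟨c, hc, he⟩ := lam_est n hn
  obtain ⟨c', hc', he'⟩ := lcb_est0 n
  obtain ⟨K, hK, hT⟩ := t2_of_contDiff h1 h2 (2 * n + 4)
  have a0 : Dec (n + 2) (c * K) (Lam0 ψ) := ⟨continuous_Lam0 hn hT, (he K ψ hT).2 h3⟩
  have a1 : Tendsto (fun s => Φ (Lam n volume s ψ)) (𝓝[>] 0) (𝓝 (Φ (Lam0 ψ))) := by
    rw [tendsto_iff_norm_sub_tendsto_zero]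
    have b1 : Tendsto (fun s : ℝ => c' * |B| * (c * K * s)) (𝓝[>] 0) (𝓝 0) := by
      have : Continuous fun s : ℝ => c' * |B| * (c * K * s) := by fun_prop
      simpa using (this.tendsto 0).mono_left nhdsWithin_le_nhds
    refine squeeze_zero' (Eventually.of_forall fun _ => norm_nonneg _) ?_ b1
    filter_upwards [Ioc_mem_nhdsGT one_pos] with s hs
    have b2 : Dec (n + 2) (c * K * s) fun y => Lam n volume s ψ y - Lam0 ψ y :=
      ⟨(continuous_Lam_volume hT hs.1).sub a0.1, (he K ψ hT).1 s hs.1 hs.2⟩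
    have b3 := h.add _ _ _ _ b2 a0
    simp only [sub_add_cancel] at b3
    rw [Real.norm_eq_abs, show Φ (Lam n volume s ψ) = _ from b3, add_sub_cancel_right]
    exact he' h (mul_nonneg (mul_nonneg hc hK) hs.1.le) b2
  have a2 : Tendsto (fun s : ℝ => s / 2) (𝓝[>] 0) (𝓝[>] 0) := by
    refine tendsto_nhdsWithin_iff.2 ⟨?_, eventually_nhdsWithin_of_forall fun s hs =>
      half_pos (a := s) hs⟩
    simpa using ((continuous_id.div_const (2 : ℝ)).tendsto 0).mono_left nhdsWithin_le_nhds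
  have := tendsto_nhds_unique ((a1.const_mul 2).sub (a1.comp a2)) h4
  linarith

theorem lcb_lam0 (hn : 1 ≤ n) (h : Fnl B Φ) (H : ∀ ψ : Eu n → ℝ, ContDiff ℝ (⊤ : ℕ∞) ψ →
    HasCompactSupport ψ → ∫ y, ψ y = 0 → Φ (Lam0 ψ) = 0) (ψ : SchwartzMap (Eu n) ℝ)
    (h0 : ∫ y, ψ y = 0) : Φ (Lam0 ψ) = 0 := by
  obtain ⟨c, hc, he⟩ := lam_est n hn
  obtain ⟨c', hc', he'⟩ := lcb_est0 n
  obtain ⟨K, -, hT⟩ := t2_schwartz ψ (2 * n + 4)
  refine abs_nonpos_iff.1 (le_of_forall_pos_le_add fun ε hε => ?_)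
  have hd : 0 < c' * |B| * c + 1 := by positivity
  obtain ⟨φ, h1, h2, h3, h4⟩ := t2_cutoff ψ h0 (2 * n + 4) (by omega) (div_pos hε hd)
  obtain ⟨K', -, hT'⟩ := t2_of_contDiff h1 h2 (2 * n + 4)
  have a1 : ∫ y, (ψ y - φ y) = 0 := by
    rw [integral_sub ψ.integrable (h1.continuous.integrable_of_hasCompactSupport h2), h0, h3, sub_zero]
  have a2 := he' h (by positivity) ⟨continuous_Lam0 hn h4, (he _ _ h4).2 a1⟩
  rw [funext (Lam0_sub hn hT hT'), lcb_sub h ⟨continuous_Lam0 hn hT, (he _ _ hT).2 h0⟩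
    ⟨continuous_Lam0 hn hT', (he _ _ hT').2 h3⟩, H φ h1 h2 h3, sub_zero] at a2
  refine a2.trans ?_
  rw [zero_add, ← mul_assoc, ← mul_div_assoc, div_le_iff₀ hd]
  nlinarith

variable {η : Eu n → ℝ}

theorem lcb_cont_dil (hc : Continuous η) (s : ℝ) : Continuous (dil η s) := by
  unfold dil
  fun_prop

theorem lcb_dil_le (hT : T2 p K η) {s : ℝ} (hs : 0 < s) (z : Eu n) :
    |dil η s z| ≤ (s ^ n)⁻¹ * K * s ^ p * kap p s z := by
  rw [dil, abs_mul, abs_of_pos (by positivity), mul_assoc, mul_assoc, ← lcb_kap_scale p hs]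
  exact mul_le_mul_of_nonneg_left (hT.d0 _) (by positivity)

theorem lcb_dec_dil (hK : 0 ≤ K) (hT : T2 p K η) {s : ℝ} (hs : 0 < s) (x : Eu n) :
    ∃ K', Dec p K' fun y => dil η s (y - x) :=
  lcb_dec ((lcb_cont_dil hT.cont s).comp (continuous_sub_right x)) (by positivity) hs
    fun y => lcb_dil_le hT hs (y - x)

/-- The symmetric second differences of `H` vanish. -/
theorem lcb_mid (h : Fnl B Φ) (hK : 0 ≤ K) (hT : T2 (n + 2) K η) {H : Eu n → ℝ}
    (hH : ∀ s x, 0 < s → Φ (fun y => dil η s (y - x)) = H x) (x z : Eu n) :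
    H (x + z) + H (x - z) = 2 * H x := by
  obtain ⟨c, hc, he⟩ := lcb_est n
  have key : ∀ᶠ t : ℝ in atTop, (H x - H (x - z) - (H (x + z) - H x)) ^ 2 ≤
      B ^ 2 * ((K * ‖z‖ ^ 2) ^ 2 * (1 + ‖x‖) ^ (n + 3) * (c / t)) := by
    filter_upwards [eventually_ge_atTop 1, eventually_ge_atTop ‖z‖] with t ht hz
    have ht0 : 0 < t := by linarith
    obtain ⟨K0, h0⟩ := lcb_dec_dil hK hT ht0 x
    obtain ⟨K1, h1⟩ := lcb_dec_dil hK hT ht0 (x + z)
    obtain ⟨K2, h2⟩ := lcb_dec_dil hK hT ht0 (x - z)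
    rw [← hH t x ht0, ← hH t (x + z) ht0, ← hH t (x - z) ht0, ← lcb_sub h h0 h2, ← lcb_sub h h1 h0,
      ← lcb_sub h (lcb_dec_sub h0 h2) (lcb_dec_sub h1 h0)]
    refine he h ((h0.1.sub h2.1).sub (h1.1.sub h0.1)) (by positivity) ht fun y => ?_
    have a1 : ‖t⁻¹ • z‖ = t⁻¹ * ‖z‖ := by rw [norm_smul, norm_inv, Real.norm_of_nonneg ht0.le]
    have a2 := hT.d2 (t⁻¹ • (y - x)) (t⁻¹ • z) (by rw [a1, inv_mul_le_iff₀ ht0, mul_one]; exact hz)
    rw [← smul_add, ← smul_sub, a1, lcb_kap_scale _ ht0] at a2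
    have a3 : dil η t (y - x) - dil η t (y - (x - z)) - (dil η t (y - (x + z)) - dil η t (y - x)) =
        (t ^ n)⁻¹ * (2 * η (t⁻¹ • (y - x)) - η (t⁻¹ • (y - x + z)) - η (t⁻¹ • (y - x - z))) := by
      simp only [dil, sub_add_eq_sub_sub, sub_sub_eq_add_sub, add_sub_right_comm]
      ring
    rw [a3, abs_mul, abs_of_pos (by positivity)]
    refine (mul_le_mul_of_nonneg_left a2 (by positivity)).trans (le_of_eq ?_)
    field_simp
    ring
  have lim : Tendsto (fun t : ℝ => B ^ 2 * ((K * ‖z‖ ^ 2) ^ 2 * (1 + ‖x‖) ^ (n + 3) * (c / t))) atTop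
      (𝓝 0) := by
    simpa using ((tendsto_id.const_div_atTop c).const_mul
      ((K * ‖z‖ ^ 2) ^ 2 * (1 + ‖x‖) ^ (n + 3))).const_mul (B ^ 2)
  have := pow_eq_zero_iff (two_ne_zero) |>.1 (le_antisymm (ge_of_tendsto lim key) (sq_nonneg _))
  linarith

theorem lcb_affine {H : Eu n → ℝ} (h1 : ∀ x z, H (x + z) + H (x - z) = 2 * H x) {c : ℝ} (hc : 0 ≤ c)
    (h2 : ∀ z, ‖z‖ ≤ 1 → |H z - H 0| ≤ c * ‖z‖) :
    ∃ u : Eu n, ‖u‖ ≤ c ∧ ∀ y, H y = ⟪u, y⟫ + H 0 := by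
  have a1 : ∀ a b, H (a + b) - H 0 = H a - H 0 + (H b - H 0) := fun a b => by
    have b1 := h1 ((1 / 2 : ℝ) • (a + b)) ((1 / 2 : ℝ) • (a - b))
    have b2 := h1 ((1 / 2 : ℝ) • (a + b)) ((1 / 2 : ℝ) • (a + b))
    rw [show (1 / 2 : ℝ) • (a + b) + (1 / 2 : ℝ) • (a - b) = a by module,
      show (1 / 2 : ℝ) • (a + b) - (1 / 2 : ℝ) • (a - b) = b by module] at b1
    rw [show (1 / 2 : ℝ) • (a + b) + (1 / 2 : ℝ) • (a + b) = a + b by module, sub_self] at b2
    linarith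
  let G : Eu n →+ ℝ := AddMonoidHom.mk' (fun x => H x - H 0) a1
  have a2 : Continuous G := by
    refine continuous_of_continuousAt_zero G ?_
    rw [ContinuousAt, map_zero]
    refine squeeze_zero_norm' (a := fun z => c * ‖z‖) ?_
      (by simpa using (continuous_norm.tendsto (0 : Eu n)).const_mul c)
    filter_upwards [closedBall_mem_nhds (0 : Eu n) one_pos] with z hz
    exact h2 z (mem_closedBall_zero_iff.1 hz)
  refine ⟨(InnerProductSpace.toDual ℝ (Eu n)).symm (G.toRealLinearMap a2), ?_, fun y => ?_⟩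
  · rw [LinearIsometryEquiv.norm_map]
    exact ContinuousLinearMap.opNorm_le_of_ball one_pos hc
      fun z hz => h2 z (mem_ball_zero_iff.1 hz).le
  · rw [InnerProductSpace.toDual_symm_apply]
    exact (sub_add_cancel _ _).symm

theorem lcb_conv {s : ℝ} (hs : 0 < s) (φ η : Eu n → ℝ) (y : Eu n) :
    ∫ x, φ x * dil η s (y - x) = ∫ w, φ (y - s • w) * η w := by
  have h1 := integral_sub_left_eq_self (fun x => φ (y - x) * dil η s x) volume y
  have h2 := Measure.integral_comp_smul volume (fun x => φ (y - x) * η (s⁻¹ • x)) s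
  simp only [sub_sub_cancel, inv_smul_smul₀ hs.ne', finrank_euclideanSpace_fin] at h1 h2
  rw [h1, h2, abs_of_pos (by positivity), smul_eq_mul, ← integral_const_mul]
  exact integral_congr_ae (Eventually.of_forall fun x => by simp only [dil]; ring)

/-- Approximation of the identity. -/
theorem lcb_rep {F H : Eu n → ℝ} (hF : Measurable F) (hFi : Integrable fun y => kap p 1 y * F y)
    (hK : 0 ≤ K) (hT : T2 p K η) (hT' : T2 (n + 1 + p) K' η) (h1 : ∫ y, η y = 1)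
    (hH : ∀ s x, 0 < s → ∫ y, dil η s (y - x) * F y = H x) (hφ : Continuous φ)
    (hc : HasCompactSupport φ) : ∫ y, φ y * F y = ∫ x, φ x * H x := by
  obtain ⟨C, -, hU, -⟩ := exists_up_volume n
  obtain ⟨A, hA, hφ'⟩ := dec_of_hasCompactSupport p hφ hc
  have hη := hT.cont
  have a1 : Integrable fun w => (1 + ‖w‖) ^ p * η w := by
    refine hU.integrable_dec (K := 2 ^ p * K') ⟨by fun_prop, fun w => ?_⟩
    have b1 : 1 + ‖w‖ ≤ 2 * N 1 w := by linarith [one_le_N w, norm_le_N 1 w]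
    rw [abs_mul, abs_of_nonneg (by positivity), ← kap_mul_N_pow (n + 1) p one_pos w]
    refine (mul_le_mul (pow_le_pow_left₀ (by positivity) b1 p) (hT'.d0 w) (abs_nonneg _)
      (pow_nonneg (by linarith [norm_nonneg w]) _)).trans (le_of_eq ?_)
    ring
  have a2 := ((hFi.const_mul A).mul_prod a1).norm
  have a3 : ∀ s : ℝ, AEStronglyMeasurable
      (fun q : Eu n × Eu n => φ (q.1 - s • q.2) * η q.2 * F q.1) (volume.prod volume) := fun s =>
    ((show Continuous fun q : Eu n × Eu n => φ (q.1 - s • q.2) * η q.2 by fun_prop).measurable.mul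
      (hF.comp measurable_fst)).aestronglyMeasurable
  have a4 : ∀ s ∈ Set.Ioc (0 : ℝ) 1, ∀ q : Eu n × Eu n, ‖φ (q.1 - s • q.2) * η q.2 * F q.1‖ ≤
      ‖A * (kap p 1 q.1 * F q.1) * ((1 + ‖q.2‖) ^ p * η q.2)‖ := by
    intro s hs q
    have b1 : ‖s • q.2‖ ≤ ‖q.2‖ := by
      rw [norm_smul, Real.norm_of_nonneg hs.1.le]
      exact mul_le_of_le_one_left (norm_nonneg _) hs.2
    have b2 := kap_nonneg p 1 q.1
    have b3 : |φ (q.1 - s • q.2)| ≤ A * ((1 + ‖q.2‖) ^ p * kap p 1 q.1) :=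
      (hφ'.2 _).trans (mul_le_mul_of_nonneg_left ((lcb_kap_shift p _ _).trans (by gcongr)) hA)
    simp only [Real.norm_eq_abs, abs_mul, abs_of_nonneg hA, abs_of_nonneg b2,
      abs_of_nonneg (show 0 ≤ (1 + ‖q.2‖) ^ p by positivity)]
    calc _ ≤ A * ((1 + ‖q.2‖) ^ p * kap p 1 q.1) * |η q.2| * |F q.1| := by gcongr
      _ = _ := by ring
  have a5 := tendsto_integral_filter_of_dominated_convergence (l := 𝓝[>] (0 : ℝ))
    (f := fun q : Eu n × Eu n => φ q.1 * F q.1 * η q.2) _ (Eventually.of_forall a3)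
    (by filter_upwards [Ioc_mem_nhdsGT one_pos] with s hs using Eventually.of_forall (a4 s hs)) a2
    (Eventually.of_forall fun q => by
      have : Continuous fun s : ℝ => φ (q.1 - s • q.2) * η q.2 * F q.1 := by fun_prop
      simpa [mul_right_comm] using (this.tendsto 0).mono_left nhdsWithin_le_nhds)
  rw [integral_prod_mul (fun y => φ y * F y) η, h1, mul_one] at a5
  refine tendsto_nhds_unique a5 (tendsto_const_nhds.congr' ?_)
  filter_upwards [Ioc_mem_nhdsGT one_pos] with s hs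
  obtain ⟨c, hc0, b1⟩ := lcb_kap_one (n := n) p hs.1
  have hs0 := hs.1
  have b2 : Integrable (fun q : Eu n × Eu n => φ q.1 * dil η s (q.2 - q.1) * F q.2)
      (volume.prod volume) := by
    have c1 := lcb_cont_dil hη s
    have c2 : Integrable fun x => φ x * ((s ^ n)⁻¹ * K * s ^ p * (c * (1 + ‖x‖) ^ p)) :=
      Continuous.integrable_of_hasCompactSupport (by fun_prop) hc.mul_right
    refine (c2.mul_prod hFi).mono (((show Continuous fun q : Eu n × Eu n =>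
      φ q.1 * dil η s (q.2 - q.1) by fun_prop).measurable.mul
      (hF.comp measurable_snd)).aestronglyMeasurable) (Eventually.of_forall fun q => ?_)
    have c3 := (lcb_dil_le hT hs0 (q.2 - q.1)).trans
      (mul_le_mul_of_nonneg_left (b1 q.1 q.2) (by positivity))
    rw [norm_mul, norm_mul, norm_mul, norm_mul, norm_mul (kap _ _ _),
      Real.norm_of_nonneg (kap_nonneg _ _ _), Real.norm_of_nonneg (r := _ * (c * _)) (by positivity)]
    calc _ ≤ ‖φ q.1‖ * ((s ^ n)⁻¹ * K * s ^ p * (c * (1 + ‖q.1‖) ^ p * kap p 1 q.2)) * ‖F q.2‖ := by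
          gcongr
          exact c3
      _ = _ := by ring
  rw [integral_prod _ (a2.mono' (a3 s) (Eventually.of_forall (a4 s hs)))]
  simp only [integral_mul_const, ← lcb_conv hs0]
  simp only [← integral_mul_const]
  rw [← integral_integral_swap (f := fun x y => φ x * dil η s (y - x) * F y) b2]
  simp only [mul_assoc, integral_const_mul, hH s _ hs0]

end Crest.Agent.R85
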