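import Crest.Agent.R85.LiouCax
import Crest.Agent.R85.LiouCbx

/-!
# The Liouville theorem (task LiouC)

`Fnl.rep`: `φ ↦ φ · N^{(n+3)/2}` maps the space of `Dec (n+2)` functions to `L²`; `Φ` is bounded for
that norm, so it extends (Hahn–Banach `exists_extension_norm_eq`, or closure and orthogonal
projection) and is represented by `G ∈ L²` (`InnerProductSpace.toDual`); `F = G · N^{(n+3)/2}`.
(`√(N^(n+3))` avoids real powers.)

`liou`: by `lam_est`, `Φ (Lam s ψ) → Φ (Lam0 ψ)`, so the hypothesis gives `Φ (Lam0 ψ) = 0` for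
smooth compactly supported mean-zero `ψ`, and by `t2_cutoff` for mean-zero Schwartz `ψ`.
With `exists_eta`: `H x = Φ (dil η s (· - x))` does not depend on `s`.  Second differences:
`H(x+a+b) - H(x+a) - H(x+b) + H x = Φ (second difference of dil η t)`, whose weighted `L²` norm
squared is `O(1/t)` (it is bounded by `c t^{-n-2} kap M 1 (y/t)` for `t ≥ 1 + ‖x‖+‖a‖+‖b‖`; this
mixed difference is a difference of two `T2.d2`-type terms, or use `fderiv` twice).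
`H` is continuous with vanishing second differences, so affine (`AddMonoidHom.toRealLinearMap`),
`|H x| ≤ c B` for `‖x‖ ≤ 1`.  Finally `∫ φ H = ∫ F · (φ ⋆ dil η s) → ∫ F φ` (Fubini, dominated
convergence: `φ ⋆ dil η s → φ` pointwise and `|φ ⋆ dil η s| ≤ c kap (n+2) 1` for `s ≤ 1`).
-/

set_option autoImplicit false

open MeasureTheory Metric Filter Topology
open scoped RealInnerProductSpace

noncomputable section

namespace Crest.Agent.R85

variable {m : ℕ}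

theorem Dec.integrable_sq {n : ℕ} {K : ℝ} {φ : Eu n → ℝ} (h : Dec (n + 2) K φ) :
    Integrable (fun y => φ y ^ 2 * N 1 y ^ (n + 3)) :=
  LiouCa_integrable_sq h

theorem Fnl.rep {n : ℕ} {B : ℝ} {Φ : (Eu n → ℝ) → ℝ} (h : Fnl B Φ) :
    ∃ F : Eu n → ℝ, Measurable F ∧ Integrable (fun y => F y ^ 2 * kap (n + 3) 1 y) ∧
      ∀ K φ, Dec (n + 2) K φ → Integrable (fun y => φ y * F y) ∧ Φ φ = ∫ y, φ y * F y :=
  LiouCa_rep h

theorem liou (n : ℕ) (hn : 1 ≤ n) : ∃ cL, 0 < cL ∧ ∀ (B : ℝ) (Φ : (Eu n → ℝ) → ℝ), Fnl B Φ →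
    (∀ ψ : Eu n → ℝ, ContDiff ℝ (⊤ : ℕ∞) ψ → HasCompactSupport ψ → ∫ y, ψ y = 0 →
      Tendsto (fun s => 2 * Φ (Lam n volume s ψ) - Φ (Lam n volume (s / 2) ψ)) (𝓝[>] 0) (𝓝 0)) →
    ∃ (u : Eu n) (b : ℝ), ‖u‖ ^ 2 ≤ cL * B ^ 2 ∧ b ^ 2 ≤ cL * B ^ 2 ∧
      ∀ φ : Eu n → ℝ, Continuous φ → HasCompactSupport φ → Φ φ = ∫ y, φ y * (⟪u, y⟫ + b) := by
  obtain ⟨η, h1, hη⟩ := exists_eta n hn
  obtain ⟨K, hK, hT⟩ := t2_schwartz η (n + 2)
  obtain ⟨K', -, hT'⟩ := t2_schwartz η (n + 1 + (n + 2))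
  obtain ⟨c, hc, he⟩ := lcb_est0 n
  refine ⟨(c * K) ^ 2 + 1, by positivity, fun B Φ h H0 => ?_⟩
  have a1 := lcb_lam0 hn h fun ψ k1 k2 k3 => lcb_lam0_cs hn h k1 k2 k3 (H0 ψ k1 k2 k3)
  set H : Eu n → ℝ := fun x => Φ fun y => η (y - x) with hH
  have a2 : ∀ s x, 0 < s → Φ (fun y => dil η s (y - x)) = H x := fun s x hs => by
    obtain ⟨ψ, k1, k2⟩ := hη s 1 x hs one_pos
    obtain ⟨K0, h0⟩ := lcb_dec_dil hK hT hs x
    obtain ⟨K1, h1⟩ := lcb_dec_dil hK hT one_pos x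
    have := a1 ψ k1
    rw [funext k2, lcb_sub h h0 h1, sub_eq_zero] at this
    simpa [dil] using this
  have a3 : Dec (n + 2) K fun y => η (y - 0) := ⟨by fun_prop, by simpa using hT.d0⟩
  obtain ⟨u, hu, hu'⟩ := lcb_affine (lcb_mid h hK hT a2) (c := c * |B| * K) (by positivity)
    fun z hz => by
      obtain ⟨K1, h1⟩ := lcb_dec_dil hK hT one_pos z
      simp only [dil, one_pow, inv_one, one_mul, one_smul] at h1
      rw [hH, ← lcb_sub h h1 a3, mul_assoc]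
      refine he h (by positivity) ⟨by fun_prop, fun y => ?_⟩
      simpa [sub_eq_add_neg] using hT.d1 y (-z) (by simpa using hz)
  have a4 : ∀ r : ℝ, |r| ≤ c * |B| * K → r ^ 2 ≤ ((c * K) ^ 2 + 1) * B ^ 2 := fun r hr => by
    have := pow_le_pow_left₀ (abs_nonneg _) hr 2
    rw [sq_abs, mul_pow, mul_pow, sq_abs] at this
    nlinarith [sq_nonneg B]
  refine ⟨u, H 0, a4 _ (by simpa using hu), a4 _ (he h hK a3), fun φ k1 k2 => ?_⟩
  obtain ⟨F, hF, -, hrep⟩ := h.rep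
  obtain ⟨A, -, hA⟩ := dec_of_hasCompactSupport (n + 2) k1 k2
  have a5 := (hrep 1 (kap (n + 2) 1) ⟨continuous_kap _ one_pos,
    fun y => by rw [one_mul, abs_of_nonneg (kap_nonneg _ _ _)]⟩).1
  rw [(hrep A φ hA).2, lcb_rep (H := H) hF a5 hK hT hT' h1 (fun s x hs => by
    obtain ⟨K0, h0⟩ := lcb_dec_dil hK hT hs x
    rw [← (hrep _ _ h0).2, a2 s x hs]) k1 k2]
  simp only [← hu']

end Crest.Agent.R85
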