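import Crest.Agent.R85.CoreA
import Crest.Agent.R85.LiouC

/-!
# Auxiliary lemmas for `core_weak` (helper31)
-/

set_option autoImplicit false

open MeasureTheory Metric Filter Topology
open scoped RealInnerProductSpace

noncomputable section

namespace Crest.Agent.R85

variable {m n : ℕ} {C γ : ℝ}

theorem CB_kapN (p : ℕ) (y : Eu m) : kap p 1 y * N 1 y ^ p = 1 :=
  inv_mul_cancel₀ (pow_ne_zero _ (N_pos one_pos y).ne')

theorem CB_dec_nonneg {p : ℕ} {K : ℝ} {g : Eu m → ℝ} (h : Dec p K g) : 0 ≤ K :=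
  nonneg_of_mul_nonneg_left ((abs_nonneg _).trans (h.2 0)) (kap_pos p one_pos 0)

theorem CB_dec_sq {K : ℝ} {g : Eu m → ℝ} (h : Dec (n + 2) K g) :
    Dec (n + 1) (K ^ 2) (fun y => g y ^ 2 * N 1 y ^ (n + 3)) := by
  refine ⟨(h.1.pow 2).mul ((continuous_N 1).pow _), fun y => ?_⟩
  have h0 := N_nonneg 1 y
  rw [abs_of_nonneg (by positivity), ← kap_mul_N_pow (n + 1) (n + 3) one_pos y,
    show n + 1 + (n + 3) = n + 2 + (n + 2) by ring, kap_add, ← mul_assoc]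
  refine mul_le_mul_of_nonneg_right ?_ (by positivity)
  rw [← sq, ← mul_pow, ← sq_abs (g y)]
  exact pow_le_pow_left₀ (abs_nonneg _) (h.2 y) 2

theorem CB_dec_add {p : ℕ} {K K' : ℝ} {g g' : Eu m → ℝ} (h : Dec p K g) (h' : Dec p K' g') :
    Dec p (K + K') (fun y => g y + g' y) :=
  ⟨h.1.add h'.1, fun y => (abs_add_le _ _).trans (by rw [add_mul]; exact add_le_add (h.2 y) (h'.2 y))⟩

theorem CB_dec_mul {p : ℕ} {K : ℝ} {g : Eu m → ℝ} (h : Dec p K g) (a : ℝ) :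
    Dec p (|a| * K) (fun y => a * g y) :=
  ⟨continuous_const.mul h.1, fun y => by
    rw [abs_mul, mul_assoc]; exact mul_le_mul_of_nonneg_left (h.2 y) (abs_nonneg a)⟩

theorem CB_dec_sub {p : ℕ} {K K' : ℝ} {g g' : Eu m → ℝ} (h : Dec p K g) (h' : Dec p K' g') :
    Dec p (K + K') (fun y => g y - g' y) :=
  ⟨h.1.sub h'.1, fun y => (abs_sub _ _).trans (by rw [add_mul]; exact add_le_add (h.2 y) (h'.2 y))⟩

/-- Cauchy–Schwarz with the weight. -/
theorem CB_cs {ν : Measure (Eu m)} [IsFiniteMeasure ν] (hν : Up n C ν) {L K : ℝ} {f g : Eu m → ℝ}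
    (hf : Lip L f) (hw : ∫ y, f y ^ 2 * kap (n + 3) 1 y ∂ν ≤ 1) (hg : Dec (n + 2) K g) :
    Integrable (fun y => g y * f y) ν ∧
      (∫ y, g y * f y ∂ν) ^ 2 ≤ ∫ y, g y ^ 2 * N 1 y ^ (n + 3) ∂ν := by
  have hA := hν.integrable_dec (CB_dec_sq hg)
  have hB := hf.integrable_sq_kap (n := n) (ν := ν)
  have pt : ∀ (t : ℝ) y, 0 ≤ t ^ 2 * (g y ^ 2 * N 1 y ^ (n + 3)) - 2 * t * (g y * f y) +
      f y ^ 2 * kap (n + 3) 1 y := by
    intro t y
    have e := CB_kapN (n + 3) y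
    have h0 := kap_nonneg (n + 3) 1 y
    have : t ^ 2 * (g y ^ 2 * N 1 y ^ (n + 3)) - 2 * t * (g y * f y) + f y ^ 2 * kap (n + 3) 1 y =
        (t * g y * N 1 y ^ (n + 3) - f y) ^ 2 * kap (n + 3) 1 y := by
      linear_combination (-(t ^ 2 * g y ^ 2 * N 1 y ^ (n + 3)) + 2 * t * g y * f y) * e
    rw [this]
    positivity
  have hI : Integrable (fun y => g y * f y) ν := by
    refine (hA.add hB).mono' (hg.1.mul hf.continuous).aestronglyMeasurable (.of_forall fun y => ?_)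
    have h1 := pt 1 y
    have h2 := pt (-1) y
    have h3 : 0 ≤ g y ^ 2 * N 1 y ^ (n + 3) := by have := N_nonneg 1 y; positivity
    have h4 : 0 ≤ f y ^ 2 * kap (n + 3) 1 y := by have := kap_nonneg (n + 3) 1 y; positivity
    rw [Real.norm_eq_abs, abs_le, Pi.add_apply]
    constructor <;> nlinarith
  refine ⟨hI, ?_⟩
  have h0 : 0 ≤ ∫ y, g y ^ 2 * N 1 y ^ (n + 3) ∂ν :=
    integral_nonneg fun y => by have := N_nonneg 1 y; positivity
  have hd := discrim_le_zero (a := ∫ y, g y ^ 2 * N 1 y ^ (n + 3) ∂ν)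
    (b := -2 * ∫ y, g y * f y ∂ν) (c := 1) fun t => by
      have h1 : 0 ≤ ∫ y, (t ^ 2 * (g y ^ 2 * N 1 y ^ (n + 3)) - 2 * t * (g y * f y) +
        f y ^ 2 * kap (n + 3) 1 y) ∂ν := integral_nonneg (pt t)
      rw [integral_add (by exact (hA.const_mul _).sub (hI.const_mul _)) hB,
        integral_sub (hA.const_mul _) (hI.const_mul _), integral_const_mul, integral_const_mul] at h1
      nlinarith
  rw [discrim] at hd
  nlinarith

theorem CB_emb (P : Pl n m) : Topology.IsClosedEmbedding P.I :=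
  (AddMonoidHomClass.isometry_of_norm P.I P.hI).isClosedEmbedding

theorem CB_int (P : Pl n m) (hγ : 0 < γ) (g : Eu m → ℝ) :
    ∫ y, g y ∂(ENNReal.ofReal γ • (volume : Measure (Eu n)).map P.I) = γ * ∫ t, g (P.I t) := by
  rw [integral_smul_measure, (CB_emb P).integral_map, ENNReal.toReal_ofReal hγ.le, smul_eq_mul]

theorem CB_dec_comp (P : Pl n m) {p : ℕ} {K : ℝ} {g : Eu m → ℝ} (h : Dec p K g) :
    Dec p K (fun t => g (P.I t)) :=
  ⟨h.1.comp P.I.continuous, fun t => by rw [← kap_congr_norm p 1 (P.hI t)]; exact h.2 _⟩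

/-- Extension of a function on the plane. -/
def CBext (P : Pl n m) (φ : Eu n → ℝ) (y : Eu m) : ℝ :=
  φ (P.co y) * kap (n + 2) 1 y * N 1 (P.co y) ^ (n + 2)

theorem CBext_I (P : Pl n m) (φ : Eu n → ℝ) (t : Eu n) : CBext P φ (P.I t) = φ t := by
  rw [CBext, P.co_I, kap_congr_norm _ 1 (P.hI t), mul_assoc, CB_kapN, mul_one]

theorem CBext_dec (P : Pl n m) {K : ℝ} {φ : Eu n → ℝ} (h : Dec (n + 2) K φ) :
    Dec (n + 2) K (CBext P φ) := by
  refine ⟨((h.1.comp P.co.continuous).mul (continuous_kap _ one_pos)).mul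
    (((continuous_N 1).comp P.co.continuous).pow _), fun y => ?_⟩
  have h0 := kap_nonneg (n + 2) 1 y
  have h1 : 0 ≤ N 1 (P.co y) ^ (n + 2) := pow_nonneg (N_nonneg _ _) _
  rw [CBext, abs_mul, abs_mul, abs_of_nonneg h0, abs_of_nonneg h1, mul_right_comm]
  refine mul_le_mul_of_nonneg_right ((mul_le_mul_of_nonneg_right (h.2 _) h1).trans_eq ?_) h0
  rw [mul_assoc, CB_kapN, mul_one]

theorem CB_dec_Lam (hm : 1 ≤ m) {s : ℝ} (hs : 0 < s) (hs1 : s ≤ 1) {L R : ℝ} {ψ : Eu m → ℝ}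
    (hψ : Tst L 0 R ψ) (hL : 0 ≤ L) (hR : 0 ≤ R) (x : Eu m) :
    ∃ K, Dec (n + 1) K (fun y => (ψ x - ψ y) * kap (n + 1) s (x - y)) := by
  refine ⟨2 * (L * R) * ((1 / s) ^ (n + 1) * (1 + ‖x‖) ^ (n + 1)),
    (continuous_const.sub hψ.lip.continuous).mul
      ((continuous_kap _ hs).comp (continuous_const.sub continuous_id)), fun y => ?_⟩
  have h1 : |ψ x - ψ y| ≤ 2 * (L * R) :=
    (abs_sub _ _).trans (by linarith [hψ.abs_le hm hL hR x, hψ.abs_le hm hL hR y])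
  have h2 := kap_peetre (n + 1) one_pos (x - y) (-y)
  rw [sub_neg_eq_add, sub_add_cancel, div_one, kap_neg] at h2
  rw [abs_mul, abs_of_nonneg (kap_nonneg _ _ _), mul_assoc _ (_ * _), mul_assoc (_ ^ _)]
  refine mul_le_mul h1 ((kap_le_mul _ hs hs1 _).trans ?_) (kap_nonneg _ _ _) (by positivity)
  exact mul_le_mul_of_nonneg_left h2 (by positivity)

/-- The hypotheses of `core_weak`. -/
structure CBH (C γ : ℝ) (νk : ℕ → Measure (Eu m)) (P : Pl n m) (f : ℕ → Eu m → ℝ)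
    (L : ℕ → ℝ) : Prop where
  hn : 1 ≤ n
  hm : 1 ≤ m
  hC : 1 ≤ C
  fin : ∀ k, IsFiniteMeasure (νk k)
  hγ : 0 < γ
  up : ∀ k, Up n C (νk k)
  upl : Up n C (ENNReal.ofReal γ • (volume : Measure (Eu n)).map P.I)
  vag : Vag νk (ENNReal.ofReal γ • (volume : Measure (Eu n)).map P.I)
  low : ∀ᶠ k in UF, ENNReal.ofReal (1 / C) ≤ νk k (ball 0 1)
  lip : ∀ k, Lip (L k) (f k)
  wt : ∀ k, ∫ y, f k y ^ 2 * kap (n + 3) 1 y ∂νk k ≤ 1
  eqn : ∀ R δ, 0 < δ → ∀ᶠ k in UF, ∀ L' ψ, Tst L' 0 R ψ → ∫ y, ψ y ∂νk k = 0 →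
    En n 0 (νk k) (f k) ψ ^ 2 ≤ δ * En n 0 (νk k) ψ ψ

/-- The limit functional. -/
def CBPhi (νk : ℕ → Measure (Eu m)) (f : ℕ → Eu m → ℝ) (g : Eu m → ℝ) : ℝ :=
  limUnder UF fun k => ∫ y, g y * f k y ∂νk k

namespace CBH

variable {νk : ℕ → Measure (Eu m)} {P : Pl n m} {f : ℕ → Eu m → ℝ} {L : ℕ → ℝ}
  (h : CBH C γ νk P f L) {K K' : ℝ} {g g' : Eu m → ℝ}
include h

theorem cs (hg : Dec (n + 2) K g) (k : ℕ) : Integrable (fun y => g y * f k y) (νk k) ∧
    (∫ y, g y * f k y ∂νk k) ^ 2 ≤ ∫ y, g y ^ 2 * N 1 y ^ (n + 3) ∂νk k :=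
  haveI := h.fin k
  CB_cs (h.up k) (h.lip k) (h.wt k) hg

theorem tend (hg : Dec (n + 2) K g) :
    Tendsto (fun k => ∫ y, g y * f k y ∂νk k) UF (𝓝 (CBPhi νk f g)) := by
  have h1 := (h.vag.tendsto_dec h.up h.upl (CB_dec_sq hg)).eventually
    (eventually_le_nhds (lt_add_one _))
  obtain ⟨a, -, ha⟩ := exists_tendsto_UF (a := fun k => ∫ y, g y * f k y ∂νk k)
    (h1.mono fun k hk => Real.abs_le_sqrt ((h.cs hg k).2.trans hk))
  exact tendsto_nhds_limUnder ⟨a, ha⟩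

theorem bound (hg : Dec (n + 2) K g) :
    CBPhi νk f g ^ 2 ≤ γ * ∫ t, g (P.I t) ^ 2 * N 1 t ^ (n + 3) := by
  have h1 := le_of_tendsto_of_tendsto' ((h.tend hg).pow 2)
    (h.vag.tendsto_dec h.up h.upl (CB_dec_sq hg)) fun k => (h.cs hg k).2
  rw [CB_int P h.hγ] at h1
  simpa only [N_congr_norm 1 (P.hI _)] using h1

theorem add (hg : Dec (n + 2) K g) (hg' : Dec (n + 2) K' g') :
    CBPhi νk f (fun y => g y + g' y) = CBPhi νk f g + CBPhi νk f g' := by
  refine tendsto_nhds_unique (h.tend (CB_dec_add hg hg')) (((h.tend hg).add (h.tend hg')).congr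
    fun k => ?_)
  rw [← integral_add (h.cs hg k).1 (h.cs hg' k).1]
  simp only [add_mul]

theorem smul (hg : Dec (n + 2) K g) (a : ℝ) :
    CBPhi νk f (fun y => a * g y) = a * CBPhi νk f g := by
  refine tendsto_nhds_unique (h.tend (CB_dec_mul hg a)) (((h.tend hg).const_mul a).congr
    fun k => ?_)
  rw [← integral_const_mul]
  simp only [mul_assoc]

theorem plane (hg : Dec (n + 2) K g) :
    CBPhi νk f (CBext P fun t => g (P.I t)) = CBPhi νk f g := by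
  have h1 := CB_dec_sub (CBext_dec P (CB_dec_comp P hg)) hg
  have h2 := h.bound h1
  have h3 := h.add h1 hg
  simp only [CBext_I, sub_self, sub_add_cancel] at h2 h3
  simp only [ne_eq, OfNat.ofNat_ne_zero, not_false_eq_true, zero_pow, zero_mul, integral_zero,
    mul_zero, sq_nonpos_iff] at h2
  rw [h3, h2, zero_add]

theorem fnl : Fnl √γ (fun φ : Eu n → ℝ => CBPhi νk f (CBext P φ)) := by
  refine ⟨fun K K' φ ψ hφ hψ => ?_, fun K φ a hφ => ?_, fun K φ hφ => ?_⟩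
  · rw [← h.add (CBext_dec P hφ) (CBext_dec P hψ)]
    exact congrArg _ (funext fun y => by simp only [CBext]; ring)
  · rw [← h.smul (CBext_dec P hφ)]
    exact congrArg _ (funext fun y => by simp only [CBext]; ring)
  · rw [Real.sq_sqrt h.hγ.le]
    simpa only [CBext_I] using h.bound (CBext_dec P hφ)

theorem tend_var {gk : ℕ → Eu m → ℝ} (hgk : ∀ᶠ k in UF, Dec (n + 2) K (gk k))
    (hg : Dec (n + 2) K g) (hu : ∀ R ε, 0 < ε → ∀ᶠ k in UF, ∀ y, ‖y‖ ≤ R → |gk k y - g y| ≤ ε) :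
    Tendsto (fun k => ∫ y, gk k y * f k y ∂νk k) UF (𝓝 (CBPhi νk f g)) := by
  have h1 := h.vag.tendsto_var h.up h.upl (K := (K + K) ^ 2)
    (φk := fun k y => (gk k y - g y) ^ 2 * N 1 y ^ (n + 3)) (φ := fun _ => 0)
    (hgk.mono fun k hk => CB_dec_sq (CB_dec_sub hk hg))
    ⟨continuous_const, fun y => by
      rw [abs_zero]; exact mul_nonneg (sq_nonneg _) (kap_nonneg _ _ _)⟩
    fun R ε hε => by
      have hp : 0 < (1 + |R|) ^ (n + 3) := by positivity
      filter_upwards [hu R √(ε / (1 + |R|) ^ (n + 3)) (by positivity)] with k hk y hy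
      have h0 := N_nonneg 1 y
      have h2 : N 1 y ≤ 1 + |R| := (N_le zero_le_one y).trans (by linarith [le_abs_self R])
      have h3 : (gk k y - g y) ^ 2 ≤ ε / (1 + |R|) ^ (n + 3) := by
        rw [← sq_abs, ← Real.sq_sqrt (div_pos hε hp).le]
        exact pow_le_pow_left₀ (abs_nonneg _) (hk y hy) 2
      rw [sub_zero, abs_of_nonneg (by positivity)]
      calc _ ≤ ε / (1 + |R|) ^ (n + 3) * (1 + |R|) ^ (n + 3) := by gcongr
        _ = ε := div_mul_cancel₀ _ hp.ne'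
  rw [integral_zero] at h1
  have h2 : Tendsto (fun k => ∫ y, (gk k y - g y) * f k y ∂νk k) UF (𝓝 0) := by
    refine squeeze_zero_norm' ?_ (by simpa using h1.sqrt)
    exact hgk.mono fun k hk => Real.abs_le_sqrt (h.cs (CB_dec_sub hk hg) k).2
  have h3 := h2.add (h.tend hg)
  rw [zero_add] at h3
  refine h3.congr' (hgk.mono fun k hk => ?_)
  simp only
  rw [← integral_add (h.cs (CB_dec_sub hk hg) k).1 (h.cs hg k).1]
  simp only [← add_mul, sub_add_cancel]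

/-- The equation passes to the limit. -/
theorem eq_lim {L₁ R : ℝ} {ψ : Eu m → ℝ} (hψ : Tst L₁ 0 R ψ) (hL : 0 ≤ L₁) (hR : 2 ≤ R)
    (h0 : ∫ y, ψ y ∂(ENNReal.ofReal γ • (volume : Measure (Eu n)).map P.I) = 0) :
    ∃ c, ∀ s, 0 < s → s ≤ 1 → (∃ K, Dec (n + 2) K
      (Lam n (ENNReal.ofReal γ • (volume : Measure (Eu n)).map P.I) s ψ)) ∧
      |CBPhi νk f (Lam n (ENNReal.ofReal γ • (volume : Measure (Eu n)).map P.I) s ψ)| ≤ c * √s := by
  set ν := ENNReal.ofReal γ • (volume : Measure (Eu n)).map P.I with hν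
  have hC0 : 0 < C := by linarith [h.hC]
  have t0 : Tst 1 0 R (cut (0 : Eu m) 1 1) :=
    (cut_tst 0 1 one_pos).mono (by norm_num) (by rw [dist_self]; linarith)
  have l0 : ∀ᶠ k in UF, 1 / C ≤ ∫ y, cut (0 : Eu m) 1 1 y ∂νk k := by
    filter_upwards [h.low] with k hk
    have := h.fin k
    refine ((h.up k).le_real hk).trans ?_
    rw [← integral_indicator_one measurableSet_ball]
    refine integral_mono ((integrable_const 1).indicator measurableSet_ball)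
      (t0.integrable (h.up k)) (Set.indicator_le' (fun y hy => ?_) fun y _ => cut_nonneg _ _ _ y)
    exact (cut_eq_one one_pos (mem_ball.1 hy).le).ge
  have l1 := h.vag _ t0.lip.continuous t0.hasCompactSupport
  have l2 : ∫ y, cut (0 : Eu m) 1 1 y ∂ν ≠ 0 :=
    ((one_div_pos.2 hC0).trans_le (ge_of_tendsto l1 l0)).ne'
  have l3 := ((h.vag _ hψ.lip.continuous hψ.hasCompactSupport).div l1 l2).neg
  rw [h0, zero_div, neg_zero] at l3
  set a : ℕ → ℝ := fun k => -((∫ y, ψ y ∂νk k) / ∫ y, cut (0 : Eu m) 1 1 y ∂νk k) with ha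
  have l4 : Tendsto a UF (𝓝 0) := l3
  have hk : ∀ᶠ k in UF, Tst (L₁ + 1) 0 R (fun y => ψ y + a k * cut 0 1 1 y) ∧
      ∫ y, (ψ y + a k * cut 0 1 1 y) ∂νk k = 0 := by
    filter_upwards [l0, l4.abs.eventually (eventually_le_nhds (by simp : |(0 : ℝ)| < 1))]
      with k h1 h2
    refine ⟨(hψ.add (t0.const_mul (a k))).mono (by linarith) (by simp), ?_⟩
    rw [integral_add (hψ.integrable (h.up k)) ((t0.integrable (h.up k)).const_mul _),
      integral_const_mul, ha, neg_mul, div_mul_cancel₀ _ ((one_div_pos.2 hC0).trans_le h1).ne',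
      add_neg_cancel]
  have e0 : Tendsto (fun k => En n 0 (νk k) (f k) fun y => ψ y + a k * cut 0 1 1 y) UF (𝓝 0) := by
    refine NormedAddGroup.tendsto_nhds_zero.2 fun ε hε => ?_
    have hE : 0 < 8 * cK n * C ^ 2 * (L₁ + 1) ^ 2 * R ^ (n + 1) := by
      have := cK_pos n
      positivity
    filter_upwards [hk, h.eqn R ((ε / 2) ^ 2 / (8 * cK n * C ^ 2 * (L₁ + 1) ^ 2 * R ^ (n + 1)))
      (by positivity)] with k h1 h2
    have := h.fin k
    have h3 := (h2 _ _ h1.1 h1.2).trans (mul_le_mul_of_nonneg_left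
      (En_tst_le (h.up k) h.hn h.hm hC0.le h1.1 (by positivity) (by linarith)) (by positivity))
    rw [div_mul_cancel₀ _ hE.ne'] at h3
    exact (abs_le_of_sq_le_sq h3 (by positivity)).trans_lt (half_lt_self hε)
  obtain ⟨cR, -, hcR⟩ := cacc n m h.hn h.hm h.hC (R := 2 * R) (by linarith)
  obtain ⟨c, -, hc⟩ := En_diff_le n m h.hn h.hm h.hC (R := R) (by linarith) cR
  refine ⟨c * (L₁ + 1) / 2, fun s hs hs1 => ?_⟩
  obtain ⟨c', -, hc'⟩ := Lam_dec n m h.hm hC0.le hs (R := R) (by linarith)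
  have d0 := hc' ν (L₁ + 1) ψ h.upl (by positivity) (hψ.mono (by linarith) (by simp))
  have dk : ∀ᶠ k in UF, Lip (c' * (L₁ + 1)) (Lam n (νk k) s fun y => ψ y + a k * cut 0 1 1 y) ∧
      Dec (n + 2) (c' * (L₁ + 1)) (Lam n (νk k) s fun y => ψ y + a k * cut 0 1 1 y) :=
    hk.mono fun k h1 => ⟨(hc' _ _ _ (h.up k) (by positivity) h1.1).1,
      (hc' _ _ _ (h.up k) (by positivity) h1.1).2 h1.2⟩
  have pt : ∀ x, Tendsto (fun k => Lam n (νk k) s (fun y => ψ y + a k * cut 0 1 1 y) x) UF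
      (𝓝 (Lam n ν s ψ x)) := by
    intro x
    obtain ⟨K₁, k1⟩ := CB_dec_Lam (n := n) h.hm hs hs1 hψ hL (by linarith) x
    obtain ⟨K₂, k2⟩ := CB_dec_Lam (n := n) h.hm hs hs1 t0 zero_le_one (by linarith) x
    have k3 := (h.vag.tendsto_dec h.up h.upl k1).add (l4.mul (h.vag.tendsto_dec h.up h.upl k2))
    rw [zero_mul, add_zero] at k3
    refine k3.congr fun k => ?_
    rw [← integral_const_mul, ← integral_add ((h.up k).integrable_dec k1)
      (((h.up k).integrable_dec k2).const_mul _)]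
    exact integral_congr_ae (.of_forall fun y => by simp only; ring)
  have tv := h.tend_var (dk.mono fun k h1 => h1.2) (d0.2 h0) fun R' ε hε =>
    unif_of_equilip (dk.mono fun k h1 x y _ _ => h1.1 x y) (fun x y _ _ => d0.1 x y)
      (fun x _ => pt x) hε
  refine ⟨⟨_, d0.2 h0⟩, ?_⟩
  have fin := le_of_tendsto (e0.sub (tv.const_mul 2)).abs (b := c * (L₁ + 1) * √s) (by
    filter_upwards [hk, h.low, h.eqn (2 * R + 1) 1 one_pos] with k h1 h2 h3
    have := h.fin k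
    have h4 := hc (νk k) (L k) (L₁ + 1) (f k) _ (h.up k) (h.lip k) (h.wt k)
      (hcR (νk k) (L k) (f k) (h.up k) h2 (h.lip k) (h.wt k) fun L' φ k1 k2 => by
        simpa only [one_mul] using h3 L' φ k1 k2) (by positivity) h1.1 s hs hs1
    rw [(En_eq_Lam (h.up k) h.hn hs (h.lip k) h1.1).2] at h4
    simpa only [mul_comm (f k _)] using h4)
  rw [zero_sub, abs_neg, abs_mul, abs_two] at fin
  linarith

theorem eq_plane {ψ : Eu n → ℝ} (hψ : ContDiff ℝ (⊤ : ℕ∞) ψ) (hc : HasCompactSupport ψ)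
    (h0 : ∫ y, ψ y = 0) :
    Tendsto (fun s => CBPhi νk f (CBext P (Lam n volume s ψ))) (𝓝[>] 0) (𝓝 0) := by
  obtain ⟨L₀, R, hL, hR, hT⟩ := tst_of_contDiff (hψ.of_le (by exact_mod_cast le_top)) hc
  have hl : Lip L₀ fun y => ψ (P.co y) := fun x y => (hT.lip _ _).trans (by
    rw [← map_sub]
    exact mul_le_mul_of_nonneg_left (P.norm_co_le _) hL)
  obtain ⟨L₁, h1⟩ := (cut_tst (0 : Eu m) R one_pos).mul_lip hl
  have e : ∀ t, cut 0 R 1 (P.I t) * ψ (P.co (P.I t)) = ψ t := by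
    intro t
    rw [P.co_I]
    rcases le_total ‖t‖ R with ht | ht
    · rw [cut_eq_one one_pos (by rwa [dist_zero_right, P.hI]), one_mul]
    · rw [hT.supp t (by rwa [dist_zero_right]), mul_zero]
  obtain ⟨c, hc⟩ := h.eq_lim (h1.mono (le_abs_self L₁) (R' := R + 2) (x1 := 0)
    (by rw [dist_self]; linarith)) (abs_nonneg _) (by linarith)
    (by simp only [CB_int P h.hγ, e, h0, mul_zero])
  have hγ := h.hγ
  have lim : Tendsto (fun s : ℝ => γ⁻¹ * (c * √s)) (𝓝[>] 0) (𝓝 0) := by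
    have : Continuous fun s : ℝ => γ⁻¹ * (c * √s) := by fun_prop
    simpa using (this.tendsto 0).mono_left nhdsWithin_le_nhds
  refine squeeze_zero_norm' ?_ lim
  filter_upwards [Ioc_mem_nhdsGT one_pos] with s hs
  obtain ⟨⟨K, k1⟩, k2⟩ := hc s hs.1 hs.2
  have e2 : Lam n volume s ψ = fun t => γ⁻¹ * Lam n
      (ENNReal.ofReal γ • (volume : Measure (Eu n)).map P.I) s
      (fun y => cut 0 R 1 y * ψ (P.co y)) (P.I t) := by
    funext t
    simp only [Lam, CB_int P h.hγ, e, ← map_sub, kap_congr_norm _ _ (P.hI _)]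
    rw [inv_mul_cancel_left₀ hγ.ne']
  rw [e2, h.fnl.smul K _ _ (CB_dec_comp P k1), h.plane k1, Real.norm_eq_abs, abs_mul,
    abs_of_pos (inv_pos.2 hγ)]
  exact mul_le_mul_of_nonneg_left k2 (inv_pos.2 hγ).le

end CBH

end Crest.Agent.R85
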