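import Crest.Agent.R85.CoreA
import Crest.Agent.R85.CoreBax
import Crest.Agent.R85.LiouC
import Crest.Agent.R85.CoreBx

/-!
# The blow-up limit of the normal coordinate is affine (task CoreB)

For `g` with `Dec (n+2) K g` on `Eu m` put `Φd g = lim_UF ∫ g f_k dν_k`; Cauchy–Schwarz with the
weight gives `(∫ g f_k)² ≤ ∫ g² N^(n+3) dν_k → ∫ g² N^(n+3) dν = γ ∫ (g∘I)² N^(n+3)`
(`Vag.tendsto_dec`).  So `Φd g` depends only on `g ∘ P.I`.  For `φ` on `Eu n` put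
`Φ φ = Φd (y ↦ φ (P.co y) * kap (n+2) 1 y * N 1 (P.co y)^(n+2))`: a `Fnl √γ`.
Equation: for smooth compactly supported mean-zero `ψ` on `Eu n` (a `Tst L 0 R`), let
`ψ~ y = ψ (P.co y) * cut 0 R 1 y`, `ψ0 = cut 0 1 1`, `ψ_k = ψ~ - c_k ψ0` of mean zero for `ν_k`,
`c_k → 0`.  Then `En 0 f_k ψ_k → 0` (hypothesis and `En_tst_le`),
`|En 0 - En s| ≤ c √s` (`cacc`, `En_diff_le`), `En s f_k ψ_k = 2 ∫ f_k Lam ν_k s ψ_k` (`En_eq_Lam`),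
`Lam ν_k s ψ_k → Lam ν s ψ~` locally uniformly with a common `Dec (n+2)` bound (`Lam_dec`,
`Lam_eq`, `unif_of_equilip`), so `∫ f_k (Lam ν_k s ψ_k - Lam ν s ψ~) → 0` (Cauchy–Schwarz and
`Vag.tendsto_var` for the square).  On the plane `Lam ν s ψ~ (I t) = γ Lam volume s ψ t`.  Hence
`|γ Φ (Lam volume s ψ)| ≤ c √s`, and `liou` gives `(u', b')`; `u = u'/γ`, `b = b'/γ`.
-/

set_option autoImplicit false

open MeasureTheory Metric Filter Topology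
open scoped RealInnerProductSpace

noncomputable section

namespace Crest.Agent.R85

variable {m : ℕ}

theorem core_weak (n : ℕ) (hn : 1 ≤ n) : ∃ cH, 0 < cH ∧ ∀ {m : ℕ} {C : ℝ}, 1 ≤ m → 1 ≤ C →
    ∀ (νk : ℕ → Measure (Eu m)) [∀ k, IsFiniteMeasure (νk k)] (P : Pl n m) (γ : ℝ)
      (f : ℕ → Eu m → ℝ) (L : ℕ → ℝ), 0 < γ → (∀ k, Up n C (νk k)) →
      Up n C (ENNReal.ofReal γ • (volume : Measure (Eu n)).map P.I) →
      Vag νk (ENNReal.ofReal γ • (volume : Measure (Eu n)).map P.I) →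
      (∀ᶠ k in UF, ENNReal.ofReal (1 / C) ≤ νk k (ball 0 1)) → (∀ k, Lip (L k) (f k)) →
      (∀ k, ∫ y, f k y ^ 2 * kap (n + 3) 1 y ∂νk k ≤ 1) →
      (∀ R δ, 0 < δ → ∀ᶠ k in UF, ∀ L' ψ, Tst L' 0 R ψ → ∫ y, ψ y ∂νk k = 0 →
        En n 0 (νk k) (f k) ψ ^ 2 ≤ δ * En n 0 (νk k) ψ ψ) →
      ∃ (u : Eu n) (b : ℝ), γ * ‖u‖ ^ 2 ≤ cH ∧ γ * b ^ 2 ≤ cH ∧
        ∀ φ : Eu m → ℝ, Continuous φ → HasCompactSupport φ →
          Tendsto (fun k => ∫ y, φ y * (f k y - (⟪u, P.co y⟫ + b)) ∂νk k) UF (𝓝 0) := by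
  obtain ⟨cL, hcL, H⟩ := liou n hn
  refine ⟨cL, hcL, fun {m C} hm hC νk fin P γ f L hγ up upl vag low lip wt eqn => ?_⟩
  have h : CBH C γ νk P f L := ⟨hn, hm, hC, fin, hγ, up, upl, vag, low, lip, wt, eqn⟩
  obtain ⟨u, b, hu, hb, hΦ⟩ := H _ _ h.fnl fun ψ h1 h2 h3 => by
    have k := h.eq_plane h1 h2 h3
    have l : Tendsto (fun s : ℝ => s / 2) (𝓝[>] 0) (𝓝[>] 0) :=
      tendsto_nhdsWithin_iff.2 ⟨by
        simpa using ((continuous_id.div_const (2 : ℝ)).tendsto 0).mono_left nhdsWithin_le_nhds,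
        eventually_mem_nhdsWithin.mono fun s hs => Set.mem_Ioi.2 (half_pos (Set.mem_Ioi.1 hs))⟩
    simpa using (k.const_mul 2).sub (k.comp l)
  rw [Real.sq_sqrt hγ.le] at hu hb
  refine ⟨γ⁻¹ • u, γ⁻¹ * b, ?_, ?_, fun φ h1 h2 => ?_⟩
  · rw [norm_smul, Real.norm_eq_abs, mul_pow, sq_abs,
      show γ * (γ⁻¹ ^ 2 * ‖u‖ ^ 2) = ‖u‖ ^ 2 / γ by field_simp, div_le_iff₀ hγ]
    exact hu
  · rw [show γ * (γ⁻¹ * b) ^ 2 = b ^ 2 / γ by field_simp, div_le_iff₀ hγ]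
    exact hb
  obtain ⟨K, -, hK⟩ := dec_of_hasCompactSupport (n + 2) h1 h2
  have c1 : Continuous fun y => φ y * (⟪γ⁻¹ • u, P.co y⟫ + γ⁻¹ * b) := by fun_prop
  have c2 : HasCompactSupport fun y => φ y * (⟪γ⁻¹ • u, P.co y⟫ + γ⁻¹ * b) := h2.mul_right
  have k := (h.tend hK).sub (vag _ c1 c2)
  have e : CBPhi νk f φ - ∫ y, φ y * (⟪γ⁻¹ • u, P.co y⟫ + γ⁻¹ * b)
      ∂(ENNReal.ofReal γ • (volume : Measure (Eu n)).map P.I) = 0 := by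
    rw [← h.plane hK, hΦ (fun t => φ (P.I t)) (h1.comp P.I.continuous)
      (h2.comp_isClosedEmbedding (CB_emb P)),
      CB_int P hγ, ← integral_const_mul, sub_eq_zero]
    refine integral_congr_ae (.of_forall fun t => ?_)
    simp only [P.co_I, real_inner_smul_left]
    field_simp
  rw [e] at k
  refine k.congr fun j => ?_
  have := (up j).isLocallyFinite
  rw [← integral_sub (h.cs hK j).1 (c1.integrable_of_hasCompactSupport c2)]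
  simp only [mul_sub]

/-- Strong convergence on the unit ball (`core_weak`, `cacc` with `R = 2`, `strong`). -/
theorem core (n : ℕ) (hn : 1 ≤ n) : ∃ cH, 0 < cH ∧ ∀ {m : ℕ} {C : ℝ}, 1 ≤ m → 1 ≤ C →
    ∀ (νk : ℕ → Measure (Eu m)) [∀ k, IsFiniteMeasure (νk k)] (P : Pl n m) (γ : ℝ)
      (f : ℕ → Eu m → ℝ) (L : ℕ → ℝ), 0 < γ → (∀ k, Up n C (νk k)) →
      Up n C (ENNReal.ofReal γ • (volume : Measure (Eu n)).map P.I) →
      Vag νk (ENNReal.ofReal γ • (volume : Measure (Eu n)).map P.I) →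
      (∀ᶠ k in UF, ENNReal.ofReal (1 / C) ≤ νk k (ball 0 1)) →
      (∀ᶠ k in UF, Low n C (νk k) 0 1) → (∀ k, Lip (L k) (f k)) →
      (∀ k, ∫ y, f k y ^ 2 * kap (n + 3) 1 y ∂νk k ≤ 1) →
      (∀ R δ, 0 < δ → ∀ᶠ k in UF, ∀ L' ψ, Tst L' 0 R ψ → ∫ y, ψ y ∂νk k = 0 →
        En n 0 (νk k) (f k) ψ ^ 2 ≤ δ * En n 0 (νk k) ψ ψ) →
      ∃ (u : Eu n) (b : ℝ), γ * ‖u‖ ^ 2 ≤ cH ∧ γ * b ^ 2 ≤ cH ∧
        Tendsto (fun k => ∫ y in ball (0 : Eu m) 1, (f k y - (⟪u, P.co y⟫ + b)) ^ 2 ∂νk k) UF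
          (𝓝 0) := by
  obtain ⟨cH, hcH, H⟩ := core_weak n hn
  refine ⟨cH, hcH, fun {m C} hm hC νk _ P γ f L hγ hup hup0 hv h1 hl hf hw hE => ?_⟩
  obtain ⟨u, b, hu, hb, hweak⟩ := H hm hC νk P γ f L hγ hup hup0 hv h1 hf hw hE
  have ha : Lip ‖P.I u‖ (fun y => ⟪u, P.co y⟫ + b) := by
    simpa only [P.inner_I] using lip_affine (P.I u) b
  exact ⟨u, b, hu, hb, cba_strong hn hm hC hup h1 hl hf hw (hE _ 1 one_pos) ha hweak⟩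

end Crest.Agent.R85
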