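import Mathlib

/-!
# Two lemmas on real sequences (task Count-a, helper83)
-/

set_option autoImplicit false

namespace Crest.Agent.R85

open Finset

/-- An upcrossing costs `a / 2`. -/
theorem Countax_cross {b θ : ℕ → ℝ} {ε0 C1 a : ℝ} (hC1 : 0 < C1) (ha : 0 < a) (hae : a ≤ ε0)
    (hb : ∀ j, 0 ≤ b j) (hθ : ∀ j, 0 ≤ θ j)
    (hrec : ∀ j, b j ≤ ε0 → b (j + 1) ≤ b j / 2 + C1 * θ j) {i : ℕ} (hi : b i ≤ a / 4) (k : ℕ)
    (hk : C1 * (∑ j ∈ range (i + k), θ j - ∑ j ∈ range i, θ j) < a / 2) :
    b (i + k) ≤ a / 4 + C1 * (∑ j ∈ range (i + k), θ j - ∑ j ∈ range i, θ j) := by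
  induction k with
  | zero => simpa using hi
  | succ k ih =>
    rw [← add_assoc, sum_range_succ] at hk ⊢
    have h1 : 0 ≤ C1 * θ (i + k) := mul_nonneg hC1.le (hθ _)
    have h2 := ih (by nlinarith)
    have h3 := hrec (i + k) (by nlinarith)
    have h4 := hb (i + k)
    nlinarith

theorem Countax_max (p : ℕ → Prop) [DecidablePred p] (J : ℕ) :
    (range J).filter p = ∅ ∨ ∃ l, l < J ∧ p l ∧ (range J).filter p = (range (l + 1)).filter p := by
  induction J with
  | zero => left; simp
  | succ J ih =>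
    by_cases h : p J
    · exact Or.inr ⟨J, Nat.lt_succ_self _, h, rfl⟩
    · have e : (range (J + 1)).filter p = (range J).filter p := by
        rw [range_add_one, filter_insert, if_neg h]
      rw [e]
      rcases ih with h0 | ⟨l, h1, h2, h3⟩
      · exact Or.inl h0
      · exact Or.inr ⟨l, by omega, h2, h3⟩

theorem Countax_up {b θ : ℕ → ℝ} {ε0 C1 a : ℝ} (hC1 : 0 < C1) (ha : 0 < a) (hae : a ≤ ε0)
    (hb : ∀ j, 0 ≤ b j) (hθ : ∀ j, 0 ≤ θ j)
    (hrec : ∀ j, b j ≤ ε0 → b (j + 1) ≤ b j / 2 + C1 * θ j) (M J : ℕ)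
    (p : ℕ → Prop) [DecidablePred p] (hp : ∀ j, p j → a ≤ b j ∧ ∃ i ≤ M, b (j + i) ≤ a / 4) :
    (((range J).filter p).card : ℝ) ≤ (M + 1) * (1 + 2 * C1 / a * ∑ j ∈ range J, θ j) := by
  have hS : ∀ {i j : ℕ}, i ≤ j → ∑ k ∈ range i, θ k ≤ ∑ k ∈ range j, θ k := fun h =>
    sum_le_sum_of_subset_of_nonneg (range_mono h) fun k _ _ => hθ k
  have hS0 : ∀ i, 0 ≤ ∑ k ∈ range i, θ k := fun i => sum_nonneg fun k _ => hθ k
  have hc : 0 < 2 * C1 / a := by positivity
  have hM : (0 : ℝ) < M + 1 := by positivity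
  have key : ∀ l, a ≤ b l → (((range (l + 1)).filter p).card : ℝ)
      ≤ (M + 1) * (1 + 2 * C1 / a * ∑ j ∈ range l, θ j) := by
    intro l
    induction l using Nat.strong_induction_on with
    | _ l ih =>
      intro hl
      have h1 : ((range (l + 1)).filter p).card ≤ ((range (l - M)).filter p).card + (M + 1) := by
        have h2 : (range (l + 1)).filter p ⊆ (range (l - M)).filter p ∪ Ico (l - M) (l + 1) := by
          intro j hj
          rw [mem_filter, mem_range] at hj
          rw [mem_union, mem_filter, mem_range, mem_Ico]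
          by_cases h : j < l - M
          · exact Or.inl ⟨h, hj.2⟩
          · exact Or.inr ⟨by omega, hj.1⟩
        refine (card_le_card h2).trans ((card_union_le _ _).trans ?_)
        rw [Nat.card_Ico]
        omega
      have h1' : (((range (l + 1)).filter p).card : ℝ)
          ≤ ((range (l - M)).filter p).card + (M + 1) := by exact_mod_cast h1
      rcases Countax_max p (l - M) with h0 | ⟨l', h2, h3, h4⟩
      · rw [h0, card_empty] at h1'
        have := mul_nonneg hM.le (mul_nonneg hc.le (hS0 l))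
        push_cast at h1'
        nlinarith
      · rw [h4] at h1'
        have h5 := ih l' (by omega) (hp _ h3).1
        obtain ⟨i, hi, h6⟩ := (hp _ h3).2
        have h7 : a / 2 ≤ C1 * (∑ j ∈ range l, θ j - ∑ j ∈ range (l' + i), θ j) := by
          by_contra h8
          have e : l = l' + i + (l - (l' + i)) := by omega
          have h9 := Countax_cross hC1 ha hae hb hθ hrec h6 (l - (l' + i))
          rw [← e] at h9
          have := h9 (not_le.1 h8)
          linarith [not_le.1 h8]
        have h8 : 1 ≤ 2 * C1 / a * (∑ j ∈ range l, θ j - ∑ j ∈ range l', θ j) := by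
          rw [div_mul_eq_mul_div, le_div_iff₀ ha]
          have := mul_le_mul_of_nonneg_left (hS (Nat.le_add_right l' i)) hC1.le
          nlinarith
        nlinarith
  rcases Countax_max p J with h0 | ⟨l, h2, h3, h4⟩
  · rw [h0, card_empty, Nat.cast_zero]
    have := hS0 J
    positivity
  · rw [h4]
    refine (key l (hp _ h3).1).trans ?_
    have := hS h2.le
    gcongr

open Classical in
theorem Countax_sum {b θ : ℕ → ℝ} {ε0 C1 Bd : ℝ} (hC1 : 0 < C1) (hb : ∀ j, 0 ≤ b j)
    (hB : ∀ j, b j ≤ Bd) (hθ : ∀ j, 0 ≤ θ j)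
    (hrec : ∀ j, b j ≤ ε0 → b (j + 1) ≤ b j / 2 + C1 * θ j) (J : ℕ) :
    ∑ j ∈ range J, b j ≤ 2 * (Bd + C1 * ∑ j ∈ range J, θ j
      + Bd * (((range J).filter (fun j => ε0 < b j)).card : ℝ)) := by
  have key : ∀ J, (∑ j ∈ range J, b j) / 2 + b J ≤ Bd + C1 * ∑ j ∈ range J, θ j
      + Bd * (((range J).filter (fun j => ε0 < b j)).card : ℝ) := by
    intro J
    induction J with
    | zero => simpa using hB 0
    | succ J ih =>
      rw [sum_range_succ, sum_range_succ, range_add_one, filter_insert]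
      by_cases h : ε0 < b J
      · rw [if_pos h, card_insert_of_notMem (by simp)]
        push_cast
        have := mul_nonneg hC1.le (hθ J)
        have := hb J
        have := hB (J + 1)
        nlinarith
      · rw [if_neg h]
        have := hrec J (not_lt.1 h)
        nlinarith
  linarith [key J, hb J]

end Crest.Agent.R85
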