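import Crest.Agent.R85.HhB

/-!
# Auxiliary lemmas for `lam_tendsto` (task DensB-a, helper55)
-/

set_option autoImplicit false

open MeasureTheory Metric Filter Topology
open scoped RealInnerProductSpace

noncomputable section

namespace Crest.Agent.R85

variable {n : ℕ} {C : ℝ} {φ : Eu n → ℝ}

theorem DBa_ae {β : Type*} [MeasurableSpace β] {ν : Measure β} [SFinite ν] {p : ℝ × β → Prop}
    (h : ∀ l ∈ Set.uIoc (1 / 2 : ℝ) 1, ∀ y, p (l, y)) :
    ∀ᵐ q ∂((volume.restrict (Set.uIoc (1 / 2 : ℝ) 1)).prod ν), p q := by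
  rw [Measure.restrict_prod_eq_prod_univ]
  exact ae_restrict_of_forall_mem (measurableSet_uIoc.prod MeasurableSet.univ)
    fun q hq => h q.1 hq.1 q.2

theorem DBa_mem {l : ℝ} (h : l ∈ Set.uIoc (1 / 2 : ℝ) 1) : 1 / 2 < l ∧ l ≤ 1 := by
  rwa [Set.uIoc_of_le (by norm_num)] at h

theorem DBa_one : Integrable (fun _ : ℝ => (1 : ℝ)) (volume.restrict (Set.uIoc (1 / 2 : ℝ) 1)) :=
  integrableOn_const (by rw [Real.volume_uIoc]; exact ENNReal.ofReal_ne_top)

theorem DBa_cont (hφ : ContDiff ℝ (⊤ : ℕ∞) φ) : Continuous (fderiv ℝ φ) :=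
  hφ.continuous_fderiv (by simp)

theorem DBa_diff (hφ : ContDiff ℝ (⊤ : ℕ∞) φ) : Differentiable ℝ φ :=
  hφ.differentiable (by simp)

theorem DBa_int (hφ : ContDiff ℝ (⊤ : ℕ∞) φ) (hc : HasCompactSupport φ) {v : Eu n → Eu n}
    (hv : Continuous v) : Integrable fun x => fderiv ℝ φ x (v x) :=
  ((DBa_cont hφ).clm_apply hv).integrable_of_hasCompactSupport
    ((hc.fderiv ℝ).mono fun x hx h0 => hx (by simp [h0]))

theorem DBa_zero (hφ : ContDiff ℝ (⊤ : ℕ∞) φ) (hc : HasCompactSupport φ) (v : Eu n) :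
    ∫ x, fderiv ℝ φ x v = 0 := by
  have h := integral_mul_fderiv_eq_neg_fderiv_mul_of_integrable (μ := (volume : Measure (Eu n)))
    (f := fun _ => (1 : ℝ)) (g := φ) (v := v) (by simp)
    (by simpa using DBa_int hφ hc (v := fun _ => v) continuous_const)
    (by simpa using hφ.continuous.integrable_of_hasCompactSupport hc)
    (fun _ _ => differentiableAt_const _) (fun x _ => DBa_diff hφ x)
  simpa using h

theorem DBa_scale (f : Eu n → ℝ) {l : ℝ} (hl : 0 < l) (s : ℝ) :
    ∫ z, f (l • z) * kap (n + 1) s z = l * ∫ z, f z * kap (n + 1) (l * s) z := by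
  have h := Measure.integral_comp_smul (volume : Measure (Eu n))
    (fun z => f z * kap (n + 1) (l * s) z) l
  simp only [kap_smul _ hl, finrank_euclideanSpace_fin, mul_left_comm _ (l ^ (n + 1))⁻¹] at h
  rw [integral_const_mul, abs_of_pos (by positivity), smul_eq_mul] at h
  calc _ = l ^ (n + 1) * ((l ^ (n + 1))⁻¹ * ∫ z, f (l • z) * kap (n + 1) s z) := by field_simp
    _ = _ := by rw [h, pow_succ]; field_simp

/-- the pairing of the kernel with the gradient -/
def DBa_g (φ : Eu n → ℝ) (t : ℝ) (y : Eu n) : ℝ := ∫ x, fderiv ℝ φ x (KK n t (x - y))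

/-- the same along rays -/
def DBa_H (φ : Eu n → ℝ) (s l : ℝ) (y : Eu n) : ℝ :=
  ∫ z, fderiv ℝ φ (y + l • z) z * kap (n + 1) s z

theorem DBa_H_eq (φ : Eu n → ℝ) (s : ℝ) {l : ℝ} (hl : 0 < l) (y : Eu n) :
    DBa_H φ s l y = DBa_g φ (l * s) y := by
  have h := DBa_scale (fun z => fderiv ℝ φ (y + z) z) hl s
  simp only [map_smul, smul_eq_mul, mul_assoc] at h
  rw [integral_const_mul] at h
  unfold DBa_H DBa_g
  rw [mul_left_cancel₀ hl.ne' h,
    ← integral_add_left_eq_self (fun x => fderiv ℝ φ x (KK n (l * s) (x - y))) y]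
  simp only [add_sub_cancel_left, KK, map_smul, smul_eq_mul, mul_comm]

theorem DBa_g_le (hφ : ContDiff ℝ (⊤ : ℕ∞) φ) (hc : HasCompactSupport φ) {s : ℝ} (hs : 0 < s) :
    ∃ c : ℝ, ∀ t, s ≤ t → ∀ y, ‖DBa_g φ t y‖ ≤ c * kap (n + 1) s (0 - y) := by
  obtain ⟨R, hR, hR'⟩ := (hc.fderiv ℝ).exists_pos_le_norm
  refine ⟨(∫ x, ‖fderiv ℝ φ x‖) * ((n + 2) * R * ((1 + R / s) ^ (n + 1) + 1)), fun t hst y => ?_⟩
  have ht : 0 < t := hs.trans_le hst
  have e : DBa_g φ t y = ∫ x, fderiv ℝ φ x (KK n t (x - y) - KK n t (0 - y)) := by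
    simp only [map_sub]
    rw [integral_sub (DBa_int hφ hc (v := fun x => KK n t (x - y))
      ((continuous_KK n ht).comp (continuous_sub_right y)))
      (DBa_int hφ hc continuous_const), DBa_zero hφ hc, sub_zero, DBa_g]
  rw [e, mul_assoc, ← integral_mul_const]
  refine norm_integral_le_of_norm_le (((DBa_cont hφ).norm.integrable_of_hasCompactSupport
    (hc.fderiv ℝ).norm).mul_const _) (Eventually.of_forall fun x => ?_)
  rcases le_total R ‖x‖ with hx | hx
  · simp [hR' x hx]
  refine (ContinuousLinearMap.le_opNorm _ _).trans (mul_le_mul_of_nonneg_left ?_ (norm_nonneg _))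
  refine (KK_lip n ht _ _).trans ?_
  have e2 : x - y - (0 - y) = x := by abel
  have k0 := kap_nonneg (n + 1) s (0 - y)
  have k1 := kap_anti (n + 1) hs.le hst (N_pos hs (x - y))
  have k2 := kap_anti (n + 1) hs.le hst (N_pos hs (0 - y))
  have k3 := kap_peetre (n + 1) hs (x - y) (0 - y)
  rw [e2] at k3 ⊢
  have k4 : (1 + ‖x‖ / s) ^ (n + 1) * kap (n + 1) s (0 - y) ≤
      (1 + R / s) ^ (n + 1) * kap (n + 1) s (0 - y) := by gcongr
  have k5 := kap_nonneg (n + 1) t (0 - y)
  have k6 := kap_nonneg (n + 1) t (x - y)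
  calc _ ≤ (n + 2) * R * ((1 + R / s) ^ (n + 1) * kap (n + 1) s (0 - y) + kap (n + 1) s (0 - y)) :=
        mul_le_mul (by gcongr) (by linarith) (by linarith) (by positivity)
    _ = _ := by ring

theorem DBa_G_eq {ν : Measure (Eu n)} (h : Up n C ν) (hC : 0 ≤ C) (hφ : ContDiff ℝ (⊤ : ℕ∞) φ)
    (hc : HasCompactSupport φ) (c0 : Eu n) {t : ℝ} (ht : 0 < t) :
    ∫ x, fderiv ℝ φ x (hh n ν t x - c0) = ∫ y, DBa_g φ t y ∂ν := by
  have := h.isLocallyFinite
  obtain ⟨R, hR, hR'⟩ := (hc.fderiv ℝ).exists_pos_le_norm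
  obtain ⟨c, hc0, hcc⟩ := hh_integrand_le (m := n) n ht R
  have hK := continuous_KK (m := n) n ht
  have hK1 := continuous_KK (m := n) n one_pos
  have hD := DBa_cont hφ
  simp only [map_sub]
  rw [integral_sub (DBa_int hφ hc (continuous_hh h ht)) (DBa_int hφ hc continuous_const),
    DBa_zero hφ hc, sub_zero]
  have e : ∀ x, fderiv ℝ φ x (hh n ν t x) = ∫ y, fderiv ℝ φ x (KK n t (x - y) + KK n 1 y) ∂ν :=
    fun x => ((fderiv ℝ φ x).integral_comp_comm (hh_integrable h ht x)).symm
  simp only [e]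
  rw [integral_integral_swap]
  · refine integral_congr_ae (Eventually.of_forall fun y => ?_)
    simp only [map_add]
    rw [integral_add (DBa_int hφ hc (v := fun x => KK n t (x - y))
      (hK.comp (continuous_sub_right y))) (DBa_int hφ hc continuous_const),
      DBa_zero hφ hc, add_zero, DBa_g]
  · refine ((hD.norm.integrable_of_hasCompactSupport (hc.fderiv ℝ).norm).mul_prod
      ((h.int_kap_one hC).1.const_mul c)).mono' (Continuous.aestronglyMeasurable ?_)
      (Eventually.of_forall fun p => ?_)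
    · exact (hD.comp continuous_fst).clm_apply
        ((hK.comp (continuous_fst.sub continuous_snd)).add (hK1.comp continuous_snd))
    · rcases le_total R ‖p.1‖ with hx | hx
      · simp [Function.uncurry, hR' _ hx]
      · exact (ContinuousLinearMap.le_opNorm _ _).trans
          (mul_le_mul_of_nonneg_left (hcc _ _ hx) (norm_nonneg _))

theorem DBa_G_tendsto {ν : Measure (Eu n)} (h : Up n C ν) {c0 : Eu n}
    (hw : ∀ φ : Eu n → ℝ, Integrable φ →
      Tendsto (fun s => ∫ x, φ x • (hh n ν s x - c0)) (𝓝[>] 0) (𝓝 0))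
    (hφ : ContDiff ℝ (⊤ : ℕ∞) φ) (hc : HasCompactSupport φ) :
    Tendsto (fun t => ∫ x, fderiv ℝ φ x (hh n ν t x - c0)) (𝓝[>] 0) (𝓝 0) := by
  have h1 := tendsto_finsetSum Finset.univ fun (j : Fin n) _ =>
    ((EuclideanSpace.proj j : Eu n →L[ℝ] ℝ).continuous.tendsto _).comp
      (hw (fun x => fderiv ℝ φ x (EuclideanSpace.single j 1)) (DBa_int hφ hc continuous_const))
  simp only [map_zero, Finset.sum_const_zero] at h1
  refine h1.congr' (eventually_mem_nhdsWithin.mono fun t ht => ?_)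
  have hi : ∀ j : Fin n, Integrable fun x =>
      fderiv ℝ φ x (EuclideanSpace.single j 1) • (hh n ν t x - c0) := fun j =>
    (((DBa_cont hφ).clm_apply continuous_const).smul
      ((continuous_hh h ht).sub continuous_const)).integrable_of_hasCompactSupport
      (hc.fderiv_apply ℝ _).smul_right
  simp only [Function.comp]
  rw [Finset.sum_congr rfl fun j _ =>
    ((EuclideanSpace.proj j : Eu n →L[ℝ] ℝ).integral_comp_comm (hi j)).symm,
    ← integral_finsetSum _ fun j _ => (EuclideanSpace.proj j : Eu n →L[ℝ] ℝ).integrable_comp (hi j)]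
  refine integral_congr_ae (Eventually.of_forall fun x => ?_)
  simp only
  generalize hh n ν t x - c0 = v
  have e : v = ∑ j, v j • EuclideanSpace.single j (1 : ℝ) := by
    simpa using ((EuclideanSpace.basisFun (Fin n) ℝ).sum_repr v).symm
  conv_rhs => rw [e]
  simp [mul_comm]

theorem DBa_kap_int {s : ℝ} (hs : 0 < s) : Integrable (kap (n + 1) s : Eu n → ℝ) := by
  obtain ⟨C, hC, h, -⟩ := exists_up_volume n
  simpa only [zero_sub, kap_neg] using (h.int_kap (by linarith) 0 hs 0).1

theorem DBa_lam_eq (φ : Eu n → ℝ) (s : ℝ) (y : Eu n) :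
    Lam n volume s φ y = ∫ z, (φ y - φ (y + z)) * kap (n + 1) s z := by
  unfold Lam
  rw [← integral_add_left_eq_self _ y]
  simp only [sub_add_cancel_left, kap_neg]

theorem DBa_lam_diff (hφ : ContDiff ℝ (⊤ : ℕ∞) φ) (hc : HasCompactSupport φ) {s : ℝ} (hs : 0 < s)
    (y : Eu n) : 2 * Lam n volume s φ y - Lam n volume (s / 2) φ y =
      -2 * ∫ l in (1 / 2 : ℝ)..1, DBa_H φ s l y := by
  obtain ⟨R, hR, hR'⟩ := (hc.fderiv ℝ).exists_pos_le_norm
  have hD := DBa_cont hφ
  obtain ⟨M, hM⟩ := hφ.continuous.bounded_above_of_compact_support hc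
  obtain ⟨M', hM'⟩ := hD.bounded_above_of_compact_support (hc.fderiv ℝ)
  have hi : ∀ l : ℝ, Integrable fun z => (φ y - φ (y + l • z)) * kap (n + 1) s z := fun l =>
    (DBa_kap_int hs).bdd_mul (c := M + M)
      (continuous_const.sub (hφ.continuous.comp (by fun_prop))).aestronglyMeasurable
      (Eventually.of_forall fun z => (norm_sub_le _ _).trans (add_le_add (hM _) (hM _)))
  have h1 := DBa_scale (fun z => φ y - φ (y + z)) (l := 1 / 2) (by norm_num) s
  rw [show 1 / 2 * s = s / 2 by ring, ← DBa_lam_eq] at h1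
  have h2 : Lam n volume s φ y = ∫ z, (φ y - φ (y + (1 : ℝ) • z)) * kap (n + 1) s z := by
    simp only [one_smul, DBa_lam_eq]
  have h3 : ∫ l in (1 / 2 : ℝ)..1, DBa_H φ s l y =
      ∫ z, ((φ y - φ (y + (1 / 2 : ℝ) • z)) * kap (n + 1) s z -
        (φ y - φ (y + (1 : ℝ) • z)) * kap (n + 1) s z) := by
    unfold DBa_H
    rw [intervalIntegral_integral_swap]
    · refine integral_congr_ae (Eventually.of_forall fun z => ?_)
      have hd : ∀ l ∈ Set.uIcc (1 / 2 : ℝ) 1,
          HasDerivAt (fun l : ℝ => φ (y + l • z)) (fderiv ℝ φ (y + l • z) z) l := fun l _ => by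
        have := (DBa_diff hφ (y + l • z)).hasFDerivAt.comp_hasDerivAt l
          (((hasDerivAt_id l).smul_const z).const_add y)
        rw [one_smul] at this
        exact this
      simp only
      rw [intervalIntegral.integral_mul_const, intervalIntegral.integral_eq_sub_of_hasDerivAt hd
        (((hD.comp (by fun_prop)).clm_apply continuous_const).intervalIntegrable _ _)]
      ring
    · have hb : Integrable ((closedBall (0 : Eu n) (2 * (R + ‖y‖))).indicator
          fun _ => M' * (2 * (R + ‖y‖)) * (s ^ (n + 1))⁻¹) :=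
        (integrable_indicator_iff measurableSet_closedBall).2
          (integrableOn_const measure_closedBall_lt_top.ne)
      refine (DBa_one.mul_prod hb).mono' (Continuous.aestronglyMeasurable ?_)
        (DBa_ae fun l hl z => ?_)
      · exact ((hD.comp (by fun_prop)).clm_apply continuous_snd).mul
          ((continuous_kap _ hs).comp continuous_snd)
      · have hM0 : 0 ≤ M' := (norm_nonneg _).trans (hM' 0)
        simp only [Function.uncurry, one_mul]
        by_cases hz : z ∈ closedBall (0 : Eu n) (2 * (R + ‖y‖))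
        · rw [Set.indicator_of_mem hz, norm_mul, Real.norm_of_nonneg (kap_nonneg _ _ _)]
          rw [mem_closedBall_zero_iff] at hz
          exact mul_le_mul ((ContinuousLinearMap.le_opNorm _ _).trans
            (mul_le_mul (hM' _) hz (norm_nonneg _) hM0)) (kap_le _ hs _) (kap_nonneg _ _ _)
            (by positivity)
        · rw [Set.indicator_of_notMem hz, hR']
          · simp
          rw [mem_closedBall_zero_iff, not_le] at hz
          have a1 := norm_sub_le (y + l • z) y
          have a2 := (DBa_mem hl).1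
          rw [add_sub_cancel_left, norm_smul, Real.norm_of_nonneg (by linarith)] at a1
          nlinarith [norm_nonneg z]
  rw [h3, integral_sub (hi _) (hi _), h1, h2]
  ring

theorem DBa_lam_int {ν : Measure (Eu n)} (h : Up n C ν) (hC : 0 ≤ C) (hφ : ContDiff ℝ (⊤ : ℕ∞) φ)
    (hc : HasCompactSupport φ) {s : ℝ} (hs : 0 < s) : Integrable (Lam n volume s φ) ν := by
  have := h.isLocallyFinite
  obtain ⟨C', -, h', -⟩ := exists_up_volume n
  obtain ⟨L, R, -, hR, hT⟩ := tst_of_contDiff (hφ.of_le (by simp)) hc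
  have e : Lam n volume s φ = fun x => (φ x * ∫ z : Eu n, kap (n + 1) s z) -
      ∫ y, φ y * kap (n + 1) s (x - y) := by
    funext x
    rw [Lam_eq h' hs hT, integral_sub_left_eq_self (kap (n + 1) s) volume x]
  rw [e]
  refine ((hT.integrable h).mul_const _).sub (Integrable.integral_prod_right
    (f := fun p : Eu n × Eu n => φ p.1 * kap (n + 1) s (p.2 - p.1)) ?_)
  refine ((hT.integrable h').norm.mul_prod
    ((h.int_kap hC 0 hs 0).1.const_mul ((1 + R / s) ^ (n + 1)))).mono'
    (Continuous.aestronglyMeasurable ?_) (Eventually.of_forall fun p => ?_)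
  · exact (hφ.continuous.comp continuous_fst).mul
      ((continuous_kap _ hs).comp (continuous_snd.sub continuous_fst))
  · rcases le_total R ‖p.1‖ with hx | hx
    · simp [hT.supp _ (by rwa [dist_zero_right])]
    · rw [norm_mul, Real.norm_of_nonneg (kap_nonneg _ _ _), kap_sub_comm]
      refine mul_le_mul_of_nonneg_left ((kap_peetre _ hs _ (0 - p.2)).trans ?_) (norm_nonneg _)
      have k0 := kap_nonneg (n + 1) s (0 - p.2)
      rw [show p.1 - p.2 - (0 - p.2) = p.1 by abel]
      gcongr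

theorem DBa_F_eq {ν : Measure (Eu n)} (h : Up n C ν) (hC : 0 ≤ C) (hφ : ContDiff ℝ (⊤ : ℕ∞) φ)
    (hc : HasCompactSupport φ) (c0 : Eu n) {s : ℝ} (hs : 0 < s) :
    2 * ∫ y, Lam n volume s φ y ∂ν - ∫ y, Lam n volume (s / 2) φ y ∂ν =
      -2 * ∫ l in (1 / 2 : ℝ)..1, ∫ x, fderiv ℝ φ x (hh n ν (l * s) x - c0) := by
  have := h.isLocallyFinite
  have hs2 := half_pos hs
  obtain ⟨c, hcc⟩ := DBa_g_le hφ hc hs2
  rw [← integral_const_mul, ← integral_sub ((DBa_lam_int h hC hφ hc hs).const_mul 2)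
    (DBa_lam_int h hC hφ hc hs2)]
  simp only [DBa_lam_diff hφ hc hs]
  rw [integral_const_mul, ← intervalIntegral_integral_swap]
  · congr 1
    refine intervalIntegral.integral_congr fun l hl => ?_
    rw [Set.uIcc_of_le (by norm_num)] at hl
    have hl0 : 0 < l := by linarith [hl.1]
    simp only [DBa_H_eq φ s hl0]
    rw [DBa_G_eq h hC hφ hc c0 (mul_pos hl0 hs)]
  · refine (DBa_one.mul_prod ((h.int_kap hC 0 hs2 0).1.const_mul c)).mono'
      (StronglyMeasurable.aestronglyMeasurable ?_) (DBa_ae fun l hl y => ?_)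
    · refine StronglyMeasurable.integral_prod_right' (ν := (volume : Measure (Eu n)))
        (f := fun q : (ℝ × Eu n) × Eu n =>
          fderiv ℝ φ (q.1.2 + q.1.1 • q.2) q.2 * kap (n + 1) s q.2) (Continuous.stronglyMeasurable ?_)
      exact (((DBa_cont hφ).comp (by fun_prop)).clm_apply continuous_snd).mul
        ((continuous_kap _ hs).comp continuous_snd)
    · have a := (DBa_mem hl).1
      simp only [Function.uncurry, one_mul]
      rw [DBa_H_eq φ s (by linarith)]
      exact hcc _ (by nlinarith) y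

theorem DBa_lam_tendsto {ν : Measure (Eu n)} (h : Up n C ν) {c0 : Eu n}
    (hw : ∀ φ : Eu n → ℝ, Integrable φ →
      Tendsto (fun s => ∫ x, φ x • (hh n ν s x - c0)) (𝓝[>] 0) (𝓝 0))
    (hφ : ContDiff ℝ (⊤ : ℕ∞) φ) (hc : HasCompactSupport φ) :
    Tendsto (fun s => 2 * ∫ y, Lam n volume s φ y ∂ν - ∫ y, Lam n volume (s / 2) φ y ∂ν)
      (𝓝[>] 0) (𝓝 0) := by
  have h1 := DBa_G_tendsto h hw hφ hc
  rw [Metric.tendsto_nhdsWithin_nhds] at h1 ⊢
  intro ε hε
  obtain ⟨δ, hδ, h2⟩ := h1 (ε / 2) (half_pos hε)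
  refine ⟨δ, hδ, fun s (hs : 0 < s) hsδ => ?_⟩
  rw [dist_zero_right, Real.norm_of_nonneg hs.le] at hsδ
  rw [DBa_F_eq (h.mono (le_max_left C 0)) (le_max_right _ _) hφ hc c0 hs, dist_zero_right, norm_mul]
  have h3 := intervalIntegral.norm_integral_le_of_norm_le_const (a := (1 / 2 : ℝ)) (b := 1)
    (C := ε / 2) (f := fun l => ∫ x, fderiv ℝ φ x (hh n ν (l * s) x - c0)) fun l hl => by
      obtain ⟨a1, a2⟩ := DBa_mem hl
      have a3 : 0 < l * s := mul_pos (by linarith) hs
      have := h2 (x := l * s) a3 (by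
        rw [dist_zero_right, Real.norm_of_nonneg a3.le]
        nlinarith)
      rw [dist_zero_right] at this
      exact this.le
  norm_num at h3 ⊢
  linarith

end Crest.Agent.R85
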