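import Crest.Agent.R85.DensA

/-!
# Auxiliary lemmas for `dens` (task DensA-b)
-/

set_option autoImplicit false

open MeasureTheory Metric Filter Topology
open scoped RealInnerProductSpace

noncomputable section

namespace Crest.Agent.R85

variable {m n : ℕ} {C : ℝ}

theorem DensBb_dec_mono {p q : ℕ} (hpq : p ≤ q) {K : ℝ} {φ : Eu m → ℝ} (h : Dec q K φ) :
    Dec p |K| φ :=
  ⟨h.1, fun y => (h.2 y).trans (mul_le_mul (le_abs_self K) (kap_anti_exp hpq y)
    (kap_nonneg _ _ _) (abs_nonneg K))⟩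

theorem DensBb_int {ν : Measure (Eu m)} (h : Up n C ν) {K : ℝ} {φ : Eu m → ℝ}
    (hφ : Dec (n + 2) K φ) : Integrable φ ν :=
  h.integrable_dec (DensBb_dec_mono (Nat.le_succ _) hφ)

theorem DensBb_int_kap (n : ℕ) : Integrable (fun y : Eu n => kap (n + 3) 1 y) := by
  obtain ⟨C, -, hC, -⟩ := exists_up_volume n
  refine hC.integrable_dec (K := 1) ⟨continuous_kap _ one_pos, fun y => ?_⟩
  rw [abs_of_nonneg (kap_nonneg _ _ _), one_mul]
  exact kap_anti_exp (by omega) y

/-- Cauchy–Schwarz with the weight. -/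
theorem DensBb_cs {K : ℝ} {φ : Eu n → ℝ} (hφ : Dec (n + 2) K φ) :
    (∫ y, |φ y|) ^ 2 ≤ (∫ y : Eu n, kap (n + 3) 1 y) * ∫ y, φ y ^ 2 * N 1 y ^ (n + 3) := by
  obtain ⟨C, -, hC, -⟩ := exists_up_volume n
  have i1 := (DensBb_int hC hφ).abs
  have i2 := DensBb_int_kap n
  have i3 := hφ.integrable_sq
  have key : ∀ t : ℝ, 0 ≤ (∫ y : Eu n, kap (n + 3) 1 y) * (t * t) + (-2 * ∫ y, |φ y|) * t +
      ∫ y, φ y ^ 2 * N 1 y ^ (n + 3) := fun t => by
    have i4 : Integrable fun y : Eu n => kap (n + 3) 1 y * (t * t) := i2.mul_const _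
    have i5 : Integrable fun y : Eu n => -2 * |φ y| * t := (i1.const_mul _).mul_const _
    have i6 : Integrable fun y : Eu n => kap (n + 3) 1 y * (t * t) + -2 * |φ y| * t := i4.add i5
    rw [← integral_mul_const, ← integral_const_mul, ← integral_mul_const, ← integral_add i4 i5,
      ← integral_add i6 i3]
    refine integral_nonneg fun y => ?_
    have hN : 0 < N 1 y ^ (n + 3) := pow_pos (N_pos one_pos y) _
    have h1 : kap (n + 3) 1 y * (t * t) + -2 * |φ y| * t + φ y ^ 2 * N 1 y ^ (n + 3) =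
        (t - |φ y| * N 1 y ^ (n + 3)) ^ 2 * (N 1 y ^ (n + 3))⁻¹ := by
      rw [kap, ← sq_abs (φ y)]
      field_simp
      ring
    simp only [Pi.zero_apply]
    rw [h1]
    positivity
  have h := discrim_le_zero key
  rw [discrim] at h
  nlinarith

theorem DensBb_fnl {ν : Measure (Eu n)} (h : Up n C ν) :
    ∃ B, Fnl B fun φ : Eu n → ℝ => ∫ y, φ y ∂ν := by
  obtain ⟨c, hc⟩ := le_smul_volume h
  obtain ⟨C', -, hC', -⟩ := exists_up_volume n
  have hk : 0 ≤ ∫ y : Eu n, kap (n + 3) 1 y := integral_nonneg fun y => kap_nonneg _ _ _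
  refine ⟨c * √(∫ y : Eu n, kap (n + 3) 1 y), fun K K' φ ψ hφ hψ => ?_, fun K φ a _ => ?_,
    fun K φ hφ => ?_⟩
  · exact integral_add (DensBb_int h hφ) (DensBb_int h hψ)
  · exact integral_const_mul a φ
  · have i1 := (DensBb_int hC' hφ).abs
    have h1 : |∫ y, φ y ∂ν| ≤ c * ∫ y, |φ y| := by
      refine abs_integral_le_integral_abs.trans ?_
      refine (integral_mono_measure hc (Eventually.of_forall fun y => abs_nonneg _)
        (i1.smul_measure_nnreal)).trans ?_
      rw [integral_smul_nnreal_measure]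
      rfl
    have h2 := DensBb_cs hφ
    rw [← sq_abs, mul_pow, Real.sq_sqrt hk, mul_assoc]
    refine (pow_le_pow_left₀ (abs_nonneg _) h1 2).trans ?_
    rw [mul_pow]
    exact mul_le_mul_of_nonneg_left h2 (sq_nonneg _)

/-- A continuous density of a positive measure is nonnegative. -/
theorem DensBb_nonneg {ν : Measure (Eu n)} {g : Eu n → ℝ} (hg : Continuous g)
    (h : ∀ φ : Eu n → ℝ, Continuous φ → HasCompactSupport φ → ∫ y, φ y ∂ν = ∫ y, φ y * g y)
    (x : Eu n) : 0 ≤ g x := by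
  by_contra hx
  rw [not_le] at hx
  obtain ⟨r, hr, hb⟩ := Metric.mem_nhds_iff.1 (hg.continuousAt.eventually (gt_mem_nhds hx))
  have hT := cut_tst x (r / 2) (half_pos hr)
  have hc := hT.lip.continuous
  have hs := hT.hasCompactSupport
  have h1 : 0 ≤ ∫ y, cut x (r / 2) (r / 2) y ∂ν := integral_nonneg fun y => cut_nonneg _ _ _ _
  have h2 : 0 < ∫ y, cut x (r / 2) (r / 2) y * -g y := by
    refine Continuous.integral_pos_of_hasCompactSupport_nonneg_nonzero (x := x) (hc.mul hg.neg)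
      hs.mul_right (fun y => ?_) ?_
    · by_cases hy : y ∈ ball x r
      · exact mul_nonneg (cut_nonneg _ _ _ _) (neg_nonneg.2 (le_of_lt (hb hy)))
      · rw [hT.supp y (by rw [add_halves]; exact not_lt.1 hy), zero_mul]
        rfl
    · rw [cut_eq_one (half_pos hr) (by rw [dist_self]; exact (half_pos hr).le), one_mul]
      exact neg_ne_zero.2 hx.ne
  rw [h _ hc hs] at h1
  simp only [mul_neg, integral_neg] at h2
  linarith

theorem DensBb_const {ν : Measure (Eu n)} (hν : Up n C ν) {u : Eu n} {b : ℝ}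
    (h : ∀ φ : Eu n → ℝ, Continuous φ → HasCompactSupport φ →
      ∫ y, φ y ∂ν = ∫ y, φ y * (⟪u, y⟫ + b)) :
    0 ≤ b ∧ ν = ENNReal.ofReal b • (volume : Measure (Eu n)) := by
  have hg := DensBb_nonneg (g := fun y => ⟪u, y⟫ + b) (by fun_prop) h
  have hb : 0 ≤ b := by simpa using hg 0
  have hu : u = 0 := by
    by_contra hu
    have hp : 0 < ‖u‖ ^ 2 := pow_pos (norm_pos_iff.2 hu) 2
    have h1 := hg ((-(b + 1) / ‖u‖ ^ 2) • u)
    rw [real_inner_smul_right, real_inner_self_eq_norm_sq, div_mul_cancel₀ _ hp.ne'] at h1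
    linarith
  refine ⟨hb, ?_⟩
  have := hν.isLocallyFinite
  have : (ENNReal.ofReal b • (volume : Measure (Eu n))).Regular :=
    Measure.Regular.smul ENNReal.ofReal_ne_top
  refine Measure.ext_of_integral_eq_on_compactlySupported fun f => ?_
  rw [h f f.continuous f.hasCompactSupport, integral_smul_measure, ENNReal.toReal_ofReal hb, hu]
  simp only [inner_zero_left, zero_add, integral_mul_const, smul_eq_mul]
  ring

theorem DensBb_lower (n : ℕ) (hC : 1 ≤ C) : ∃ c0, 0 < c0 ∧ ∀ γ : ℝ, 0 ≤ γ →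
    ENNReal.ofReal (1 ^ n / C) ≤ (ENNReal.ofReal γ • (volume : Measure (Eu n))) (ball 0 1) →
      c0 ≤ γ := by
  have hV : 0 < (volume : Measure (Eu n)).real (ball 0 1) :=
    ENNReal.toReal_pos (measure_ball_pos _ _ one_pos).ne' measure_ball_lt_top.ne
  refine ⟨1 / C / (volume : Measure (Eu n)).real (ball 0 1), by positivity, fun γ hγ h => ?_⟩
  rw [Measure.smul_apply, smul_eq_mul, ← ofReal_measureReal measure_ball_lt_top.ne,
    ← ENNReal.ofReal_mul hγ, ENNReal.ofReal_le_ofReal_iff (by positivity), one_pow] at h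
  rwa [div_le_iff₀ hV]

end Crest.Agent.R85
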