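import Crest.Agent.R85.DensA
import Crest.Agent.R85.DensBbx
import Crest.Agent.R85.DensBax

/-!
# The density lemma (task DensB)

`lam_tendsto`: put `F s = ∫ Lam n volume s φ dν` and
`G t = ∫ ⟪hh n ν t x - c0, ∇φ x⟫ dx = ∑_j ∫ ∂_jφ x • (hh t x - c0)_j`, bounded and `→ 0` as `t → 0`
by `weak_const`.  Since `∫ ∇φ = 0`, Fubini gives `G t = ∫ g t y dν(y)` with
`g t y = ∫ ⟪K_t(z), ∇φ(y+z)⟫ dz`.  From `φ(y+z) - φ(y+z/2) = ∫_{1/2}^1 ⟪z, ∇φ(y+λz)⟫ dλ` and the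
scalings `κ_s(z/λ) = λ^(n+1) κ_{λ s}(z)`:
`- Lam s φ y + ½ Lam (s/2) φ y = ∫_{1/2}^1 g (λ s) y dλ`, so `-F s + ½ F (s/2) = ∫_{1/2}^1 G(λ s) dλ`.
(Alternative: integrate by parts with `div K_s = -κ_s + (n+1) s² kap (n+3) s`.)

`dens`: `Φ φ = ∫ φ dν` is a `Fnl` by `le_smul_volume` and Cauchy–Schwarz with `kap (n+3) 1`;
`liou` gives an affine density, which is nonnegative, hence constant `γ`;
`Measure.ext_of_integral_eq_on_compactlySupported`; the lower bound on `ball 0 1` bounds `γ`.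
-/

set_option autoImplicit false

open MeasureTheory Metric Filter Topology
open scoped RealInnerProductSpace

noncomputable section

namespace Crest.Agent.R85

variable {m : ℕ}

variable {n : ℕ} {C : ℝ}

theorem lam_tendsto {ν : Measure (Eu n)} (hn : 1 ≤ n) (h : Up n C ν) {c0 : Eu n} {B : ℝ}
    (hB : ∀ x s, 0 < s → ‖hh n ν s x - c0‖ ≤ B)
    (hw : ∀ φ : Eu n → ℝ, Integrable φ →
      Tendsto (fun s => ∫ x, φ x • (hh n ν s x - c0)) (𝓝[>] 0) (𝓝 0))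
    {φ : Eu n → ℝ} (hφ : ContDiff ℝ (⊤ : ℕ∞) φ) (hc : HasCompactSupport φ) :
    Tendsto (fun s => 2 * ∫ y, Lam n volume s φ y ∂ν - ∫ y, Lam n volume (s / 2) φ y ∂ν)
      (𝓝[>] 0) (𝓝 0) :=
  DBa_lam_tendsto h hw hφ hc

theorem dens (n : ℕ) (hn : 1 ≤ n) {C : ℝ} (hC : 1 ≤ C) : ∃ c0, 0 < c0 ∧ ∀ ν : Measure (Eu n),
    Up n C ν → LowAll n C ν → Refl n ν → (0 : Eu n) ∈ ν.support →
      ∃ γ, c0 ≤ γ ∧ ν = ENNReal.ofReal γ • (volume : Measure (Eu n)) := by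
  obtain ⟨c0, hc0, hlow⟩ := DensBb_lower n hC
  obtain ⟨cL, -, hL⟩ := liou n hn
  refine ⟨c0, hc0, fun ν h hl hr h0 => ?_⟩
  obtain ⟨B, hB⟩ := DensBb_fnl h
  obtain ⟨c1, B1, hb, hw⟩ := weak_const hn hC h hl hr h0
  obtain ⟨u, b, -, -, hub⟩ := hL B _ hB fun ψ hψ hc _ => lam_tendsto hn h hb hw hψ hc
  obtain ⟨hb0, e⟩ := DensBb_const h hub
  refine ⟨b, hlow b hb0 ?_, e⟩
  rw [← e]
  exact hl 0 h0 1 one_pos

/-- A reflectionless regular measure carried by an `n`-plane is a multiple of Lebesgue measure. -/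
theorem dens_plane (n m : ℕ) (hn : 1 ≤ n) {C : ℝ} (hC : 1 ≤ C) : ∃ c0, 0 < c0 ∧
    ∀ (ν : Measure (Eu m)) (P : Pl n m), Up n C ν → LowAll n C ν → Refl n ν →
      (0 : Eu m) ∈ ν.support → ν.support ⊆ Set.range P.I →
      ∃ γ, c0 ≤ γ ∧ ν = ENNReal.ofReal γ • (volume : Measure (Eu n)).map P.I := by
  obtain ⟨c0, hc0, H⟩ := dens n hn hC
  refine ⟨c0, hc0, fun ν P h hl hr h0 hs => ?_⟩
  obtain ⟨e, h1, h2, h3, h4⟩ := refl_map_co P h hl hr h0 hs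
  obtain ⟨γ, hγ, e'⟩ := H _ h1 h2 h3 h4
  refine ⟨γ, hγ, ?_⟩
  rw [← Measure.map_smul, ← e']
  exact e

end Crest.Agent.R85
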