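import Crest.Agent.R85.CoreB
import Crest.Agent.R85.DensB

/-!
# Improvement of flatness (task Imp)

`imp_core`: choose `ρ ≤ 1/100` with `2 ρ 2^(n+3) · 2 · (1 + m·c_a) ≤ 1/4`-type smallness, where
`c_a = 4 (cH/c0) cK C` bounds `∫ (⟪u,co y⟫+b)² kap (n+3) 1 dν_k`.  Suppose the claim fails for
`ε = δ = 1/(k+1)`, `A = k+1`: measures `ν_k`, `β_k = bb ν_k 0 1 > 0` (by `bb_le_mul`),
planes `P_k` with `bP < 2 β_k`, recentred at `0` (`P_k.q = proj 0`, so `P_k.co q = 0`,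
`‖q‖ = D 0 ≤ 1` by `D_le_of_bP`).  `exists_vag`, `exists_pl_lim`; the limit `ν` is regular,
reflectionless (`Vag.refl_of_small`), `∫ P.D² kap (n+3) 1 dν = 0` (`Vag.tendsto_var`), so the support
lies in the plane, and `q = 0` (`0` is in the support, `co q = 0`); `dens_plane`.  Apply `core` to the
`m` coordinates `f_k^i y = ⟪e_i, y - P_k.proj y⟫ / √(2β_k)` (affine: `En_affine`, `‖v‖ ≤ 1/√(2β_k)`).
With `H t = ∑ (⟪u_i,t⟫ + b_i) e_i`, the competitor from `exists_pl_range` for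
`t ↦ q_k + I_k t + √(2β_k) H t` has `D y ≤ √(2β_k) ‖f_k y - H (P_k.co y)‖`.  On `ball 0 1` the weight
`ρ kap (n+3) ρ ≤ ρ^{-(n+2)}` and the integral tends to `0` (`P_k.co → P.co`); outside,
`ρ kap (n+3) ρ y ≤ ρ 2^(n+3) kap (n+3) 1 y`.

`imp`: rescale (`Resc`); if `θ ≤ δ bb` use `imp_core` (`Small.mono`), otherwise `bb_le_mul`.
-/

set_option autoImplicit false

open MeasureTheory Metric Filter Topology
open scoped RealInnerProductSpace

noncomputable section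

namespace Crest.Agent.R85

variable {m : ℕ}

section Aux

variable {n : ℕ} {C : ℝ} {ν : Measure (Eu m)}

/-- The normalised normal coordinates, written as affine functions. -/
def impF (P : Pl n m) (lam : ℝ) (i : Fin m) (y : Eu m) : ℝ :=
  ⟪lam⁻¹ • (EuclideanSpace.single i 1 - P.pr (EuclideanSpace.single i 1)), y⟫ + -(lam⁻¹ * P.q i)

theorem imp_proj {P : Pl n m} (hq : P.co P.q = 0) (y : Eu m) : P.proj y = P.q + P.I (P.co y) := by
  rw [Pl.proj, P.pr_apply, map_sub, hq, sub_zero]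

theorem impF_eq {P : Pl n m} (hq : P.co P.q = 0) (lam : ℝ) (i : Fin m) (y : Eu m) :
    impF P lam i y = lam⁻¹ * (y - P.proj y) i := by
  rw [impF, real_inner_smul_left, inner_sub_left, P.inner_pr, imp_proj hq, ← P.pr_apply]
  simp only [EuclideanSpace.inner_single_left, conj_trivial, one_mul, PiLp.sub_apply,
    PiLp.add_apply]
  ring

theorem impF_sum {P : Pl n m} (hq : P.co P.q = 0) (lam : ℝ) (y : Eu m) :
    ∑ i, impF P lam i y ^ 2 = lam⁻¹ ^ 2 * P.D y ^ 2 := by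
  rw [Pl.D, EuclideanSpace.real_norm_sq_eq, Finset.mul_sum]
  exact Finset.sum_congr rfl fun i _ => by rw [impF_eq hq, mul_pow]

theorem impF_lip (P : Pl n m) (lam : ℝ) (i : Fin m) : Lip
    ‖lam⁻¹ • (EuclideanSpace.single i (1 : ℝ) - P.pr (EuclideanSpace.single i 1))‖ (impF P lam i) :=
  lip_affine _ _

theorem impF_int (h : Up n C ν) {P : Pl n m} (hq : P.co P.q = 0) {lam : ℝ} (hl : 0 < lam)
    (hP : bP ν P 0 1 ≤ lam ^ 2) (i : Fin m) :
    ∫ y, impF P lam i y ^ 2 * kap (n + 3) 1 y ∂ν ≤ 1 := by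
  refine (integral_mono_of_nonneg (ae_of_all _ fun y => mul_nonneg (sq_nonneg _) (kap_nonneg _ _ _))
    ((bP_integrable h P 0 one_pos).const_mul (lam⁻¹ ^ 2)) (ae_of_all _ fun y => ?_)).trans ?_
  · simp only [one_mul, sub_zero]
    rw [← mul_assoc, ← impF_sum hq]
    exact mul_le_mul_of_nonneg_right (Finset.single_le_sum (f := fun i => impF P lam i y ^ 2)
      (fun i _ => sq_nonneg _) (Finset.mem_univ i)) (kap_nonneg _ _ _)
  · rw [integral_const_mul]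
    refine (mul_le_mul_of_nonneg_left hP (sq_nonneg _)).trans (le_of_eq ?_)
    field_simp

theorem impF_En [IsFiniteMeasure ν] (h : Up n C ν) (hn : 1 ≤ n) (P : Pl n m) (lam : ℝ) (i : Fin m)
    {L : ℝ} {ψ : Eu m → ℝ} (hψ : Lip L ψ) :
    En n 0 ν (impF P lam i) ψ ^ 2 ≤ lam⁻¹ ^ 2 * ‖TT n ν ψ‖ ^ 2 := by
  have h1 := En_affine h hn (lam⁻¹ • (EuclideanSpace.single i 1 - P.pr (EuclideanSpace.single i 1)))
    (-(lam⁻¹ * P.q i)) hψ
  have h2 := P.norm_sub_pr_le (EuclideanSpace.single i 1)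
  rw [PiLp.norm_single, norm_one] at h2
  refine (congrArg (· ^ 2) h1).le.trans ?_
  rw [real_inner_smul_left, mul_pow, ← sq_abs ⟪_, _⟫]
  refine mul_le_mul_of_nonneg_left (pow_le_pow_left₀ (abs_nonneg _)
    ((abs_real_inner_le_norm _ _).trans ?_) 2) (sq_nonneg _)
  exact mul_le_of_le_one_left (norm_nonneg _) h2

theorem imp_exists_pl (hnm : n ≤ m) {a : ℝ} (h : bb n ν 0 1 < a) :
    ∃ P : Pl n m, bP ν P 0 1 < a ∧ P.co P.q = 0 := by
  obtain ⟨P, hP⟩ := exists_bP_lt hnm h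
  refine ⟨P.recenter 0, ?_, ?_⟩
  · simpa only [bP, P.recenter_D] using hP
  · have := P.co_sub_proj 0
    rw [zero_sub, map_neg, neg_eq_zero] at this
    exact this

/-- The competitor plane. -/
theorem imp_comp (hnm : n ≤ m) {P : Pl n m} (hq : P.co P.q = 0) {lam : ℝ} (hl : 0 < lam)
    (u : Fin m → Eu n) (b : Fin m → ℝ) : ∃ P' : Pl n m, ∀ y,
      P'.D y ^ 2 ≤ lam ^ 2 * ∑ i, (impF P lam i y - (⟪u i, P.co y⟫ + b i)) ^ 2 := by
  obtain ⟨P', hP'⟩ := exists_pl_range hnm (P.q + lam • WithLp.toLp 2 b)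
    (P.I + lam • ∑ i, (innerSL ℝ (u i)).smulRight (EuclideanSpace.single i (1 : ℝ)))
  refine ⟨P', fun y => (pow_le_pow_left₀ (P'.D_nonneg y) (hP' y (P.co y)) 2).trans (le_of_eq ?_)⟩
  rw [EuclideanSpace.real_norm_sq_eq, Finset.mul_sum]
  refine Finset.sum_congr rfl fun i _ => ?_
  rw [impF_eq hq, imp_proj hq, ← mul_pow]
  congr 1
  simp [Finset.sum_apply, Pi.single_apply]
  field_simp
  ring

theorem imp_bound [IsFiniteMeasure ν] (hnm : n ≤ m) (h : Up n C ν) (hC : 0 ≤ C) {P : Pl n m}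
    (hq : P.co P.q = 0) {lam : ℝ} (hl : 0 < lam) (hP : bP ν P 0 1 ≤ lam ^ 2)
    (co : Eu m →L[ℝ] Eu n) (u : Fin m → Eu n) (b : Fin m → ℝ) {c : ℝ} (hc : 0 ≤ c)
    (hu : ∀ i, ‖u i‖ ^ 2 ≤ c) (hb : ∀ i, b i ^ 2 ≤ c) {ρ : ℝ} (hρ : 0 < ρ) :
    bb n ν 0 ρ ≤ lam ^ 2 * ((ρ ^ (n + 2))⁻¹ * ∑ i, (2 * ∫ y in ball (0 : Eu m) 1,
      (impF P lam i y - (⟪u i, co y⟫ + b i)) ^ 2 ∂ν + 2 * c * ‖P.co - co‖ ^ 2 * C) +
      ρ * 2 ^ (n + 3) * (2 + 4 * m * c * (cK n * C))) := by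
  obtain ⟨P', hP'⟩ := imp_comp hnm hq hl u b
  have hin : ∀ (i : Fin m) (t : Eu n), ⟪u i, t⟫ ^ 2 ≤ c * ‖t‖ ^ 2 := fun i t => by
    rw [← sq_abs]
    refine (pow_le_pow_left₀ (abs_nonneg _) (abs_real_inner_le_norm _ _) 2).trans ?_
    rw [mul_pow]
    exact mul_le_mul_of_nonneg_right (hu i) (sq_nonneg _)
  have i1 : ∀ i, IntegrableOn (fun y => (impF P lam i y - (⟪u i, co y⟫ + b i)) ^ 2)
      (ball (0 : Eu m) 1) ν := fun i => by
    have := (impF_lip P lam i).continuous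
    exact (ContinuousOn.integrableOn_compact (isCompact_closedBall 0 1) (by fun_prop)).mono_set
      ball_subset_closedBall
  have i2 : ∀ i, IntegrableOn (fun y => 2 * (impF P lam i y - (⟪u i, co y⟫ + b i)) ^ 2 +
      2 * c * ‖P.co - co‖ ^ 2) (ball (0 : Eu m) 1) ν := fun i =>
    ((i1 i).const_mul 2).add (integrable_const _)
  have i3 : Integrable ((ball (0 : Eu m) 1).indicator fun y => ∑ i,
      (2 * (impF P lam i y - (⟪u i, co y⟫ + b i)) ^ 2 + 2 * c * ‖P.co - co‖ ^ 2)) ν :=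
    (integrable_indicator_iff measurableSet_ball).2 (integrable_finsetSum _ fun i _ => i2 i)
  have i4 := (bP_integrable h P 0 one_pos).const_mul (2 * lam⁻¹ ^ 2)
  have i5 := (h.int_kap_one hC).1.const_mul (4 * m * c)
  refine (bb_le_bP P' 0 hρ).trans ((integral_mono_of_nonneg (ae_of_all _ fun y =>
    mul_nonneg (sq_nonneg _) (mul_nonneg hρ.le (kap_nonneg _ _ _)))
    (((i3.const_mul (ρ ^ (n + 2))⁻¹).add ((i4.add i5).const_mul (ρ * 2 ^ (n + 3)))).const_mul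
      (lam ^ 2)) (ae_of_all _ fun y => ?_)).trans ?_)
  · simp only [Pi.add_apply, sub_zero, one_mul]
    have k0 := kap_nonneg (n + 3) ρ y
    have k1 := kap_nonneg (n + 3) 1 y
    have k2 := kap_nonneg (n + 1) 1 y
    refine (mul_le_mul_of_nonneg_right (hP' y) (mul_nonneg hρ.le k0)).trans ?_
    rw [mul_assoc]
    refine mul_le_mul_of_nonneg_left ?_ (sq_nonneg _)
    by_cases hy : y ∈ ball (0 : Eu m) 1
    · rw [Set.indicator_of_mem hy, mul_comm]
      refine le_add_of_le_of_nonneg (mul_le_mul ?_ (Finset.sum_le_sum fun i _ => ?_)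
        (Finset.sum_nonneg fun i _ => sq_nonneg _) (by positivity)) (by positivity)
      · refine (mul_le_mul_of_nonneg_left (kap_le _ hρ y) hρ.le).trans (le_of_eq ?_)
        field_simp
        ring
      · have h1 := hin i ((P.co - co) y)
        have h2 : ‖(P.co - co) y‖ ≤ ‖P.co - co‖ := ((P.co - co).le_opNorm y).trans
          (mul_le_of_le_one_right (norm_nonneg _) (mem_ball_zero_iff.1 hy).le)
        have h3 := mul_le_mul_of_nonneg_left (pow_le_pow_left₀ (norm_nonneg _) h2 2) hc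
        have h4 : ⟪u i, (P.co - co) y⟫ = ⟪u i, P.co y⟫ - ⟪u i, co y⟫ := by
          rw [sub_apply, inner_sub_right]
        rw [h4] at h1
        nlinarith [sq_nonneg (impF P lam i y - (⟪u i, co y⟫ + b i) + (⟪u i, P.co y⟫ - ⟪u i, co y⟫))]
    · rw [Set.indicator_of_notMem hy, mul_zero, zero_add]
      have hy1 : 1 ≤ ‖y‖ := not_lt.1 (mt mem_ball_zero_iff.2 hy)
      have h1 : kap (n + 3) ρ y ≤ 2 ^ (n + 3) * kap (n + 3) 1 y :=
        (kap_anti _ le_rfl hρ.le (by rw [N_zero]; linarith)).trans (kap_zero_le _ one_pos hy1)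
      have h2 : ∑ i, (impF P lam i y - (⟪u i, P.co y⟫ + b i)) ^ 2 ≤
          2 * lam⁻¹ ^ 2 * P.D y ^ 2 + 4 * m * c * N 1 y ^ 2 := by
        refine (Finset.sum_le_sum (g := fun i => 2 * impF P lam i y ^ 2 + 4 * c * N 1 y ^ 2)
          fun i _ => ?_).trans (le_of_eq ?_)
        · have h3 := hin i (P.co y)
          have h4 := mul_le_mul_of_nonneg_left
            (pow_le_pow_left₀ (norm_nonneg _) (P.norm_co_le y) 2) hc
          have h5 := hb i
          rw [N_sq]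
          nlinarith [sq_nonneg (impF P lam i y + (⟪u i, P.co y⟫ + b i)),
            sq_nonneg (⟪u i, P.co y⟫ - b i)]
        · rw [Finset.sum_add_distrib, ← Finset.mul_sum, impF_sum hq, Finset.sum_const,
            Finset.card_univ, Fintype.card_fin, nsmul_eq_mul]
          ring
      refine (mul_le_mul h2 (mul_le_mul_of_nonneg_left h1 hρ.le) (by positivity)
        (by positivity)).trans (le_of_eq ?_)
      rw [← kap_mul_N_pow (n + 1) 2 one_pos y]
      ring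
  · simp only [Pi.add_apply]
    rw [integral_const_mul, integral_add (i3.const_mul _) ((i4.fun_add i5).const_mul _),
      integral_const_mul, integral_const_mul, integral_indicator measurableSet_ball,
      integral_finsetSum _ fun i _ => i2 i]
    refine mul_le_mul_of_nonneg_left (add_le_add (mul_le_mul_of_nonneg_left
      (Finset.sum_le_sum fun i _ => ?_) (by positivity))
      (mul_le_mul_of_nonneg_left ?_ (by positivity))) (sq_nonneg _)
    · rw [integral_add ((i1 i).const_mul 2) (integrable_const _), integral_const_mul,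
        setIntegral_const, smul_eq_mul, mul_comm (ν.real _)]
      have h1 := h.real_le hC 0 one_pos
      rw [one_pow, mul_one] at h1
      exact add_le_add le_rfl (mul_le_mul_of_nonneg_left h1 (by positivity))
    · refine (integral_add i4 i5).le.trans ?_
      rw [integral_const_mul, integral_const_mul]
      refine add_le_add ((mul_le_mul_of_nonneg_left hP (by positivity)).trans (le_of_eq ?_))
        (mul_le_mul_of_nonneg_left (h.int_kap_one hC).2 (by positivity))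
      field_simp

theorem imp_eval {T : ℕ → Eu m →L[ℝ] Eu n} {T0 : Eu m →L[ℝ] Eu n} {x : ℕ → Eu m} {x0 : Eu m}
    (hT : Tendsto T UF (𝓝 T0)) (hx : Tendsto x UF (𝓝 x0)) :
    Tendsto (fun k => T k (x k)) UF (𝓝 (T0 x0)) :=
  ((continuous_fst.clm_apply continuous_snd).tendsto (T0, x0)).comp (hT.prodMk_nhds hx)

/-- The limit measure is carried by the limit plane. -/
theorem imp_supp (hC : 1 ≤ C) {νk : ℕ → Measure (Eu m)} (h : ∀ k, Up n C (νk k)) (hν : Up n C ν)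
    (hv : Vag νk ν) (hl : ∀ R, ∀ᶠ k in UF, Low n C (νk k) 0 R) {P : ℕ → Pl n m} {P0 : Pl n m}
    (hq : Tendsto (fun k => (P k).q) UF (𝓝 P0.q)) (hp : Tendsto (fun k => (P k).pr) UF (𝓝 P0.pr))
    (hb : Tendsto (fun k => bP (νk k) (P k) 0 1) UF (𝓝 0)) {x : Eu m} (hx : x ∈ ν.support) :
    P0.D x = 0 := by
  have h1 : Tendsto (fun k => (P k).D x) UF (𝓝 (P0.D x)) :=
    (tendsto_const_nhds.sub (hq.add (imp_eval hp (tendsto_const_nhds.sub hq)))).norm
  refine le_antisymm (le_of_forall_pos_le_add fun t ht => ?_) (P0.D_nonneg x)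
  obtain ⟨η, hη, H⟩ := D_le_of_bP n hC (half_pos ht)
  have h2 := (hb.const_mul ((2 + ‖x‖) ^ (n + 3))).eventually
    (gt_mem_nhds (show (2 + ‖x‖) ^ (n + 3) * 0 < η by simpa using hη))
  refine le_of_tendsto h1 ?_
  filter_upwards [hv.near_support h hν hx (lt_min one_pos (half_pos ht)), hl (‖x‖ + 1), h2]
    with k ⟨y, hy, hyx⟩ h3 h4
  obtain ⟨a1, a2⟩ := lt_min_iff.1 hyx
  rw [dist_eq_norm] at a1 a2
  have a3 : ‖y‖ < ‖x‖ + 1 := by linarith [norm_le_norm_sub_add y x]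
  have a4 := bP_le_mul (h k) (P k) 0 y one_pos le_rfl
  rw [div_one, div_one, one_pow, mul_one, dist_zero_left] at a4
  have a5 := H (νk k) (P k) y 1 (h k) one_pos
    (fun s hs hs1 => h3 y hy (by rwa [dist_zero_right]) s hs (by linarith [norm_nonneg x]))
    (a4.trans ((mul_le_mul_of_nonneg_right (pow_le_pow_left₀ (by positivity) (by linarith) _)
      (bP_nonneg _ _ one_pos)).trans h4.le))
  have a6 := (abs_le.1 ((P k).D_lip y x)).1
  linarith

end Aux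

theorem imp_core (n m : ℕ) (hn : 1 ≤ n) (hnm : n ≤ m) {C : ℝ} (hC : 1 ≤ C) :
    ∃ ρ, 0 < ρ ∧ ρ ≤ 1 / 100 ∧ ∃ ε0, 0 < ε0 ∧ ∃ δ, 0 < δ ∧ ∃ A, 1 ≤ A ∧
      ∀ (ν : Measure (Eu m)) [IsFiniteMeasure ν], Up n C ν → (0 : Eu m) ∈ ν.support →
        Low n C ν 0 A → Small n ν 0 A (δ * bb n ν 0 1) → bb n ν 0 1 ≤ ε0 →
        bb n ν 0 ρ ≤ bb n ν 0 1 / 2 := by
  obtain ⟨cH, hcH, core⟩ := core n hn
  obtain ⟨c0, hc0, dens⟩ := dens_plane n m hn hC
  have hC0 : 0 < C := by linarith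
  have hK := cK_pos n
  obtain ⟨Q, hQ⟩ : ∃ Q : ℝ, Q = 2 ^ (n + 3) * (2 + 4 * m * (cH / c0) * (cK n * C)) := ⟨_, rfl⟩
  have hQ0 : 0 < Q := by rw [hQ]; positivity
  obtain ⟨ρ, hρ, hρ1, hρ2⟩ : ∃ ρ : ℝ, 0 < ρ ∧ ρ ≤ 1 / 100 ∧ ρ * Q ≤ 1 / 8 :=
    ⟨min (1 / 100) (1 / 8 / Q), by positivity, min_le_left _ _,
      (le_div_iff₀ hQ0).1 (min_le_right _ _)⟩
  refine ⟨ρ, hρ, hρ1, ?_⟩
  by_contra hcon
  have hex : ∀ k : ℕ, ∃ ν : Measure (Eu m), IsFiniteMeasure ν ∧ Up n C ν ∧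
      (0 : Eu m) ∈ ν.support ∧ Low n C ν 0 (k + 1) ∧
      Small n ν 0 (k + 1) (1 / (k + 1) * bb n ν 0 1) ∧ bb n ν 0 1 ≤ 1 / (k + 1) ∧
      bb n ν 0 1 / 2 < bb n ν 0 ρ := fun k => by
    by_contra h1
    refine hcon ⟨1 / (k + 1), by positivity, 1 / (k + 1), by positivity, k + 1,
      le_add_of_nonneg_left k.cast_nonneg, fun ν hν a1 a2 a3 a4 a5 => ?_⟩
    exact not_lt.1 fun a6 => h1 ⟨ν, hν, a1, a2, a3, a4, a5, a6⟩
  choose νk hfin h h0 hlow hsm hβ hlt using hex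
  have hβ0 : ∀ k, 0 < bb n (νk k) 0 1 := fun k => by
    refine (bb_nonneg 0 one_pos).lt_of_ne fun e => ?_
    have h1 := (hlt k).trans_le (bb_le_mul hnm (h k) 0 0 hρ (by linarith : ρ ≤ 1))
    rw [← e] at h1
    simp at h1
  choose P hP hq using fun k => imp_exists_pl hnm (ν := νk k) (a := 2 * bb n (νk k) 0 1)
    (by linarith [hβ0 k])
  have t0 : Tendsto (fun k : ℕ => 1 / ((k : ℝ) + 1)) UF (𝓝 0) :=
    tendsto_one_div_add_atTop_nhds_zero_nat.mono_left UF_le_atTop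
  have ev1 : ∀ R : ℝ, ∀ᶠ k : ℕ in UF, R ≤ k + 1 := fun R =>
    ((tendsto_natCast_atTop_atTop.eventually_ge_atTop R).filter_mono UF_le_atTop).mono
      fun k hk => by linarith
  have ev2 : ∀ θ : ℝ, 0 < θ → ∀ᶠ k : ℕ in UF, 1 / ((k : ℝ) + 1) < θ := fun θ hθ =>
    t0.eventually (gt_mem_nhds hθ)
  have hl : ∀ R, ∀ᶠ k in UF, Low n C (νk k) 0 R := fun R =>
    (ev1 R).mono fun k hk => (hlow k).mono (by rwa [dist_self, zero_add])
  have hs : ∀ R δ, 0 < δ → ∀ᶠ k in UF, Small n (νk k) 0 R (δ * bb n (νk k) 0 1) := fun R δ hδ =>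
    ((ev1 R).and (ev2 δ hδ)).mono fun k hk => (hsm k).mono (by rw [dist_self, zero_add]; exact hk.1)
      (mul_le_mul_of_nonneg_right hk.2.le (hβ0 k).le)
  have tb : Tendsto (fun k => bP (νk k) (P k) 0 1) UF (𝓝 0) := by
    refine squeeze_zero (fun k => bP_nonneg _ _ one_pos) (fun k => ?_)
      (by simpa only [mul_zero] using t0.const_mul 2)
    linarith [hP k, hβ k]
  have hD : ∀ Q : Pl n m, Q.co Q.q = 0 → Q.D 0 = ‖Q.q‖ := fun Q hQ => by
    rw [Pl.D, imp_proj hQ, map_zero, map_zero, add_zero, zero_sub, norm_neg]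
  obtain ⟨η, hη, H⟩ := D_le_of_bP n hC one_pos
  obtain ⟨P0, tq, -, tc, tp⟩ := exists_pl_lim P (B := 1) (by
    filter_upwards [tb.eventually (gt_mem_nhds hη), hl 1] with k a1 a2
    rw [← hD _ (hq k), ← mul_one (1 : ℝ)]
    exact H (νk k) (P k) 0 1 (h k) one_pos (a2 0 (h0 k) (by simp)) a1.le)
  obtain ⟨ν, hν, hv⟩ := exists_vag h
  have hz := hv.zero_mem h hν hC0 (hl 1) (Eventually.of_forall h0)
  have hq0 : P0.co P0.q = 0 := tendsto_nhds_unique (imp_eval tc tq)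
    (tendsto_const_nhds.congr fun k => (hq k).symm)
  have hq1 : P0.q = 0 := norm_eq_zero.1 ((hD _ hq0).symm.trans (imp_supp hC h hν hv hl tq tp tb hz))
  obtain ⟨γ, hγ, rfl⟩ := dens ν P0 hν (hv.lowAll h hν hC0 hl)
    (hv.refl_of_small hn (hn.trans hnm) hC0.le h hν fun R θ hθ => by
      filter_upwards [hs R θ hθ, ev2 1 one_pos] with k a1 a2
      exact a1.mono (by rw [dist_self, zero_add])
        (mul_le_of_le_one_right hθ.le ((hβ k).trans a2.le))) hz fun x hx => by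
      obtain ⟨t, ht⟩ := (P0.D_eq_zero_iff x).1 (imp_supp hC h hν hv hl tq tp tb hx)
      exact ⟨t, by rw [ht, hq1, zero_add]⟩
  have hγ0 : 0 < γ := hc0.trans_le hγ
  have hlam : ∀ k, 0 < √(2 * bb n (νk k) 0 1) := fun k => Real.sqrt_pos.2 (by linarith [hβ0 k])
  have hsq : ∀ k, √(2 * bb n (νk k) 0 1) ^ 2 = 2 * bb n (νk k) 0 1 := fun k =>
    Real.sq_sqrt (by linarith [hβ0 k])
  have hP' : ∀ k, bP (νk k) (P k) 0 1 ≤ √(2 * bb n (νk k) 0 1) ^ 2 := fun k =>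
    (hP k).le.trans (hsq k).ge
  choose u b hu hb ht using fun i : Fin m => core (hn.trans hnm) hC νk P0 γ
    (fun k => impF (P k) √(2 * bb n (νk k) 0 1) i) _ hγ0 h hν hv
    ((hl 1).mono fun k hk => by simpa using hk 0 (h0 k) (by simp) 1 one_pos le_rfl) (hl 1)
    (fun k => impF_lip _ _ i) (fun k => impF_int (h k) (hq k) (hlam k) (hP' k) i)
    fun R δ hδ => (hs R (2 * δ) (by positivity)).mono fun k hk L' ψ hψ h1 => by
      refine (impF_En (h k) hn _ _ i hψ.lip).trans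
        ((mul_le_mul_of_nonneg_left (hk L' ψ hψ h1) (sq_nonneg _)).trans (le_of_eq ?_))
      have := hβ0 k
      rw [inv_pow, hsq]
      field_simp
  have hdiv : ∀ a : ℝ, 0 ≤ a → γ * a ≤ cH → a ≤ cH / c0 := fun a ha h1 => by
    rw [le_div_iff₀ hc0, mul_comm]
    exact (mul_le_mul_of_nonneg_right hγ ha).trans h1
  have t1 : Tendsto (fun k => ‖(P k).co - P0.co‖) UF (𝓝 0) := tendsto_iff_norm_sub_tendsto_zero.1 tc
  have t2 := (tendsto_finsetSum Finset.univ fun i _ => ((ht i).const_mul 2).add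
    (((t1.pow 2).const_mul (2 * (cH / c0))).mul_const C)).const_mul (ρ ^ (n + 2))⁻¹
  obtain ⟨k, hk⟩ := (t2.eventually (gt_mem_nhds (show _ < (1 / 8 : ℝ) by simp))).exists
  have h1 := imp_bound hnm (h k) hC0.le (hq k) (hlam k) (hP' k) P0.co u b (by positivity)
    (fun i => hdiv _ (sq_nonneg _) (hu i)) (fun i => hdiv _ (sq_nonneg _) (hb i)) hρ
  rw [hsq, mul_assoc ρ, ← hQ] at h1
  have h2 := mul_le_mul_of_nonneg_left (add_le_add hk.le hρ2) (hβ0 k).le
  linarith [hlt k]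

theorem imp (n m : ℕ) (hn : 1 ≤ n) (hnm : n ≤ m) {C : ℝ} (hC : 1 ≤ C) :
    ∃ ρ, 0 < ρ ∧ ρ ≤ 1 / 100 ∧ ∃ ε0, 0 < ε0 ∧ ∃ A, 1 ≤ A ∧ ∃ C1, 0 < C1 ∧
      ∀ (ν : Measure (Eu m)) [IsFiniteMeasure ν] (x : Eu m) (r θ : ℝ), Up n C ν →
        x ∈ ν.support → 0 < r → Low n C ν x (A * r) → 0 ≤ θ →
        Small n ν x (A * r) (θ * r ^ (n + 1)) → bb n ν x r ≤ ε0 →
        bb n ν x (ρ * r) ≤ bb n ν x r / 2 + C1 * θ := by
  obtain ⟨ρ, hρ, hρ1, ε0, hε0, δ, hδ, A, hA, H⟩ := imp_core n m hn hnm hC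
  refine ⟨ρ, hρ, hρ1, ε0, hε0, A, hA, (1 / ρ) ^ (n + 2) / δ, by positivity,
    fun ν _ x r θ h hx hr hl hθ hs hb => ?_⟩
  have e1 : bb n (resc n ν x r) 0 1 = bb n ν x r := by
    rw [bb_resc x hr 0 one_pos, smul_zero, add_zero, mul_one]
  have e2 : bb n (resc n ν x r) 0 ρ = bb n ν x (ρ * r) := by
    rw [bb_resc x hr 0 hρ, smul_zero, add_zero, mul_comm]
  have h0 := bb_nonneg (n := n) (ν := ν) x hr
  rcases le_total θ (δ * bb n ν x r) with h1 | h1
  · rw [← e1] at h1 hb ⊢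
    rw [← e2]
    exact le_add_of_le_of_nonneg (H _ (h.resc x hr)
      ((mem_support_resc hr 0).2 (by rwa [smul_zero, add_zero])) (hl.resc hr)
      ((hs.resc hr).mono (by rw [dist_self, zero_add]) h1) hb) (by positivity)
  · have h2 := bb_le_mul hnm (h.resc x hr) 0 0 hρ (by linarith : ρ ≤ 1)
    rw [e1, e2, dist_self, zero_div, add_zero, one_pow, one_mul] at h2
    refine h2.trans (le_add_of_nonneg_of_le (by positivity) ?_)
    rw [div_mul_eq_mul_div, mul_div_assoc]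
    exact mul_le_mul_of_nonneg_left ((le_div_iff₀' hδ).2 h1) (by positivity)

end Crest.Agent.R85
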