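import Crest.Agent.R85.Riesz
import Crest.Agent.R85.Imp

/-!
# Auxiliary lemmas for `count`
-/

set_option autoImplicit false

open MeasureTheory Metric Filter Topology
open scoped RealInnerProductSpace

noncomputable section

namespace Crest.Agent.R85

variable {m : ℕ}

theorem Cb_int_le {X : Type} [MeasurableSpace X] (ν : Measure X) [IsFiniteMeasure ν] {Ω : Set X}
    (hΩ : MeasurableSet Ω) {f Θ : X → ℝ} (hΘ : Integrable Θ ν) (hΘ0 : ∀ x, 0 ≤ Θ x)
    {T : ℕ → Set X} (hT : ∀ j, MeasurableSet (T j)) (J : ℕ) {α β γ : ℝ} (hβ : 0 ≤ β) (hγ : 0 ≤ γ)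
    (hf : ∀ x, 0 ≤ f x)
    (h : ∀ᵐ x ∂ν, x ∈ Ω → f x ≤ α + β * Θ x + γ * ∑ j ∈ Finset.range J, (T j).indicator 1 x) :
    ∫ x in Ω, f x ∂ν ≤ α * ν.real Ω + β * ∫ x, Θ x ∂ν + γ * ∑ j ∈ Finset.range J, ν.real (T j) := by
  have i1 : ∀ j, Integrable ((T j).indicator (1 : X → ℝ)) ν := fun j =>
    (integrable_const (1 : ℝ)).indicator (hT j)
  have i2 : Integrable (fun x => ∑ j ∈ Finset.range J, (T j).indicator (1 : X → ℝ) x) ν :=
    integrable_finsetSum _ fun j _ => i1 j
  have i3 : Integrable (fun x => α + β * Θ x) (ν.restrict Ω) :=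
    (integrable_const α).add (hΘ.integrableOn.const_mul β)
  calc _ ≤ ∫ x in Ω, (α + β * Θ x + γ * ∑ j ∈ Finset.range J, (T j).indicator 1 x) ∂ν :=
        integral_mono_of_nonneg (Eventually.of_forall hf) (i3.add (i2.integrableOn.const_mul γ))
          ((ae_restrict_iff' hΩ).2 h)
    _ = α * ν.real Ω + β * ∫ x in Ω, Θ x ∂ν +
          γ * ∫ x in Ω, ∑ j ∈ Finset.range J, (T j).indicator 1 x ∂ν := by
        rw [integral_add i3 (i2.integrableOn.const_mul γ),
          integral_add (integrable_const α) (hΘ.integrableOn.const_mul β), integral_const_mul,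
          integral_const_mul, setIntegral_const, smul_eq_mul, mul_comm α]
    _ ≤ _ := by
        refine add_le_add (add_le_add le_rfl (mul_le_mul_of_nonneg_left
          (setIntegral_le_integral hΘ (Eventually.of_forall hΘ0)) hβ))
          (mul_le_mul_of_nonneg_left ?_ hγ)
        refine (setIntegral_le_integral i2 (Eventually.of_forall fun x =>
          Finset.sum_nonneg fun j _ => Set.indicator_nonneg (fun _ _ => zero_le_one) x)).trans
          (le_of_eq ?_)
        rw [integral_finsetSum _ fun j _ => i1 j]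
        exact Finset.sum_congr rfl fun j _ => integral_indicator_one (hT j)

theorem Cb_sum_le {X : Type} [MeasurableSpace X] (ν : Measure X) [IsFiniteMeasure ν] {Ω : Set X}
    (hΩ : MeasurableSet Ω) {Θ : X → ℝ} (hΘ : Integrable Θ ν) (hΘ0 : ∀ x, 0 ≤ Θ x)
    {T : ℕ → Set X} (hT : ∀ j, MeasurableSet (T j)) (hTΩ : ∀ j, T j ⊆ Ω) (J : ℕ) {α β : ℝ}
    (hβ : 0 ≤ β)
    (h : ∀ x ∈ Ω, ∑ j ∈ Finset.range J, (T j).indicator 1 x ≤ α + β * Θ x) :
    ∑ j ∈ Finset.range J, ν.real (T j) ≤ α * ν.real Ω + β * ∫ x, Θ x ∂ν := by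
  have h1 := Cb_int_le ν hΩ hΘ hΘ0 hT 0 (α := α) (γ := 0) hβ le_rfl
    (f := fun x => ∑ j ∈ Finset.range J, (T j).indicator 1 x)
    (fun x => Finset.sum_nonneg fun j _ => Set.indicator_nonneg (fun _ _ => zero_le_one) x)
    (Eventually.of_forall fun x hx => by simpa using h x hx)
  have i1 : ∀ j, Integrable ((T j).indicator (1 : X → ℝ)) (ν.restrict Ω) := fun j =>
    (integrable_const (1 : ℝ)).indicator (hT j)
  rw [zero_mul, add_zero, integral_finsetSum _ fun j _ => i1 j] at h1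
  refine le_trans (le_of_eq (Finset.sum_congr rfl fun j _ => ?_)) h1
  rw [integral_indicator_one (hT j), measureReal_restrict_apply (hT j),
    Set.inter_eq_self_of_subset_left (hTΩ j)]

/-- Tonelli: a set whose points see a fixed amount of `D` nearby is dominated by `D`. -/
theorem Cb_cover (ν : Measure (Eu m)) [IsFiniteMeasure ν] {S D : Set (Eu m)} (hS : MeasurableSet S)
    {r κ U : ℝ} (hU : 0 ≤ U) (h1 : ∀ x ∈ S, ENNReal.ofReal κ ≤ ν (ball x r ∩ D))
    (h2 : ∀ y, ν (ball y r) ≤ ENNReal.ofReal U) : κ * ν.real S ≤ U * ν.real D := by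
  have hm : MeasurableSet {p : Eu m × Eu m | dist p.1 p.2 < r} :=
    (isOpen_lt continuous_dist continuous_const).measurableSet
  have key : ENNReal.ofReal κ * ν S ≤ ENNReal.ofReal U * ν D := by
    calc _ = ∫⁻ _ in S, ENNReal.ofReal κ ∂ν := (setLIntegral_const _ _).symm
      _ ≤ ∫⁻ x in S, ∫⁻ y in D, {p : Eu m × Eu m | dist p.1 p.2 < r}.indicator 1 (x, y) ∂ν ∂ν := by
          refine setLIntegral_mono' hS fun x hx => (h1 x hx).trans (le_of_eq ?_)
          rw [← Measure.restrict_apply measurableSet_ball,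
            ← lintegral_indicator_one measurableSet_ball]
          refine lintegral_congr fun y => ?_
          simp only [Set.indicator, mem_ball', Set.mem_ofPred_eq, Pi.one_apply]
      _ = ∫⁻ y in D, ∫⁻ x in S, {p : Eu m × Eu m | dist p.1 p.2 < r}.indicator 1 (x, y) ∂ν ∂ν :=
          lintegral_lintegral_swap (measurable_one.indicator hm).aemeasurable
      _ ≤ ∫⁻ _ in D, ENNReal.ofReal U ∂ν := by
          refine lintegral_mono fun y => ?_
          refine (setLIntegral_le_lintegral _ _).trans (le_trans (le_of_eq ?_) (h2 y))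
          rw [← lintegral_indicator_one measurableSet_ball]
          refine lintegral_congr fun x => ?_
          simp only [Set.indicator, mem_ball, Set.mem_ofPred_eq, Pi.one_apply]
      _ = _ := setLIntegral_const _ _
  have h3 := ENNReal.toReal_mono
    (ENNReal.mul_ne_top ENNReal.ofReal_ne_top (measure_ne_top _ _)) key
  rw [ENNReal.toReal_mul, ENNReal.toReal_mul, ENNReal.toReal_ofReal hU, ENNReal.toReal_ofReal'] at h3
  exact le_trans (mul_le_mul_of_nonneg_right (le_max_left _ _) measureReal_nonneg) h3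

/-- The spread-out version of `θ`. -/
def Cb_th (X : Finset (Eu m)) (θ : Eu m → ℝ) (r : ℝ) (x : Eu m) : ℝ :=
  ∑ a ∈ X, (ball a r).indicator (fun _ => θ a) x

theorem Cb_th_nonneg {X : Finset (Eu m)} {θ : Eu m → ℝ} (hθ : ∀ a, 0 ≤ θ a) (r : ℝ) (x : Eu m) :
    0 ≤ Cb_th X θ r x :=
  Finset.sum_nonneg fun a _ => Set.indicator_nonneg (fun _ _ => hθ a) x

theorem Cb_le_th {X : Finset (Eu m)} {θ : Eu m → ℝ} (hθ : ∀ a, 0 ≤ θ a) {r : ℝ} {x a : Eu m}
    (ha : a ∈ X) (hx : dist x a < r) : θ a ≤ Cb_th X θ r x := by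
  refine le_trans (le_of_eq ?_) (Finset.single_le_sum
    (f := fun a => (ball a r).indicator (fun _ => θ a) x)
    (fun a _ => Set.indicator_nonneg (fun _ _ => hθ a) x) ha)
  exact (Set.indicator_of_mem (mem_ball.2 hx) fun _ => θ a).symm

theorem Cb_th_meas (X : Finset (Eu m)) (θ : Eu m → ℝ) (r : ℝ) : Measurable (Cb_th X θ r) :=
  Finset.measurable_sum _ fun _ _ => measurable_const.indicator measurableSet_ball

theorem Cb_th_int (ν : Measure (Eu m)) [IsFiniteMeasure ν] (X : Finset (Eu m)) (θ : Eu m → ℝ)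
    (r : ℝ) : Integrable (Cb_th X θ r) ν :=
  integrable_finsetSum _ fun a _ => (integrable_const (θ a)).indicator measurableSet_ball

theorem Cb_th_le {n : ℕ} {C : ℝ} {ν : Measure (Eu m)} [IsFiniteMeasure ν] (h : Up n C ν) (hC : 0 ≤ C)
    (X : Finset (Eu m)) {θ : Eu m → ℝ} (hθ : ∀ a, 0 ≤ θ a) {r : ℝ} (hr : 0 < r) :
    ∫ x, Cb_th X θ r x ∂ν ≤ C * ∑ a ∈ X, θ a * r ^ n := by
  unfold Cb_th
  rw [integral_finsetSum _ fun a _ => (integrable_const (θ a)).indicator measurableSet_ball,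
    Finset.mul_sum]
  refine Finset.sum_le_sum fun a _ => ?_
  rw [integral_indicator_const _ measurableSet_ball, smul_eq_mul]
  calc _ ≤ C * r ^ n * θ a := mul_le_mul_of_nonneg_right (h.real_le hC a hr) (hθ a)
    _ = _ := by ring

/-- Moving the centre by at most the radius and shrinking the radius. -/
theorem Cb_bb_le {n : ℕ} {C : ℝ} {ν : Measure (Eu m)} (hnm : n ≤ m) (h : Up n C ν) {x y : Eu m}
    {r s q : ℝ} (hs : 0 < s) (hsr : s ≤ r) (hq : r ≤ q * s) (hxy : dist x y ≤ r) :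
    bb n ν y s ≤ 2 ^ (n + 3) * q ^ (n + 2) * bb n ν x r := by
  have hr := hs.trans_le hsr
  refine (bb_le_mul hnm h x y hs hsr).trans
    (mul_le_mul_of_nonneg_right ?_ (bb_nonneg x hr))
  have h1 : dist x y / r ≤ 1 := (div_le_one hr).2 hxy
  have h2 : r / s ≤ q := (div_le_iff₀ hs).2 hq
  gcongr
  linarith

/-- A flat ball of comparable size inside a non-flat ball consists of downcrossing points. -/
theorem Cb_down {n : ℕ} {C : ℝ} {ν : Measure (Eu m)} (hnm : n ≤ m) (h : Up n C ν) {ρ c ε0 r r' : ℝ}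
    {M : ℕ} (hρ : 0 < ρ) (hρ1 : ρ < 1) (hc : 0 < c) (hM : ρ ^ M < c) (hr : 0 < r) {x x' y : Eu m}
    (h1 : c * r ≤ r') (h2 : r' ≤ r / 2) (h3 : dist x' x < r / 2)
    (h4 : bb n ν x' r' ≤ ε0 / 2 ^ (n + 3) / 4 / (2 ^ (n + 3) * ρ⁻¹ ^ (n + 2)))
    (h5 : ε0 < bb n ν x r) (hy : dist y x' < ρ ^ M * r) :
    dist y x < r ∧ ε0 / 2 ^ (n + 3) ≤ bb n ν y r ∧
      ∃ i ≤ M, bb n ν y (ρ ^ i * r) ≤ ε0 / 2 ^ (n + 3) / 4 := by
  have hr' : 0 < r' := (mul_pos hc hr).trans_le h1
  have h6 : dist y x' < r' := hy.trans_le ((mul_le_mul_of_nonneg_right hM.le hr.le).trans h1)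
  have h7 : dist y x < r := by linarith [dist_triangle y x' x]
  refine ⟨h7, ?_, ?_⟩
  · have := Cb_bb_le hnm h (x := y) (y := x) (q := 1) hr le_rfl (by rw [one_mul]) h7.le
    rw [one_pow, mul_one] at this
    rw [div_le_iff₀' (by positivity)]
    linarith
  · obtain ⟨k, k1, k2⟩ := exists_nat_pow_near_of_lt_one (x := r' / r) (y := ρ) (div_pos hr' hr)
      ((div_le_one hr).2 (by linarith)) hρ hρ1
    rw [lt_div_iff₀ hr] at k1
    rw [div_le_iff₀ hr] at k2
    have k3 : k < M := by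
      refine (pow_lt_pow_iff_right_of_lt_one₀ hρ hρ1).1 (hM.trans_le ?_)
      exact le_of_mul_le_mul_right (h1.trans k2) hr
    refine ⟨k + 1, k3, ?_⟩
    have := Cb_bb_le hnm h (x := x') (y := y) (q := ρ⁻¹) (s := ρ ^ (k + 1) * r) (by positivity)
      k1.le (k2.trans (le_of_eq (by field_simp; ring))) (by rw [dist_comm]; exact h6.le)
    rw [le_div_iff₀' (by positivity)] at h4
    exact this.trans h4

end Crest.Agent.R85
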