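import Crest.Agent.R85.Riesz
import Crest.Agent.R85.Imp
import Crest.Agent.R85.Countax
import Crest.Agent.R85.Countbx

/-!
# The strong geometric lemma (task Count)

`seq_up`: if `b i ≤ a/4`, `i < l`, `a ≤ b l` (`a ≤ ε0`), take the first such `l`; all earlier terms
are `< a ≤ ε0`, so `b l ≤ b i + C1 ∑_{[i,l)} θ`.  Among the counted `j` pick greedily a subsequence
with gaps `> M`; between two consecutive ones there is an upcrossing.
`seq_sum`: `b (j+1) ≤ b j / 2 + C1 θ j + Bd · 1[b j > ε0]`, sum and absorb.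

`count`: `ρ, ε0, A1, C1` from `imp`; `c2 = 2^(n+3)`, `a = ε0/c2`; `ε1` with
`2^(n+3) ρ^{-(n+2)} ε1 ≤ a/4`; `A2, δ, c` from `flat`; `M` with `ρ^M ≤ c ρ`; `A = max A1 A2`,
`A0 = A + 10`.  `X j` = net of `support ∩ ball x0 (2 r0)` at scale `r_j` (`exists_net`), `θ` from `rs`
with `A+1`, `θ~ j x = ∑_{a ∈ X j} 1_{ball a r_j}(x) θ j a` (measurable, `Small` at `x` by
`Small.mono`, `∫ ∑_j θ~ ≤ C K B r0^n`).  Let `S j = {x ∈ supp ∩ ball x0 r0 | ε0 < b_j x, θ~ j x ≤ δ}`,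
`Dn j = {y ∈ supp ∩ ball x0 (2r0) | a ≤ b_j y, ∃ i ≤ M, b_{j+i} y ≤ a/4}`.  For `x ∈ S j`, `flat`
gives `x', r'`; with `ρ^i r_j ≤ r' < ρ^(i-1) r_j` the support in `ball x' (ρ^M r_j)` lies in
`Dn j ∩ ball x r_j` (`bb_le_mul`).  Tonelli (or a net of `S j`): `ν (S j) ≤ c' ν (Dn j)`.
Sum over `j`, use `seq_up` pointwise, Chebyshev for `θ~ > δ`, then `seq_sum`.
-/

set_option autoImplicit false

open MeasureTheory Metric Filter Topology
open scoped RealInnerProductSpace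

noncomputable section

namespace Crest.Agent.R85

variable {m : ℕ}

open Classical in
theorem seq_up {b θ : ℕ → ℝ} {ε0 C1 a : ℝ} (hC1 : 0 < C1) (ha : 0 < a) (hae : a ≤ ε0)
    (hb : ∀ j, 0 ≤ b j) (hθ : ∀ j, 0 ≤ θ j) (hrec : ∀ j, b j ≤ ε0 → b (j + 1) ≤ b j / 2 + C1 * θ j)
    (M J : ℕ) :
    (((Finset.range J).filter (fun j => a ≤ b j ∧ ∃ i ≤ M, b (j + i) ≤ a / 4)).card : ℝ)
      ≤ (M + 1) * (1 + 2 * C1 / a * ∑ j ∈ Finset.range J, θ j) :=
  Countax_up hC1 ha hae hb hθ hrec M J _ fun _ h => h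

open Classical in
theorem seq_sum {b θ : ℕ → ℝ} {ε0 C1 Bd : ℝ} (hC1 : 0 < C1) (hb : ∀ j, 0 ≤ b j)
    (hB : ∀ j, b j ≤ Bd) (hθ : ∀ j, 0 ≤ θ j)
    (hrec : ∀ j, b j ≤ ε0 → b (j + 1) ≤ b j / 2 + C1 * θ j) (J : ℕ) :
    ∑ j ∈ Finset.range J, b j ≤ 2 * (Bd + C1 * ∑ j ∈ Finset.range J, θ j
      + Bd * (((Finset.range J).filter (fun j => ε0 < b j)).card : ℝ)) :=
  Countax_sum hC1 hb hB hθ hrec J

theorem count (n m : ℕ) (hn : 1 ≤ n) (hnm : n ≤ m) {C : ℝ} (hC : 1 ≤ C) :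
    ∃ ρ, 0 < ρ ∧ ρ ≤ 1 / 100 ∧ ∃ A0, 10 ≤ A0 ∧ ∃ K, 0 < K ∧
      ∀ (ν : Measure (Eu m)) [IsFiniteMeasure ν] (x0 : Eu m) (r0 B : ℝ), Up n C ν → 0 < r0 →
        Low n C ν x0 (A0 * r0) → 0 ≤ B → TBound n ν (B * r0 ^ n) → ∀ J,
        ∫ x in ball x0 r0, ∑ j ∈ Finset.range J, bb n ν x (ρ ^ j * r0) ∂ν
          ≤ K * (1 + B) * r0 ^ n := by
  classical
  have hC0 : 0 < C := by linarith
  obtain ⟨ρ, hρ, hρ', ε0, hε0, A1, hA1, C1, hC1, himp⟩ := imp n m hn hnm hC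
  obtain ⟨A2, hA2, δ, hδ, c, hc, hflat⟩ := flat n m hn hnm hC
    (ε := ε0 / 2 ^ (n + 3) / 4 / (2 ^ (n + 3) * ρ⁻¹ ^ (n + 2))) (by positivity)
  have hρ1 : ρ < 1 := by linarith
  obtain ⟨M, hM⟩ := exists_pow_lt_of_lt_one hc hρ1
  obtain ⟨A, hA1', hA2'⟩ : ∃ A, A1 ≤ A ∧ A2 ≤ A := ⟨max A1 A2, le_max_left _ _, le_max_right _ _⟩
  obtain ⟨K, hK, hrs⟩ := rs n m hn hC hρ (by linarith) (A := A + 1) (by linarith)
  obtain ⟨a, ha⟩ : ∃ a, a = ε0 / 2 ^ (n + 3) := ⟨_, rfl⟩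
  have ha0 : 0 < a := by rw [ha]; positivity
  have hae : a ≤ ε0 := by rw [ha]; exact div_le_self hε0.le (one_le_pow₀ (by norm_num))
  obtain ⟨Bd, hBd⟩ : ∃ Bd, Bd = cK n * C := ⟨_, rfl⟩
  have hBd0 : 0 < Bd := by rw [hBd]; exact mul_pos (cK_pos n) hC0
  obtain ⟨Q, hQ⟩ : ∃ Q, Q = C ^ 2 / (ρ ^ M) ^ n := ⟨_, rfl⟩
  have hQ0 : 0 < Q := by rw [hQ]; positivity
  obtain ⟨P1, hP1⟩ : ∃ P1, P1 = 2 * Bd * C + 2 * Bd * Q * ((M + 1) * (C * 2 ^ n)) := ⟨_, rfl⟩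
  obtain ⟨P2, hP2⟩ : ∃ P2, P2 = (2 * C1 + 2 * Bd / δ) * (C * K) +
    2 * Bd * Q * ((M + 1) * (2 * C1 / a) * (C * K)) := ⟨_, rfl⟩
  have hP10 : 0 < P1 := by rw [hP1]; positivity
  have hP20 : 0 < P2 := by rw [hP2]; positivity
  refine ⟨ρ, hρ, hρ', A + 10, by linarith, P1 + P2, by positivity, ?_⟩
  intro ν _ x0 r0 B hU hr0 hL hB hT J
  have hr : ∀ j : ℕ, 0 < ρ ^ j * r0 := fun j => by positivity
  have hr' : ∀ j : ℕ, ρ ^ j * r0 ≤ r0 := fun j =>
    mul_le_of_le_one_left hr0.le (pow_le_one₀ hρ.le hρ1.le)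
  choose X hX1 hX2 hX3 using fun j : ℕ => exists_net (S := ν.support ∩ ball x0 (2 * r0))
    (isBounded_ball.subset Set.inter_subset_right) (hr j)
  obtain ⟨θ, hθ0, hθ1, hθ2⟩ := hrs ν (B * r0 ^ n) r0 X hU (by positivity) hr0 hT
    (fun j z hz => hL z (hX1 j z hz).1 ((mem_ball.1 (hX1 j z hz).2).trans_le (by nlinarith)) _
      (by have := hr j; nlinarith) (by have := hr' j; nlinarith)) hX2
  obtain ⟨t, ht⟩ : ∃ t : ℕ → Eu m → ℝ, t = fun j => Cb_th (X j) (θ j) (ρ ^ j * r0) := ⟨_, rfl⟩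
  have ht0 : ∀ j x, 0 ≤ t j x := fun j x => by rw [ht]; exact Cb_th_nonneg (hθ0 j) _ x
  have htm : ∀ j, Measurable (t j) := fun j => by rw [ht]; exact Cb_th_meas _ _ _
  have hti : ∀ j, Integrable (t j) ν := fun j => by rw [ht]; exact Cb_th_int ν _ _ _
  have hΘi : Integrable (fun x => ∑ j ∈ Finset.range J, t j x) ν :=
    integrable_finsetSum _ fun j _ => hti j
  have hΘ0 : ∀ x, 0 ≤ ∑ j ∈ Finset.range J, t j x := fun x => Finset.sum_nonneg fun j _ => ht0 j x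
  have hΘ : ∫ x, ∑ j ∈ Finset.range J, t j x ∂ν ≤ C * K * (B * r0 ^ n) := by
    rw [integral_finsetSum _ fun j _ => hti j, mul_assoc]
    refine le_trans ?_ (mul_le_mul_of_nonneg_left (hθ2 J) hC0.le)
    rw [Finset.mul_sum, ht]
    exact Finset.sum_le_sum fun j _ => Cb_th_le hU hC0.le _ (hθ0 j) (hr j)
  have hlow : ∀ x, dist x x0 < 2 * r0 → ∀ (j : ℕ) (A' : ℝ), 1 ≤ A' → A' ≤ A →
      Low n C ν x (A' * (ρ ^ j * r0)) := fun x hx j A' h1 h2 =>
    hL.mono (by have := hr' j; nlinarith)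
  have hsm : ∀ x ∈ ν.support, dist x x0 < 2 * r0 → ∀ (j : ℕ) (A' τ : ℝ), A' ≤ A → t j x ≤ τ →
      Small n ν x (A' * (ρ ^ j * r0)) (τ * (ρ ^ j * r0) ^ (n + 1)) := by
    intro x hx hx' j A' τ h1 h2
    obtain ⟨z, hz, hxz⟩ := hX3 j x ⟨hx, hx'⟩
    refine (hθ1 j z hz).mono (by rw [dist_comm]; have := hr j; nlinarith)
      (mul_le_mul_of_nonneg_right (le_trans ?_ h2) (by positivity))
    rw [ht]
    exact Cb_le_th (hθ0 j) hz hxz
  have hrec : ∀ x ∈ ν.support, dist x x0 < 2 * r0 → ∀ j : ℕ, bb n ν x (ρ ^ j * r0) ≤ ε0 →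
      bb n ν x (ρ ^ (j + 1) * r0) ≤ bb n ν x (ρ ^ j * r0) / 2 + C1 * t j x := by
    intro x hx hx' j hj
    rw [pow_succ', mul_assoc]
    exact himp ν x _ _ hU hx (hr j) (hlow x hx' j A1 hA1 hA1') (ht0 j x)
      (hsm x hx hx' j A1 _ hA1' le_rfl) hj
  have hbm : ∀ j : ℕ, Measurable fun x => bb n ν x (ρ ^ j * r0) := fun j =>
    (continuous_bb hnm hU (hr j)).measurable
  have hsupp : MeasurableSet ν.support := Measure.isClosed_support.measurableSet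
  obtain ⟨S, hS⟩ : ∃ S : ℕ → Set (Eu m), ∀ j x, x ∈ S j ↔ (x ∈ ν.support ∧ x ∈ ball x0 r0) ∧
      ε0 < bb n ν x (ρ ^ j * r0) ∧ t j x ≤ δ := ⟨fun j => {x | _}, fun _ _ => Iff.rfl⟩
  obtain ⟨D, hD⟩ : ∃ D : ℕ → Set (Eu m), ∀ j x, x ∈ D j ↔ (x ∈ ν.support ∧ x ∈ ball x0 (2 * r0)) ∧
      a ≤ bb n ν x (ρ ^ j * r0) ∧ ∃ i ≤ M, bb n ν x (ρ ^ (j + i) * r0) ≤ a / 4 :=
    ⟨fun j => {x | _}, fun _ _ => Iff.rfl⟩
  have hSm : ∀ j, MeasurableSet (S j) := fun j => by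
    rw [Set.ext (hS j)]
    exact (hsupp.inter measurableSet_ball).inter ((measurableSet_lt measurable_const (hbm j)).inter
      (measurableSet_le (htm j) measurable_const))
  have hDm : ∀ j, MeasurableSet (D j) := fun j => by
    have e : D j = (ν.support ∩ ball x0 (2 * r0)) ∩ ({x | a ≤ bb n ν x (ρ ^ j * r0)} ∩
        ⋃ i : ℕ, ⋃ _ : i ≤ M, {x | bb n ν x (ρ ^ (j + i) * r0) ≤ a / 4}) := by
      ext x
      simp [hD]
    rw [e]
    exact (hsupp.inter measurableSet_ball).inter ((measurableSet_le measurable_const (hbm j)).inter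
      (MeasurableSet.iUnion fun i => MeasurableSet.iUnion fun _ =>
        measurableSet_le (hbm _) measurable_const))
  have hSD : ∀ j, ν.real (S j) ≤ Q * ν.real (D j) := by
    intro j
    have h1 := Cb_cover ν (hSm j) (D := D j) (r := ρ ^ j * r0)
      (κ := (ρ ^ M * (ρ ^ j * r0)) ^ n / C) (U := C * (ρ ^ j * r0) ^ n) (by positivity)
      (fun x hx => ?_) (fun y => hU y _ (hr j))
    · rw [mul_pow, div_mul_eq_mul_div, div_le_iff₀ hC0] at h1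
      rw [hQ, div_mul_eq_mul_div, le_div_iff₀ (by positivity)]
      refine le_of_mul_le_mul_right ?_ (pow_pos (hr j) n)
      linarith
    obtain ⟨⟨h1, h2⟩, h3, h4⟩ := (hS j x).1 hx
    have h2' : dist x x0 < r0 := h2
    have h5 := hr j
    have h6 := hr' j
    obtain ⟨x', hx', r', k1, k2, k3, k4⟩ := hflat ν x _ hU h1 h5
      (hlow x (by linarith) j A2 hA2 hA2') (hsm x h1 (by linarith) j A2 δ hA2' h4)
    have h7 : ρ ^ M * (ρ ^ j * r0) ≤ ρ ^ j * r0 :=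
      mul_le_of_le_one_left h5.le (pow_le_one₀ hρ.le hρ1.le)
    refine (hL x' hx' (by have := dist_triangle x' x x0; nlinarith) _ (by positivity)
      (by nlinarith)).trans (measure_mono_ae ?_)
    filter_upwards [ν.support_mem_ae] with y hy hy'
    obtain ⟨e1, e2, i, e3, e4⟩ := Cb_down hnm hU hρ hρ1 hc hM h5 k1 k2 k3 k4 h3 hy'
    refine ⟨e1, (hD j y).2 ⟨⟨hy, ?_⟩, ha ▸ e2, i, e3, ?_⟩⟩
    · rw [mem_ball]
      linarith [dist_triangle y x x0]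
    · rw [add_comm, pow_add, mul_assoc, ha]
      exact e4
  have hDs := Cb_sum_le ν (Ω := ball x0 (2 * r0)) measurableSet_ball hΘi hΘ0 hDm
    (fun j x hx => ((hD j x).1 hx).1.2) J (α := M + 1) (β := (M + 1) * (2 * C1 / a))
    (by positivity) (fun x hx => ?_)
  swap
  · by_cases hxs : x ∈ ν.support
    · have h1 := seq_up (b := fun j => bb n ν x (ρ ^ j * r0)) (θ := fun j => t j x) hC1 ha0 hae
        (fun j => bb_nonneg x (hr j)) (fun j => ht0 j x) (hrec x hxs hx) M J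
      rw [Finset.card_filter, Nat.cast_sum] at h1
      refine le_trans (Finset.sum_le_sum fun j _ => ?_) (h1.trans (le_of_eq (by ring)))
      by_cases hj : x ∈ D j
      · rw [Set.indicator_of_mem hj, if_pos ((hD j x).1 hj).2]
        simp
      · rw [Set.indicator_of_notMem hj]
        exact Nat.cast_nonneg _
    · rw [Finset.sum_eq_zero fun j _ => Set.indicator_of_notMem
        (fun hj => hxs ((hD j x).1 hj).1.1) _]
      have := hΘ0 x
      positivity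
  have hI := Cb_int_le ν (Ω := ball x0 r0) measurableSet_ball hΘi hΘ0 hSm J (α := 2 * Bd)
    (β := 2 * C1 + 2 * Bd / δ) (γ := 2 * Bd) (by positivity) (by positivity)
    (f := fun x => ∑ j ∈ Finset.range J, bb n ν x (ρ ^ j * r0))
    (fun x => Finset.sum_nonneg fun j _ => bb_nonneg x (hr j)) ?_
  swap
  · filter_upwards [ν.support_mem_ae] with x hxs hx
    have hx' : dist x x0 < r0 := hx
    have h1 := seq_sum (b := fun j => bb n ν x (ρ ^ j * r0)) (θ := fun j => t j x) (Bd := Bd) hC1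
      (fun j => bb_nonneg x (hr j)) (fun j => hBd ▸ bb_le_const hnm hU hC0.le x (hr j))
      (fun j => ht0 j x) (hrec x hxs (by linarith)) J
    have h2 : (((Finset.range J).filter (fun j => ε0 < bb n ν x (ρ ^ j * r0))).card : ℝ) ≤
        ∑ j ∈ Finset.range J, (S j).indicator 1 x + (∑ j ∈ Finset.range J, t j x) / δ := by
      rw [Finset.card_filter, Nat.cast_sum, Finset.sum_div, ← Finset.sum_add_distrib]
      refine Finset.sum_le_sum fun j _ => ?_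
      have h3 : 0 ≤ t j x / δ := div_nonneg (ht0 j x) hδ.le
      have h4 : 0 ≤ (S j).indicator (1 : Eu m → ℝ) x :=
        Set.indicator_nonneg (fun _ _ => zero_le_one) x
      split_ifs with h5
      · by_cases h6 : t j x ≤ δ
        · rw [Set.indicator_of_mem ((hS j x).2 ⟨⟨hxs, hx⟩, h5, h6⟩)]
          simpa using h3
        · have := (one_le_div hδ).2 (not_le.1 h6).le
          push_cast
          linarith
      · push_cast
        linarith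
    refine h1.trans (le_trans ?_ (le_of_eq (a := 2 * (Bd + C1 * ∑ j ∈ Finset.range J, t j x
      + Bd * (∑ j ∈ Finset.range J, (S j).indicator 1 x + (∑ j ∈ Finset.range J, t j x) / δ)))
      (by ring)))
    gcongr
  have h1 := hU.real_le hC0.le x0 hr0
  have h2 := hU.real_le hC0.le x0 (r := 2 * r0) (by positivity)
  have h3 : ∑ j ∈ Finset.range J, ν.real (S j) ≤ Q * ((M + 1) * (C * (2 * r0) ^ n) +
      (M + 1) * (2 * C1 / a) * (C * K * (B * r0 ^ n))) := by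
    refine (Finset.sum_le_sum fun j _ => hSD j).trans ?_
    rw [← Finset.mul_sum]
    refine mul_le_mul_of_nonneg_left (hDs.trans ?_) hQ0.le
    gcongr
  calc _ ≤ _ := hI
    _ ≤ 2 * Bd * (C * r0 ^ n) + (2 * C1 + 2 * Bd / δ) * (C * K * (B * r0 ^ n)) +
        2 * Bd * (Q * ((M + 1) * (C * (2 * r0) ^ n) +
          (M + 1) * (2 * C1 / a) * (C * K * (B * r0 ^ n)))) := by gcongr
    _ = (P1 + P2 * B) * r0 ^ n := by rw [hP1, hP2]; ring
    _ ≤ _ := by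
      refine mul_le_mul_of_nonneg_right ?_ (by positivity)
      nlinarith [mul_nonneg hP10.le hB]

end Crest.Agent.R85
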