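import Crest.Agent.R85.Plane

/-!
# One step of the parametrisation (task DT1)

`X` = net of `S` at scale `r` (`exists_net`), `φ_a = cut a (5r) r`, `Φ = ∑_a φ_a`,
`θ_a = φ_a / max 1 Φ`, `σ y = y + ∑_a θ_a y • ((P a).proj y - y)`.  `0 ≤ θ_a`, `∑ θ_a ≤ 1`, with equality
when some `φ_a y = 1` (true if `dist y x ≤ 4r`, `x ∈ S`).  For `y, y'` within `7r` of `x` only the
`a` with `dist x a ≤ 13 r` matter (at most `M`, `card_sep`), and
`∑_a |θ_a y - θ_a y'| ≤ M (1+M) ‖y-y'‖ / r`.
`σy - σy' = v - ∑ θ_a(y) (v - pr_a v) + ∑ (θ_a y - θ_a y') (proj_a y' - y')`, `v = y - y'`; call the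
last two terms `w`: `‖w‖ ≤ K'(η+t) l` and, because `proj_a y' - y'` is normal to `P a`,
`⟪v, w⟫ ≤ ∑ |θ_a y - θ_a y'| ‖v - pr_a v‖ ‖proj_a y' - y'‖ ≤ K' (η+t)² l²`.
In the core, `σy - σy' = ∑ θ_a(y) pr_a v + ∑ (θ_a y - θ_a y') (proj_a y' - proj_x y')`.
-/

set_option autoImplicit false

open MeasureTheory Metric Filter Topology
open scoped RealInnerProductSpace

noncomputable section

namespace Crest.Agent.R85

variable {m : ℕ}

theorem DT1_norm_sum_le {X : Finset (Eu m)} {c : Eu m → ℝ} {u : Eu m → Eu m} {B : ℝ}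
    (h : ∀ a ∈ X, c a ≠ 0 → ‖u a‖ ≤ B) : ‖∑ a ∈ X, c a • u a‖ ≤ (∑ a ∈ X, |c a|) * B := by
  rw [Finset.sum_mul]
  refine (norm_sum_le _ _).trans (Finset.sum_le_sum fun a ha => ?_)
  rw [norm_smul, Real.norm_eq_abs]
  by_cases hc : c a = 0
  · simp [hc]
  · exact mul_le_mul_of_nonneg_left (h a ha hc) (abs_nonneg _)

theorem DT1_inner_sum_le {X : Finset (Eu m)} {c : Eu m → ℝ} {u : Eu m → Eu m} {v : Eu m} {B : ℝ}
    (h : ∀ a ∈ X, c a ≠ 0 → |⟪v, u a⟫| ≤ B) :
    ⟪v, ∑ a ∈ X, c a • u a⟫ ≤ (∑ a ∈ X, |c a|) * B := by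
  rw [Finset.sum_mul, inner_sum]
  refine Finset.sum_le_sum fun a ha => ?_
  rw [real_inner_smul_right]
  refine (le_abs_self _).trans ?_
  rw [abs_mul]
  by_cases hc : c a = 0
  · simp [hc]
  · exact mul_le_mul_of_nonneg_left (h a ha hc) (abs_nonneg _)

theorem DT1_quot {ι : Type*} (X : Finset ι) (f g : ι → ℝ) (hg : ∀ a, 0 ≤ g a) :
    ∑ a ∈ X, |f a / max 1 (∑ b ∈ X, f b) - g a / max 1 (∑ b ∈ X, g b)| ≤
      2 * ∑ a ∈ X, |f a - g a| := by
  set A := max 1 (∑ b ∈ X, f b) with hA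
  set B := max 1 (∑ b ∈ X, g b) with hB
  have hA1 : 1 ≤ A := le_max_left _ _
  have hB1 : 1 ≤ B := le_max_left _ _
  have hB0 : 0 < B := by linarith
  have hA0 : 0 < A := by linarith
  have hAB : |A - B| ≤ ∑ a ∈ X, |f a - g a| := by
    have h1 : |A - B| ≤ |∑ b ∈ X, f b - ∑ b ∈ X, g b| := by
      rw [hA, hB, max_comm 1, max_comm 1]
      exact abs_max_sub_max_le_abs _ _ _
    rw [← Finset.sum_sub_distrib] at h1
    exact h1.trans (Finset.abs_sum_le_sum_abs _ _)
  have key : ∀ a, |f a / A - g a / B| ≤ |f a - g a| + g a / B * |A - B| := by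
    intro a
    have e : f a / A - g a / B = (f a - g a) / A + g a / B * ((B - A) / A) := by
      field_simp
      ring
    have hga : 0 ≤ g a / B := div_nonneg (hg a) hB0.le
    rw [e]
    refine (abs_add_le _ _).trans (add_le_add ?_ ?_)
    · rw [abs_div, abs_of_pos hA0]
      exact div_le_self (abs_nonneg _) hA1
    · rw [abs_mul, abs_of_nonneg hga, abs_div, abs_of_pos hA0, abs_sub_comm]
      exact mul_le_mul_of_nonneg_left (div_le_self (abs_nonneg _) hA1) hga
  refine (Finset.sum_le_sum fun a _ => key a).trans ?_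
  rw [Finset.sum_add_distrib, ← Finset.sum_mul, ← Finset.sum_div]
  have h2 : (∑ a ∈ X, g a) / B ≤ 1 := (div_le_one hB0).2 (le_max_right _ _)
  have h3 : (∑ a ∈ X, g a) / B * |A - B| ≤ 1 * |A - B| :=
    mul_le_mul_of_nonneg_right h2 (abs_nonneg _)
  linarith

/-- The partition of unity. -/
theorem DT1_weights (m : ℕ) : ∃ Mc : ℝ, 0 ≤ Mc ∧ ∀ (r : ℝ) (S : Set (Eu m)), 0 < r →
    Bornology.IsBounded S → ∃ (X : Finset (Eu m)) (θ : Eu m → Eu m → ℝ), (∀ a ∈ X, a ∈ S) ∧
      (∀ a y, 0 ≤ θ a y) ∧ (∀ y, ∑ a ∈ X, θ a y ≤ 1) ∧ (∀ a y, 6 * r ≤ dist y a → θ a y = 0) ∧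
      (∀ x ∈ S, ∀ y, dist y x ≤ 4 * r → ∑ a ∈ X, θ a y = 1) ∧
      ∀ x y y', dist y x ≤ 7 * r → dist y' x ≤ 7 * r →
        ∑ a ∈ X, |θ a y - θ a y'| ≤ Mc * (‖y - y'‖ / r) := by
  classical
  obtain ⟨M, hM⟩ := card_sep m 13
  refine ⟨2 * M, by positivity, fun r S hr hS => ?_⟩
  obtain ⟨X, hXS, hsep, hnet⟩ := exists_net hS hr
  have hz : ∀ a y : Eu m, 6 * r ≤ dist y a → cut a (5 * r) r y = 0 := fun a y h =>
    (cut_tst a (5 * r) hr).supp y (by linarith)
  refine ⟨X, fun a y => cut a (5 * r) r y / max 1 (∑ b ∈ X, cut b (5 * r) r y), hXS,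
    fun a y => div_nonneg (cut_nonneg _ _ _ _) (le_trans zero_le_one (le_max_left _ _)),
    fun y => ?_, fun a y h => ?_, fun x hx y hy => ?_, fun x y y' hy hy' => ?_⟩
  · rw [← Finset.sum_div]
    exact (div_le_one (lt_of_lt_of_le one_pos (le_max_left _ _))).2 (le_max_right _ _)
  · simp only [hz a y h, zero_div]
  · obtain ⟨a, ha, hxa⟩ := hnet x hx
    have h1 : cut a (5 * r) r y = 1 := cut_eq_one hr (by linarith [dist_triangle y x a])
    have h2 : 1 ≤ ∑ b ∈ X, cut b (5 * r) r y := by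
      rw [← h1]
      exact Finset.single_le_sum (f := fun b => cut b (5 * r) r y)
        (fun b _ => cut_nonneg _ _ _ _) ha
    rw [← Finset.sum_div, max_eq_right h2]
    exact div_self (by linarith)
  · refine (DT1_quot X (fun a => cut a (5 * r) r y) (fun a => cut a (5 * r) r y')
      fun a => cut_nonneg _ _ _ _).trans ?_
    have h1 : ∑ a ∈ X, |cut a (5 * r) r y - cut a (5 * r) r y'| =
        ∑ a ∈ X.filter (fun a => dist a x ≤ 13 * r), |cut a (5 * r) r y - cut a (5 * r) r y'| := by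
      refine (Finset.sum_subset (Finset.filter_subset _ _) fun a ha hna => ?_).symm
      have h3 : 13 * r < dist a x := by
        by_contra hc
        exact hna (Finset.mem_filter.2 ⟨ha, not_lt.1 hc⟩)
      have h4 := dist_triangle a y x
      have h5 := dist_triangle a y' x
      rw [dist_comm a y] at h4
      rw [dist_comm a y'] at h5
      rw [hz a y (by linarith), hz a y' (by linarith), sub_self, abs_zero]
    have h2 : (X.filter (fun a => dist a x ≤ 13 * r)).card ≤ M :=
      hM _ x r hr (fun a ha => (Finset.mem_filter.1 ha).2)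
        fun a ha b hb => hsep a (Finset.mem_filter.1 ha).1 b (Finset.mem_filter.1 hb).1
    have h3 : ∑ a ∈ X.filter (fun a => dist a x ≤ 13 * r),
        |cut a (5 * r) r y - cut a (5 * r) r y'| ≤
        (X.filter (fun a => dist a x ≤ 13 * r)).card • (‖y - y'‖ / r) := by
      refine Finset.sum_le_card_nsmul _ _ _ fun a _ => ?_
      have := (cut_tst a (5 * r) hr).lip y y'
      rwa [one_div, ← div_eq_inv_mul] at this
    rw [nsmul_eq_mul] at h3
    have h4 : ((X.filter (fun a => dist a x ≤ 13 * r)).card : ℝ) * (‖y - y'‖ / r) ≤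
        M * (‖y - y'‖ / r) :=
      mul_le_mul_of_nonneg_right (by exact_mod_cast h2) (by positivity)
    rw [h1]
    linarith

theorem DT1_inner_perp {n : ℕ} (P : Pl n m) (v : Eu m) : 0 ≤ ⟪v, v - P.pr v⟫ := by
  have e : ⟪v, v - P.pr v⟫ = ⟪v - P.pr v, v - P.pr v⟫ + ⟪P.pr v, v - P.pr v⟫ := by
    rw [← inner_add_left, sub_add_cancel]
  rw [e, P.inner_pr_perp, add_zero]
  exact real_inner_self_nonneg

theorem DT1_inner_normal {n : ℕ} (P : Pl n m) (v y : Eu m) :
    |⟪v, P.proj y - y⟫| ≤ ‖v - P.pr v‖ * P.D y := by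
  have e : ⟪v, P.proj y - y⟫ = ⟪v - P.pr v, P.proj y - y⟫ + ⟪P.pr v, P.proj y - y⟫ := by
    rw [← inner_add_left, sub_add_cancel]
  have e2 : P.pr (P.proj y - y) = 0 := by
    rw [← neg_sub, map_neg, P.pr_sub_proj, neg_zero]
  rw [e, P.inner_pr, e2, inner_zero_right, add_zero]
  refine (abs_real_inner_le_norm _ _).trans (le_of_eq ?_)
  rw [norm_sub_rev (P.proj y)]
  rfl

theorem exists_step (n m : ℕ) : ∃ K, 1 ≤ K ∧ ∀ (r : ℝ) (S : Set (Eu m)) (P : Eu m → Pl n m),
    0 < r → Bornology.IsBounded S → ∃ σ, Step K r S P σ := by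
  obtain ⟨Mc, hMc, hW⟩ := DT1_weights m
  have hsq : 0 ≤ (1 + 8 * Mc) ^ 2 := sq_nonneg _
  refine ⟨8 + 16 * Mc + (1 + 8 * Mc) ^ 2, by linarith, fun r S P hr hS => ?_⟩
  obtain ⟨X, θ, hXS, h0, hle, hz, hone, hlip⟩ := hW r S hr hS
  set K := 8 + 16 * Mc + (1 + 8 * Mc) ^ 2 with hK
  have habs : ∀ y, ∑ a ∈ X, |θ a y| ≤ 1 := fun y => by
    rw [Finset.sum_congr rfl fun a _ => abs_of_nonneg (h0 a y)]
    exact hle y
  -- active points are close
  have hact : ∀ {x : Eu m} {η : ℝ}, (∀ a ∈ S, dist x a ≤ 20 * r → (P x).Close (P a) x r η) →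
      ∀ y, dist y x ≤ 7 * r → ∀ a ∈ X, θ a y ≠ 0 → (P x).Close (P a) x r η := by
    intro x η hcl y hy a ha hne
    refine hcl a (hXS a ha) ?_
    have h1 : dist y a < 6 * r := by
      by_contra hc
      exact hne (hz a y (not_lt.1 hc))
    have h2 := dist_triangle x y a
    rw [dist_comm x y] at h2
    linarith
  have hact2 : ∀ {x : Eu m} {η : ℝ}, (∀ a ∈ S, dist x a ≤ 20 * r → (P x).Close (P a) x r η) →
      ∀ y y', dist y x ≤ 7 * r → dist y' x ≤ 7 * r → ∀ a ∈ X, θ a y - θ a y' ≠ 0 →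
        (P x).Close (P a) x r η := by
    intro x η hcl y y' hy hy' a ha hne
    by_cases h1 : θ a y = 0
    · refine hact hcl y' hy' a ha fun h2 => hne ?_
      rw [h1, h2, sub_self]
    · exact hact hcl y hy a ha h1
  have hcore : ∀ (y p : Eu m), ∑ a ∈ X, θ a y = 1 →
      y + ∑ a ∈ X, θ a y • ((P a).proj y - y) - p = ∑ a ∈ X, θ a y • ((P a).proj y - p) := by
    intro y p h1
    simp only [smul_sub, Finset.sum_sub_distrib, ← Finset.sum_smul, h1, one_smul]
    abel
  refine ⟨fun y => y + ∑ a ∈ X, θ a y • ((P a).proj y - y), ?_, ?_, ?_, ?_, ?_⟩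
  · intro y hy
    rw [Finset.sum_eq_zero fun a ha => by rw [hz a y (hy a (hXS a ha)), zero_smul], add_zero]
  · intro x hx η hη0 hη1 hcl y hy
    have hB : 0 ≤ (P x).D y + 8 * η * r := add_nonneg ((P x).D_nonneg y) (by positivity)
    have h1 := DT1_norm_sum_le (X := X) (c := fun a => θ a y) (u := fun a => (P a).proj y - y)
      (B := (P x).D y + 8 * η * r) fun a ha hne => by
        have h2 := (hact hcl y hy a ha hne).symm.D_le y
        rw [← dist_eq_norm] at h2
        have h3 : η * (r + dist y x) ≤ η * (8 * r) := mul_le_mul_of_nonneg_left (by linarith) hη0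
        rw [norm_sub_rev]
        change (P a).D y ≤ _
        linarith
    have h2 : (∑ a ∈ X, |θ a y|) * ((P x).D y + 8 * η * r) ≤ 1 * ((P x).D y + 8 * η * r) :=
      mul_le_mul_of_nonneg_right (habs y) hB
    have h3 : 8 * (η * r) ≤ K * (η * r) :=
      mul_le_mul_of_nonneg_right (by linarith) (by positivity)
    rw [add_sub_cancel_left]
    linarith
  · intro x hx η hη0 hη1 hcl y hy
    rw [hcore y _ (hone x hx y hy)]
    have h1 := DT1_norm_sum_le (X := X) (c := fun a => θ a y)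
      (u := fun a => (P a).proj y - (P x).proj y) (B := 5 * η * r) fun a ha hne => by
        have h2 := (hact hcl y (by linarith) a ha hne).symm.proj_le y
        rw [← dist_eq_norm y x] at h2
        have h3 : η * (r + dist y x) ≤ η * (5 * r) := mul_le_mul_of_nonneg_left (by linarith) hη0
        linarith
    have h2 : (∑ a ∈ X, |θ a y|) * (5 * η * r) ≤ 1 * (5 * η * r) :=
      mul_le_mul_of_nonneg_right (habs y) (by positivity)
    have h3 : 5 * (η * r) ≤ K * (η * r) :=
      mul_le_mul_of_nonneg_right (by linarith) (by positivity)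
    linarith
  · intro x hx η hη0 hη1 hcl y y' hy hy'
    have e : y + ∑ a ∈ X, θ a y • ((P a).proj y - y) - (y' + ∑ a ∈ X, θ a y' • ((P a).proj y' - y'))
        - (P x).pr (y - y') = ∑ a ∈ X, θ a y • ((P a).pr (y - y') - (P x).pr (y - y')) +
          ∑ a ∈ X, (θ a y - θ a y') • ((P a).proj y' - (P x).proj y') := by
      have e1 := hcore y ((P x).proj y) (hone x hx y hy)
      have e2 := hcore y' ((P x).proj y') (hone x hx y' hy')
      rw [← (P x).proj_sub]
      calc _ = (y + ∑ a ∈ X, θ a y • ((P a).proj y - y) - (P x).proj y) -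
            (y' + ∑ a ∈ X, θ a y' • ((P a).proj y' - y') - (P x).proj y') := by abel
        _ = _ := by
          rw [e1, e2, ← Finset.sum_sub_distrib, ← Finset.sum_add_distrib]
          refine Finset.sum_congr rfl fun a _ => ?_
          rw [← (P a).proj_sub]
          module
    rw [e]
    have hv := norm_nonneg (y - y')
    have h1 := DT1_norm_sum_le (X := X) (c := fun a => θ a y)
      (u := fun a => (P a).pr (y - y') - (P x).pr (y - y')) (B := η * ‖y - y'‖) fun a ha hne =>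
        (hact hcl y (by linarith) a ha hne).symm.pr_le _
    have h2 := DT1_norm_sum_le (X := X) (c := fun a => θ a y - θ a y')
      (u := fun a => (P a).proj y' - (P x).proj y') (B := 5 * η * r) fun a ha hne => by
        have h2 := (hact2 hcl y y' (by linarith) (by linarith) a ha hne).symm.proj_le y'
        rw [← dist_eq_norm y' x] at h2
        have h3 : η * (r + dist y' x) ≤ η * (5 * r) := mul_le_mul_of_nonneg_left (by linarith) hη0
        linarith
    have h3 : (∑ a ∈ X, |θ a y|) * (η * ‖y - y'‖) ≤ 1 * (η * ‖y - y'‖) :=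
      mul_le_mul_of_nonneg_right (habs y) (by positivity)
    have h4 : (∑ a ∈ X, |θ a y - θ a y'|) * (5 * η * r) ≤ Mc * (‖y - y'‖ / r) * (5 * η * r) :=
      mul_le_mul_of_nonneg_right (hlip x y y' (by linarith) (by linarith)) (by positivity)
    have h5 : Mc * (‖y - y'‖ / r) * (5 * η * r) = 5 * Mc * (η * ‖y - y'‖) := by field_simp
    have h6 : (1 + 5 * Mc) * (η * ‖y - y'‖) ≤ K * (η * ‖y - y'‖) :=
      mul_le_mul_of_nonneg_right (by linarith) (by positivity)
    refine (norm_add_le _ _).trans ?_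
    linarith
  · intro x hx η hη0 hη1 hcl y y' t l hy hy' ht hD hl hn
    have hv := norm_nonneg (y - y')
    have hl0 : 0 ≤ l := hv.trans hl
    have e : y + ∑ a ∈ X, θ a y • ((P a).proj y - y) - (y' + ∑ a ∈ X, θ a y' • ((P a).proj y' - y'))
        = (y - y') + (∑ a ∈ X, (θ a y - θ a y') • ((P a).proj y' - y') -
          ∑ a ∈ X, θ a y • ((y - y') - (P a).pr (y - y'))) := by
      calc _ = (y - y') + (∑ a ∈ X, θ a y • ((P a).proj y - y) -
            ∑ a ∈ X, θ a y' • ((P a).proj y' - y')) := by abel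
        _ = _ := by
          rw [← Finset.sum_sub_distrib, ← Finset.sum_sub_distrib]
          congr 1
          refine Finset.sum_congr rfl fun a _ => ?_
          rw [← (P a).proj_sub]
          module
    rw [e]
    generalize hvv : y - y' = v at *
    have hnor : ∀ a, (P x).Close (P a) x r η → ‖v - (P a).pr v‖ ≤ (η + t) * l := by
      intro a hc
      have h1 := hc.pr_le v
      have h2 : ‖v - (P a).pr v‖ ≤ ‖v - (P x).pr v‖ + ‖(P x).pr v - (P a).pr v‖ :=
        norm_sub_le_norm_sub_add_norm_sub _ _ _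
      have h3 : η * ‖v‖ ≤ η * l := mul_le_mul_of_nonneg_left hl hη0
      linarith
    have hDa : ∀ a, (P x).Close (P a) x r η → (P a).D y' ≤ 8 * (η + t) * r := by
      intro a hc
      have h2 := hc.symm.D_le y'
      rw [← dist_eq_norm] at h2
      have h3 : η * (r + dist y' x) ≤ η * (8 * r) := mul_le_mul_of_nonneg_left (by linarith) hη0
      have h4 : 0 ≤ t * r := by positivity
      linarith
    have hs : 0 ≤ η + t := by linarith
    have hΔ : ∑ a ∈ X, |θ a y - θ a y'| ≤ Mc * (l / r) := by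
      have := hlip x y y' hy hy'
      rw [hvv] at this
      exact this.trans (mul_le_mul_of_nonneg_left (div_le_div_of_nonneg_right hl hr.le) hMc)
    set w1 := ∑ a ∈ X, θ a y • (v - (P a).pr v) with hw1
    set w2 := ∑ a ∈ X, (θ a y - θ a y') • ((P a).proj y' - y') with hw2
    have n1 : ‖w1‖ ≤ (η + t) * l := by
      have h1 := DT1_norm_sum_le (X := X) (c := fun a => θ a y) (u := fun a => v - (P a).pr v)
        (B := (η + t) * l) fun a ha hne => hnor a (hact hcl y hy a ha hne)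
      have h2 : (∑ a ∈ X, |θ a y|) * ((η + t) * l) ≤ 1 * ((η + t) * l) :=
        mul_le_mul_of_nonneg_right (habs y) (by positivity)
      linarith
    have n2 : ‖w2‖ ≤ 8 * Mc * ((η + t) * l) := by
      have h1 := DT1_norm_sum_le (X := X) (c := fun a => θ a y - θ a y')
        (u := fun a => (P a).proj y' - y') (B := 8 * (η + t) * r) fun a ha hne => by
          rw [norm_sub_rev]
          exact hDa a (hact2 hcl y y' hy hy' a ha hne)
      have h2 : (∑ a ∈ X, |θ a y - θ a y'|) * (8 * (η + t) * r) ≤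
          Mc * (l / r) * (8 * (η + t) * r) := mul_le_mul_of_nonneg_right hΔ (by positivity)
      have h3 : Mc * (l / r) * (8 * (η + t) * r) = 8 * Mc * ((η + t) * l) := by field_simp
      linarith
    have i1 : 0 ≤ ⟪v, w1⟫ := by
      rw [hw1, inner_sum]
      refine Finset.sum_nonneg fun a _ => ?_
      rw [real_inner_smul_right]
      exact mul_nonneg (h0 a y) (DT1_inner_perp _ _)
    have i2 : ⟪v, w2⟫ ≤ 8 * Mc * ((η + t) * l) ^ 2 := by
      have h1 := DT1_inner_sum_le (X := X) (c := fun a => θ a y - θ a y')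
        (u := fun a => (P a).proj y' - y') (v := v) (B := (η + t) * l * (8 * (η + t) * r))
        fun a ha hne => by
          have hc := hact2 hcl y y' hy hy' a ha hne
          exact (DT1_inner_normal _ _ _).trans
            (mul_le_mul (hnor a hc) (hDa a hc) ((P a).D_nonneg _) (by positivity))
      have h2 : (∑ a ∈ X, |θ a y - θ a y'|) * ((η + t) * l * (8 * (η + t) * r)) ≤
          Mc * (l / r) * ((η + t) * l * (8 * (η + t) * r)) :=
        mul_le_mul_of_nonneg_right hΔ (by positivity)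
      have h3 : Mc * (l / r) * ((η + t) * l * (8 * (η + t) * r)) =
          8 * Mc * ((η + t) * l) ^ 2 := by field_simp
      linarith
    have n3 : ‖w2 - w1‖ ≤ (1 + 8 * Mc) * ((η + t) * l) := by
      have := norm_sub_le w2 w1
      linarith
    have n4 : ‖w2 - w1‖ ^ 2 ≤ (1 + 8 * Mc) ^ 2 * ((η + t) * l) ^ 2 := by
      rw [← mul_pow]
      exact pow_le_pow_left₀ (norm_nonneg _) n3 2
    rw [norm_add_sq_real, inner_sub_right]
    have q : 0 ≤ ((η + t) * l) ^ 2 := sq_nonneg _
    have e2 : K * (η + t) ^ 2 * l ^ 2 = 8 * ((η + t) * l) ^ 2 + 2 * (8 * Mc * ((η + t) * l) ^ 2) +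
        (1 + 8 * Mc) ^ 2 * ((η + t) * l) ^ 2 := by
      rw [hK]
      ring
    rw [e2]
    linarith

end Crest.Agent.R85
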