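import Crest.Agent.R85.DT1

/-!
# Invariants and the Lipschitz bound (task DT2)

Write `r_j = ρ^j r0`, `g_j = gseq P0 x0 σ j`, `C1 = 20 K / ρ`; smallness `1000 K ε0 ≤ ρ²`... is the
hypothesis `hε : 4000 * K * ε0 ≤ ρ ^ 2` (so `(C1 + K) ε0 ≤ ρ/100`).
`dt_inv` by induction on `j` (all three claims together): if `g_{j+1} u` is within `7 r_{j+1}` of
`x ∈ S (j+1) ⊆ S j`, then the move at step `j` is at most `r_j ρ/100`, so `g_j u` is in the core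
(`Step.core`), `(P j x).D (g_{j+1} u) ≤ K η r_j`, and `Close.D_le` with `vert`.
Move: if `y` is inactive there is no move, otherwise `dist y a < 6 r_j` for some `a ∈ S j`, use
`Step.move` at `a` and the invariant.
`dt_lip`: fix `u, u'`, `δ = dist u u'`, `L* = exp (K (1 + C1²) Nn)`.  Pair lemma: if `x ∈ S j`,
`dist (g_j u) x ≤ 6 r_j`, `L* δ ≤ r_j/10`, then by induction on `i ≤ j+1`:
`‖v_i‖² ≤ δ² exp (∑_{l<i} K (η_l + t_l)²)`, `t_0 = 0`, `t_{l+1} = C1 η_l`, and the normal part of `v_i`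
for `P i x` is `≤ t_i ‖·‖`-bound (`corePair` and `vert`).  If neither point is active `v` does not
change.  After the first `j1` with `L* δ > r_{j1}/10` use the sum of the moves.
-/

set_option autoImplicit false

open MeasureTheory Metric Filter Topology
open scoped RealInnerProductSpace

noncomputable section

namespace Crest.Agent.R85

variable {m : ℕ}

variable {n : ℕ} {ρ ε0 Nn r0 K : ℝ} {x0 : Eu m} {S : ℕ → Set (Eu m)} {P : ℕ → Eu m → Pl n m}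
  {P0 : Pl n m} {η : ℕ → Eu m → ℝ} {σ : ℕ → Eu m → Eu m}

/-- The slope bounds `t_0 = 0`, `t_{i+1} = C η_i`. -/
def dtT (C : ℝ) (e : ℕ → ℝ) : ℕ → ℝ
  | 0 => 0
  | i + 1 => C * e i

theorem dt2_small (hρ : 0 < ρ) (hρ' : ρ ≤ 1 / 100) (hK : 1 ≤ K) (hε0 : 0 ≤ ε0)
    (hε : 4000 * K * ε0 ≤ ρ ^ 2) : K * ε0 ≤ ρ / 200 ∧ 20 * K / ρ * ε0 ≤ ρ / 200 ∧ ε0 ≤ 1 := by
  have h1 : K * ε0 ≤ ρ / 200 := by nlinarith
  refine ⟨h1, ?_, by nlinarith⟩
  rw [div_mul_eq_mul_div, div_le_iff₀ hρ]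
  nlinarith

theorem dt2_T_mem (hρ : 0 < ρ) (hρ' : ρ ≤ 1 / 100) (hK : 1 ≤ K) (hε0 : 0 ≤ ε0)
    (hε : 4000 * K * ε0 ≤ ρ ^ 2) (hD : DTD ρ ε0 Nn r0 x0 S P P0 η) {j : ℕ} {x : Eu m}
    (hx : x ∈ S j) : 0 ≤ dtT (20 * K / ρ) (fun i => η i x) j ∧
      dtT (20 * K / ρ) (fun i => η i x) j ≤ ρ / 200 := by
  cases j with
  | zero => exact ⟨le_rfl, by simp only [dtT]; positivity⟩
  | succ j =>
    obtain ⟨h1, h2⟩ := hD.eta j x (hD.anti (Nat.le_succ j) hx)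
    have h3 : 0 ≤ 20 * K / ρ := by positivity
    exact ⟨mul_nonneg h3 h1,
      (mul_le_mul_of_nonneg_left h2 h3).trans (dt2_small hρ hρ' hK hε0 hε).2.1⟩

theorem dt2_move (hρ : 0 < ρ) (hρ' : ρ ≤ 1 / 100) (hK : 1 ≤ K) (hε0 : 0 ≤ ε0)
    (hε : 4000 * K * ε0 ≤ ρ ^ 2) (hD : DTD ρ ε0 Nn r0 x0 S P P0 η)
    (hσ : ∀ j, Step K (ρ ^ j * r0) (S j) (P j) (σ j)) {j : ℕ} {y : Eu m}
    (hy : ∀ x ∈ S j, dist y x ≤ 7 * (ρ ^ j * r0) →
      (P j x).D y ≤ dtT (20 * K / ρ) (fun i => η i x) j * (ρ ^ j * r0)) :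
    ‖σ j y - y‖ ≤ ρ / 100 * (ρ ^ j * r0) := by
  have hr : 0 < ρ ^ j * r0 := mul_pos (pow_pos hρ j) hD.r0_pos
  by_cases hact : ∀ a ∈ S j, 6 * (ρ ^ j * r0) ≤ dist y a
  · rw [(hσ j).inactive y hact, sub_self, norm_zero]
    positivity
  push Not at hact
  obtain ⟨a, ha, hya⟩ := hact
  obtain ⟨s1, -, s3⟩ := dt2_small hρ hρ' hK hε0 hε
  obtain ⟨e1, e2⟩ := hD.eta j a ha
  have h1 := (hσ j).move a ha (η j a) e1 (e2.trans s3) (hD.horiz j a ha) y (by linarith)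
  have h2 := hy a ha (by linarith)
  have h3 := mul_le_mul_of_nonneg_right (dt2_T_mem hρ hρ' hK hε0 hε hD ha).2 hr.le
  have h4 : K * η j a ≤ ρ / 200 := (mul_le_mul_of_nonneg_left e2 (by linarith)).trans s1
  have h5 := mul_le_mul_of_nonneg_right h4 hr.le
  linarith

theorem dt2_inv (hρ : 0 < ρ) (hρ' : ρ ≤ 1 / 100) (hK : 1 ≤ K) (hε0 : 0 ≤ ε0)
    (hε : 4000 * K * ε0 ≤ ρ ^ 2) (hD : DTD ρ ε0 Nn r0 x0 S P P0 η)
    (hσ : ∀ j, Step K (ρ ^ j * r0) (S j) (P j) (σ j)) (u : Eu n) (j : ℕ) :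
    ∀ x ∈ S j, dist (gseq P0 x0 σ j u) x ≤ 7 * (ρ ^ j * r0) →
      (P j x).D (gseq P0 x0 σ j u) ≤ dtT (20 * K / ρ) (fun i => η i x) j * (ρ ^ j * r0) := by
  induction j with
  | zero =>
    intro x hx _
    rw [hD.top x hx]
    simp only [gseq, dtT, zero_mul, Pl.D, Pl.proj_add_I, sub_self, norm_zero, le_refl]
  | succ j ih =>
    intro x hx hd
    have hmv := dt2_move hρ hρ' hK hε0 hε hD hσ ih
    have hx' : x ∈ S j := hD.anti (Nat.le_succ j) hx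
    have hr : 0 < ρ ^ j * r0 := mul_pos (pow_pos hρ j) hD.r0_pos
    have hs : ρ ^ (j + 1) * r0 = ρ * (ρ ^ j * r0) := by ring
    obtain ⟨s1, -, s3⟩ := dt2_small hρ hρ' hK hε0 hε
    obtain ⟨e1, e2⟩ := hD.eta j x hx'
    simp only [gseq, dtT] at hd ⊢
    generalize gseq P0 x0 σ j u = y at *
    have hρr : ρ * (ρ ^ j * r0) ≤ 1 / 100 * (ρ ^ j * r0) := mul_le_mul_of_nonneg_right hρ' hr.le
    have h1 : dist y x ≤ 4 * (ρ ^ j * r0) := by
      have := dist_triangle y (σ j y) x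
      rw [dist_comm y (σ j y), dist_eq_norm (σ j y) y] at this
      rw [hs] at hd
      linarith
    have h2 := (hσ j).core x hx' (η j x) e1 (e2.trans s3) (hD.horiz j x hx') y h1
    have h3 := ((P j x).D_le_proj (σ j y) y).trans h2
    have h4 := (hD.vert j x hx).D_le (σ j y)
    rw [← dist_eq_norm] at h4
    have h5 : η j x * (ρ ^ (j + 1) * r0 + dist (σ j y) x) ≤ η j x * (ρ ^ j * r0) := by
      refine mul_le_mul_of_nonneg_left ?_ e1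
      rw [hs] at hd ⊢
      linarith
    have h6 : 20 * K / ρ * η j x * (ρ ^ (j + 1) * r0) = 20 * (K * (η j x * (ρ ^ j * r0))) := by
      rw [hs]
      field_simp
    have h7 : 0 ≤ η j x * (ρ ^ j * r0) := mul_nonneg e1 hr.le
    have h8 := le_mul_of_one_le_left h7 hK
    rw [h6]
    rw [mul_assoc] at h3
    linarith

theorem dt_inv (hρ : 0 < ρ) (hρ' : ρ ≤ 1 / 100) (hK : 1 ≤ K) (hε0 : 0 ≤ ε0)
    (hε : 4000 * K * ε0 ≤ ρ ^ 2)
    (hD : DTD ρ ε0 Nn r0 x0 S P P0 η) (hσ : ∀ j, Step K (ρ ^ j * r0) (S j) (P j) (σ j)) (u : Eu n) :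
    (∀ x ∈ S 0, (P 0 x).D (gseq P0 x0 σ 0 u) = 0) ∧
    (∀ j, ∀ x ∈ S (j + 1), dist (gseq P0 x0 σ (j + 1) u) x ≤ 7 * (ρ ^ (j + 1) * r0) →
      (P (j + 1) x).D (gseq P0 x0 σ (j + 1) u) ≤ 20 * K / ρ * η j x * (ρ ^ (j + 1) * r0)) ∧
    (∀ j, ‖gseq P0 x0 σ (j + 1) u - gseq P0 x0 σ j u‖ ≤ ρ / 100 * (ρ ^ j * r0)) := by
  refine ⟨fun x hx => ?_, fun j => dt2_inv hρ hρ' hK hε0 hε hD hσ u (j + 1),
    fun j => dt2_move hρ hρ' hK hε0 hε hD hσ (dt2_inv hρ hρ' hK hε0 hε hD hσ u j)⟩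
  rw [hD.top x hx]
  simp only [gseq, Pl.D, Pl.proj_add_I, sub_self, norm_zero]

/-- The sum of the moves. -/
theorem dt2_tail (hρ : 0 < ρ) (hρ' : ρ ≤ 1 / 100) (hK : 1 ≤ K) (hε0 : 0 ≤ ε0)
    (hε : 4000 * K * ε0 ≤ ρ ^ 2) (hD : DTD ρ ε0 Nn r0 x0 S P P0 η)
    (hσ : ∀ j, Step K (ρ ^ j * r0) (S j) (P j) (σ j)) (u : Eu n) {i j : ℕ} (hij : i ≤ j) :
    dist (gseq P0 x0 σ j u) (gseq P0 x0 σ i u) ≤ ρ ^ i * r0 / 50 := by
  have key : dist (gseq P0 x0 σ j u) (gseq P0 x0 σ i u) ≤ (ρ ^ i * r0 - ρ ^ j * r0) / 50 := by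
    induction j, hij using Nat.le_induction with
    | base => simp
    | succ j _ ih =>
      have h1 := (dt_inv hρ hρ' hK hε0 hε hD hσ u).2.2 j
      rw [← dist_eq_norm] at h1
      have h2 := dist_triangle (gseq P0 x0 σ (j + 1) u) (gseq P0 x0 σ j u) (gseq P0 x0 σ i u)
      have hr : 0 < ρ ^ j * r0 := mul_pos (pow_pos hρ j) hD.r0_pos
      have hs : ρ ^ (j + 1) * r0 = ρ * (ρ ^ j * r0) := by ring
      have hρr : ρ * (ρ ^ j * r0) ≤ 1 / 100 * (ρ ^ j * r0) := mul_le_mul_of_nonneg_right hρ' hr.le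
      rw [hs]
      linarith
  have hr : 0 < ρ ^ j * r0 := mul_pos (pow_pos hρ j) hD.r0_pos
  linarith

theorem dt2_sum_le {C Nn K : ℝ} (hK : 0 ≤ K) {e : ℕ → ℝ} {i j : ℕ} (hi : i ≤ j + 1)
    (h : ∑ l ∈ Finset.range (j + 1), e l ^ 2 ≤ Nn) :
    (∑ l ∈ Finset.range i, K * (e l + dtT C e l) ^ 2) / 2 ≤ K * ((1 + C ^ 2) * |Nn|) := by
  have h1 : ∑ l ∈ Finset.range i, K * (e l + dtT C e l) ^ 2 ≤
      ∑ l ∈ Finset.range (j + 1), K * (e l + dtT C e l) ^ 2 :=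
    Finset.sum_le_sum_of_subset_of_nonneg (Finset.range_mono hi) fun _ _ _ => by positivity
  have h2 : ∑ l ∈ Finset.range (j + 1), K * (e l + dtT C e l) ^ 2 ≤
      ∑ l ∈ Finset.range (j + 1), K * (2 * e l ^ 2 + 2 * dtT C e l ^ 2) :=
    Finset.sum_le_sum fun l _ => mul_le_mul_of_nonneg_left
      (by nlinarith [sq_nonneg (e l - dtT C e l)]) hK
  have h3 : ∑ l ∈ Finset.range (j + 1), dtT C e l ^ 2 = C ^ 2 * ∑ l ∈ Finset.range j, e l ^ 2 := by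
    rw [Finset.sum_range_succ', Finset.mul_sum]
    simp [dtT, mul_pow]
  have h4 : ∑ l ∈ Finset.range j, e l ^ 2 ≤ ∑ l ∈ Finset.range (j + 1), e l ^ 2 := by
    rw [Finset.sum_range_succ]
    nlinarith [sq_nonneg (e j)]
  have h5 := h.trans (le_abs_self Nn)
  have h2' : ∑ l ∈ Finset.range (j + 1), K * (2 * e l ^ 2 + 2 * dtT C e l ^ 2) =
      K * (2 * ∑ l ∈ Finset.range (j + 1), e l ^ 2 +
        2 * (C ^ 2 * ∑ l ∈ Finset.range j, e l ^ 2)) := by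
    rw [← Finset.mul_sum, Finset.sum_add_distrib, ← Finset.mul_sum, ← Finset.mul_sum, h3]
  rw [h2'] at h2
  have h6 := mul_le_mul_of_nonneg_left (h4.trans h5) (sq_nonneg C)
  have h7 : 2 * ∑ l ∈ Finset.range (j + 1), e l ^ 2 + 2 * (C ^ 2 * ∑ l ∈ Finset.range j, e l ^ 2) ≤
      2 * ((1 + C ^ 2) * |Nn|) := by linarith
  have h8 := mul_le_mul_of_nonneg_left h7 hK
  linarith

/-- The pair lemma. -/
theorem dt2_pair (hρ : 0 < ρ) (hρ' : ρ ≤ 1 / 100) (hK : 1 ≤ K) (hε0 : 0 ≤ ε0)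
    (hε : 4000 * K * ε0 ≤ ρ ^ 2) (hD : DTD ρ ε0 Nn r0 x0 S P P0 η)
    (hσ : ∀ j, Step K (ρ ^ j * r0) (S j) (P j) (σ j)) (u u' : Eu n) {j : ℕ} {x : Eu m}
    (hx : x ∈ S j) (hd : dist (gseq P0 x0 σ j u) x ≤ 6 * (ρ ^ j * r0))
    (hδ : Real.exp (K * ((1 + (20 * K / ρ) ^ 2) * |Nn|)) * dist u u' ≤ ρ ^ j * r0 / 10) :
    ‖gseq P0 x0 σ (j + 1) u - gseq P0 x0 σ (j + 1) u'‖ ≤
      Real.exp (K * ((1 + (20 * K / ρ) ^ 2) * |Nn|)) * dist u u' := by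
  set C := 20 * K / ρ with hC
  set t := dtT C fun i => η i x with ht
  let B : ℕ → ℝ := fun i =>
    Real.exp ((∑ l ∈ Finset.range i, K * (η l x + t l) ^ 2) / 2) * dist u u'
  have hK0 : 0 ≤ K := by linarith
  have hB0 : ∀ i, 0 ≤ B i := fun i => by positivity
  have hBle : ∀ i ≤ j + 1, B i ≤ Real.exp (K * ((1 + C ^ 2) * |Nn|)) * dist u u' := fun i hi =>
    mul_le_mul_of_nonneg_right (Real.exp_le_exp.2 (dt2_sum_le hK0 hi (hD.sum j x hx))) dist_nonneg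
  have hBs : ∀ i, B (i + 1) = Real.exp (K * (η i x + t i) ^ 2 / 2) * B i := fun i => by
    simp only [B]
    rw [Finset.sum_range_succ, add_div, Real.exp_add]
    ring
  have hBm : ∀ i, B i ≤ B (i + 1) := fun i => by
    rw [hBs]
    exact le_mul_of_one_le_left (hB0 i) (Real.one_le_exp (by positivity))
  have hBq : ∀ i, B i ^ 2 + K * (η i x + t i) ^ 2 * B i ^ 2 ≤ B (i + 1) ^ 2 := fun i => by
    rw [hBs, mul_pow (Real.exp (K * (η i x + t i) ^ 2 / 2)) (B i), ← Real.exp_nat_mul]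
    have h1 := Real.add_one_le_exp (((2 : ℕ) : ℝ) * (K * (η i x + t i) ^ 2 / 2))
    have h2 := mul_le_mul_of_nonneg_right h1 (sq_nonneg (B i))
    push_cast at h2 ⊢
    linarith
  obtain ⟨s1, -, s3⟩ := dt2_small hρ hρ' hK hε0 hε
  have hrj : 0 < ρ ^ j * r0 := mul_pos (pow_pos hρ j) hD.r0_pos
  have hrle : ∀ i < j, ρ ^ j * r0 ≤ 1 / 100 * (ρ ^ i * r0) := fun i hi => by
    have h1 : ρ ^ j ≤ ρ ^ (i + 1) := pow_le_pow_of_le_one hρ.le (by linarith) hi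
    have h2 : ρ ^ (i + 1) ≤ 1 / 100 * ρ ^ i := by
      rw [pow_succ']
      exact mul_le_mul_of_nonneg_right hρ' (pow_pos hρ i).le
    have := mul_le_mul_of_nonneg_right (h1.trans h2) hD.r0_pos.le
    linarith
  have hcore : ∀ i < j, ‖gseq P0 x0 σ i u - gseq P0 x0 σ i u'‖ ≤ B i →
      dist (gseq P0 x0 σ i u) x ≤ 4 * (ρ ^ i * r0) ∧
        dist (gseq P0 x0 σ i u') x ≤ 4 * (ρ ^ i * r0) := fun i hi hv => by
    have h1 := dt2_tail hρ hρ' hK hε0 hε hD hσ u hi.le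
    have h2 := dist_triangle (gseq P0 x0 σ i u) (gseq P0 x0 σ j u) x
    rw [dist_comm] at h1
    have h3 := dist_triangle (gseq P0 x0 σ i u') (gseq P0 x0 σ i u) x
    rw [dist_comm (gseq P0 x0 σ i u') (gseq P0 x0 σ i u), dist_eq_norm (gseq P0 x0 σ i u)] at h3
    have h4 := hrle i hi
    have h5 := hBle i (by omega)
    constructor <;> linarith
  have hnear : ∀ i ≤ j, ‖gseq P0 x0 σ i u - gseq P0 x0 σ i u'‖ ≤ B i →
      dist (gseq P0 x0 σ i u) x ≤ 7 * (ρ ^ i * r0) ∧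
        dist (gseq P0 x0 σ i u') x ≤ 7 * (ρ ^ i * r0) := fun i hi hv => by
    rcases hi.eq_or_lt with rfl | hlt
    · have h3 := dist_triangle (gseq P0 x0 σ i u') (gseq P0 x0 σ i u) x
      rw [dist_comm (gseq P0 x0 σ i u') (gseq P0 x0 σ i u), dist_eq_norm (gseq P0 x0 σ i u)] at h3
      have h5 := hBle i (by omega)
      constructor <;> linarith
    · have h1 := hcore i hlt hv
      have hr : 0 < ρ ^ i * r0 := mul_pos (pow_pos hρ i) hD.r0_pos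
      constructor <;> linarith [h1.1, h1.2]
  have hstep : ∀ i ≤ j, ‖gseq P0 x0 σ i u - gseq P0 x0 σ i u'‖ ≤ B i →
      ‖(gseq P0 x0 σ i u - gseq P0 x0 σ i u') -
        (P i x).pr (gseq P0 x0 σ i u - gseq P0 x0 σ i u')‖ ≤ t i * B i →
      ‖gseq P0 x0 σ (i + 1) u - gseq P0 x0 σ (i + 1) u'‖ ≤ B (i + 1) := fun i hi hv hn => by
    have hxi : x ∈ S i := hD.anti hi hx
    obtain ⟨e1, e2⟩ := hD.eta i x hxi
    obtain ⟨d1, d2⟩ := hnear i hi hv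
    have h1 := (hσ i).pair x hxi (η i x) e1 (e2.trans s3) (hD.horiz i x hxi) _ _ (t i) (B i) d1 d2
      (dt2_T_mem hρ hρ' hK hε0 hε hD hxi).1 (dt2_inv hρ hρ' hK hε0 hε hD hσ u' i x hxi d2) hv hn
    have h2 := pow_le_pow_left₀ (norm_nonneg _) hv 2
    refine (pow_le_pow_iff_left₀ (norm_nonneg _) (hB0 _) two_ne_zero).1 ?_
    simp only [gseq]
    linarith [hBq i]
  have hall : ∀ i ≤ j, ‖gseq P0 x0 σ i u - gseq P0 x0 σ i u'‖ ≤ B i ∧
      ‖(gseq P0 x0 σ i u - gseq P0 x0 σ i u') -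
        (P i x).pr (gseq P0 x0 σ i u - gseq P0 x0 σ i u')‖ ≤ t i * B i := by
    intro i
    induction i with
    | zero =>
      intro hi
      have e : gseq P0 x0 σ 0 u - gseq P0 x0 σ 0 u' = P0.I (u - u') := by
        simp only [gseq, map_sub]
        abel
      rw [e, hD.top x (hD.anti hi hx), P0.pr_I, P0.hI, sub_self, norm_zero]
      simp [B, ht, dtT, dist_eq_norm]
    | succ i ih =>
      intro hi
      obtain ⟨hv, hn⟩ := ih (by omega)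
      refine ⟨hstep i (by omega) hv hn, ?_⟩
      have hxi' : x ∈ S (i + 1) := hD.anti hi hx
      have hxi : x ∈ S i := hD.anti (Nat.le_succ i) hxi'
      obtain ⟨e1, e2⟩ := hD.eta i x hxi
      obtain ⟨d1, d2⟩ := hcore i hi hv
      have h1 := (hσ i).corePair x hxi (η i x) e1 (e2.trans s3) (hD.horiz i x hxi) _ _ d1 d2
      simp only [gseq]
      generalize gseq P0 x0 σ i u - gseq P0 x0 σ i u' = v at *
      generalize σ i (gseq P0 x0 σ i u) - σ i (gseq P0 x0 σ i u') = v' at *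
      have h2 := (P (i + 1) x).norm_sub_pr_le (v' - (P i x).pr v)
      have h3 := (hD.vert i x hxi').pr_le ((P i x).pr v)
      rw [Pl.pr_pr, norm_sub_rev] at h3
      have h4 := (P i x).norm_pr_le v
      have e : v' - (P (i + 1) x).pr v' =
          (v' - (P i x).pr v - (P (i + 1) x).pr (v' - (P i x).pr v)) +
            ((P i x).pr v - (P (i + 1) x).pr ((P i x).pr v)) := by
        rw [map_sub]
        abel
      have h5 := norm_add_le (v' - (P i x).pr v - (P (i + 1) x).pr (v' - (P i x).pr v))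
        ((P i x).pr v - (P (i + 1) x).pr ((P i x).pr v))
      rw [← e] at h5
      have h6 : η i x * ‖v‖ ≤ η i x * B (i + 1) := mul_le_mul_of_nonneg_left (hv.trans (hBm i)) e1
      have h7 : η i x * ‖(P i x).pr v‖ ≤ η i x * ‖v‖ := mul_le_mul_of_nonneg_left h4 e1
      have h8 : K * (η i x * ‖v‖) ≤ K * (η i x * B (i + 1)) := mul_le_mul_of_nonneg_left h6 hK0
      have h9 : K + 1 ≤ C := by
        rw [hC, le_div_iff₀ hρ]
        nlinarith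
      have h10 := mul_le_mul_of_nonneg_right h9 (mul_nonneg e1 (hB0 (i + 1)))
      have h11 : t (i + 1) * B (i + 1) = C * (η i x * B (i + 1)) := by
        simp only [ht, dtT]
        ring
      rw [h11]
      rw [mul_assoc] at h1
      linarith
  exact (hstep j le_rfl (hall j le_rfl).1 (hall j le_rfl).2).trans (hBle _ le_rfl)

theorem dt2_early (hρ : 0 < ρ) (hρ' : ρ ≤ 1 / 100) (hK : 1 ≤ K) (hε0 : 0 ≤ ε0)
    (hε : 4000 * K * ε0 ≤ ρ ^ 2) (hD : DTD ρ ε0 Nn r0 x0 S P P0 η)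
    (hσ : ∀ j, Step K (ρ ^ j * r0) (S j) (P j) (σ j)) (u u' : Eu n) (j : ℕ)
    (hδ : ∀ i < j,
      Real.exp (K * ((1 + (20 * K / ρ) ^ 2) * |Nn|)) * dist u u' ≤ ρ ^ i * r0 / 10) :
    ‖gseq P0 x0 σ j u - gseq P0 x0 σ j u'‖ ≤
      Real.exp (K * ((1 + (20 * K / ρ) ^ 2) * |Nn|)) * dist u u' := by
  induction j with
  | zero =>
    have e : gseq P0 x0 σ 0 u - gseq P0 x0 σ 0 u' = P0.I (u - u') := by
      simp only [gseq, map_sub]
      abel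
    rw [e, P0.hI, ← dist_eq_norm]
    exact le_mul_of_one_le_left dist_nonneg (Real.one_le_exp (by positivity))
  | succ j ih =>
    have h1 := hδ j (Nat.lt_succ_self j)
    by_cases ha : ∀ a ∈ S j, 6 * (ρ ^ j * r0) ≤ dist (gseq P0 x0 σ j u) a
    · by_cases ha' : ∀ a ∈ S j, 6 * (ρ ^ j * r0) ≤ dist (gseq P0 x0 σ j u') a
      · simp only [gseq]
        rw [(hσ j).inactive _ ha, (hσ j).inactive _ ha']
        exact ih fun i hi => hδ i (by omega)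
      · push Not at ha'
        obtain ⟨a, haS, hd⟩ := ha'
        rw [norm_sub_rev, dist_comm]
        exact dt2_pair hρ hρ' hK hε0 hε hD hσ u' u haS hd.le (by rwa [dist_comm])
    · push Not at ha
      obtain ⟨a, haS, hd⟩ := ha
      exact dt2_pair hρ hρ' hK hε0 hε hD hσ u u' haS hd.le h1

theorem dt2_all (hρ : 0 < ρ) (hρ' : ρ ≤ 1 / 100) (hK : 1 ≤ K) (hε0 : 0 ≤ ε0)
    (hε : 4000 * K * ε0 ≤ ρ ^ 2) (hD : DTD ρ ε0 Nn r0 x0 S P P0 η)
    (hσ : ∀ j, Step K (ρ ^ j * r0) (S j) (P j) (σ j)) (u u' : Eu n) (j : ℕ) :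
    dist (gseq P0 x0 σ j u) (gseq P0 x0 σ j u') ≤
      2 * Real.exp (K * ((1 + (20 * K / ρ) ^ 2) * |Nn|)) * dist u u' := by
  have h0 : 0 ≤ Real.exp (K * ((1 + (20 * K / ρ) ^ 2) * |Nn|)) * dist u u' := by positivity
  by_cases hj : ∃ i, i < j ∧
      ρ ^ i * r0 / 10 < Real.exp (K * ((1 + (20 * K / ρ) ^ 2) * |Nn|)) * dist u u'
  · classical
    obtain ⟨h1, h2⟩ := Nat.find_spec hj
    have h3 := dt2_early hρ hρ' hK hε0 hε hD hσ u u' (Nat.find hj) fun i hi => by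
      have := Nat.find_min hj hi
      exact not_lt.1 fun h => this ⟨hi.trans h1, h⟩
    generalize Nat.find hj = i at *
    have h4 := dt2_tail hρ hρ' hK hε0 hε hD hσ u h1.le
    have h5 := dt2_tail hρ hρ' hK hε0 hε hD hσ u' h1.le
    have h6 := dist_triangle4 (gseq P0 x0 σ j u) (gseq P0 x0 σ i u) (gseq P0 x0 σ i u')
      (gseq P0 x0 σ j u')
    rw [← dist_eq_norm] at h3
    rw [dist_comm] at h5
    linarith
  · push Not at hj
    have h3 := dt2_early hρ hρ' hK hε0 hε hD hσ u u' j hj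
    rw [← dist_eq_norm] at h3
    linarith

theorem dt_lip (ρ K Nn : ℝ) (hρ : 0 < ρ) (hρ' : ρ ≤ 1 / 100) (hK : 1 ≤ K) :
    ∃ L, 1 ≤ L ∧ ∀ {n m : ℕ} {ε0 r0 : ℝ} {x0 : Eu m} {S : ℕ → Set (Eu m)}
      {P : ℕ → Eu m → Pl n m} {P0 : Pl n m} {η : ℕ → Eu m → ℝ} {σ : ℕ → Eu m → Eu m},
      0 ≤ ε0 → 4000 * K * ε0 ≤ ρ ^ 2 → DTD ρ ε0 Nn r0 x0 S P P0 η →
      (∀ j, Step K (ρ ^ j * r0) (S j) (P j) (σ j)) →
      ∃ g : Eu n → Eu m, (∀ u u', dist (g u) (g u') ≤ L * dist u u') ∧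
        ∀ j u, dist (g u) (gseq P0 x0 σ j u) ≤ ρ ^ j * r0 / 50 := by
  refine ⟨2 * Real.exp (K * ((1 + (20 * K / ρ) ^ 2) * |Nn|)), ?_, ?_⟩
  · have : 1 ≤ Real.exp (K * ((1 + (20 * K / ρ) ^ 2) * |Nn|)) := Real.one_le_exp (by positivity)
    linarith
  intro n m ε0 r0 x0 S P P0 η σ hε0 hε hD hσ
  have hc : ∀ u, CauchySeq fun j => gseq P0 x0 σ j u := fun u =>
    cauchySeq_of_le_geometric ρ (ρ / 100 * r0) (by linarith) fun j => by
      have := (dt_inv hρ hρ' hK hε0 hε hD hσ u).2.2 j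
      rw [dist_comm, dist_eq_norm]
      linarith
  choose g hg using fun u => cauchySeq_tendsto_of_complete (hc u)
  refine ⟨g, fun u u' => le_of_tendsto' ((hg u).dist (hg u')) fun j =>
    dt2_all hρ hρ' hK hε0 hε hD hσ u u' j, fun j u => ?_⟩
  exact le_of_tendsto ((hg u).dist tendsto_const_nhds)
    ((eventually_ge_atTop j).mono fun i hi => dt2_tail hρ hρ' hK hε0 hε hD hσ u hi)

end Crest.Agent.R85
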