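import Crest.Agent.R85.DT2

/-!
# Surjectivity and the parametrisation theorem (task DT3)

`dt_surj`: induction on `j`.  `j = 0`: `γ t = P0.proj x + P0.I t`.  Step: `x ∈ S (j+1)`, `γ'` for
`(j, x)`, `P = P j x`, `P' = P (j+1) x`, `r' = ρ r`.  All `γ' s` are in the core.  On the closed ball
of radius `5 r'/2` of `Eu n` put `H t = P'.co (σ (γ' (P.co (P'.I t))) - x)`.  By `corePair` and `vert`,
`‖H t - H t' - (t - t')‖ ≤ ‖t - t'‖/10`, and `‖H 0‖ ≤ r'/10` (`dt_inv`, `near`).  For `‖q‖ ≤ 2 r'`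
the map `t ↦ q - (H t - t)` is a contraction of the ball (`ContractingWith.exists_fixedPoint'`), so
`H t(q) = q`, `‖t(q) - t(q')‖ ≤ (10/9) ‖q - q'‖`; `γ q = σ (γ' (P.co (P'.I t(q))))`.
`dt`: `K` from `exists_step`, `ε0 = ρ²/(4000 K)`, `dt_lip`, and `u` with `g_j u = γ 0`;
`‖u‖ = ‖P0.co (g_0 u - x0)‖ ≤ 5 r0`.
-/

set_option autoImplicit false

open MeasureTheory Metric Filter Topology
open scoped RealInnerProductSpace

noncomputable section

namespace Crest.Agent.R85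

variable {m : ℕ}

variable {n : ℕ} {ρ ε0 Nn r0 K : ℝ} {x0 : Eu m} {S : ℕ → Set (Eu m)} {P : ℕ → Eu m → Pl n m}
  {P0 : Pl n m} {η : ℕ → Eu m → ℝ} {σ : ℕ → Eu m → Eu m}

/-- A perturbation of the identity covers a ball. -/
theorem DT3_fix {H : Eu n → Eu n} {R : ℝ} (hR : 0 ≤ R)
    (hH : ∀ t t', ‖t‖ ≤ R → ‖t'‖ ≤ R → ‖H t - H t' - (t - t')‖ ≤ ‖t - t'‖ / 20) {q : Eu n}
    (hq : ‖q‖ + ‖H 0‖ + R / 20 ≤ R) : ∃ t, ‖t‖ ≤ R ∧ H t = q := by
  have hm : Set.MapsTo (fun t => q - (H t - t)) (closedBall (0 : Eu n) R) (closedBall 0 R) := by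
    intro t ht
    rw [mem_closedBall_zero_iff] at ht ⊢
    have h1 := hH t 0 ht (by rwa [norm_zero])
    rw [sub_zero] at h1
    have e : q - (H t - t) = q - H 0 - (H t - H 0 - t) := by abel
    simp only [e]
    linarith [norm_sub_le (q - H 0) (H t - H 0 - t), norm_sub_le q (H 0)]
  have hc : ContractingWith (1 / 20) (hm.restrict _ _ _) := by
    refine ⟨by norm_num, LipschitzWith.of_dist_le_mul fun t t' => ?_⟩
    have h1 := hH t' t (mem_closedBall_zero_iff.1 t'.2) (mem_closedBall_zero_iff.1 t.2)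
    rw [Subtype.dist_eq, Subtype.dist_eq, dist_eq_norm, dist_eq_norm]
    simp only [Set.MapsTo.val_restrict_apply]
    have e : q - (H t - t) - (q - (H t' - t')) = H t' - H t - (t' - t) := by abel
    rw [e, norm_sub_rev (t : Eu n)]
    push_cast
    linarith
  obtain ⟨t, ht, hf, -⟩ := hc.exists_fixedPoint' isClosed_closedBall.isComplete hm
    (mem_closedBall_self hR) (edist_ne_top _ _)
  refine ⟨t, mem_closedBall_zero_iff.1 ht, ?_⟩
  have h1 : q - (H t - t) = t := hf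
  calc H t = q - (q - (H t - t)) + t := by abel
    _ = q := by rw [h1]; abel

/-- A map that is almost an isometric parametrisation of `P'` can be written as a graph. -/
theorem DT3_graph (P' : Pl n m) {F : Eu n → Eu m} {x : Eu m} {r : ℝ} (hr : 0 < r)
    (h0 : ‖F 0 - x‖ ≤ r / 10)
    (hF : ∀ t t', ‖t‖ ≤ 5 / 2 * r → ‖t'‖ ≤ 5 / 2 * r → ‖F t - F t' - P'.I (t - t')‖ ≤ ‖t - t'‖ / 20) :
    ∃ τ : Eu n → Eu n, ∀ q, ‖q‖ ≤ 2 * r → ‖τ q‖ ≤ 5 / 2 * r ∧ P'.co (F (τ q) - x) = q ∧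
      dist (F (τ q)) x ≤ 3 * r ∧ ∀ q', ‖q'‖ ≤ 2 * r →
        ‖(F (τ q) - F (τ q')) - P'.pr (F (τ q) - F (τ q'))‖ ≤ ‖q - q'‖ / 10 := by
  have hH : ∀ t t', ‖t‖ ≤ 5 / 2 * r → ‖t'‖ ≤ 5 / 2 * r →
      ‖P'.co (F t - x) - P'.co (F t' - x) - (t - t')‖ ≤ ‖t - t'‖ / 20 := by
    intro t t' ht ht'
    have e : P'.co (F t - x) - P'.co (F t' - x) - (t - t') = P'.co (F t - F t' - P'.I (t - t')) := by
      simp only [map_sub, P'.co_I]
      abel
    rw [e]
    exact (P'.norm_co_le _).trans (hF t t' ht ht')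
  have hex : ∀ q : Eu n, ∃ t, ‖q‖ ≤ 2 * r → ‖t‖ ≤ 5 / 2 * r ∧ P'.co (F t - x) = q := by
    intro q
    by_cases hq : ‖q‖ ≤ 2 * r
    · obtain ⟨t, ht⟩ := DT3_fix (H := fun t => P'.co (F t - x)) (R := 5 / 2 * r) (by linarith) hH
        (q := q) (by linarith [P'.norm_co_le (F 0 - x)])
      exact ⟨t, fun _ => ht⟩
    · exact ⟨0, fun h => absurd h hq⟩
  choose τ hτ using hex
  refine ⟨τ, fun q hq => ⟨(hτ q hq).1, (hτ q hq).2, ?_, fun q' hq' => ?_⟩⟩
  · have h1 := hF (τ q) 0 (hτ q hq).1 (by rw [norm_zero]; linarith)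
    rw [sub_zero] at h1
    have e : F (τ q) - x = (F (τ q) - F 0 - P'.I (τ q)) + P'.I (τ q) + (F 0 - x) := by abel
    rw [dist_eq_norm, e]
    have h2 := norm_add₃_le (a := F (τ q) - F 0 - P'.I (τ q)) (b := P'.I (τ q)) (c := F 0 - x)
    rw [P'.hI] at h2
    linarith [(hτ q hq).1]
  · have h1 := hF _ _ (hτ q hq).1 (hτ q' hq').1
    have h2 := hH _ _ (hτ q hq).1 (hτ q' hq').1
    rw [(hτ q hq).2, (hτ q' hq').2] at h2
    have h3 : ‖τ q - τ q'‖ ≤ ‖q - q'‖ + ‖q - q' - (τ q - τ q')‖ := by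
      have := norm_sub_le (q - q') (q - q' - (τ q - τ q'))
      rwa [sub_sub_cancel] at this
    have e : (F (τ q) - F (τ q')) - P'.pr (F (τ q) - F (τ q')) =
        (F (τ q) - F (τ q') - P'.I (τ q - τ q')) - P'.pr (F (τ q) - F (τ q') - P'.I (τ q - τ q')) := by
      rw [map_sub P'.pr (F (τ q) - F (τ q')), P'.pr_I]
      abel
    rw [e]
    linarith [P'.norm_sub_pr_le (F (τ q) - F (τ q') - P'.I (τ q - τ q')), norm_nonneg (q - q')]

theorem dt_surj (hρ : 0 < ρ) (hρ' : ρ ≤ 1 / 100) (hK : 1 ≤ K) (hε0 : 0 ≤ ε0)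
    (hε : 4000 * K * ε0 ≤ ρ ^ 2)
    (hD : DTD ρ ε0 Nn r0 x0 S P P0 η) (hσ : ∀ j, Step K (ρ ^ j * r0) (S j) (P j) (σ j)) (j : ℕ) :
    ∀ x ∈ S j, ∃ γ : Eu n → Eu m, ∀ t, ‖t‖ ≤ 2 * (ρ ^ j * r0) →
      (∃ u, γ t = gseq P0 x0 σ j u) ∧ (P j x).co (γ t - x) = t ∧
      dist (γ t) x ≤ 3 * (ρ ^ j * r0) ∧
      ∀ t', ‖t'‖ ≤ 2 * (ρ ^ j * r0) →
        ‖(γ t - γ t') - (P j x).pr (γ t - γ t')‖ ≤ ‖t - t'‖ / 10 := by
  have hr0 := hD.r0_pos
  have hKε : K * ε0 ≤ ρ / 400000 := by nlinarith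
  have hε1 : ε0 ≤ K * ε0 := le_mul_of_one_le_left hε0 hK
  induction j with
  | zero =>
    intro x hx
    have hn := hD.near 0 x hx
    rw [hD.top x hx] at hn ⊢
    rw [pow_zero, one_mul] at hn ⊢
    refine ⟨fun t => P0.proj x + P0.I t, fun t ht => ⟨⟨P0.co (x - x0) + t, ?_⟩, ?_, ?_, fun t' _ => ?_⟩⟩
    · simp only [gseq]
      rw [map_add, ← P0.pr_apply, ← P0.proj_sub]
      abel
    · have e : P0.proj x + P0.I t - x = P0.I t - (x - P0.proj x) := by abel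
      rw [e, map_sub, P0.co_I, P0.co_sub_proj, sub_zero]
    · have e : P0.proj x + P0.I t - x = P0.I t - (x - P0.proj x) := by abel
      rw [dist_eq_norm, e]
      have h1 := norm_sub_le (P0.I t) (x - P0.proj x)
      rw [P0.hI] at h1
      have h2 : ε0 * r0 ≤ 1 * r0 := mul_le_mul_of_nonneg_right (by linarith) hr0.le
      unfold Pl.D at hn
      linarith
    · have e : P0.proj x + P0.I t - (P0.proj x + P0.I t') = P0.I (t - t') := by
        rw [map_sub]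
        abel
      rw [e, P0.pr_I, sub_self, norm_zero]
      positivity
  | succ j ih =>
    intro x hx
    have hx' : x ∈ S j := hD.anti (Nat.le_succ j) hx
    obtain ⟨γ, hγ⟩ := ih x hx'
    obtain ⟨hη0, hη1⟩ := hD.eta j x hx'
    have hcl := hD.horiz j x hx'
    have hv := hD.vert j x hx
    have hn := hD.near j x hx'
    have hst := hσ j
    have hpow : ρ ^ (j + 1) * r0 = ρ * (ρ ^ j * r0) := by ring
    rw [hpow] at hv ⊢
    have hr : 0 < ρ ^ j * r0 := by positivity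
    generalize ρ ^ j * r0 = r at *
    have hKη : K * η j x ≤ K * ε0 := mul_le_mul_of_nonneg_left hη1 (by linarith)
    have hρr : ρ * r ≤ 1 / 100 * r := mul_le_mul_of_nonneg_right hρ' hr.le
    have hA : ∀ t : Eu n, ‖(P j x).co ((P (j + 1) x).I t)‖ ≤ ‖t‖ := fun t =>
      ((P j x).norm_co_le _).trans ((P (j + 1) x).hI t).le
    have hA' : ∀ t : Eu n, ‖t‖ ≤ 5 / 2 * (ρ * r) → ‖(P j x).co ((P (j + 1) x).I t)‖ ≤ 2 * r :=
      fun t ht => by linarith [hA t]
    obtain ⟨τ, hτ⟩ := DT3_graph (P (j + 1) x)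
      (F := fun t => σ j (γ ((P j x).co ((P (j + 1) x).I t)))) (x := x) (r := ρ * r) (by positivity)
      (by
        obtain ⟨-, h1, h2, -⟩ := hγ 0 (by rw [norm_zero]; linarith)
        have h3 := hst.core x hx' (η j x) hη0 (by linarith) hcl (γ 0) (by linarith)
        have h4 : (P j x).proj (γ 0) = (P j x).proj x := by
          rw [← sub_eq_zero, Pl.proj_sub, Pl.pr_apply, h1, map_zero]
        rw [h4] at h3
        simp only [map_zero]
        have e : σ j (γ 0) - x = (σ j (γ 0) - (P j x).proj x) - (x - (P j x).proj x) := by abel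
        rw [e]
        have h5 := norm_sub_le (σ j (γ 0) - (P j x).proj x) (x - (P j x).proj x)
        unfold Pl.D at hn
        have h6 : K * η j x * r ≤ ρ / 400000 * r := mul_le_mul_of_nonneg_right (by linarith) hr.le
        have h7 : ε0 * r ≤ ρ / 400000 * r := mul_le_mul_of_nonneg_right (by linarith) hr.le
        have h8 : 0 < ρ * r := by positivity
        linarith)
      (by
        intro t t' ht ht'
        obtain ⟨-, h1, h2, h3⟩ := hγ _ (hA' t ht)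
        obtain ⟨-, h1', h2', -⟩ := hγ _ (hA' t' ht')
        have h4 := h3 _ (hA' t' ht')
        rw [← map_sub, ← map_sub] at h4
        set y := γ ((P j x).co ((P (j + 1) x).I t))
        set y' := γ ((P j x).co ((P (j + 1) x).I t'))
        have h5 := hst.corePair x hx' (η j x) hη0 (by linarith) hcl y y' (by linarith) (by linarith)
        have h6 : (P j x).pr (y - y') = (P j x).pr ((P (j + 1) x).I (t - t')) := by
          have e : y - y' = (y - x) - (y' - x) := by abel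
          rw [Pl.pr_apply, Pl.pr_apply, e, map_sub (P j x).co, h1, h1', ← map_sub, ← map_sub]
        have h7 := hv.pr_le ((P (j + 1) x).I (t - t'))
        rw [Pl.pr_I, Pl.hI] at h7
        have h8 : ‖y - y'‖ ≤ 2 * ‖t - t'‖ := by
          have h9 := norm_add_le (y - y' - (P j x).pr (y - y')) ((P j x).pr (y - y'))
          rw [sub_add_cancel] at h9
          have h10 := (P j x).norm_pr_le ((P (j + 1) x).I (t - t'))
          rw [Pl.hI, ← h6] at h10
          linarith [hA (t - t'), norm_nonneg (t - t')]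
        have e : σ j y - σ j y' - (P (j + 1) x).I (t - t') = (σ j y - σ j y' - (P j x).pr (y - y')) -
            ((P (j + 1) x).I (t - t') - (P j x).pr ((P (j + 1) x).I (t - t'))) := by
          rw [h6]
          abel
        rw [e]
        have h11 := norm_sub_le (σ j y - σ j y' - (P j x).pr (y - y'))
          ((P (j + 1) x).I (t - t') - (P j x).pr ((P (j + 1) x).I (t - t')))
        have h12 : K * η j x * ‖y - y'‖ ≤ 1 / 100 * (2 * ‖t - t'‖) :=
          mul_le_mul (by linarith) h8 (norm_nonneg _) (by norm_num)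
        have h13 : η j x * ‖t - t'‖ ≤ 1 / 100 * ‖t - t'‖ :=
          mul_le_mul_of_nonneg_right (by linarith) (norm_nonneg _)
        linarith [norm_nonneg (t - t')])
    refine ⟨fun q => σ j (γ ((P j x).co ((P (j + 1) x).I (τ q)))), fun q hq => ?_⟩
    obtain ⟨h1, h2, h3, h4⟩ := hτ q hq
    obtain ⟨⟨u, hu⟩, -⟩ := hγ _ (hA' _ h1)
    exact ⟨⟨u, by simp only [gseq, hu]⟩, h2, h3, h4⟩

/-- The parametrisation theorem. -/
theorem dt (n m : ℕ) {ρ : ℝ} (hρ : 0 < ρ) (hρ' : ρ ≤ 1 / 100) :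
    ∃ ε0, 0 < ε0 ∧ ∀ Nn : ℝ, ∃ L, 1 ≤ L ∧ ∀ (r0 : ℝ) (x0 : Eu m) (S : ℕ → Set (Eu m))
      (P : ℕ → Eu m → Pl n m) (P0 : Pl n m) (η : ℕ → Eu m → ℝ),
      DTD ρ ε0 Nn r0 x0 S P P0 η → Cover n ρ L r0 S := by
  obtain ⟨K, hK, hstep⟩ := exists_step n m
  refine ⟨ρ ^ 2 / (4000 * K), by positivity, fun Nn => ?_⟩
  obtain ⟨L, hL, hlip⟩ := dt_lip ρ K Nn hρ hρ' hK
  refine ⟨L, hL, fun r0 x0 S P P0 η hD => ?_⟩
  have hr0 := hD.r0_pos
  have hε0 : 0 ≤ ρ ^ 2 / (4000 * K) := by positivity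
  have hε : 4000 * K * (ρ ^ 2 / (4000 * K)) ≤ ρ ^ 2 := by
    rw [mul_div_cancel₀ _ (by positivity)]
  have hS : ∀ j, S j ⊆ ball x0 r0 := fun j => (hD.anti (Nat.zero_le j)).trans hD.sub
  choose σ hσ using fun j => hstep (ρ ^ j * r0) (S j) (P j) (by positivity)
    (isBounded_ball.subset (hS j))
  obtain ⟨g, hg, hg'⟩ := hlip hε0 hε hD hσ
  refine ⟨g, hg, fun j x hx => ?_⟩
  obtain ⟨γ, hγ⟩ := dt_surj hρ hρ' hK hε0 hε hD hσ j x hx
  have hr : 0 < ρ ^ j * r0 := by positivity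
  obtain ⟨⟨u, hu⟩, -, h1, -⟩ := hγ 0 (by rw [norm_zero]; linarith)
  rw [hu] at h1
  have h2 := dist_triangle (g u) (gseq P0 x0 σ j u) x
  have h3 := hg' j u
  refine ⟨u, ?_, by linarith⟩
  have h4 := hg' 0 u
  rw [pow_zero, one_mul, dist_comm] at h4
  have h5 : ρ ^ j * r0 ≤ 1 * r0 :=
    mul_le_mul_of_nonneg_right (pow_le_one₀ hρ.le (by linarith)) hr0.le
  have h6 : P0.co (gseq P0 x0 σ 0 u - x0) = u := by
    have e : gseq P0 x0 σ 0 u - x0 = P0.I u - (x0 - P0.proj x0) := by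
      simp only [gseq]
      abel
    rw [e, map_sub, P0.co_I, P0.co_sub_proj, sub_zero]
  have h7 := P0.norm_co_le (gseq P0 x0 σ 0 u - x0)
  rw [h6, ← dist_eq_norm] at h7
  have h8 := mem_ball.1 (hS j hx)
  linarith [dist_triangle4 (gseq P0 x0 σ 0 u) (g u) x x0]

end Crest.Agent.R85
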