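import Mathlib

/-!
# Row 85 (David–Semmes): definitions and blueprint  (owner helper45)

Notation: `E = Eu m` ambient space, `n` the dimension of the measure, `κ_s = kap (n+1) s`,
`K_s z = κ_s z • z`, `W = kap (n+3) 1`.

KEY: `K(x-y) = (x-y) κ(x-y)`, so for an AFFINE `f = ⟪v,·⟫+b` the nonlocal Dirichlet form
`En f ψ = ∬ (fx-fy)(ψx-ψy) κ` equals `⟪v, TT ψ⟫`, where `TT ψ = 2 ∫ ψ R1`.

1. (Riesz) `Θ(B) = sup ‖TT ψ‖²/En ψ ψ` over mean-zero Lipschitz `ψ` supported in `B` is Carleson.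
2. (Cacc, Core, Imp) Caccioppoli for the normal coordinate, blow-up, Liouville (Liou*), density
   lemma (Dens) give `bb x (ρ r) ≤ bb x r / 2 + C θ` as long as `bb x r ≤ ε0`.
3. (Touch, Flat) touching balls and tangent measures: `θ` small gives a flat ball of comparable size.
4. (Count) upcrossings along each centre: `∫ ∑_j bb x (ρ^j r) dν ≤ K r^n`.
5. (Code, DT*, Glue, Oracle, Main) big pieces of Lipschitz images.
-/

set_option autoImplicit false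

open MeasureTheory Metric Filter Topology
open scoped RealInnerProductSpace

noncomputable section

namespace Crest.Agent.R85

/-- Euclidean space. -/
abbrev Eu (m : ℕ) := EuclideanSpace ℝ (Fin m)

variable {m : ℕ}

/-- `N s z = √(s² + ‖z‖²)`. -/
def N (s : ℝ) (z : Eu m) : ℝ := √(s ^ 2 + ‖z‖ ^ 2)

/-- `kap p s z = (N s z)^{-p}`. -/
def kap (p : ℕ) (s : ℝ) (z : Eu m) : ℝ := ((N s z) ^ p)⁻¹

/-- Smoothly truncated Riesz kernel (`s = 0`: the Riesz kernel). -/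
def KK (n : ℕ) (s : ℝ) (z : Eu m) : Eu m := kap (n + 1) s z • z

/-- A constant dominating all kernel integrals. -/
def cK (n : ℕ) : ℝ := (n + 2) * 2 ^ (n + 2)

/-- Upper regularity (all centres, all radii). -/
def Up (n : ℕ) (C : ℝ) (ν : Measure (Eu m)) : Prop :=
  ∀ x r, 0 < r → ν (ball x r) ≤ ENNReal.ofReal (C * r ^ n)

/-- Lower regularity in the window `ball x0 R`, radii `≤ R`. -/
def Low (n : ℕ) (C : ℝ) (ν : Measure (Eu m)) (x0 : Eu m) (R : ℝ) : Prop :=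
  ∀ x ∈ ν.support, dist x x0 < R → ∀ r, 0 < r → r ≤ R →
    ENNReal.ofReal (r ^ n / C) ≤ ν (ball x r)

/-- Lower regularity everywhere. -/
def LowAll (n : ℕ) (C : ℝ) (ν : Measure (Eu m)) : Prop :=
  ∀ x ∈ ν.support, ∀ r, 0 < r → ENNReal.ofReal (r ^ n / C) ≤ ν (ball x r)

/-- Real Lipschitz bound. -/
def Lip (L : ℝ) (f : Eu m → ℝ) : Prop := ∀ x y, |f x - f y| ≤ L * ‖x - y‖

/-- Test functions: `L`-Lipschitz, vanishing outside `ball x0 R`. -/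
structure Tst (L : ℝ) (x0 : Eu m) (R : ℝ) (ψ : Eu m → ℝ) : Prop where
  lip : Lip L ψ
  supp : ∀ y, R ≤ dist y x0 → ψ y = 0

/-- Renormalised smooth Riesz transform of the measure. -/
def hh (n : ℕ) (ν : Measure (Eu m)) (s : ℝ) (x : Eu m) : Eu m :=
  ∫ y, (KK n s (x - y) + KK n 1 y) ∂ν

/-- Reflectionless measures. -/
def Refl (n : ℕ) (ν : Measure (Eu m)) : Prop :=
  ∀ (L R : ℝ) (ψ : Eu m → ℝ), Tst L 0 R ψ → ∫ y, ψ y ∂ν = 0 →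
    Tendsto (fun s => ∫ x, ψ x • hh n ν s x ∂ν) (𝓝[>] 0) (𝓝 0)

/-- The nonlocal Dirichlet form (no factor 1/2). Used for finite measures. -/
def En (n : ℕ) (s : ℝ) (ν : Measure (Eu m)) (f g : Eu m → ℝ) : ℝ :=
  ∫ p : Eu m × Eu m, (f p.1 - f p.2) * (g p.1 - g p.2) * kap (n + 1) s (p.1 - p.2) ∂(ν.prod ν)

/-- Twice the pairing of `ψ` with the Riesz transform of a finite measure. -/
def TT (n : ℕ) (ν : Measure (Eu m)) (ψ : Eu m → ℝ) : Eu m :=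
  ∫ p : Eu m × Eu m, (ψ p.1 - ψ p.2) • KK n 0 (p.1 - p.2) ∂(ν.prod ν)

/-- The Riesz transform is `θ`-small, modulo constants, in the dual energy norm on `ball x0 R`. -/
def Small (n : ℕ) (ν : Measure (Eu m)) (x0 : Eu m) (R θ : ℝ) : Prop :=
  ∀ (L : ℝ) (ψ : Eu m → ℝ), Tst L x0 R ψ → ∫ y, ψ y ∂ν = 0 →
    ‖TT n ν ψ‖ ^ 2 ≤ θ * En n 0 ν ψ ψ

/-- `L²` bound for `TT` (the only use of the Riesz bound). -/
def TBound (n : ℕ) (ν : Measure (Eu m)) (B : ℝ) : Prop :=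
  ∀ (L : ℝ) (x : Eu m) (R : ℝ) (ψ : Eu m → ℝ), Tst L x R ψ →
    ‖TT n ν ψ‖ ^ 2 ≤ B * ∫ y, ψ y ^ 2 ∂ν

/-- The truncated nonlocal operator. -/
def Lam (n : ℕ) (ν : Measure (Eu m)) (s : ℝ) (ψ : Eu m → ℝ) (x : Eu m) : ℝ :=
  ∫ y, (ψ x - ψ y) * kap (n + 1) s (x - y) ∂ν

/-- Continuous functions with decay of order `p`. -/
def Dec (p : ℕ) (K : ℝ) (φ : Eu m → ℝ) : Prop :=
  Continuous φ ∧ ∀ y, |φ y| ≤ K * kap p 1 y

/-- Affine `n`-planes: a point and a linear isometry. -/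
structure Pl (n m : ℕ) where
  q : Eu m
  I : Eu n →L[ℝ] Eu m
  hI : ∀ t, ‖I t‖ = ‖t‖

namespace Pl
variable {n : ℕ} (P : Pl n m)

/-- Coordinates along the plane. -/
def co : Eu m →L[ℝ] Eu n := ContinuousLinearMap.adjoint P.I
/-- Linear orthogonal projection on the direction. -/
def pr : Eu m →L[ℝ] Eu m := P.I ∘L P.co
/-- Affine orthogonal projection. -/
def proj (y : Eu m) : Eu m := P.q + P.pr (y - P.q)
/-- Distance to the plane. -/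
def D (y : Eu m) : ℝ := ‖y - P.proj y‖
/-- Two planes are `η`-close at the point `x` and scale `r`. -/
def Close (P P' : Pl n m) (x : Eu m) (r η : ℝ) : Prop :=
  ‖P.pr - P'.pr‖ ≤ η ∧ ‖P.proj x - P'.proj x‖ ≤ η * r

end Pl

/-- Weighted square excess with respect to a plane. -/
def bP {n : ℕ} (ν : Measure (Eu m)) (P : Pl n m) (x : Eu m) (r : ℝ) : ℝ :=
  ∫ y, P.D y ^ 2 * (r * kap (n + 3) r (y - x)) ∂ν

/-- The square of the weighted `β₂` number. -/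
def bb (n : ℕ) (ν : Measure (Eu m)) (x : Eu m) (r : ℝ) : ℝ := ⨅ P : Pl n m, bP ν P x r

/-- Blow-up of a measure at the point `x` and scale `r`. -/
def resc (n : ℕ) (ν : Measure (Eu m)) (x : Eu m) (r : ℝ) : Measure (Eu m) :=
  ENNReal.ofReal ((r ^ n)⁻¹) • ν.map (fun y => r⁻¹ • (y - x))

/-- The fixed non-principal ultrafilter. -/
abbrev UF : Filter ℕ := (Filter.hyperfilter ℕ : Filter ℕ)

/-- Vague convergence along the ultrafilter. -/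
def Vag (νk : ℕ → Measure (Eu m)) (ν : Measure (Eu m)) : Prop :=
  ∀ φ : Eu m → ℝ, Continuous φ → HasCompactSupport φ →
    Tendsto (fun k => ∫ y, φ y ∂νk k) UF (𝓝 (∫ y, φ y ∂ν))

/-- Linear functionals on `Dec (m+2)` bounded in the weighted `L²` norm. -/
structure Fnl (B : ℝ) (Φ : (Eu m → ℝ) → ℝ) : Prop where
  add : ∀ K K' φ ψ, Dec (m + 2) K φ → Dec (m + 2) K' ψ →
    Φ (fun y => φ y + ψ y) = Φ φ + Φ ψ
  smul : ∀ K φ (a : ℝ), Dec (m + 2) K φ → Φ (fun y => a * φ y) = a * Φ φ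
  bound : ∀ K φ, Dec (m + 2) K φ → Φ φ ^ 2 ≤ B ^ 2 * ∫ y, φ y ^ 2 * N 1 y ^ (m + 3)

/-- The (multiple of the) half Laplacian on `Eu m`, symmetrised form. -/
def Lam0 (ψ : Eu m → ℝ) (x : Eu m) : ℝ :=
  (1 / 2) * ∫ z, (2 * ψ x - ψ (x + z) - ψ (x - z)) * kap (m + 1) 0 z

/-- `C^{1,1}` bounds (by differences) with decay of order `M`. -/
structure T2 (M : ℕ) (K : ℝ) (ψ : Eu m → ℝ) : Prop where
  cont : Continuous ψ
  d0 : ∀ x, |ψ x| ≤ K * kap M 1 x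
  d1 : ∀ x z, ‖z‖ ≤ 1 → |ψ (x + z) - ψ x| ≤ K * ‖z‖ * kap M 1 x
  d2 : ∀ x z, ‖z‖ ≤ 1 → |2 * ψ x - ψ (x + z) - ψ (x - z)| ≤ K * ‖z‖ ^ 2 * kap M 1 x

/-- `L¹`-dilation. -/
def dil (η : Eu m → ℝ) (s : ℝ) (y : Eu m) : ℝ := (s ^ m)⁻¹ * η (s⁻¹ • y)

/-- One step of the parametrisation: properties of the map `σ` at scale `r`. -/
structure Step {n : ℕ} (K r : ℝ) (S : Set (Eu m)) (P : Eu m → Pl n m) (σ : Eu m → Eu m) :
    Prop where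
  inactive : ∀ y, (∀ a ∈ S, 6 * r ≤ dist y a) → σ y = y
  move : ∀ x ∈ S, ∀ η, 0 ≤ η → η ≤ 1 →
    (∀ a ∈ S, dist x a ≤ 20 * r → (P x).Close (P a) x r η) →
    ∀ y, dist y x ≤ 7 * r → ‖σ y - y‖ ≤ (P x).D y + K * η * r
  core : ∀ x ∈ S, ∀ η, 0 ≤ η → η ≤ 1 →
    (∀ a ∈ S, dist x a ≤ 20 * r → (P x).Close (P a) x r η) →
    ∀ y, dist y x ≤ 4 * r → ‖σ y - (P x).proj y‖ ≤ K * η * r
  corePair : ∀ x ∈ S, ∀ η, 0 ≤ η → η ≤ 1 →
    (∀ a ∈ S, dist x a ≤ 20 * r → (P x).Close (P a) x r η) →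
    ∀ y y', dist y x ≤ 4 * r → dist y' x ≤ 4 * r →
      ‖σ y - σ y' - (P x).pr (y - y')‖ ≤ K * η * ‖y - y'‖
  pair : ∀ x ∈ S, ∀ η, 0 ≤ η → η ≤ 1 →
    (∀ a ∈ S, dist x a ≤ 20 * r → (P x).Close (P a) x r η) →
    ∀ y y' t l, dist y x ≤ 7 * r → dist y' x ≤ 7 * r → 0 ≤ t → (P x).D y' ≤ t * r →
      ‖y - y'‖ ≤ l → ‖(y - y') - (P x).pr (y - y')‖ ≤ t * l →
      ‖σ y - σ y'‖ ^ 2 ≤ ‖y - y'‖ ^ 2 + K * (η + t) ^ 2 * l ^ 2

/-- Hypotheses of the parametrisation theorem. -/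
structure DTD {n : ℕ} (ρ ε0 Nn r0 : ℝ) (x0 : Eu m) (S : ℕ → Set (Eu m))
    (P : ℕ → Eu m → Pl n m) (P0 : Pl n m) (η : ℕ → Eu m → ℝ) : Prop where
  r0_pos : 0 < r0
  anti : Antitone S
  sub : S 0 ⊆ ball x0 r0
  top : ∀ x ∈ S 0, P 0 x = P0
  eta : ∀ j, ∀ x ∈ S j, 0 ≤ η j x ∧ η j x ≤ ε0
  near : ∀ j, ∀ x ∈ S j, (P j x).D x ≤ ε0 * (ρ ^ j * r0)
  horiz : ∀ j, ∀ x ∈ S j, ∀ y ∈ S j, dist x y ≤ 20 * (ρ ^ j * r0) →
    (P j x).Close (P j y) x (ρ ^ j * r0) (η j x)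
  vert : ∀ j, ∀ x ∈ S (j + 1), (P (j + 1) x).Close (P j x) x (ρ ^ (j + 1) * r0) (η j x)
  sum : ∀ j, ∀ x ∈ S j, ∑ i ∈ Finset.range (j + 1), η i x ^ 2 ≤ Nn

/-- The successive parametrisations. -/
def gseq {n : ℕ} (P0 : Pl n m) (x0 : Eu m) (σ : ℕ → Eu m → Eu m) : ℕ → Eu n → Eu m
  | 0 => fun u => P0.proj x0 + P0.I u
  | j + 1 => fun u => σ j (gseq P0 x0 σ j u)

/-- Conclusion of the parametrisation theorem. -/
def Cover (n : ℕ) (ρ L r0 : ℝ) (S : ℕ → Set (Eu m)) : Prop :=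
  ∃ g : Eu n → Eu m, (∀ u u', dist (g u) (g u') ≤ L * dist u u') ∧
    ∀ j, ∀ x ∈ S j, ∃ u, ‖u‖ ≤ 5 * r0 ∧ dist (g u) x ≤ 4 * (ρ ^ j * r0)

end Crest.Agent.R85
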