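import Crest.Agent.R85.Plane

/-!
# Auxiliary lemmas for `refl_map_co` (task DensA-b)
-/

set_option autoImplicit false

open MeasureTheory Metric Filter Topology
open scoped RealInnerProductSpace

noncomputable section

namespace Crest.Agent.R85

variable {m n : ℕ} {C : ℝ}

/-- The linear isometry of a plane. -/
def DensAb_iso (P : Pl n m) : Eu n →ₗᵢ[ℝ] Eu m := ⟨P.I.toLinearMap, P.hI⟩

theorem DensAb_isometry (P : Pl n m) : Isometry P.I := (DensAb_iso P).isometry

theorem DensAb_emb (P : Pl n m) : MeasurableEmbedding P.I :=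
  (DensAb_isometry P).isClosedEmbedding.measurableEmbedding

theorem DensAb_int_comm {X : Type*} [MeasurableSpace X] (μ : Measure X) (P : Pl n m)
    (φ : X → Eu n) : ∫ x, P.I (φ x) ∂μ = P.I (∫ x, φ x ∂μ) :=
  (DensAb_iso P).integral_comp_comm φ

theorem DensAb_KK (P : Pl n m) (k : ℕ) (s : ℝ) (z : Eu n) : KK k s (P.I z) = P.I (KK k s z) := by
  rw [KK, KK, map_smul, kap_congr_norm _ _ (P.hI z)]

theorem DensAb_ball (P : Pl n m) (μ : Measure (Eu n)) (t : Eu n) (r : ℝ) :
    μ.map P.I (ball (P.I t) r) = μ (ball t r) := by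
  rw [(DensAb_emb P).map_apply, (DensAb_isometry P).preimage_ball]

theorem DensAb_support (P : Pl n m) (μ : Measure (Eu n)) (t : Eu n) :
    P.I t ∈ (μ.map P.I).support ↔ t ∈ μ.support := by
  rw [nhds_basis_ball.mem_measureSupport, nhds_basis_ball.mem_measureSupport]
  simp only [DensAb_ball]

theorem DensAb_hh (P : Pl n m) (μ : Measure (Eu n)) (s : ℝ) (t : Eu n) :
    hh n (μ.map P.I) s (P.I t) = P.I (hh n μ s t) := by
  rw [hh, hh, (DensAb_emb P).integral_map, ← DensAb_int_comm]
  refine integral_congr_ae (Eventually.of_forall fun u => ?_)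
  simp only
  rw [← map_sub, DensAb_KK, DensAb_KK, map_add]

theorem DensAb_refl (P : Pl n m) {μ : Measure (Eu n)} (hr : Refl n (μ.map P.I)) : Refl n μ := by
  intro L R ψ hψ h0
  have hlip : Lip |L| fun y : Eu m => ψ (P.co y) := fun x y => by
    refine (hψ.lip.abs _ _).trans ?_
    rw [← map_sub]
    exact mul_le_mul_of_nonneg_left (P.norm_co_le _) (abs_nonneg L)
  obtain ⟨L', hT⟩ := (cut_tst (0 : Eu m) R one_pos).mul_lip hlip
  have key : ∀ t : Eu n, cut 0 R 1 (P.I t) * ψ (P.co (P.I t)) = ψ t := fun t => by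
    rw [P.co_I]
    rcases le_total R (dist t 0) with h | h
    · rw [hψ.supp t h, mul_zero]
    · rw [cut_eq_one one_pos (by rwa [dist_zero_right, P.hI, ← dist_zero_right]), one_mul]
  have h1 := hr L' (R + 1) _ hT (by
    rw [(DensAb_emb P).integral_map]
    simp only [key]
    exact h0)
  have h2 : ∀ s, ∫ x, (cut 0 R 1 x * ψ (P.co x)) • hh n (μ.map P.I) s x ∂(μ.map P.I) =
      P.I (∫ t, ψ t • hh n μ s t ∂μ) := fun s => by
    rw [(DensAb_emb P).integral_map, ← DensAb_int_comm]
    refine integral_congr_ae (Eventually.of_forall fun t => ?_)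
    simp only
    rw [key, DensAb_hh, map_smul]
  simp only [h2] at h1
  have h3 := (P.co.continuous.tendsto 0).comp h1
  rw [map_zero] at h3
  refine h3.congr fun s => ?_
  simp only [Function.comp_apply, P.co_I]

theorem DensAb_eq {ν : Measure (Eu m)} (P : Pl n m) (hs : ν.support ⊆ Set.range P.I) :
    ν = (ν.map P.co).map P.I := by
  rw [Measure.map_map P.I.continuous.measurable P.co.continuous.measurable]
  have h1 : (P.I ∘ P.co : Eu m → Eu m) =ᵐ[ν] id := by
    filter_upwards [Measure.support_mem_ae (μ := ν)] with y hy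
    obtain ⟨t, rfl⟩ := hs hy
    simp only [Function.comp_apply, P.co_I, id]
  rw [Measure.map_congr h1, Measure.map_id]

theorem DensAb_main {ν : Measure (Eu m)} (P : Pl n m) (h : Up n C ν) (hl : LowAll n C ν)
    (hr : Refl n ν) (h0 : (0 : Eu m) ∈ ν.support) (hs : ν.support ⊆ Set.range P.I) :
    ν = (ν.map P.co).map P.I ∧ Up n C (ν.map P.co) ∧ LowAll n C (ν.map P.co) ∧
      Refl n (ν.map P.co) ∧ (0 : Eu n) ∈ (ν.map P.co).support := by
  have e := DensAb_eq P hs
  refine ⟨e, ?_⟩
  generalize ν.map P.co = μ at e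
  subst e
  refine ⟨fun t r hr0 => ?_, fun t ht r hr0 => ?_, DensAb_refl P hr, ?_⟩
  · rw [← DensAb_ball P]
    exact h _ r hr0
  · rw [← DensAb_ball P]
    exact hl _ ((DensAb_support P μ t).2 ht) r hr0
  · rw [← DensAb_support P, map_zero]
    exact h0

end Crest.Agent.R85
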