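import Crest.Agent.R85.Flat
import Crest.Agent.R85.LiouC
import Crest.Agent.R85.DensAbx

/-!
# Reflectionless regular measures on `Eu n`: full support and weak constancy (task DensA)

`full_support`: otherwise take `z` outside the support, `x` a nearest point of the support;
`touch` says `r^{-(n+1)} ∫_{ball x r} |⟪e,y-x⟫| → 0`, `e = x - z ≠ 0`, while `nc` for `Pl.id n`
(`D = 0`) gives `c r^n ‖e‖² r² ≤ ∫ ⟪e,y-x⟫² ≤ ‖e‖ r ∫ |⟪e,y-x⟫|`.
`le_smul_volume`, `volume_le_smul`: `VitaliFamily.measure_le_of_frequently_le` with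
`Besicovitch.vitaliFamily` of the smaller measure (closed balls, `Besicovitch.tendsto_filterAt`).
`weak_const`: `volume = ν.withDensity ρ` (`ρ = rnDeriv`), `φ ρ ∈ L¹(ν)`; approximate it in `L¹(ν)` by a
smooth compactly supported `ψ` (`MemLp.exist_eLpNorm_sub_le`, `tst_of_contDiff`) and use both
parts of `refl_bound`.
`refl_map_co`: transfer through the isometry `P.I`: `ν = (ν.map P.co).map P.I`,
`hh n ν s (P.I t) = P.I (hh n ν' s t)`; extend a test function `ψ` on `Eu n` by
`y ↦ ψ (P.co y) * cut 0 R 1 y`.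
-/

set_option autoImplicit false

open MeasureTheory Metric Filter Topology
open scoped RealInnerProductSpace

noncomputable section

namespace Crest.Agent.R85

variable {m : ℕ}

variable {n : ℕ} {C : ℝ}

theorem full_support {ν : Measure (Eu n)} (hn : 1 ≤ n) (hC : 1 ≤ C) (h : Up n C ν)
    (hl : LowAll n C ν) (hr : Refl n ν) (h0 : (0 : Eu n) ∈ ν.support) : ν.support = Set.univ := by
  by_contra hne
  obtain ⟨z, hz⟩ := (Set.ne_univ_iff_exists_notMem _).1 hne
  obtain ⟨x, hx, hxz⟩ := Measure.isClosed_support.exists_infDist_eq_dist ⟨0, h0⟩ z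
  have hmin : ∀ y ∈ ν.support, dist x z ≤ dist y z := by
    intro y hy
    rw [dist_comm x z, dist_comm y z, ← hxz]
    exact infDist_le_dist_of_mem hy
  have he : 0 < ‖x - z‖ := by
    rw [norm_pos_iff, sub_ne_zero]
    rintro rfl
    exact hz hx
  have ht := touch hn hC h hl hr hx hmin
  obtain ⟨η0, hη0, c, hc, hnc⟩ := nc n n hn hC
  have := h.isLocallyFinite
  have hlow : ∀ r : ℝ, 0 < r →
      c * ‖x - z‖ ≤ (∫ y in ball x r, |⟪x - z, y - x⟫| ∂ν) / r ^ (n + 1) := by
    intro r hr0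
    have h1 := hnc ν (Pl.id n) x r h hr0 (hl x hx r hr0) (by
      simp only [Pl.id_D]
      simp only [ne_eq, OfNat.ofNat_ne_zero, not_false_eq_true, zero_pow, integral_zero]
      positivity) (x - z) 0
    simp only [Pl.id_co, add_zero] at h1
    have hcont : Continuous fun y : Eu n => |⟪x - z, y - x⟫| := by fun_prop
    have hint : IntegrableOn (fun y : Eu n => |⟪x - z, y - x⟫|) (ball x r) ν :=
      (hcont.continuousOn.integrableOn_compact (isCompact_closedBall x r)).mono_set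
        ball_subset_closedBall
    have h2 : ∫ y in ball x r, ⟪x - z, y - x⟫ ^ 2 ∂ν
        ≤ ∫ y in ball x r, (‖x - z‖ * r) * |⟪x - z, y - x⟫| ∂ν := by
      refine setIntegral_mono_on ?_ (hint.const_mul _) measurableSet_ball ?_
      · have hc2 : Continuous fun y : Eu n => ⟪x - z, y - x⟫ ^ 2 := by fun_prop
        exact (hc2.continuousOn.integrableOn_compact (isCompact_closedBall x r)).mono_set
          ball_subset_closedBall
      · intro y hy
        rw [← sq_abs, sq]
        refine mul_le_mul_of_nonneg_right ?_ (abs_nonneg _)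
        refine (abs_real_inner_le_norm _ _).trans (mul_le_mul_of_nonneg_left ?_ (norm_nonneg _))
        rw [← dist_eq_norm]
        exact (mem_ball.1 hy).le
    rw [integral_const_mul] at h2
    rw [le_div_iff₀ (by positivity)]
    have h3 := h1.trans h2
    have h4 : c * r ^ n * (‖x - z‖ ^ 2 * r ^ 2 + 0 ^ 2)
        = (‖x - z‖ * r) * (c * ‖x - z‖ * r ^ (n + 1)) := by ring
    rw [h4] at h3
    exact le_of_mul_le_mul_left h3 (by positivity)
  have h5 : c * ‖x - z‖ ≤ 0 :=
    ge_of_tendsto ht (eventually_mem_nhdsWithin.mono fun r hr0 => hlow r hr0)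
  have h6 : 0 < c * ‖x - z‖ := by positivity
  linarith

theorem DensA_le {μ1 μ2 : Measure (Eu n)} [IsLocallyFiniteMeasure μ1] [IsLocallyFiniteMeasure μ2]
    (h : ∀ x r, 0 < r → μ1 (closedBall x r) ≤ μ2 (closedBall x r)) : μ1 ≤ μ2 := by
  rw [Measure.le_iff']
  intro s
  refine (Besicovitch.vitaliFamily μ1).measure_le_of_frequently_le μ2
    Measure.AbsolutelyContinuous.rfl s fun x _ => ?_
  refine (Besicovitch.tendsto_filterAt μ1 x).frequently ?_
  have h1 : ∀ᶠ r in 𝓝[>] (0 : ℝ), μ1 (closedBall x r) ≤ μ2 (closedBall x r) :=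
    eventually_mem_nhdsWithin.mono fun r hr => h x r hr
  exact h1.frequently

theorem DensA_le_smul {μ1 μ2 : Measure (Eu n)} {C1 C2 : ℝ} (hC2 : 0 < C2) (h1 : Up n C1 μ1)
    [IsLocallyFiniteMeasure μ2]
    (h2 : ∀ x r, 0 < r → ENNReal.ofReal (r ^ n / C2) ≤ μ2 (ball x r)) :
    ∃ c : NNReal, μ1 ≤ c • μ2 := by
  have := h1.isLocallyFinite
  have h1' : Up n (max C1 0) μ1 := h1.mono (le_max_left _ _)
  have hM : 0 ≤ max C1 0 * 2 ^ n * C2 := by
    have := le_max_right C1 0
    positivity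
  refine ⟨NNReal.mk (max C1 0 * 2 ^ n * C2) hM, DensA_le fun x r hr => ?_⟩
  have hsub : closedBall x r ⊆ ball x (2 * r) := closedBall_subset_ball (by linarith)
  refine (measure_mono hsub).trans ((h1' x (2 * r) (by linarith)).trans ?_)
  rw [Measure.smul_apply, ENNReal.smul_def, smul_eq_mul, ← ENNReal.ofReal_coe_nnreal]
  refine le_trans ?_ (mul_le_mul_right ((h2 x r hr).trans (measure_mono ball_subset_closedBall)) _)
  rw [← ENNReal.ofReal_mul (NNReal.coe_nonneg _)]
  refine ENNReal.ofReal_le_ofReal (le_of_eq ?_)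
  rw [NNReal.coe_mk, mul_pow]
  field_simp



theorem le_smul_volume {ν : Measure (Eu n)} (h : Up n C ν) :
    ∃ c : NNReal, ν ≤ c • (volume : Measure (Eu n)) := by
  obtain ⟨C0, hC0, -, hv⟩ := exists_up_volume n
  exact DensA_le_smul (by linarith) h hv

theorem volume_absCont {ν : Measure (Eu n)} (hC : 1 ≤ C) (h : Up n C ν)
    (hl : ∀ x r, 0 < r → ENNReal.ofReal (r ^ n / C) ≤ ν (ball x r)) :
    (volume : Measure (Eu n)) ≪ ν := by
  obtain ⟨C0, hC0, hv, -⟩ := exists_up_volume n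
  have := h.isLocallyFinite
  obtain ⟨c, hc⟩ := DensA_le_smul (by linarith) hv hl
  exact Measure.absolutelyContinuous_of_le_smul hc

theorem weak_const {ν : Measure (Eu n)} (hn : 1 ≤ n) (hC : 1 ≤ C) (h : Up n C ν)
    (hl : LowAll n C ν) (hr : Refl n ν) (h0 : (0 : Eu n) ∈ ν.support) :
    ∃ (c0 : Eu n) (B : ℝ), (∀ x s, 0 < s → ‖hh n ν s x - c0‖ ≤ B) ∧
      ∀ φ : Eu n → ℝ, Integrable φ →
        Tendsto (fun s => ∫ x, φ x • (hh n ν s x - c0)) (𝓝[>] 0) (𝓝 0) := by
  have hfull := full_support hn hC h hl hr h0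
  obtain ⟨c0, B, hB, hlim⟩ := refl_bound hn hC h hl hr
  have hB' : ∀ x s, 0 < s → ‖hh n ν s x - c0‖ ≤ B := fun x s hs =>
    hB x (by rw [hfull]; trivial) s hs
  have hB0 : 0 ≤ B := (norm_nonneg _).trans (hB' 0 1 one_pos)
  refine ⟨c0, B, hB', fun φ hφ => ?_⟩
  have := h.isLocallyFinite
  have hac : (volume : Measure (Eu n)) ≪ ν :=
    volume_absCont hC h fun x r hr0 => hl x (by rw [hfull]; trivial) r hr0
  obtain ⟨g, hg⟩ : ∃ g : Eu n → ℝ, g = fun x => ((volume : Measure (Eu n)).rnDeriv ν x).toReal • φ x :=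
    ⟨_, rfl⟩
  have hgi : Integrable g ν := by
    rw [hg]; exact (integrable_rnDeriv_smul_iff hac).2 hφ
  have hrep : ∀ s, ∫ x, φ x • (hh n ν s x - c0) = ∫ x, g x • (hh n ν s x - c0) ∂ν := by
    intro s
    rw [← integral_rnDeriv_smul hac, hg]
    simp only [smul_eq_mul, mul_smul]
  simp only [hrep]
  rw [Metric.tendsto_nhds]
  intro ε hε
  have hε' : 0 < ε / (2 * (B + 1)) := by positivity
  obtain ⟨ψ, hψc, hψs, hψ⟩ := MemLp.exist_eLpNorm_sub_le (p := 1) ENNReal.one_ne_top le_rfl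
    (memLp_one_iff_integrable.2 hgi) hε'
  obtain ⟨L, R, -, -, hT⟩ := tst_of_contDiff (hψs.of_le (by exact_mod_cast le_top)) hψc
  have hψi : Integrable ψ ν := hT.integrable h
  have hd : ∫ x, ‖g x - ψ x‖ ∂ν ≤ ε / (2 * (B + 1)) := by
    rw [eLpNorm_one_eq_lintegral_enorm, ← ofReal_integral_norm_eq_lintegral_enorm (hgi.sub hψi)]
      at hψ
    exact (ENNReal.ofReal_le_ofReal_iff hε'.le).1 hψ
  have h2 := Metric.tendsto_nhds.1 (hlim L R 0 ψ hT) (ε / 2) (by positivity)
  filter_upwards [h2, self_mem_nhdsWithin] with s hs hs0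
  have hs0' : 0 < s := hs0
  rw [dist_zero_right] at hs ⊢
  have hm : AEStronglyMeasurable (fun x => hh n ν s x - c0) ν :=
    ((continuous_hh h hs0').sub continuous_const).aestronglyMeasurable
  have hi : ∀ k : Eu n → ℝ, Integrable k ν → Integrable (fun x => k x • (hh n ν s x - c0)) ν :=
    fun k hk => hk.smul_bdd B hm (Eventually.of_forall fun x => hB' x s hs0')
  have h3 : ∫ x, g x • (hh n ν s x - c0) ∂ν = ∫ x, ψ x • (hh n ν s x - c0) ∂ν
      + ∫ x, (g x - ψ x) • (hh n ν s x - c0) ∂ν := by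
    rw [← integral_add (hi ψ hψi) (hi (fun x => g x - ψ x) (hgi.sub hψi))]
    congr 1
    ext1 x
    rw [← add_smul]
    congr 1
    ring
  have h4 : ‖∫ x, (g x - ψ x) • (hh n ν s x - c0) ∂ν‖ ≤ ∫ x, ‖g x - ψ x‖ * B ∂ν := by
    refine norm_integral_le_of_norm_le ((hgi.sub hψi).norm.mul_const B)
      (Eventually.of_forall fun x => ?_)
    rw [norm_smul]
    exact mul_le_mul_of_nonneg_left (hB' x s hs0') (norm_nonneg _)
  rw [integral_mul_const] at h4
  have h5 : (∫ x, ‖g x - ψ x‖ ∂ν) * B ≤ ε / 2 := by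
    refine (mul_le_mul_of_nonneg_right hd hB0).trans ?_
    rw [div_mul_eq_mul_div, div_le_div_iff₀ (by positivity) (by positivity)]
    nlinarith
  rw [h3]
  exact lt_of_le_of_lt (norm_add_le _ _) (by linarith)

/-- Pull back of a measure carried by the plane through the origin. -/
theorem refl_map_co {ν : Measure (Eu m)} (P : Pl n m) (h : Up n C ν) (hl : LowAll n C ν)
    (hr : Refl n ν) (h0 : (0 : Eu m) ∈ ν.support) (hs : ν.support ⊆ Set.range P.I) :
    ν = (ν.map P.co).map P.I ∧ Up n C (ν.map P.co) ∧ LowAll n C (ν.map P.co) ∧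
      Refl n (ν.map P.co) ∧ (0 : Eu n) ∈ (ν.map P.co).support :=
  DensAb_main P h hl hr h0 hs

end Crest.Agent.R85
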