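import Crest.Agent.R85.HhA

/-!
# Auxiliary lemmas for `touch` (task Flat-a, helper89)
-/

set_option autoImplicit false

open MeasureTheory Metric Filter Topology
open scoped RealInnerProductSpace

noncomputable section

namespace Crest.Agent.R85

variable {m : ℕ}

variable {n : ℕ} {C : ℝ} {ν : Measure (Eu m)}

theorem flata_abs_le {x z y : Eu m} (h : dist x z ≤ dist y z) :
    |⟪x - z, y - x⟫| ≤ ⟪x - z, y - x⟫ + ‖x - y‖ ^ 2 := by
  rw [dist_eq_norm, dist_eq_norm] at h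
  have e : y - z = (x - z) + (y - x) := by abel
  have h2 : ‖x - z‖ ^ 2 ≤ ‖y - z‖ ^ 2 := pow_le_pow_left₀ (norm_nonneg _) h 2
  rw [e, norm_add_sq_real] at h2
  rw [norm_sub_rev x y]
  refine abs_le.2 ⟨by linarith, ?_⟩
  have := sq_nonneg ‖y - x‖
  linarith

/-- The uniform bound for the truncated integrals. -/
theorem flata_bound (hn : 1 ≤ n) (hC : 1 ≤ C) (h : Up n C ν) (hl : LowAll n C ν) (hr : Refl n ν)
    {x z : Eu m} (hx : x ∈ ν.support) (hz : ∀ y ∈ ν.support, dist x z ≤ dist y z) :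
    ∃ B : ℝ, ∀ s, 0 < s → s ≤ 1 →
      ∫⁻ y, ENNReal.ofReal (|⟪x - z, y - x⟫| * (kap (n + 1) s (x - y) - kap (n + 1) 1 (x - y))) ∂ν
        ≤ ENNReal.ofReal B := by
  obtain ⟨c0, B, hB, -⟩ := refl_bound hn hC h hl hr
  refine ⟨‖x - z‖ * (B + B) + (n + 2) * cK n * C * 1, fun s hs hs1 => ?_⟩
  obtain ⟨i1, e1⟩ := hh_sub h one_pos hs x
  obtain ⟨i2, e2⟩ := h.diff hn (by linarith) x hs.le hs1 one_pos
  have hd : ∀ y, 0 ≤ kap (n + 1) s (x - y) - kap (n + 1) 1 (x - y) := fun y =>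
    sub_nonneg.2 (kap_anti _ hs.le hs1 (N_pos hs _))
  have e3 : ∀ y, ⟪x - z, KK n 1 (x - y) - KK n s (x - y)⟫ =
      ⟪x - z, y - x⟫ * (kap (n + 1) s (x - y) - kap (n + 1) 1 (x - y)) := by
    intro y
    have : y - x = -(x - y) := by abel
    rw [this, inner_neg_right, inner_sub_right, KK, KK, real_inner_smul_right,
      real_inner_smul_right]
    ring
  have i3 : Integrable (fun y => ⟪x - z, KK n 1 (x - y) - KK n s (x - y)⟫) ν :=
    i1.const_inner (x - z)
  have e4 : ∫ y, ⟪x - z, KK n 1 (x - y) - KK n s (x - y)⟫ ∂ν ≤ ‖x - z‖ * (B + B) := by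
    rw [integral_inner i1, ← e1]
    refine (real_inner_le_norm _ _).trans (mul_le_mul_of_nonneg_left ?_ (norm_nonneg _))
    have : hh n ν 1 x - hh n ν s x = (hh n ν 1 x - c0) - (hh n ν s x - c0) := by abel
    rw [this]
    exact (norm_sub_le _ _).trans (add_le_add (hB x hx 1 one_pos) (hB x hx s hs))
  have i4 := i3.add i2
  have hle : ∀ᵐ y ∂ν, |⟪x - z, y - x⟫| * (kap (n + 1) s (x - y) - kap (n + 1) 1 (x - y)) ≤
      ⟪x - z, KK n 1 (x - y) - KK n s (x - y)⟫ +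
        ‖x - y‖ ^ 2 * (kap (n + 1) s (x - y) - kap (n + 1) 1 (x - y)) := by
    filter_upwards [ν.support_mem_ae] with y hy
    rw [e3, ← add_mul]
    exact mul_le_mul_of_nonneg_right (flata_abs_le (hz y hy)) (hd y)
  calc _ ≤ ∫⁻ y, ENNReal.ofReal (⟪x - z, KK n 1 (x - y) - KK n s (x - y)⟫ +
        ‖x - y‖ ^ 2 * (kap (n + 1) s (x - y) - kap (n + 1) 1 (x - y))) ∂ν :=
        lintegral_mono_ae (hle.mono fun y hy => ENNReal.ofReal_le_ofReal hy)
    _ = ENNReal.ofReal (∫ y, (⟪x - z, KK n 1 (x - y) - KK n s (x - y)⟫ +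
        ‖x - y‖ ^ 2 * (kap (n + 1) s (x - y) - kap (n + 1) 1 (x - y))) ∂ν) :=
        (ofReal_integral_eq_lintegral_ofReal i4 (hle.mono fun y hy =>
          (mul_nonneg (abs_nonneg _) (hd y)).trans hy)).symm
    _ ≤ _ := by
        rw [integral_add i3 i2]
        exact ENNReal.ofReal_le_ofReal (add_le_add e4 e2)

theorem flata_meas (e x : Eu m) (s : ℝ) : Measurable fun y : Eu m =>
    |⟪e, y - x⟫| * (kap (n + 1) s (x - y) - kap (n + 1) 1 (x - y)) := by
  have h0 : Measurable fun y : Eu m => x - y := by fun_prop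
  refine Measurable.mul ?_ (((measurable_kap _ s).comp h0).sub ((measurable_kap _ 1).comp h0))
  exact (Continuous.abs (by fun_prop)).measurable

theorem flata_nonneg (e x y : Eu m) :
    0 ≤ |⟪e, y - x⟫| * (kap (n + 1) 0 (x - y) - kap (n + 1) 1 (x - y)) := by
  rcases eq_or_ne y x with rfl | hy
  · simp
  · refine mul_nonneg (abs_nonneg _) (sub_nonneg.2 (kap_anti _ le_rfl zero_le_one ?_))
    rw [N_zero]
    exact norm_pos_iff.2 (sub_ne_zero.2 hy.symm)

/-- Fatou's lemma. -/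
theorem flata_integrable (hn : 1 ≤ n) (hC : 1 ≤ C) (h : Up n C ν) (hl : LowAll n C ν)
    (hr : Refl n ν) {x z : Eu m} (hx : x ∈ ν.support)
    (hz : ∀ y ∈ ν.support, dist x z ≤ dist y z) :
    Integrable (fun y => |⟪x - z, y - x⟫| * (kap (n + 1) 0 (x - y) - kap (n + 1) 1 (x - y))) ν := by
  obtain ⟨B, hB⟩ := flata_bound hn hC h hl hr hx hz
  refine ⟨(flata_meas _ x 0).aestronglyMeasurable, ?_⟩
  rw [hasFiniteIntegral_iff_ofReal (Eventually.of_forall fun y => flata_nonneg _ x y)]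
  have hs : Tendsto (fun k : ℕ => (1 : ℝ) / ((k : ℝ) + 1)) atTop (𝓝[>] 0) :=
    tendsto_nhdsWithin_iff.2 ⟨tendsto_one_div_add_atTop_nhds_zero_nat,
      Eventually.of_forall fun k => Set.mem_Ioi.2 Nat.one_div_pos_of_nat⟩
  have hlim : ∀ y, Tendsto (fun k : ℕ => ENNReal.ofReal (|⟪x - z, y - x⟫| *
      (kap (n + 1) (1 / ((k : ℝ) + 1)) (x - y) - kap (n + 1) 1 (x - y)))) atTop
      (𝓝 (ENNReal.ofReal (|⟪x - z, y - x⟫| * (kap (n + 1) 0 (x - y) - kap (n + 1) 1 (x - y))))) := by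
    intro y
    refine ENNReal.tendsto_ofReal ?_
    rcases eq_or_ne y x with rfl | hy
    · simp
    · exact (((tendsto_kap_zero (n + 1) (sub_ne_zero.2 hy.symm)).comp hs).sub_const _).const_mul _
  calc _ = ∫⁻ y, liminf (fun k : ℕ => ENNReal.ofReal (|⟪x - z, y - x⟫| *
        (kap (n + 1) (1 / ((k : ℝ) + 1)) (x - y) - kap (n + 1) 1 (x - y)))) atTop ∂ν :=
        lintegral_congr fun y => (hlim y).liminf_eq.symm
    _ ≤ liminf (fun k : ℕ => ∫⁻ y, ENNReal.ofReal (|⟪x - z, y - x⟫| *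
        (kap (n + 1) (1 / ((k : ℝ) + 1)) (x - y) - kap (n + 1) 1 (x - y))) ∂ν) atTop :=
        lintegral_liminf_le fun k => (flata_meas _ x _).ennreal_ofReal
    _ ≤ ENNReal.ofReal B := by
        refine liminf_le_of_frequently_le' (Frequently.of_forall fun k => hB _
          Nat.one_div_pos_of_nat ?_)
        rw [div_le_one (by positivity)]
        linarith [(Nat.cast_nonneg k : (0 : ℝ) ≤ k)]
    _ < ⊤ := ENNReal.ofReal_lt_top

theorem flata_pt (e x : Eu m) {r : ℝ} (hr : 0 < r) (hr2 : r ≤ 1 / 2) {y : Eu m}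
    (hy : y ∈ ball x r) : |⟪e, y - x⟫| * (r ^ (n + 1))⁻¹ ≤
      2 * (|⟪e, y - x⟫| * (kap (n + 1) 0 (x - y) - kap (n + 1) 1 (x - y))) := by
  rcases eq_or_ne y x with rfl | hne
  · simp
  · have h0 : 0 < ‖x - y‖ := norm_pos_iff.2 (sub_ne_zero.2 hne.symm)
    have h1 : ‖x - y‖ ≤ r := by
      rw [← dist_eq_norm, dist_comm]; exact (mem_ball.1 hy).le
    have h2 : (r ^ (n + 1))⁻¹ ≤ kap (n + 1) 0 (x - y) := by
      rw [kap_zero]
      exact inv_anti₀ (pow_pos h0 _) (pow_le_pow_left₀ h0.le h1 _)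
    have h3 : r ^ (n + 1) ≤ 1 / 2 := by
      calc r ^ (n + 1) ≤ r ^ 1 := pow_le_pow_of_le_one hr.le (by linarith) (by omega)
        _ ≤ 1 / 2 := by rw [pow_one]; exact hr2
    have h4 : 2 ≤ (r ^ (n + 1))⁻¹ := by
      rw [le_inv_comm₀ two_pos (pow_pos hr _)]
      simpa using h3
    have h5 := kap_le_one (n + 1) (x - y)
    rw [mul_left_comm]
    exact mul_le_mul_of_nonneg_left (by linarith) (abs_nonneg _)

theorem flata_touch (hn : 1 ≤ n) (hC : 1 ≤ C) (h : Up n C ν) (hl : LowAll n C ν) (hr : Refl n ν)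
    {x z : Eu m} (hx : x ∈ ν.support) (hz : ∀ y ∈ ν.support, dist x z ≤ dist y z) :
    Tendsto (fun r : ℝ => (∫ y in ball x r, |⟪x - z, y - x⟫| ∂ν) / r ^ (n + 1)) (𝓝[>] 0) (𝓝 0) := by
  have hi := flata_integrable hn hC h hl hr hx hz
  have hm : Tendsto (ν ∘ fun r : ℝ => ball x r) (𝓝[>] 0) (𝓝 0) := by
    have h1 : Tendsto (fun r : ℝ => ENNReal.ofReal (C * r ^ n)) (𝓝[>] 0) (𝓝 0) := by
      have h2 : Tendsto (fun r : ℝ => C * r ^ n) (𝓝 0) (𝓝 (C * 0 ^ n)) :=
        Continuous.tendsto (by fun_prop) 0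
      rw [zero_pow (by omega), mul_zero] at h2
      simpa using ENNReal.tendsto_ofReal (h2.mono_left nhdsWithin_le_nhds)
    refine tendsto_of_tendsto_of_tendsto_of_le_of_le' tendsto_const_nhds h1
      (Eventually.of_forall fun _ => zero_le) ?_
    filter_upwards [self_mem_nhdsWithin] with r hr
    exact h x r hr
  have h2 := (hi.tendsto_setIntegral_nhds_zero hm).const_mul 2
  rw [mul_zero] at h2
  refine squeeze_zero' ?_ ?_ h2
  · filter_upwards [self_mem_nhdsWithin] with r hr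
    exact div_nonneg (integral_nonneg fun _ => abs_nonneg _) (pow_pos hr _).le
  · filter_upwards [Ioc_mem_nhdsGT (show (0 : ℝ) < 1 / 2 by norm_num)] with r hr
    rw [div_eq_mul_inv, ← integral_mul_const, ← integral_const_mul]
    refine integral_mono_of_nonneg (Eventually.of_forall fun y =>
      mul_nonneg (abs_nonneg _) (inv_nonneg.2 (pow_pos hr.1 _).le))
      (hi.integrableOn.const_mul 2) ?_
    filter_upwards [ae_restrict_mem measurableSet_ball] with y hy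
    exact flata_pt _ x hr.1 hr.2 hy

end Crest.Agent.R85
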