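import Crest.Agent.R85.Plane

/-!
# Auxiliary lemmas for `nc` (task NC-a)
-/

set_option autoImplicit false

open MeasureTheory Metric Filter Topology
open scoped RealInnerProductSpace

noncomputable section

namespace Crest.Agent.R85

variable {m : ℕ}

/-- the slab -/
def ncaSlab {n : ℕ} (e : Eu n) (β r w : ℝ) : Set (Eu n) := {p | ‖p‖ < 2 * r ∧ |⟪e, p⟫ + β| ≤ w}

theorem nca_slab_meas {n : ℕ} (e : Eu n) (β r w : ℝ) : MeasurableSet (ncaSlab e β r w) := by
  have h1 : MeasurableSet {p : Eu n | ‖p‖ < 2 * r} :=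
    measurableSet_lt (by fun_prop) measurable_const
  have h2 : MeasurableSet {p : Eu n | |⟪e, p⟫ + β| ≤ w} :=
    measurableSet_le (Continuous.abs (by fun_prop)).measurable measurable_const
  exact h1.inter h2

theorem nca_slab {n : ℕ} {e : Eu n} (he : ‖e‖ = 1) (β : ℝ) {r : ℝ} (hr : 0 < r) {N : ℕ}
    (hN : 0 < N) :
    (N : ENNReal) * volume (ncaSlab e β r (r / (3 * N))) ≤ volume (ball (0 : Eu n) (3 * r)) := by
  have hN' : (0 : ℝ) < N := by exact_mod_cast hN
  set S := ncaSlab e β r (r / (3 * N)) with hS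
  let T : ℕ → Set (Eu n) := fun k => (fun p => p + (-((k : ℝ) * (r / N))) • e) ⁻¹' S
  have hTm : ∀ k, MeasurableSet (T k) := fun k =>
    (nca_slab_meas e β r _).preimage (by fun_prop)
  have hTv : ∀ k, volume (T k) = volume S := fun k => measure_preimage_add_right _ _ _
  have hin : ∀ (k : ℕ) (p : Eu n), ⟪e, p + (-((k : ℝ) * (r / N))) • e⟫ = ⟪e, p⟫ - k * (r / N) := by
    intro k p
    rw [inner_add_right, real_inner_smul_right, real_inner_self_eq_norm_sq, he]
    ring
  have hdisj : Set.PairwiseDisjoint (↑(Finset.range N) : Set ℕ) T := by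
    intro k _ l _ hkl
    rw [Function.onFun, Set.disjoint_left]
    intro p hk hl
    have h1 := abs_le.1 hk.2
    have h2 := abs_le.1 hl.2
    rw [hin] at h1 h2
    have hq : 0 < r / N := div_pos hr hN'
    have e1 : r / (3 * N) = (r / N) / 3 := by field_simp
    rw [e1] at h1 h2
    rcases lt_or_gt_of_ne hkl with h | h
    · have : (k : ℝ) + 1 ≤ l := by exact_mod_cast h
      nlinarith [h1.1, h1.2, h2.1, h2.2]
    · have : (l : ℝ) + 1 ≤ k := by exact_mod_cast h
      nlinarith [h1.1, h1.2, h2.1, h2.2]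
  have hsub : (⋃ k ∈ Finset.range N, T k) ⊆ ball (0 : Eu n) (3 * r) := by
    intro p hp
    simp only [Set.mem_iUnion, Finset.mem_range] at hp
    obtain ⟨k, hk, hp⟩ := hp
    have h1 : ‖p + (-((k : ℝ) * (r / N))) • e‖ < 2 * r := hp.1
    have hk' : (k : ℝ) ≤ N := by exact_mod_cast hk.le
    have h2 : ‖(-((k : ℝ) * (r / N))) • e‖ ≤ r := by
      rw [norm_smul, he, mul_one, norm_neg, Real.norm_of_nonneg (by positivity)]
      calc (k : ℝ) * (r / N) ≤ N * (r / N) := by gcongr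
        _ = r := by field_simp
    rw [mem_ball_zero_iff]
    have h3 : ‖p‖ ≤ ‖p + (-((k : ℝ) * (r / N))) • e‖ + ‖(-((k : ℝ) * (r / N))) • e‖ := by
      simpa using norm_sub_le (p + (-((k : ℝ) * (r / N))) • e) ((-((k : ℝ) * (r / N))) • e)
    linarith
  calc (N : ENNReal) * volume S = ∑ k ∈ Finset.range N, volume (T k) := by
        simp [hTv]
    _ = volume (⋃ k ∈ Finset.range N, T k) :=
        (measure_biUnion_finset hdisj fun k _ => hTm k).symm
    _ ≤ _ := measure_mono hsub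

/-- Tonelli step. -/
theorem nca_tonelli {n : ℕ} {C : ℝ} {ν : Measure (Eu m)} (h : Up n C ν) (P : Pl n m) (x : Eu m)
    {s : ℝ} (hs : 0 < s) {Z : Set (Eu m)} (hZ : MeasurableSet Z) (hD : ∀ y ∈ Z, P.D y ≤ s)
    {S : Set (Eu n)} (hSm : MeasurableSet S)
    (hS : ∀ y ∈ Z, ∀ p, ‖P.co (y - x) - p‖ < s → p ∈ S) :
    ν Z * volume (ball (0 : Eu n) s) ≤ ENNReal.ofReal (C * (2 * s) ^ n) * volume S := by
  have := h.isLocallyFinite
  let W : Set (Eu m × Eu n) := {z | z.1 ∈ Z ∧ ‖P.co (z.1 - x) - z.2‖ < s}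
  have hW : MeasurableSet W := by
    have h2 : MeasurableSet {z : Eu m × Eu n | ‖P.co (z.1 - x) - z.2‖ < s} :=
      measurableSet_lt (Continuous.norm (by fun_prop)).measurable measurable_const
    exact (hZ.preimage measurable_fst).inter h2
  have e1 : (ν.prod volume) W = ν Z * volume (ball (0 : Eu n) s) := by
    rw [Measure.prod_apply hW]
    have : ∀ y, volume (Prod.mk y ⁻¹' W) = Z.indicator (fun _ => volume (ball (0 : Eu n) s)) y := by
      intro y
      by_cases hy : y ∈ Z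
      · rw [Set.indicator_of_mem hy]
        have : Prod.mk y ⁻¹' W = ball (P.co (y - x)) s := by
          ext p
          simp only [W, Set.mem_preimage, Set.mem_ofPred_eq, hy, true_and, mem_ball, dist_eq_norm]
          rw [norm_sub_rev]
        rw [this, Measure.addHaar_ball_center]
      · rw [Set.indicator_of_notMem hy]
        have : Prod.mk y ⁻¹' W = ∅ := by
          ext p
          simp [W, hy]
        rw [this, measure_empty]
    simp only [this]
    rw [lintegral_indicator_const hZ, mul_comm]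
  have e2 : (ν.prod volume) W ≤ ENNReal.ofReal (C * (2 * s) ^ n) * volume S := by
    rw [Measure.prod_apply_symm hW, ← lintegral_indicator_const hSm]
    refine lintegral_mono fun p => ?_
    by_cases hp : p ∈ S
    · rw [Set.indicator_of_mem hp]
      refine le_trans (measure_mono ?_) (h (P.proj x + P.I p) (2 * s) (by positivity))
      intro y hy
      have hy1 : y ∈ Z := hy.1
      have hy2 : ‖P.co (y - x) - p‖ < s := hy.2
      have h1 : y - (P.proj x + P.I p) = (y - P.proj y) + P.I (P.co (y - x) - p) := by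
        rw [map_sub, ← P.pr_apply, ← P.proj_sub]
        abel
      rw [mem_ball, dist_eq_norm, h1]
      have h2 := norm_add_le (y - P.proj y) (P.I (P.co (y - x) - p))
      rw [P.hI] at h2
      have h3 : ‖y - P.proj y‖ ≤ s := hD y hy1
      linarith
    · have : (fun y => (y, p)) ⁻¹' W = ∅ := by
        ext y
        simp only [W, Set.mem_preimage, Set.mem_ofPred_eq, Set.mem_empty_iff_false, iff_false]
        exact fun hy => hp (hS y hy.1 p hy.2)
      simp only [this, measure_empty]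
      exact zero_le
  rw [← e1]
  exact e2

/-- the exceptional set -/
def ncaZ {n : ℕ} (P : Pl n m) (x : Eu m) (r : ℝ) (u : Eu n) (b a s : ℝ) : Set (Eu m) :=
  {y | y ∈ ball x r ∧ |⟪u, P.co (y - x)⟫ + b| ≤ a ∧ P.D y ≤ s}

theorem ncaZ_meas {n : ℕ} (P : Pl n m) (x : Eu m) (r : ℝ) (u : Eu n) (b a s : ℝ) :
    MeasurableSet (ncaZ P x r u b a s) := by
  have h1 : MeasurableSet {y : Eu m | |⟪u, P.co (y - x)⟫ + b| ≤ a} :=
    measurableSet_le (Continuous.abs (by fun_prop)).measurable measurable_const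
  have h2 : MeasurableSet {y : Eu m | P.D y ≤ s} :=
    measurableSet_le P.continuous_D.measurable measurable_const
  exact (measurableSet_ball (x := x) (ε := r)).inter (h1.inter h2)

theorem nca_small (n m : ℕ) {C : ℝ} (hC : 1 ≤ C) :
    ∃ t, 0 < t ∧ ∀ (ν : Measure (Eu m)) (P : Pl n m) (x : Eu m) (r : ℝ),
      Up n C ν → 0 < r → ∀ (u : Eu n) (b M : ℝ), 0 < M → ‖u‖ * r ≤ M → (‖u‖ * r = M ∨ |b| = M) →
      ν.real (ncaZ P x r u b (t * M) (t * r)) ≤ r ^ n / (4 * C) := by
  obtain ⟨Cv, hCv, hup, hlow⟩ := exists_up_volume n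
  obtain ⟨N, hN⟩ := exists_nat_ge (4 * C ^ 2 * Cv ^ 2 * 6 ^ n)
  have hN0 : (0 : ℝ) < N := lt_of_lt_of_le (by positivity) hN
  have hN1 : 0 < N := by exact_mod_cast hN0
  have hN2 : (1 : ℝ) ≤ N := by exact_mod_cast hN1
  refine ⟨1 / (12 * N), by positivity, ?_⟩
  intro ν P x r h hr u b M hM hu hMb
  set t : ℝ := 1 / (12 * N) with ht
  have ht0 : 0 < t := by positivity
  have ht1 : t ≤ 1 / 12 := by
    rw [ht]
    exact one_div_le_one_div_of_le (by norm_num) (by linarith)
  rcases le_or_gt (‖u‖ * r) (M / 2) with hc | hc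
  · have hb : |b| = M := by
      rcases hMb with h1 | h1
      · linarith
      · exact h1
    have : ncaZ P x r u b (t * M) (t * r) = ∅ := by
      ext y
      simp only [Set.mem_empty_iff_false, iff_false]
      rintro ⟨hy1, hy2, -⟩
      have h1 : |⟪u, P.co (y - x)⟫| ≤ ‖u‖ * r := by
        refine (abs_real_inner_le_norm _ _).trans (mul_le_mul_of_nonneg_left ?_ (norm_nonneg _))
        refine (P.norm_co_le _).trans ?_
        rw [← dist_eq_norm]
        exact (mem_ball.1 hy1).le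
      have h2 : |b| ≤ |⟪u, P.co (y - x)⟫ + b| + |⟪u, P.co (y - x)⟫| := by
        simpa using abs_sub (⟪u, P.co (y - x)⟫ + b) ⟪u, P.co (y - x)⟫
      nlinarith
    rw [this]
    simp only [measureReal_empty]
    positivity
  · have hu0 : 0 < ‖u‖ := by
      by_contra h0
      have : ‖u‖ = 0 := le_antisymm (not_lt.1 h0) (norm_nonneg _)
      rw [this] at hc
      linarith
    have he : ‖(‖u‖⁻¹ • u : Eu n)‖ = 1 := by
      rw [norm_smul, norm_inv, norm_norm, inv_mul_cancel₀ hu0.ne']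
    have hs : 0 < t * r := by positivity
    have h1 := nca_tonelli h P x hs (ncaZ_meas P x r u b (t * M) (t * r)) (fun y hy => hy.2.2)
      (nca_slab_meas (‖u‖⁻¹ • u) (‖u‖⁻¹ * b) r (r / (3 * N))) (by
        rintro y ⟨hy1, hy2, -⟩ p hp
        have k1 : ‖P.co (y - x)‖ < r := by
          refine lt_of_le_of_lt (P.norm_co_le _) ?_
          rw [← dist_eq_norm]
          exact mem_ball.1 hy1
        have k2 : ‖p‖ ≤ ‖P.co (y - x)‖ + ‖P.co (y - x) - p‖ := by
          simpa using norm_sub_le (P.co (y - x)) (P.co (y - x) - p)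
        refine ⟨by nlinarith, ?_⟩
        have k3 : |⟪u, P.co (y - x) - p⟫| ≤ ‖u‖ * (t * r) :=
          (abs_real_inner_le_norm _ _).trans (mul_le_mul_of_nonneg_left hp.le (norm_nonneg _))
        have k4 : ⟪u, p⟫ + b = (⟪u, P.co (y - x)⟫ + b) - ⟪u, P.co (y - x) - p⟫ := by
          rw [inner_sub_right]
          ring
        have k5 : |⟪u, p⟫ + b| ≤ t * M + ‖u‖ * (t * r) := by
          rw [k4]
          exact (abs_sub _ _).trans (add_le_add hy2 k3)
        rw [real_inner_smul_left, ← mul_add, abs_mul, abs_inv, abs_norm,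
          inv_mul_le_iff₀ hu0]
        have k6 : r / (3 * N) = 4 * t * r := by
          rw [ht]
          field_simp
          norm_num
        rw [k6]
        nlinarith)
    have h2 := nca_slab he (‖u‖⁻¹ * b) hr hN1
    have h3 := hup 0 (3 * r) (by positivity)
    have h4 := hlow 0 (t * r) hs
    have h5 : (N : ENNReal) * (ν (ncaZ P x r u b (t * M) (t * r)) *
        ENNReal.ofReal ((t * r) ^ n / Cv)) ≤
        ENNReal.ofReal (C * (2 * (t * r)) ^ n) * ENNReal.ofReal (Cv * (3 * r) ^ n) := by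
      calc _ ≤ (N : ENNReal) * (ENNReal.ofReal (C * (2 * (t * r)) ^ n) *
            volume (ncaSlab (‖u‖⁻¹ • u) (‖u‖⁻¹ * b) r (r / (3 * N)))) := by
            refine mul_le_mul_right (le_trans ?_ h1) _
            exact mul_le_mul_right h4 _
        _ = ENNReal.ofReal (C * (2 * (t * r)) ^ n) * ((N : ENNReal) *
            volume (ncaSlab (‖u‖⁻¹ • u) (‖u‖⁻¹ * b) r (r / (3 * N)))) := by ring
        _ ≤ _ := by
            gcongr
            exact h2.trans h3
    have hfin : ν (ncaZ P x r u b (t * M) (t * r)) ≠ ⊤ :=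
      ne_top_of_le_ne_top (h.ball_lt_top x r).ne (measure_mono fun y hy => hy.1)
    rw [← ENNReal.ofReal_toReal hfin, ← ENNReal.ofReal_natCast,
      ← ENNReal.ofReal_mul ENNReal.toReal_nonneg, ← ENNReal.ofReal_mul hN0.le,
      ← ENNReal.ofReal_mul (by positivity),
      ENNReal.ofReal_le_ofReal_iff (by positivity)] at h5
    rw [measureReal_def]
    set z := (ν (ncaZ P x r u b (t * M) (t * r))).toReal
    have hz : 0 ≤ z := ENNReal.toReal_nonneg
    have hq : 0 < (t * r) ^ n := by positivity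
    have h6 : (N : ℝ) * z ≤ C * Cv ^ 2 * 6 ^ n * r ^ n := by
      have e1 : (N : ℝ) * (z * ((t * r) ^ n / Cv)) = (N * z) * ((t * r) ^ n / Cv) := by ring
      have e2 : C * (2 * (t * r)) ^ n * (Cv * (3 * r) ^ n) =
          (C * Cv ^ 2 * 6 ^ n * r ^ n) * ((t * r) ^ n / Cv) := by
        have : (6 : ℝ) ^ n = 2 ^ n * 3 ^ n := by rw [← mul_pow]; norm_num
        rw [this, mul_pow 2, mul_pow 3]
        field_simp
      rw [e1, e2] at h5
      exact le_of_mul_le_mul_right h5 (by positivity)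
    rw [le_div_iff₀ (by positivity)]
    have h7 : (4 * C ^ 2 * Cv ^ 2 * 6 ^ n) * z ≤ C * Cv ^ 2 * 6 ^ n * r ^ n :=
      (mul_le_mul_of_nonneg_right hN hz).trans h6
    have h8 : (C * Cv ^ 2 * 6 ^ n) * (z * (4 * C)) ≤ (C * Cv ^ 2 * 6 ^ n) * r ^ n := by
      calc _ = (4 * C ^ 2 * Cv ^ 2 * 6 ^ n) * z := by ring
        _ ≤ _ := h7
    exact le_of_mul_le_mul_left h8 (by positivity)

theorem nca_main (n m : ℕ) {C : ℝ} (hC : 1 ≤ C) :
    ∃ η0, 0 < η0 ∧ ∃ c, 0 < c ∧ ∀ (ν : Measure (Eu m)) (P : Pl n m) (x : Eu m) (r : ℝ),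
      Up n C ν → 0 < r → ENNReal.ofReal (r ^ n / C) ≤ ν (ball x r) →
      ∫ y in ball x r, P.D y ^ 2 ∂ν ≤ η0 * r ^ (n + 2) →
      ∀ (u : Eu n) (b : ℝ), c * r ^ n * (‖u‖ ^ 2 * r ^ 2 + b ^ 2)
        ≤ ∫ y in ball x r, (⟪u, P.co (y - x)⟫ + b) ^ 2 ∂ν := by
  obtain ⟨t, ht, hsm⟩ := nca_small n m hC
  refine ⟨t ^ 2 / (4 * C), by positivity, t ^ 2 / (4 * C), by positivity, ?_⟩
  intro ν P x r h hr hl hD u b
  have := h.isLocallyFinite
  set M := max (‖u‖ * r) |b| with hMdef
  have hM1 : ‖u‖ * r ≤ M := le_max_left _ _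
  have hM2 : |b| ≤ M := le_max_right _ _
  have hM0 : 0 ≤ M := (abs_nonneg b).trans hM2
  have hsq : ‖u‖ ^ 2 * r ^ 2 + b ^ 2 ≤ 2 * M ^ 2 := by
    have h1 : (‖u‖ * r) ^ 2 ≤ M ^ 2 := pow_le_pow_left₀ (by positivity) hM1 2
    have h2 : |b| ^ 2 ≤ M ^ 2 := pow_le_pow_left₀ (abs_nonneg b) hM2 2
    rw [sq_abs] at h2
    rw [mul_pow] at h1
    linarith
  have hI0 : 0 ≤ ∫ y in ball x r, (⟪u, P.co (y - x)⟫ + b) ^ 2 ∂ν :=
    integral_nonneg fun y => sq_nonneg _
  rcases hM0.eq_or_lt with hM | hM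
  · rw [← hM] at hsq
    have h1 : ‖u‖ ^ 2 * r ^ 2 + b ^ 2 = 0 := le_antisymm (by simpa using hsq) (by positivity)
    rw [h1, mul_zero]
    exact hI0
  have hZ := hsm ν P x r h hr u b M hM hM1 (by
    rcases max_choice (‖u‖ * r) |b| with h1 | h1
    · exact Or.inl h1.symm
    · exact Or.inr h1.symm)
  set Z := ncaZ P x r u b (t * M) (t * r) with hZdef
  have hZm : MeasurableSet Z := ncaZ_meas P x r u b _ _
  have hint : ∀ f : Eu m → ℝ, Continuous f → IntegrableOn f (ball x r) ν := fun f hf =>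
    (hf.continuousOn.integrableOn_compact (isCompact_closedBall x r)).mono_set ball_subset_closedBall
  have i1 : IntegrableOn (fun y => (⟪u, P.co (y - x)⟫ + b) ^ 2) (ball x r) ν :=
    hint _ (by fun_prop)
  have i2 : IntegrableOn (fun y => P.D y ^ 2) (ball x r) ν := hint _ (P.continuous_D.pow 2)
  have i3 : IntegrableOn (Z.indicator fun _ => t ^ 2 * M ^ 2) (ball x r) ν :=
    (hint _ continuous_const).indicator hZm
  have key : ∫ _ in ball x r, t ^ 2 * M ^ 2 ∂ν ≤ ∫ y in ball x r,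
      ((⟪u, P.co (y - x)⟫ + b) ^ 2 + Z.indicator (fun _ => t ^ 2 * M ^ 2) y +
        M ^ 2 / r ^ 2 * P.D y ^ 2) ∂ν := by
    refine setIntegral_mono_on (hint _ continuous_const) ((i1.add i3).add (i2.const_mul _))
      measurableSet_ball fun y hy => ?_
    have p1 : 0 ≤ (⟪u, P.co (y - x)⟫ + b) ^ 2 := sq_nonneg _
    have p2 : 0 ≤ M ^ 2 / r ^ 2 * P.D y ^ 2 := by positivity
    by_cases hyZ : y ∈ Z
    · rw [Set.indicator_of_mem hyZ]
      linarith
    · rw [Set.indicator_of_notMem hyZ]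
      by_cases h1 : |⟪u, P.co (y - x)⟫ + b| ≤ t * M
      · have h2 : t * r ≤ P.D y := by
          by_contra h3
          exact hyZ ⟨hy, h1, (not_le.1 h3).le⟩
        have h3 : (t * r) ^ 2 ≤ P.D y ^ 2 := pow_le_pow_left₀ (by positivity) h2 2
        have h4 : M ^ 2 / r ^ 2 * (t * r) ^ 2 ≤ M ^ 2 / r ^ 2 * P.D y ^ 2 := by gcongr
        have h5 : M ^ 2 / r ^ 2 * (t * r) ^ 2 = t ^ 2 * M ^ 2 := by field_simp
        linarith
      · have h3 : (t * M) ^ 2 ≤ |⟪u, P.co (y - x)⟫ + b| ^ 2 :=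
          pow_le_pow_left₀ (by positivity) (not_le.1 h1).le 2
        rw [sq_abs, mul_pow] at h3
        linarith
  have i4 : IntegrableOn (fun y => (⟪u, P.co (y - x)⟫ + b) ^ 2 +
      Z.indicator (fun _ => t ^ 2 * M ^ 2) y) (ball x r) ν := i1.add i3
  rw [integral_add i4 (i2.const_mul _), integral_add i1 i3,
    integral_const_mul (M ^ 2 / r ^ 2),
    setIntegral_const, integral_indicator hZm, Measure.restrict_restrict hZm,
    setIntegral_const, Set.inter_eq_self_of_subset_left (fun y hy => hy.1), smul_eq_mul,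
    smul_eq_mul] at key
  have hB := h.le_real hl
  have k1 : M ^ 2 / r ^ 2 * ∫ y in ball x r, P.D y ^ 2 ∂ν ≤
      M ^ 2 / r ^ 2 * (t ^ 2 / (4 * C) * r ^ (n + 2)) := by gcongr
  have k2 : M ^ 2 / r ^ 2 * (t ^ 2 / (4 * C) * r ^ (n + 2)) =
      t ^ 2 * M ^ 2 * (r ^ n / (4 * C)) := by
    rw [pow_add]
    field_simp
  have k3 := mul_le_mul_of_nonneg_right hB (show 0 ≤ t ^ 2 * M ^ 2 by positivity)
  have k4 := mul_le_mul_of_nonneg_right hZ (show 0 ≤ t ^ 2 * M ^ 2 by positivity)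
  have k5 : r ^ n / C = 4 * (r ^ n / (4 * C)) := by field_simp
  have k6 : t ^ 2 / (4 * C) * r ^ n * (‖u‖ ^ 2 * r ^ 2 + b ^ 2) ≤
      t ^ 2 / (4 * C) * r ^ n * (2 * M ^ 2) := by gcongr
  have k7 : t ^ 2 / (4 * C) * r ^ n * (2 * M ^ 2) = 2 * (t ^ 2 * M ^ 2 * (r ^ n / (4 * C))) := by
    ring
  rw [k5] at k3
  linarith

end Crest.Agent.R85
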