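import Crest.Agent.R85.Plane

/-!
# Auxiliary lemmas for `pc` and `hole` (task NC-b, helper53)
-/

set_option autoImplicit false

open MeasureTheory Metric Filter Topology
open scoped RealInnerProductSpace

noncomputable section

namespace Crest.Agent.R85

variable {m : ℕ}

/-- Continuous functions are integrable on balls. -/
theorem NCb_intOn {n : ℕ} {C : ℝ} {ν : Measure (Eu m)} (h : Up n C ν) {f : Eu m → ℝ}
    (hf : Continuous f) (x : Eu m) (r : ℝ) : IntegrableOn f (ball x r) ν := by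
  haveI := h.isLocallyFinite
  exact (hf.continuousOn.integrableOn_compact (isCompact_closedBall x r)).mono_set
    ball_subset_closedBall

theorem NCb_le_of_sq {a b : ℝ} (hb : 0 ≤ b) (h : a ^ 2 ≤ a * b) : a ≤ b := by
  by_contra hlt
  push Not at hlt
  nlinarith

/-- One-sided estimate: the plane `P` is close to `P'`. -/
theorem NCb_one {n : ℕ} {C c A K η r : ℝ} {ν : Measure (Eu m)} (h : Up n C ν) (P P' : Pl n m)
    (x : Eu m) (hr : 0 < r) (hc : 0 < c) (hK : 0 ≤ K) (hη : 0 ≤ η) (hAK : 4 * A ≤ c * K ^ 2)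
    (h1 : ∫ y in ball x r, P.D y ^ 2 ∂ν ≤ A * r ^ (n + 2) * η ^ 2)
    (h2 : ∫ y in ball x r, P'.D y ^ 2 ∂ν ≤ A * r ^ (n + 2) * η ^ 2)
    (hnc : ∀ (u : Eu n) (b : ℝ), c * r ^ n * (‖u‖ ^ 2 * r ^ 2 + b ^ 2)
        ≤ ∫ y in ball x r, (⟪u, P.co (y - x)⟫ + b) ^ 2 ∂ν) :
    (∀ e, ‖P.pr (e - P'.pr e)‖ ≤ K * η * ‖e‖) ∧ P'.D (P.proj x) ≤ K * η * r := by
  have key : ∀ e : Eu m, ‖P.co (e - P'.pr e)‖ ^ 2 * r ^ 2 +
      ⟪e, P.proj x - P'.proj (P.proj x)⟫ ^ 2 ≤ (K * η * ‖e‖ * r) ^ 2 := by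
    intro e
    have h3 := hnc (P.co (e - P'.pr e)) ⟪e, P.proj x - P'.proj (P.proj x)⟫
    have hpt : ∀ y, (⟪P.co (e - P'.pr e), P.co (y - x)⟫ +
        ⟪e, P.proj x - P'.proj (P.proj x)⟫) ^ 2 ≤
        2 * ‖e‖ ^ 2 * (P.D y ^ 2 + P'.D y ^ 2) := by
      intro y
      have e1 : ⟪P.co (e - P'.pr e), P.co (y - x)⟫ + ⟪e, P.proj x - P'.proj (P.proj x)⟫ =
          ⟪e, P.proj y - P'.proj (P.proj y)⟫ := by
        have a1 : ⟪P.co (e - P'.pr e), P.co (y - x)⟫ = ⟪e - P'.pr e, P.pr (y - x)⟫ := by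
          rw [real_inner_comm, ← P.inner_I, ← P.pr_apply, real_inner_comm]
        have a2 : ⟪e - P'.pr e, P.pr (y - x)⟫ = ⟪e, P.pr (y - x) - P'.pr (P.pr (y - x))⟫ := by
          rw [inner_sub_left, inner_sub_right, P'.inner_pr]
        rw [a1, a2, ← inner_add_right]
        congr 1
        rw [← P.proj_sub, ← P'.proj_sub]
        abel
      rw [e1]
      have b1 : |⟪e, P.proj y - P'.proj (P.proj y)⟫| ≤ ‖e‖ * P'.D (P.proj y) :=
        abs_real_inner_le_norm _ _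
      have b2 : P'.D (P.proj y) ≤ P'.D y + P.D y := by
        have := P'.D_lip (P.proj y) y
        rw [one_mul, norm_sub_rev] at this
        have h4 := (abs_le.1 this).2
        have h5 : ‖y - P.proj y‖ = P.D y := rfl
        linarith
      have b3 : |⟪e, P.proj y - P'.proj (P.proj y)⟫| ≤ ‖e‖ * (P'.D y + P.D y) :=
        b1.trans (mul_le_mul_of_nonneg_left b2 (norm_nonneg _))
      have b4 := sq_le_sq' (abs_le.1 b3).1 (abs_le.1 b3).2
      have b5 : (P'.D y + P.D y) ^ 2 ≤ 2 * (P.D y ^ 2 + P'.D y ^ 2) := by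
        nlinarith [sq_nonneg (P'.D y - P.D y)]
      calc _ ≤ (‖e‖ * (P'.D y + P.D y)) ^ 2 := b4
        _ = ‖e‖ ^ 2 * (P'.D y + P.D y) ^ 2 := by ring
        _ ≤ ‖e‖ ^ 2 * (2 * (P.D y ^ 2 + P'.D y ^ 2)) := by gcongr
        _ = _ := by ring
    have i1 : IntegrableOn (fun y => P.D y ^ 2) (ball x r) ν :=
      NCb_intOn h (P.continuous_D.pow 2) x r
    have i2 : IntegrableOn (fun y => P'.D y ^ 2) (ball x r) ν :=
      NCb_intOn h (P'.continuous_D.pow 2) x r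
    have h4 : ∫ y in ball x r, (⟪P.co (e - P'.pr e), P.co (y - x)⟫ +
        ⟪e, P.proj x - P'.proj (P.proj x)⟫) ^ 2 ∂ν ≤
        ∫ y in ball x r, 2 * ‖e‖ ^ 2 * (P.D y ^ 2 + P'.D y ^ 2) ∂ν := by
      refine integral_mono_of_nonneg (Eventually.of_forall fun y => sq_nonneg _)
        ((i1.add i2).const_mul _) (Eventually.of_forall hpt)
    rw [integral_const_mul, integral_add i1 i2] at h4
    have h5 : c * r ^ n * (‖P.co (e - P'.pr e)‖ ^ 2 * r ^ 2 +
        ⟪e, P.proj x - P'.proj (P.proj x)⟫ ^ 2) ≤ c * r ^ n * (K * η * ‖e‖ * r) ^ 2 := by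
      calc _ ≤ _ := h3
        _ ≤ _ := h4
        _ ≤ 2 * ‖e‖ ^ 2 * (A * r ^ (n + 2) * η ^ 2 + A * r ^ (n + 2) * η ^ 2) := by gcongr
        _ = (4 * A) * (‖e‖ ^ 2 * r ^ (n + 2) * η ^ 2) := by ring
        _ ≤ (c * K ^ 2) * (‖e‖ ^ 2 * r ^ (n + 2) * η ^ 2) := by gcongr
        _ = _ := by ring
    exact le_of_mul_le_mul_left h5 (by positivity)
  refine ⟨fun e => ?_, ?_⟩
  · have h3 := key e
    rw [P.norm_pr]
    have h4 : (‖P.co (e - P'.pr e)‖ * r) ^ 2 ≤ (K * η * ‖e‖ * r) ^ 2 := by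
      nlinarith [sq_nonneg ⟪e, P.proj x - P'.proj (P.proj x)⟫]
    have h5 := (pow_le_pow_iff_left₀ (by positivity) (by positivity) two_ne_zero).1 h4
    exact le_of_mul_le_mul_right h5 hr
  · have h3 := key (P.proj x - P'.proj (P.proj x))
    rw [real_inner_self_eq_norm_sq] at h3
    have hD : P'.D (P.proj x) = ‖P.proj x - P'.proj (P.proj x)‖ := rfl
    rw [hD]
    set d := ‖P.proj x - P'.proj (P.proj x)‖ with hd
    have hd0 : 0 ≤ d := norm_nonneg _
    have h4 : (d ^ 2) ^ 2 ≤ (K * η * d * r) ^ 2 := by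
      have : 0 ≤ ‖P.co (P.proj x - P'.proj (P.proj x) -
        P'.pr (P.proj x - P'.proj (P.proj x)))‖ ^ 2 * r ^ 2 := by positivity
      linarith
    have h5 := (pow_le_pow_iff_left₀ (by positivity) (by positivity) two_ne_zero).1 h4
    exact NCb_le_of_sq (by positivity) (by linarith)

theorem NCb_D_le {n : ℕ} {C r : ℝ} {ν : Measure (Eu m)} (hC : 1 ≤ C) (h : Up n C ν) (P : Pl n m)
    (x : Eu m) (hr : 0 < r) (hl : ENNReal.ofReal (r ^ n / C) ≤ ν (ball x r))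
    (h1 : ∫ y in ball x r, P.D y ^ 2 ∂ν ≤ (2 * C)⁻¹ * r ^ (n + 2)) : P.D x ≤ 2 * r := by
  by_contra hlt
  push Not at hlt
  have i1 := NCb_intOn h (P.continuous_D.pow 2) x r
  have h2 : ∫ _ in ball x r, r ^ 2 ∂ν ≤ ∫ y in ball x r, P.D y ^ 2 ∂ν := by
    refine setIntegral_mono_on (NCb_intOn h continuous_const x r) i1 measurableSet_ball ?_
    intro y hy
    have := P.D_lip x y
    rw [one_mul, ← dist_eq_norm, dist_comm] at this
    have h4 := (abs_le.1 this).2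
    rw [mem_ball] at hy
    have h5 : r ≤ P.D y := by linarith
    exact pow_le_pow_left₀ hr.le h5 2
  rw [setIntegral_const, smul_eq_mul] at h2
  have h3 := h.le_real hl
  have h4 : r ^ n / C * r ^ 2 ≤ (2 * C)⁻¹ * r ^ (n + 2) :=
    (mul_le_mul_of_nonneg_right h3 (by positivity)).trans (h2.trans h1)
  have hC0 : 0 < C := by linarith
  have h5 : r ^ n / C * r ^ 2 = 2 * ((2 * C)⁻¹ * r ^ (n + 2)) := by
    field_simp
    ring
  have h6 : 0 < (2 * C)⁻¹ * r ^ (n + 2) := by positivity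
  linarith

theorem NCb_pc (n m : ℕ) {C : ℝ} (hC : 1 ≤ C)
    (hnc : ∃ η0, 0 < η0 ∧ ∃ c, 0 < c ∧ ∀ (ν : Measure (Eu m)) (P : Pl n m) (x : Eu m) (r : ℝ),
      Up n C ν → 0 < r → ENNReal.ofReal (r ^ n / C) ≤ ν (ball x r) →
      ∫ y in ball x r, P.D y ^ 2 ∂ν ≤ η0 * r ^ (n + 2) →
      ∀ (u : Eu n) (b : ℝ), c * r ^ n * (‖u‖ ^ 2 * r ^ 2 + b ^ 2)
        ≤ ∫ y in ball x r, (⟪u, P.co (y - x)⟫ + b) ^ 2 ∂ν) :
    ∃ η0, 0 < η0 ∧ ∃ K, 0 < K ∧ ∀ (ν : Measure (Eu m)) (P P' : Pl n m) (x : Eu m) (r η : ℝ),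
      Up n C ν → 0 < r → ENNReal.ofReal (r ^ n / C) ≤ ν (ball x r) → 0 ≤ η → η ^ 2 ≤ η0 →
      bP ν P x r ≤ η ^ 2 → bP ν P' x r ≤ η ^ 2 → P.Close P' x r (K * η) := by
  obtain ⟨η1, hη1, c, hc, hnc⟩ := hnc
  have hC0 : 0 < C := by linarith
  set A : ℝ := 2 ^ (n + 3) with hA
  have hA0 : 0 < A := by positivity
  set K : ℝ := 1 + 4 * A / c with hK
  have hK1 : 1 ≤ K := by
    have : 0 ≤ 4 * A / c := by positivity
    linarith
  have hAK : 4 * A ≤ c * K ^ 2 := by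
    have h1 : 4 * A ≤ c * K := by
      rw [hK, mul_add, mul_one, mul_div_cancel₀ _ hc.ne']
      linarith
    have h2 : K ≤ K ^ 2 := by nlinarith
    exact h1.trans (mul_le_mul_of_nonneg_left h2 hc.le)
  refine ⟨min η1 (2 * C)⁻¹ / A, by positivity, 3 * K, by positivity, ?_⟩
  intro ν P P' x r η h hr hl hη hη0 hP hP'
  have hη2 : A * η ^ 2 ≤ min η1 (2 * C)⁻¹ := by
    rw [le_div_iff₀ hA0] at hη0
    linarith
  have hD : ∀ Q : Pl n m, bP ν Q x r ≤ η ^ 2 →
      ∫ y in ball x r, Q.D y ^ 2 ∂ν ≤ A * r ^ (n + 2) * η ^ 2 := fun Q hQ =>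
    (setIntegral_D_sq_le h Q x hr).trans (by gcongr)
  have hD1 : ∀ Q : Pl n m, bP ν Q x r ≤ η ^ 2 →
      ∫ y in ball x r, Q.D y ^ 2 ∂ν ≤ η1 * r ^ (n + 2) := fun Q hQ => by
    refine (hD Q hQ).trans ?_
    have := hη2.trans (min_le_left _ _)
    calc A * r ^ (n + 2) * η ^ 2 = A * η ^ 2 * r ^ (n + 2) := by ring
      _ ≤ _ := by gcongr
  have hD2 : ∫ y in ball x r, P.D y ^ 2 ∂ν ≤ (2 * C)⁻¹ * r ^ (n + 2) := by
    refine (hD P hP).trans ?_
    have := hη2.trans (min_le_right _ _)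
    calc A * r ^ (n + 2) * η ^ 2 = A * η ^ 2 * r ^ (n + 2) := by ring
      _ ≤ _ := by gcongr
  have hK0 : 0 ≤ K := by linarith
  obtain ⟨a1, a2⟩ := NCb_one h P P' x hr hc hK0 hη hAK (hD P hP) (hD P' hP')
    (hnc ν P x r h hr hl (hD1 P hP))
  obtain ⟨b1, -⟩ := NCb_one h P' P x hr hc hK0 hη hAK (hD P' hP') (hD P hP)
    (hnc ν P' x r h hr hl (hD1 P' hP'))
  have hx := NCb_D_le hC h P x hr hl hD2
  have hKη : 0 ≤ K * η := by positivity
  refine ⟨?_, ?_⟩
  · refine ContinuousLinearMap.opNorm_le_bound _ (by positivity) fun v => ?_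
    have e1 : (P.pr - P'.pr) v = P.pr (v - P'.pr v) - (P'.pr v - P.pr (P'.pr v)) := by
      rw [sub_apply, map_sub]
      abel
    have e2 : ‖P'.pr v - P.pr (P'.pr v)‖ ≤ K * η * ‖v‖ := by
      set w := P'.pr v - P.pr (P'.pr v) with hw
      refine NCb_le_of_sq (by positivity) ?_
      have c1 : ‖w‖ ^ 2 = ⟪v, P'.pr (w - P.pr w)⟫ := by
        rw [← real_inner_self_eq_norm_sq, ← P'.inner_pr, inner_sub_right (P'.pr v) w,
          ← P.inner_pr, ← inner_sub_left]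
      rw [c1]
      calc _ ≤ ‖v‖ * ‖P'.pr (w - P.pr w)‖ := real_inner_le_norm _ _
        _ ≤ ‖v‖ * (K * η * ‖w‖) := mul_le_mul_of_nonneg_left (b1 w) (norm_nonneg _)
        _ = _ := by ring
    rw [e1]
    calc _ ≤ ‖P.pr (v - P'.pr v)‖ + ‖P'.pr v - P.pr (P'.pr v)‖ := norm_sub_le _ _
      _ ≤ K * η * ‖v‖ + K * η * ‖v‖ := add_le_add (a1 v) e2
      _ ≤ _ := by nlinarith [mul_nonneg hKη (norm_nonneg v)]
  · have e1 : P.proj x - P'.proj x = (P.proj x - P'.proj (P.proj x)) -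
        P'.pr ((x - P.proj x) - P.pr (x - P.proj x)) := by
      rw [P.pr_sub_proj, sub_zero, ← P'.proj_sub]
      abel
    have e2 : ‖P'.pr ((x - P.proj x) - P.pr (x - P.proj x))‖ ≤ K * η * (2 * r) :=
      (b1 _).trans (mul_le_mul_of_nonneg_left hx hKη)
    rw [e1]
    calc _ ≤ ‖P.proj x - P'.proj (P.proj x)‖ +
          ‖P'.pr ((x - P.proj x) - P.pr (x - P.proj x))‖ := norm_sub_le _ _
      _ ≤ K * η * r + K * η * (2 * r) := add_le_add a2 e2
      _ = _ := by ring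

theorem NCb_hole {n : ℕ} {C : ℝ} {ν : Measure (Eu m)} (hC : 1 ≤ C) (h : Up n C ν)
    (hl : LowAll n C ν) (V : Submodule ℝ (Eu m)) (hV : n < Module.finrank ℝ V) {x : Eu m}
    (hx : x ∈ V) {r : ℝ} (hr : 0 < r) : ∃ z ∈ V, dist z x < r ∧ z ∉ ν.support := by
  by_contra hcon
  push Not at hcon
  have hC0 : 0 < C := by linarith
  let b := stdOrthonormalBasis ℝ V
  let e : Fin (n + 1) → Eu m := fun i => (b (Fin.castLE hV i) : V)
  have heV : ∀ i, e i ∈ V := fun i => (b _).2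
  have he : Orthonormal ℝ e := by
    have h1 : Orthonormal ℝ (fun i => ((b i : V) : Eu m)) :=
      (V.subtypeₗᵢ.orthonormal_comp_iff (v := b)).2 b.orthonormal
    exact h1.comp (Fin.castLE hV) (Fin.castLE_injective hV)
  obtain ⟨M, hM⟩ := exists_nat_gt (C ^ 2 * (4 * (n + 1)) ^ n)
  have hM0 : (0 : ℝ) < M := lt_of_le_of_lt (by positivity) hM
  set t : ℝ := r / (2 * (n + 1) * M) with ht
  have ht0 : 0 < t := by positivity
  let p : (Fin (n + 1) → Fin M) → Eu m := fun a => x + ∑ i, (t * ((a i : ℕ) : ℝ)) • e i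
  have hpV : ∀ a, p a ∈ V := fun a =>
    V.add_mem hx (V.sum_mem fun i _ => V.smul_mem _ (heV i))
  have hpd : ∀ a, dist (p a) x ≤ r / 2 := by
    intro a
    rw [dist_eq_norm]
    simp only [p, add_sub_cancel_left]
    calc _ ≤ ∑ i, ‖(t * ((a i : ℕ) : ℝ)) • e i‖ := norm_sum_le _ _
      _ ≤ ∑ _i : Fin (n + 1), t * M := by
        refine Finset.sum_le_sum fun i _ => ?_
        rw [norm_smul, he.1 i, mul_one, Real.norm_of_nonneg (by positivity)]
        have : ((a i : ℕ) : ℝ) ≤ M := by exact_mod_cast (a i).2.le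
        gcongr
      _ = r / 2 := by
        rw [Finset.sum_const, Finset.card_univ, Fintype.card_fin, nsmul_eq_mul, ht]
        push_cast
        field_simp
  have hsep : ∀ a a', a ≠ a' → t ≤ dist (p a) (p a') := by
    intro a a' hne
    obtain ⟨i, hi⟩ := Function.ne_iff.1 hne
    have e1 : ⟪e i, p a - p a'⟫ = t * (((a i : ℕ) : ℝ) - ((a' i : ℕ) : ℝ)) := by
      simp only [p, add_sub_add_left_eq_sub]
      rw [inner_sub_right, he.inner_right_fintype, he.inner_right_fintype]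
      ring
    have e2 : (1 : ℝ) ≤ |((a i : ℕ) : ℝ) - ((a' i : ℕ) : ℝ)| := by
      have : ((a i : ℕ) : ℤ) - ((a' i : ℕ) : ℤ) ≠ 0 := by
        intro h0
        apply hi
        apply Fin.ext
        omega
      have h2 := Int.one_le_abs this
      exact_mod_cast h2
    have e3 := abs_real_inner_le_norm (e i) (p a - p a')
    rw [e1, he.1 i, one_mul, abs_mul, abs_of_pos ht0, ← dist_eq_norm] at e3
    nlinarith
  have ht2 : t / 2 ≤ r / 2 := by
    have hM1 : (1 : ℝ) ≤ M := by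
      have : 0 < M := by exact_mod_cast hM0
      exact_mod_cast this
    have : t ≤ r := by
      rw [ht]
      refine div_le_self hr.le ?_
      have : (0 : ℝ) ≤ n := by positivity
      nlinarith
    linarith
  have hsub : (⋃ a ∈ (Finset.univ : Finset (Fin (n + 1) → Fin M)), ball (p a) (t / 2)) ⊆
      ball x r := by
    intro y hy
    simp only [Set.mem_iUnion] at hy
    obtain ⟨a, -, ha⟩ := hy
    rw [mem_ball] at ha ⊢
    have := dist_triangle y (p a) x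
    have := hpd a
    linarith
  have hdisj : Set.PairwiseDisjoint
      ((Finset.univ : Finset (Fin (n + 1) → Fin M)) : Set (Fin (n + 1) → Fin M))
      (fun a => ball (p a) (t / 2)) := by
    intro a _ a' _ hne
    exact ball_disjoint_ball (by have := hsep a a' hne; linarith)
  have h1 := measure_mono (μ := ν) hsub
  rw [measure_biUnion_finset hdisj (fun a _ => measurableSet_ball)] at h1
  have h2 : ∑ _a : Fin (n + 1) → Fin M, ENNReal.ofReal ((t / 2) ^ n / C) ≤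
      ENNReal.ofReal (C * r ^ n) := by
    refine le_trans ?_ (h1.trans (h x r hr))
    refine Finset.sum_le_sum fun a _ => ?_
    exact hl _ (hcon _ (hpV a) (by have := hpd a; linarith)) _ (by positivity)
  rw [← ENNReal.ofReal_sum_of_nonneg (fun _ _ => by positivity),
    ENNReal.ofReal_le_ofReal_iff (by positivity), Finset.sum_const, Finset.card_univ,
    Fintype.card_fun, Fintype.card_fin, Fintype.card_fin, nsmul_eq_mul] at h2
  push_cast at h2
  have e1 : (M : ℝ) ^ (n + 1) * ((t / 2) ^ n / C) =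
      M * r ^ n / (C * (4 * (n + 1)) ^ n) := by
    have : t / 2 = r / (4 * (n + 1) * M) := by
      rw [ht]
      field_simp
      ring
    rw [this, div_pow, mul_pow (4 * ((n : ℝ) + 1))]
    field_simp
    ring
  rw [e1, div_le_iff₀ (by positivity)] at h2
  have h3 : (M : ℝ) * r ^ n ≤ C ^ 2 * (4 * (n + 1)) ^ n * r ^ n := by linarith
  have h4 := le_of_mul_le_mul_right h3 (by positivity)
  linarith

end Crest.Agent.R85
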