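import Crest.Agent.R85.Plane
import Crest.Agent.R85.NCax
import Crest.Agent.R85.NCbx

/-!
# Non-concentration near lower dimensional planes (task NC)

`nc`: normalise `max (‖u‖ r) |b| = 1`.  Let `Z = {y ∈ ball x r | |ℓ y| ≤ t, P.D y ≤ t r}`.  If
`‖u‖ r ≤ 1/2` then `|ℓ| ≥ 1/2` on the ball.  Otherwise Tonelli:
`ν Z · vol(ball 0 (t r)) = ∫_p ν {y ∈ Z | ‖P.co (y-x) - p‖ < t r} dp ≤ vol(slab) · C (2 t r)^n`,
because that set lies in `ball (P.proj x + P.I p) (2 t r)` and is empty unless `p` lies in the slab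
`{‖p‖ < 2r, |⟪u,p⟫ + b| ≤ t (1 + ‖u‖ r) }`, whose volume is `≤ c t r^n`: about `1/(10 t)` translates
of it in the direction `u` are disjoint subsets of `ball 0 (3r)`.  So `ν Z ≤ c' t r^n`; choose `t`
with `c' t ≤ 1/(4C)`, then `η0` with `η0 / t² ≤ 1/(4C)` (Chebyshev).

`pc`: for a unit vector `e` apply `nc` to `ℓ y = ⟪e, (1 - P'.pr)(P.proj y - P'.q)⟫`, which has
`u = P.co ((1-P'.pr) e)`, `b = ⟪e, (1-P'.pr)(P.proj x - P'.q)⟫`, `|ℓ y| ≤ P.D y + P'.D y`.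
This bounds `‖P.pr ∘ (1-P'.pr)‖` and `P'.D (P.proj x)`; exchange the roles;
`pr - pr' = pr (1-pr') - (1-pr) pr'`, `⟪(1-pr) pr' v, w⟫ = ⟪v, pr' (1-pr) w⟫`;
`proj x - proj' x = (proj x - proj' (proj x)) + pr' (proj x - x)`, and `P.D x ≤ 2r` since some point
of the ball has `P.D y ≤ r`.

`hole`: otherwise, with the volume of `V` (dimension `k > n`) and Tonelli,
`t^n/C · vol_V(ball (r/2)) ≤ ∫_p ν (ball p t) ≤ ν (ball x r) · vol_V(ball 0 t)·(const) = O(t^k)`.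
(`{p ∈ V | dist p y < t}` is contained in a ball of `V` of radius `2t`.)
-/

set_option autoImplicit false

open MeasureTheory Metric Filter Topology
open scoped RealInnerProductSpace

noncomputable section

namespace Crest.Agent.R85

variable {m : ℕ}

theorem nc (n m : ℕ) (hn : 1 ≤ n) {C : ℝ} (hC : 1 ≤ C) :
    ∃ η0, 0 < η0 ∧ ∃ c, 0 < c ∧ ∀ (ν : Measure (Eu m)) (P : Pl n m) (x : Eu m) (r : ℝ),
      Up n C ν → 0 < r → ENNReal.ofReal (r ^ n / C) ≤ ν (ball x r) →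
      ∫ y in ball x r, P.D y ^ 2 ∂ν ≤ η0 * r ^ (n + 2) →
      ∀ (u : Eu n) (b : ℝ), c * r ^ n * (‖u‖ ^ 2 * r ^ 2 + b ^ 2)
        ≤ ∫ y in ball x r, (⟪u, P.co (y - x)⟫ + b) ^ 2 ∂ν := by
  have _ := hn
  exact nca_main n m hC

theorem pc (n m : ℕ) (hn : 1 ≤ n) {C : ℝ} (hC : 1 ≤ C) :
    ∃ η0, 0 < η0 ∧ ∃ K, 0 < K ∧ ∀ (ν : Measure (Eu m)) (P P' : Pl n m) (x : Eu m) (r η : ℝ),
      Up n C ν → 0 < r → ENNReal.ofReal (r ^ n / C) ≤ ν (ball x r) → 0 ≤ η → η ^ 2 ≤ η0 →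
      bP ν P x r ≤ η ^ 2 → bP ν P' x r ≤ η ^ 2 → P.Close P' x r (K * η) :=
  NCb_pc n m hC (nc n m hn hC)

theorem hole {n : ℕ} {C : ℝ} {ν : Measure (Eu m)} (hC : 1 ≤ C) (h : Up n C ν) (hl : LowAll n C ν)
    (V : Submodule ℝ (Eu m)) (hV : n < Module.finrank ℝ V) {x : Eu m} (hx : x ∈ V) {r : ℝ}
    (hr : 0 < r) : ∃ z ∈ V, dist z x < r ∧ z ∉ ν.support :=
  NCb_hole hC h hl V hV hx hr

end Crest.Agent.R85
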