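import Crest.Agent.R85.HhB

/-!
# Blow-ups (task Resc)
The map `y ↦ r⁻¹ • (y - x)` is a homeomorphism; use `integral_map` through a
`MeasurableEquiv`/`MeasurableEmbedding` so that no measurability side conditions appear.
`hh n (resc n ν x r) s y = hh n ν (r s) (x + r • y) + c` with the constant
`c = ∫ (K_r (z - x) - K_1 z) dν(z)` (integrable by `hh_integrable` with `K_r(x - z) + K_1 z`).
-/

set_option autoImplicit false

open MeasureTheory Metric Filter Topology
open scoped RealInnerProductSpace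

noncomputable section

namespace Crest.Agent.R85

variable {m : ℕ}

variable {n : ℕ} {C : ℝ} {ν : Measure (Eu m)}

/-- The blow-up map as a homeomorphism. -/
def rescHomeo (x : Eu m) {r : ℝ} (hr : 0 < r) : Eu m ≃ₜ Eu m where
  toFun y := r⁻¹ • (y - x)
  invFun y := x + r • y
  left_inv y := by simp [smul_smul, mul_inv_cancel₀ hr.ne']
  right_inv y := by simp [smul_smul, inv_mul_cancel₀ hr.ne']
  continuous_toFun := by fun_prop
  continuous_invFun := by fun_prop

theorem resc_emb (x : Eu m) {r : ℝ} (hr : 0 < r) :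
    MeasurableEmbedding (fun y : Eu m => r⁻¹ • (y - x)) :=
  (rescHomeo x hr).measurableEmbedding

theorem resc_smul_sub (x : Eu m) {r : ℝ} (hr : 0 < r) (z y : Eu m) :
    r • (r⁻¹ • (z - x) - y) = z - (x + r • y) := by
  rw [smul_sub, smul_smul, mul_inv_cancel₀ hr.ne', one_smul]; abel

theorem resc_smul_sub' (x : Eu m) {r : ℝ} (hr : 0 < r) (z y : Eu m) :
    r • (y - r⁻¹ • (z - x)) = x + r • y - z := by
  rw [smul_sub, smul_smul, mul_inv_cancel₀ hr.ne', one_smul]; abel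

theorem resc_smul_sub₂ (x : Eu m) {r : ℝ} (hr : 0 < r) (z w : Eu m) :
    r • (r⁻¹ • (z - x) - r⁻¹ • (w - x)) = z - w := by
  rw [← smul_sub, smul_smul, mul_inv_cancel₀ hr.ne', one_smul]; abel

theorem resc_smul_inv (x : Eu m) {r : ℝ} (hr : 0 < r) (z : Eu m) :
    r • (r⁻¹ • (z - x)) = z - x := by
  rw [smul_smul, mul_inv_cancel₀ hr.ne', one_smul]

theorem resc_add_smul_inv (x : Eu m) {r : ℝ} (hr : 0 < r) (z : Eu m) :
    x + r • (r⁻¹ • (z - x)) = z := by
  rw [resc_smul_inv x hr]; abel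

theorem resc_dist (x : Eu m) {r : ℝ} (hr : 0 < r) (z y : Eu m) :
    r * dist (r⁻¹ • (z - x)) y = dist z (x + r • y) := by
  rw [dist_eq_norm, dist_eq_norm, ← resc_smul_sub x hr, norm_smul, Real.norm_of_nonneg hr.le]

theorem resc_preimage_ball (x : Eu m) {r : ℝ} (hr : 0 < r) (y : Eu m) (s : ℝ) :
    (fun z : Eu m => r⁻¹ • (z - x)) ⁻¹' ball y s = ball (x + r • y) (r * s) := by
  ext z
  simp only [Set.mem_preimage, mem_ball]
  rw [← resc_dist x hr, mul_lt_mul_iff_right₀ hr]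

theorem resc_toReal {r : ℝ} (hr : 0 < r) (n : ℕ) :
    (ENNReal.ofReal ((r ^ n)⁻¹)).toReal = (r ^ n)⁻¹ :=
  ENNReal.toReal_ofReal (by positivity)

theorem resc_KK (n : ℕ) {r : ℝ} (hr : 0 < r) (s : ℝ) (z : Eu m) :
    KK n s z = (r ^ n) • KK n (r * s) (r • z) := by
  rw [KK_smul n hr, smul_smul, mul_inv_cancel₀ (by positivity), one_smul]

theorem resc_kap (p : ℕ) {r : ℝ} (hr : 0 < r) (s : ℝ) (z : Eu m) :
    kap p s z = r ^ p * kap p (r * s) (r • z) := by
  rw [kap_smul p hr, ← mul_assoc, mul_inv_cancel₀ (by positivity), one_mul]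

theorem resc_tst {L R : ℝ} {ψ : Eu m → ℝ} (h : Tst L 0 R ψ) (x : Eu m) {r : ℝ} (hr : 0 < r) :
    Tst (L * r⁻¹) x (R * r) (fun z => ψ (r⁻¹ • (z - x))) := by
  refine ⟨fun z w => ?_, fun z hz => ?_⟩
  · have h1 := h.lip (r⁻¹ • (z - x)) (r⁻¹ • (w - x))
    have h2 : r⁻¹ • (z - x) - r⁻¹ • (w - x) = r⁻¹ • (z - w) := by
      rw [← smul_sub]; congr 1; abel
    rw [h2, norm_smul, Real.norm_of_nonneg (inv_nonneg.2 hr.le)] at h1
    rw [mul_assoc]; exact h1
  · apply h.supp
    have h1 := resc_dist x hr z 0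
    rw [smul_zero, add_zero] at h1
    rw [← h1, mul_comm R r] at hz
    exact le_of_mul_le_mul_left hz hr

theorem resc_apply {x : Eu m} {r : ℝ} (hr : 0 < r) (y : Eu m) (s : ℝ) :
    resc n ν x r (ball y s) = ENNReal.ofReal ((r ^ n)⁻¹) * ν (ball (x + r • y) (r * s)) := by
  unfold R85.resc
  rw [Measure.smul_apply, (resc_emb x hr).map_apply, resc_preimage_ball x hr, smul_eq_mul]

theorem integral_resc {F : Type*} [NormedAddCommGroup F] [NormedSpace ℝ F] {x : Eu m} {r : ℝ}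
    (hr : 0 < r) (φ : Eu m → F) :
    ∫ y, φ y ∂(resc n ν x r) = (r ^ n)⁻¹ • ∫ y, φ (r⁻¹ • (y - x)) ∂ν := by
  unfold R85.resc
  rw [integral_smul_measure, (resc_emb x hr).integral_map, resc_toReal hr]

theorem setIntegral_ball_resc {F : Type*} [NormedAddCommGroup F] [NormedSpace ℝ F] {x : Eu m}
    {r : ℝ} (hr : 0 < r) (φ : Eu m → F) (y : Eu m) (s : ℝ) :
    ∫ z in ball y s, φ z ∂(resc n ν x r)
      = (r ^ n)⁻¹ • ∫ z in ball (x + r • y) (r * s), φ (r⁻¹ • (z - x)) ∂ν := by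
  unfold R85.resc
  rw [Measure.restrict_smul, integral_smul_measure, (resc_emb x hr).setIntegral_map,
    resc_preimage_ball x hr, resc_toReal hr]

instance resc_finite [IsFiniteMeasure ν] (x : Eu m) (r : ℝ) : IsFiniteMeasure (resc n ν x r) := by
  unfold R85.resc
  exact Measure.smul_finite _ ENNReal.ofReal_ne_top

theorem mem_support_resc {x : Eu m} {r : ℝ} (hr : 0 < r) (y : Eu m) :
    y ∈ (resc n ν x r).support ↔ x + r • y ∈ ν.support := by
  rw [nhds_basis_ball.mem_measureSupport, nhds_basis_ball.mem_measureSupport]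
  have hc : ENNReal.ofReal ((r ^ n)⁻¹) ≠ 0 := by
    rw [Ne, ENNReal.ofReal_eq_zero, not_le]; positivity
  constructor
  · intro h s hs
    have h1 := h (s / r) (by positivity)
    rw [resc_apply hr, mul_div_cancel₀ _ hr.ne'] at h1
    exact pos_iff_ne_zero.2 fun h0 => by simp [h0] at h1
  · intro h s hs
    rw [resc_apply hr]
    exact ENNReal.mul_pos hc (h (r * s) (by positivity)).ne'

theorem Up.resc (h : Up n C ν) (x : Eu m) {r : ℝ} (hr : 0 < r) : Up n C (resc n ν x r) := by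
  intro y s hs
  rw [resc_apply hr]
  calc ENNReal.ofReal ((r ^ n)⁻¹) * ν (ball (x + r • y) (r * s))
      ≤ ENNReal.ofReal ((r ^ n)⁻¹) * ENNReal.ofReal (C * (r * s) ^ n) := by
        gcongr; exact h _ _ (by positivity)
    _ = ENNReal.ofReal (C * s ^ n) := by
        rw [← ENNReal.ofReal_mul (by positivity)]
        congr 1
        rw [mul_pow]; field_simp

theorem Low.resc {x : Eu m} {r A : ℝ} (hr : 0 < r) (h : Low n C ν x (A * r)) :
    Low n C (resc n ν x r) 0 A := by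
  intro y hy hyA s hs hsA
  rw [resc_apply hr]
  have h1 : dist (x + r • y) x < A * r := by
    rw [dist_eq_norm, add_sub_cancel_left, norm_smul, Real.norm_of_nonneg hr.le, mul_comm A r]
    rw [dist_zero_right] at hyA
    exact mul_lt_mul_of_pos_left hyA hr
  have h2 := h _ ((mem_support_resc hr y).1 hy) h1 (r * s) (by positivity)
    (by rw [mul_comm A r]; exact mul_le_mul_of_nonneg_left hsA hr.le)
  calc ENNReal.ofReal (s ^ n / C)
      = ENNReal.ofReal ((r ^ n)⁻¹) * ENNReal.ofReal ((r * s) ^ n / C) := by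
        rw [← ENNReal.ofReal_mul (by positivity)]
        congr 1
        rw [mul_pow, mul_div_assoc, ← mul_assoc, inv_mul_cancel₀ (by positivity), one_mul]
    _ ≤ _ := by gcongr

theorem LowAll.resc (h : LowAll n C ν) (x : Eu m) {r : ℝ} (hr : 0 < r) :
    LowAll n C (resc n ν x r) := by
  intro y hy s hs
  rw [resc_apply hr]
  have h2 := h _ ((mem_support_resc hr y).1 hy) (r * s) (by positivity)
  calc ENNReal.ofReal (s ^ n / C)
      = ENNReal.ofReal ((r ^ n)⁻¹) * ENNReal.ofReal ((r * s) ^ n / C) := by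
        rw [← ENNReal.ofReal_mul (by positivity)]
        congr 1
        rw [mul_pow, mul_div_assoc, ← mul_assoc, inv_mul_cancel₀ (by positivity), one_mul]
    _ ≤ _ := by gcongr

theorem hh_resc (h : Up n C ν) (x : Eu m) {r : ℝ} (hr : 0 < r) :
    ∃ c : Eu m, ∀ s, 0 < s → ∀ y,
      hh n (resc n ν x r) s y = hh n ν (r * s) (x + r • y) + c := by
  refine ⟨-∫ z, (KK n r (x - z) + KK n 1 z) ∂ν, fun s hs y => ?_⟩
  unfold hh
  rw [integral_resc hr, ← integral_smul, ← sub_eq_add_neg,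
    ← integral_sub (hh_integrable h (mul_pos hr hs) _) (hh_integrable h hr x)]
  congr 1
  funext z
  rw [resc_KK n hr s, resc_KK n hr 1 (r⁻¹ • (z - x)), resc_smul_sub' x hr, resc_smul_inv x hr,
    mul_one, ← smul_add, smul_smul, inv_mul_cancel₀ (by positivity), one_smul,
    ← neg_sub x z, KK_neg]
  abel

theorem Refl.resc (hrf : Refl n ν) (h : Up n C ν) (x : Eu m) {r : ℝ} (hr : 0 < r) :
    Refl n (resc n ν x r) := by
  intro L R ψ hψ h0
  obtain ⟨c, hc⟩ := hh_resc h x hr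
  have hψ' := resc_tst hψ x hr
  have h0' : ∫ z, ψ (r⁻¹ • (z - x)) ∂ν = 0 := by
    rw [integral_resc hr, smul_eq_zero] at h0
    exact h0.resolve_left (by positivity)
  have h1 := hrf.tendsto hψ' h0'
  have h2 : Tendsto (fun s : ℝ => r * s) (𝓝[>] 0) (𝓝[>] 0) := by
    apply tendsto_nhdsWithin_of_tendsto_nhds_of_eventually_within
    · have : Tendsto (fun s : ℝ => r * s) (𝓝 0) (𝓝 (r * 0)) :=
        (continuous_const.mul continuous_id).tendsto 0
      rw [mul_zero] at this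
      exact this.mono_left nhdsWithin_le_nhds
    · filter_upwards [self_mem_nhdsWithin] with s hs using mul_pos hr hs
  have h3 := (h1.comp h2).const_smul ((r ^ n)⁻¹)
  rw [smul_zero] at h3
  refine h3.congr' ?_
  filter_upwards [self_mem_nhdsWithin] with s hs
  have hs' : 0 < s := hs
  rw [integral_resc hr]
  congr 1
  simp only [Function.comp, hc s hs', resc_add_smul_inv x hr, smul_add]
  rw [integral_add (hψ'.integrable_smul_hh h (mul_pos hr hs')) ((hψ'.integrable h).smul_const c),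
    integral_smul_const, h0', zero_smul, add_zero]

theorem integral_prod_resc [IsFiniteMeasure ν] {F : Type*} [NormedAddCommGroup F]
    [NormedSpace ℝ F] {x : Eu m} {r : ℝ} (hr : 0 < r) (Φ : Eu m × Eu m → F) :
    ∫ p, Φ p ∂((resc n ν x r).prod (resc n ν x r))
      = ((r ^ n)⁻¹ * (r ^ n)⁻¹) •
        ∫ p : Eu m × Eu m, Φ (r⁻¹ • (p.1 - x), r⁻¹ • (p.2 - x)) ∂(ν.prod ν) := by
  have he := resc_emb x hr
  unfold R85.resc
  rw [Measure.prod_smul_left, Measure.prod_smul_right,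
    Measure.map_prod_map _ _ he.measurable he.measurable, integral_smul_measure,
    integral_smul_measure, (he.prodMap he).integral_map, resc_toReal hr, smul_smul]
  rfl

theorem TT_resc [IsFiniteMeasure ν] {x : Eu m} {r : ℝ} (hr : 0 < r) (ψ : Eu m → ℝ) :
    TT n (resc n ν x r) ψ = (r ^ n)⁻¹ • TT n ν (fun z => ψ (r⁻¹ • (z - x))) := by
  unfold TT
  rw [integral_prod_resc hr]
  have h1 : ∀ p : Eu m × Eu m,
      (ψ (r⁻¹ • (p.1 - x)) - ψ (r⁻¹ • (p.2 - x))) • KK n 0 (r⁻¹ • (p.1 - x) - r⁻¹ • (p.2 - x))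
        = (r ^ n) • ((ψ (r⁻¹ • (p.1 - x)) - ψ (r⁻¹ • (p.2 - x))) • KK n 0 (p.1 - p.2)) := by
    intro p
    rw [resc_KK n hr 0, resc_smul_sub₂ x hr, mul_zero, smul_comm]
  simp only [h1]
  rw [integral_smul, smul_smul, mul_assoc, inv_mul_cancel₀ (by positivity), mul_one]

theorem En_resc [IsFiniteMeasure ν] {x : Eu m} {r : ℝ} (hr : 0 < r) (s : ℝ) (f g : Eu m → ℝ) :
    En n s (resc n ν x r) f g = (r ^ n)⁻¹ * r *
      En n (r * s) ν (fun z => f (r⁻¹ • (z - x))) (fun z => g (r⁻¹ • (z - x))) := by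
  unfold En
  rw [integral_prod_resc hr]
  have h1 : ∀ p : Eu m × Eu m,
      (f (r⁻¹ • (p.1 - x)) - f (r⁻¹ • (p.2 - x))) * (g (r⁻¹ • (p.1 - x)) - g (r⁻¹ • (p.2 - x)))
          * kap (n + 1) s (r⁻¹ • (p.1 - x) - r⁻¹ • (p.2 - x))
        = r ^ (n + 1) * ((f (r⁻¹ • (p.1 - x)) - f (r⁻¹ • (p.2 - x)))
          * (g (r⁻¹ • (p.1 - x)) - g (r⁻¹ • (p.2 - x))) * kap (n + 1) (r * s) (p.1 - p.2)) := by
    intro p
    rw [resc_kap (n + 1) hr s, resc_smul_sub₂ x hr]; ring
  simp only [h1]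
  rw [integral_const_mul, smul_eq_mul, ← mul_assoc]
  congr 1
  field_simp
  ring

theorem Small.resc [IsFiniteMeasure ν] {x : Eu m} {r A θ : ℝ} (hr : 0 < r)
    (h : Small n ν x (A * r) (θ * r ^ (n + 1))) : Small n (resc n ν x r) 0 A θ := by
  intro L ψ hψ h0
  have hψ' := resc_tst hψ x hr
  have h0' : ∫ z, ψ (r⁻¹ • (z - x)) ∂ν = 0 := by
    rw [integral_resc hr, smul_eq_zero] at h0
    exact h0.resolve_left (by positivity)
  have h1 := h _ _ hψ' h0'
  rw [TT_resc hr, En_resc hr, mul_zero, norm_smul, Real.norm_of_nonneg (by positivity), mul_pow]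
  calc ((r ^ n)⁻¹) ^ 2 * ‖TT n ν (fun z => ψ (r⁻¹ • (z - x)))‖ ^ 2
      ≤ ((r ^ n)⁻¹) ^ 2 * (θ * r ^ (n + 1) * En n 0 ν (fun z => ψ (r⁻¹ • (z - x)))
          (fun z => ψ (r⁻¹ • (z - x)))) := by gcongr
    _ = _ := by field_simp; ring

/-- The image of a plane under `y ↦ x + r • y`. -/
def rescPl (x : Eu m) (r : ℝ) (P : Pl n m) : Pl n m := ⟨x + r • P.q, P.I, P.hI⟩

theorem rescPl_surj (x : Eu m) {r : ℝ} (hr : 0 < r) :
    Function.Surjective (rescPl x r : Pl n m → Pl n m) := by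
  intro P
  refine ⟨⟨r⁻¹ • (P.q - x), P.I, P.hI⟩, ?_⟩
  cases P
  simp only [rescPl, resc_add_smul_inv x hr]

theorem rescPl_D (x : Eu m) {r : ℝ} (hr : 0 < r) (P : Pl n m) (z : Eu m) :
    (rescPl x r P).D z = r * P.D (r⁻¹ • (z - x)) := by
  have hpr : (rescPl x r P).pr = P.pr := rfl
  have hq : (rescPl x r P).q = x + r • P.q := rfl
  unfold Pl.D Pl.proj
  rw [hpr, hq, ← resc_smul_sub x hr z P.q, map_smul, ← Real.norm_of_nonneg hr.le, ← norm_smul,
    Real.norm_of_nonneg hr.le]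
  congr 1
  rw [smul_sub r (r⁻¹ • (z - x)) (P.q + _), resc_smul_inv x hr, smul_add]
  abel

theorem bP_resc (P : Pl n m) (x : Eu m) {r : ℝ} (hr : 0 < r) (y : Eu m) (s : ℝ) :
    bP (resc n ν x r) P y s = bP ν (rescPl x r P) (x + r • y) (r * s) := by
  unfold bP
  rw [integral_resc hr, smul_eq_mul, ← integral_const_mul]
  congr 1
  funext z
  rw [rescPl_D x hr, resc_kap (n + 3) hr s, resc_smul_sub x hr]
  field_simp
  ring

theorem bb_resc (x : Eu m) {r : ℝ} (hr : 0 < r) (y : Eu m) {s : ℝ} (hs : 0 < s) :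
    bb n (resc n ν x r) y s = bb n ν (x + r • y) (r * s) := by
  unfold bb
  simp only [bP_resc _ x hr]
  exact (rescPl_surj x hr).iInf_comp (fun P => bP ν P (x + r • y) (r * s))

end Crest.Agent.R85
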