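import Crest.Agent.R85.Lim
import Crest.Agent.R85.Resc
import Crest.Agent.R85.NC
import Crest.Agent.R85.Flatax

/-!
# Touching balls, tangent measures, flattening (task Flat)

`touch`: put `e = x - z`, `t = ‖e‖`.  For `y` in the support, `‖y - z‖ ≥ ‖e‖` gives
`⟪e, y - x⟫ ≥ -‖y-x‖²/2`.  By `refl_bound` and `hh_sub`, for `0 < s ≤ 1`
`∫ ⟪e, y-x⟫ (κ_s - κ_1)(x-y) dν = ⟪e, hh 1 x - hh s x⟫ ≤ 2 B t`, the negative part is at most
`½ ∫ ‖y-x‖² (κ_s - κ_1)` (`Up.diff`), so `∫ |⟪e, y-x⟫| (κ_s - κ_1) ≤ B'` for all `s`.  Fatou or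
monotone convergence: `g = |⟪e,y-x⟫| (κ_0 - κ_1)` is integrable; on `ball x r`, `r ≤ 1/2`,
`κ_0 - κ_1 ≥ c r^{-(n+1)}` (`κ_1 ≤ 1 ≤ κ_0/2`), and `∫_{ball x r} g → 0` (no atoms).

`flat_refl_aux`: induction on `k = finrank V - n`.  If `finrank V ≤ n`, `exists_pl_of_finrank` gives
`bb = 0`.  Otherwise `hole` gives `z ∈ V` outside the support, near `x`; let `x1` be a nearest point
of the (closed) support; blow up at `x1` with radii `r/(4(k+1))`, `exists_vag`; the limit is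
regular, reflectionless, contains `0`, and is supported in `V ⊓ (span {x1 - z})ᗮ` (test
`cut 0 R 1 · |⟪e, y⟫|` and `cut 0 R 1 · infDist y V`); apply the induction hypothesis, come back with
`Vag.bb_lt`, `Vag.near_support`, `bb_resc`, `mem_support_resc`.

`flat`: by contradiction with `A = δ⁻¹ = c⁻¹ = k+2`, rescale to `(0,1)`, `exists_vag`,
`Vag.refl_of_small`, `flat_refl` at radius `1/4`.
-/

set_option autoImplicit false

open MeasureTheory Metric Filter Topology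
open scoped RealInnerProductSpace

noncomputable section

namespace Crest.Agent.R85

variable {m : ℕ}

variable {n : ℕ} {C : ℝ} {ν : Measure (Eu m)}

theorem touch (hn : 1 ≤ n) (hC : 1 ≤ C) (h : Up n C ν) (hl : LowAll n C ν) (hr : Refl n ν)
    {x z : Eu m} (hx : x ∈ ν.support) (hz : ∀ y ∈ ν.support, dist x z ≤ dist y z) :
    Tendsto (fun r : ℝ => (∫ y in ball x r, |⟪x - z, y - x⟫| ∂ν) / r ^ (n + 1)) (𝓝[>] 0) (𝓝 0) :=
  flata_touch hn hC h hl hr hx hz

theorem flatb_base (hnm : n ≤ m) {V : Submodule ℝ (Eu m)} (hV : Module.finrank ℝ V ≤ n)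
    (hs : ν.support ⊆ V) (x : Eu m) {r : ℝ} (hr : 0 < r) : bb n ν x r ≤ 0 := by
  obtain ⟨P, -, hP⟩ := exists_pl_of_finrank hnm V hV 0
  refine (bb_le_bP P x hr).trans_eq (integral_eq_zero_of_ae ?_)
  filter_upwards [ν.support_mem_ae] with y hy
  have := hP y (hs hy)
  rw [zero_add] at this
  simp [this]

theorem flatb_tendsto (a : ℝ) : Tendsto (fun k : ℕ => a / ((k : ℝ) + 1)) UF (𝓝 0) :=
  (tendsto_const_nhds.div_atTop (tendsto_atTop_add_const_right _ 1 tendsto_natCast_atTop_atTop)).mono_left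
    UF_le_atTop

/-- coming back from a vague limit -/
theorem flatb_back (hnm : n ≤ m) {νk : ℕ → Measure (Eu m)} (hv : Vag νk ν) (h : ∀ k, Up n C (νk k))
    (hν : Up n C ν) {x : Eu m} (hx : x ∈ ν.support) {r ε t : ℝ} (hr : 0 < r) (hb : bb n ν x r < ε)
    (ht : 0 < t) : ∀ᶠ k in UF, ∃ y ∈ (νk k).support, dist y x < t ∧ bb n (νk k) y r < ε := by
  obtain ⟨t', ht', h1⟩ := hv.bb_lt hnm h hν hr hb
  filter_upwards [h1, hv.near_support h hν hx (lt_min ht ht')] with k h2 ⟨y, h3, h4⟩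
  exact ⟨y, h3, h4.trans_le (min_le_left _ _), h2 y (h4.trans_le (min_le_right _ _))⟩

/-- the blow-up at a touching point is orthogonal to the touching direction -/
theorem flatb_orth (h : Up n C ν) {x e : Eu m} {ρ : ℕ → ℝ} (hρ : ∀ k, 0 < ρ k)
    (hρ0 : Tendsto ρ UF (𝓝 0))
    (ht : Tendsto (fun r : ℝ => (∫ y in ball x r, |⟪e, y - x⟫| ∂ν) / r ^ (n + 1)) (𝓝[>] 0) (𝓝 0))
    {ν0 : Measure (Eu m)} (hv : Vag (fun k => resc n ν x (ρ k)) ν0) (hν0 : Up n C ν0) {y : Eu m}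
    (hy : y ∈ ν0.support) : ⟪e, y⟫ = 0 := by
  have hR : 0 < ‖y‖ + 1 := by positivity
  have hc := cut_tst (0 : Eu m) ‖y‖ one_pos
  have c1 : Continuous fun z : Eu m => |⟪e, z⟫| := by fun_prop
  have c2 : Continuous fun z : Eu m => cut 0 ‖y‖ 1 z * |⟪e, z⟫| := hc.lip.continuous.mul c1
  have c3 : HasCompactSupport fun z : Eu m => cut 0 ‖y‖ 1 z * |⟪e, z⟫| := hc.hasCompactSupport.mul_right
  have c4 : ∀ z : Eu m, 0 ≤ cut 0 ‖y‖ 1 z * |⟪e, z⟫| := fun z =>
    mul_nonneg (cut_nonneg _ _ _ _) (abs_nonneg _)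
  have h1 := hv _ c2 c3
  have h2 : Tendsto (fun k => ρ k * (‖y‖ + 1)) UF (𝓝[>] 0) := by
    refine tendsto_nhdsWithin_iff.2 ⟨?_, Eventually.of_forall fun k => mul_pos (hρ k) hR⟩
    simpa using hρ0.mul_const (‖y‖ + 1)
  have h3 := (ht.comp h2).const_mul ((‖y‖ + 1) ^ (n + 1))
  rw [mul_zero] at h3
  have h4 : ∫ z, cut 0 ‖y‖ 1 z * |⟪e, z⟫| ∂ν0 ≤ 0 := by
    refine le_of_tendsto_of_tendsto' h1 h3 fun k => ?_
    have := (h.resc x (hρ k)).isLocallyFinite
    have hk := hρ k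
    calc _ ≤ ∫ z, (ball (0 : Eu m) (‖y‖ + 1)).indicator (fun z => |⟪e, z⟫|) z ∂resc n ν x (ρ k) := by
          refine integral_mono_of_nonneg (Eventually.of_forall c4) ?_ (Eventually.of_forall fun z => ?_)
          · exact (integrable_indicator_iff measurableSet_ball).2
              ((c1.continuousOn.integrableOn_compact (isCompact_closedBall _ _)).mono_set
                ball_subset_closedBall)
          · by_cases c : z ∈ ball (0 : Eu m) (‖y‖ + 1)
            · simp only [Set.indicator_of_mem c]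
              exact mul_le_of_le_one_left (abs_nonneg _) (cut_le_one _ _ _ _)
            · simp only [Set.indicator_of_notMem c]
              rw [hc.supp z (not_lt.1 c), zero_mul]
      _ = _ := by
          rw [integral_indicator measurableSet_ball, setIntegral_ball_resc hk]
          simp only [smul_zero, add_zero, inner_smul_right, abs_mul, abs_of_pos (inv_pos.2 hk),
            integral_const_mul, smul_eq_mul, Function.comp_apply, mul_pow]
          field_simp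
          ring
  have := hν0.isLocallyFinite
  have h5 := (integral_eq_zero_iff_of_nonneg c4 (c2.integrable_of_hasCompactSupport c3)).1
    (le_antisymm h4 (integral_nonneg c4))
  have h6 := Measure.support_subset_of_isClosed (μ := ν0) (isClosed_eq c2 continuous_const) h5 hy
  rw [Set.mem_ofPred_eq, cut_eq_one one_pos (dist_zero_right y).le, one_mul] at h6
  exact abs_eq_zero.1 h6

theorem flat_refl_aux (hn : 1 ≤ n) (hnm : n ≤ m) (hC : 1 ≤ C) (k : ℕ) :
    ∀ (V : Submodule ℝ (Eu m)) (ν : Measure (Eu m)), Module.finrank ℝ V ≤ n + k → Up n C ν →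
      LowAll n C ν → Refl n ν → ν.support ⊆ V → ∀ x ∈ ν.support, ∀ r ε, 0 < r → 0 < ε →
        ∃ x' ∈ ν.support, ∃ r', 0 < r' ∧ r' ≤ r ∧ dist x' x < r ∧ bb n ν x' r' < ε := by
  induction k with
  | zero =>
    intro V ν hV _ _ _ hs x hx r ε hr hε
    exact ⟨x, hx, r, hr, le_rfl, by simpa using hr, (flatb_base hnm hV hs x hr).trans_lt hε⟩
  | succ k ih =>
    intro V ν hV h hl hrf hs x hx r ε hr hε
    by_cases c : Module.finrank ℝ V ≤ n
    · exact ⟨x, hx, r, hr, le_rfl, by simpa using hr, (flatb_base hnm c hs x hr).trans_lt hε⟩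
    have hC0 : 0 < C := by linarith
    obtain ⟨z, hzV, hzx, hz⟩ := hole hC h hl V (not_le.1 c) (hs hx) (r := r / 4) (by positivity)
    obtain ⟨x1, hx1, hd⟩ := ν.isClosed_support.exists_infDist_eq_dist ⟨x, hx⟩ z
    have hnear : ∀ y ∈ ν.support, dist x1 z ≤ dist y z := fun y hy => by
      rw [dist_comm x1, ← hd, dist_comm y]
      exact infDist_le_dist_of_mem hy
    have hx1x : dist x1 x < r / 2 := by
      have h1 := hnear x hx
      have h2 := dist_triangle x1 z x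
      rw [dist_comm x z] at h1
      linarith
    have he : x1 - z ≠ 0 := fun h0 => hz (sub_eq_zero.1 h0 ▸ hx1)
    set ρ : ℕ → ℝ := fun k => r / 4 / ((k : ℝ) + 1) with hρd
    have hρ : ∀ k, 0 < ρ k := fun k => by positivity
    have hρ' : ∀ k, ρ k ≤ r / 4 := fun k =>
      div_le_self (by positivity) (le_add_of_nonneg_left (Nat.cast_nonneg k))
    have hup : ∀ k, Up n C (resc n ν x1 (ρ k)) := fun k => h.resc x1 (hρ k)
    obtain ⟨ν0, hν0, hv⟩ := exists_vag hup
    have hl0 : LowAll n C ν0 := hv.lowAll hup hν0 hC0 fun R =>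
      Eventually.of_forall fun k => (hl.resc x1 (hρ k)).low 0 R
    have h00 : (0 : Eu m) ∈ ν0.support := hv.zero_mem hup hν0 hC0
      (Eventually.of_forall fun k => (hl.resc x1 (hρ k)).low 0 1)
      (Eventually.of_forall fun k => (mem_support_resc (hρ k) 0).2 (by simpa using hx1))
    have hr0 : Refl n ν0 := hv.refl_of_refl hn hC0.le hup hν0 fun k => hrf.resc h x1 (hρ k)
    have hs0 : ν0.support ⊆ (V ⊓ (ℝ ∙ (x1 - z))ᗮ : Submodule ℝ (Eu m)) := by
      intro y hy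
      refine ⟨?_, Submodule.mem_orthogonal_singleton_iff_inner_right.2
        (flatb_orth h hρ (flatb_tendsto _) (touch hn hC h hl hrf hx1 hnear) hv hν0 hy)⟩
      refine V.closed_of_finiteDimensional.closure_subset (Metric.mem_closure_iff.2 fun t ht => ?_)
      obtain ⟨k, y', h1, h2⟩ := (hv.near_support hup hν0 hy ht).exists
      refine ⟨y', ?_, by rwa [dist_comm]⟩
      have h3 := V.sub_mem (hs ((mem_support_resc (hρ k) y').1 h1)) (hs hx1)
      rw [add_sub_cancel_left] at h3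
      exact (V.smul_mem_iff (hρ k).ne').1 h3
    have hlt : V ⊓ (ℝ ∙ (x1 - z))ᗮ < V := by
      refine lt_of_le_of_ne inf_le_left fun h0 => he ?_
      have h1 : x1 - z ∈ V ⊓ (ℝ ∙ (x1 - z))ᗮ := h0.symm ▸ V.sub_mem (hs hx1) hzV
      exact inner_self_eq_zero.1 (Submodule.mem_orthogonal_singleton_iff_inner_right.1 h1.2)
    have hrk := Submodule.finrank_lt_finrank_of_lt hlt
    obtain ⟨x', hx', r', hr', hr'1, hx'0, hb⟩ :=
      ih _ ν0 (by omega) hν0 hl0 hr0 hs0 0 h00 1 ε one_pos hε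
    obtain ⟨j, y, h1, h2, h3⟩ := (flatb_back hnm hv hup hν0 hx' hr' hb one_pos).exists
    rw [bb_resc x1 (hρ j) y hr'] at h3
    have h4 := hρ j
    have h5 := hρ' j
    refine ⟨_, (mem_support_resc (hρ j) y).1 h1, _, mul_pos h4 hr', by nlinarith, ?_, h3⟩
    have h6 : ‖y‖ < 2 := by
      have := dist_triangle y x' 0
      rw [dist_zero_right] at this
      linarith
    have h7 := dist_triangle (x1 + ρ j • y) x1 x
    rw [dist_self_add_left, norm_smul, Real.norm_of_nonneg h4.le] at h7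
    nlinarith

theorem flat_refl (hn : 1 ≤ n) (hnm : n ≤ m) (hC : 1 ≤ C) (h : Up n C ν) (hl : LowAll n C ν)
    (hr : Refl n ν) {x : Eu m} (hx : x ∈ ν.support) {r ε : ℝ} (hr0 : 0 < r) (hε : 0 < ε) :
    ∃ x' ∈ ν.support, ∃ r', 0 < r' ∧ r' ≤ r ∧ dist x' x < r ∧ bb n ν x' r' < ε := by
  refine flat_refl_aux hn hnm hC m ⊤ ν ?_ h hl hr (Set.subset_univ _) x hx r ε hr0 hε
  simp

/-- Flattening: if `θ` is small there is a flat ball of comparable size. -/
theorem flat (n m : ℕ) (hn : 1 ≤ n) (hnm : n ≤ m) {C : ℝ} (hC : 1 ≤ C) {ε : ℝ} (hε : 0 < ε) :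
    ∃ A, 1 ≤ A ∧ ∃ δ, 0 < δ ∧ ∃ c, 0 < c ∧ ∀ (ν : Measure (Eu m)) [IsFiniteMeasure ν]
      (x : Eu m) (r : ℝ), Up n C ν → x ∈ ν.support → 0 < r → Low n C ν x (A * r) →
      Small n ν x (A * r) (δ * r ^ (n + 1)) →
      ∃ x' ∈ ν.support, ∃ r', c * r ≤ r' ∧ r' ≤ r / 2 ∧ dist x' x < r / 2 ∧ bb n ν x' r' ≤ ε := by
  by_contra hcon
  have hC0 : 0 < C := by linarith
  have key : ∀ k : ℕ, ∃ ν : Measure (Eu m), IsFiniteMeasure ν ∧ Up n C ν ∧ (0 : Eu m) ∈ ν.support ∧
      Low n C ν 0 (k + 1) ∧ Small n ν 0 (k + 1) (1 / (k + 1)) ∧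
      ∀ y ∈ ν.support, ∀ r', 1 / ((k : ℝ) + 1) ≤ r' → r' ≤ 1 / 2 → ‖y‖ < 1 / 2 → ε < bb n ν y r' := by
    intro k
    have hk : (0 : ℝ) < 1 / ((k : ℝ) + 1) := by positivity
    by_contra h1
    refine hcon ⟨k + 1, le_add_of_nonneg_left (Nat.cast_nonneg k), _, hk, _, hk,
      fun ν _ x r hu hx hr hl hs => ?_⟩
    by_contra h2
    refine h1 ⟨resc n ν x r, Measure.smul_finite _ ENNReal.ofReal_ne_top, hu.resc x hr,
      (mem_support_resc hr 0).2 (by simpa using hx), hl.resc hr, hs.resc hr,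
      fun y hy r' h3 h4 h5 => ?_⟩
    rw [bb_resc x hr y (hk.trans_le h3)]
    refine not_le.1 fun h6 => h2 ⟨_, (mem_support_resc hr y).1 hy, _, by nlinarith, by nlinarith, ?_, h6⟩
    rw [dist_self_add_left, norm_smul, Real.norm_of_nonneg hr.le]
    nlinarith
  choose νk hfin hup h0 hlow hsm hbad using key
  obtain ⟨ν0, hν0, hv⟩ := exists_vag hup
  have hev : ∀ R : ℝ, ∀ᶠ k : ℕ in UF, R ≤ (k : ℝ) + 1 := fun R =>
    ((tendsto_atTop_add_const_right _ 1 tendsto_natCast_atTop_atTop).mono_left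
      UF_le_atTop).eventually_ge_atTop R
  have hev' : ∀ θ : ℝ, 0 < θ → ∀ᶠ k : ℕ in UF, 1 / ((k : ℝ) + 1) ≤ θ := fun θ hθ =>
    (flatb_tendsto 1).eventually (ge_mem_nhds hθ)
  have hlow' : ∀ R, ∀ᶠ k in UF, Low n C (νk k) 0 R := fun R =>
    (hev R).mono fun k hk => (hlow k).mono (by simpa using hk)
  have hr0 : Refl n ν0 := hv.refl_of_small hn (hn.trans hnm) hC0.le hup hν0 fun R θ hθ => by
    filter_upwards [hev R, hev' θ hθ] with k h1 h2 L ψ hψ hz
    refine (hsm k L ψ (hψ.mono le_rfl (by simpa using h1)) hz).trans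
      (mul_le_mul_of_nonneg_right h2 (integral_nonneg fun p => ?_))
    exact mul_nonneg (mul_self_nonneg _) (kap_nonneg _ _ _)
  obtain ⟨x', hx', r', hr', hr'1, hx'0, hb⟩ := flat_refl hn hnm hC hν0
    (hv.lowAll hup hν0 hC0 hlow') hr0
    (hv.zero_mem hup hν0 hC0 (hlow' 1) (Eventually.of_forall h0)) (r := 1 / 4) (by norm_num) hε
  obtain ⟨j, ⟨y, h1, h2, h3⟩, h4⟩ :=
    ((flatb_back hnm hv hup hν0 hx' hr' hb (t := 1 / 4) (by norm_num)).and (hev' r' hr')).exists
  have h6 : ‖y‖ < 1 / 2 := by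
    have := dist_triangle y x' 0
    rw [dist_zero_right] at this
    linarith
  exact absurd h3 (not_lt.2 (hbad j y h1 r' h4 (by linarith) h6).le)

end Crest.Agent.R85
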