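import Crest.Agent.R85.Defs

/-!
# Gluing of the parametrisations (auxiliary file for `glue`).  Author: helper59.
-/

set_option autoImplicit false

open MeasureTheory Metric Filter Topology

noncomputable section

namespace Crest.Agent.R85

variable {n m : ℕ}

open Classical in
/-- The point `x` has fewer than `k` stopping indices `≥ j0`. -/
def glueFew (St : ℕ → Eu m → Prop) (k j0 : ℕ) (x : Eu m) : Prop :=
  ∀ J, ((Finset.range J).filter (fun j => j0 ≤ j ∧ St j x)).card < k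

theorem glueFew_zero {St : ℕ → Eu m → Prop} {j0 : ℕ} {x : Eu m} : ¬ glueFew St 0 j0 x :=
  fun h => Nat.not_lt_zero _ (h 0)

theorem glueFew_step {St : ℕ → Eu m → Prop} {k j0 j : ℕ} {x : Eu m}
    (h : glueFew St (k + 1) j0 x) (hj : j0 ≤ j) (hs : St j x) : glueFew St k (j + 1) x := by
  classical
  intro J
  have h1 := h (max J (j + 1))
  have h2 : insert j ((Finset.range J).filter (fun i => j + 1 ≤ i ∧ St i x)) ⊆
      (Finset.range (max J (j + 1))).filter (fun i => j0 ≤ i ∧ St i x) := by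
    intro i hi
    rcases Finset.mem_insert.1 hi with rfl | hi
    · exact Finset.mem_filter.2 ⟨Finset.mem_range.2 (by omega), hj, hs⟩
    · obtain ⟨a, b, c⟩ := Finset.mem_filter.1 hi
      have := Finset.mem_range.1 a
      exact Finset.mem_filter.2 ⟨Finset.mem_range.2 (by omega), by omega, c⟩
  have h3 := Finset.card_le_card h2
  rw [Finset.card_insert_of_notMem (by simp)] at h3
  convert (show _ < k by omega : ((Finset.range J).filter (fun i => j + 1 ≤ i ∧ St i x)).card < k)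

/-- A point that is approximated at all scales is a value of `g`. -/
theorem glue_limit {g : Eu n → Eu m} {L ρ r : ℝ} (hρ : 0 < ρ) (hρ1 : ρ < 1)
    (hg : ∀ u u', dist (g u) (g u') ≤ L * dist u u') (hL : 0 ≤ L) {x : Eu m}
    (h : ∀ i : ℕ, ∃ u, ‖u‖ ≤ 5 * r ∧ dist (g u) x ≤ 4 * (ρ ^ i * r)) :
    ∃ u, ‖u‖ ≤ 5 * r ∧ g u = x := by
  have hc : Continuous g := (LipschitzWith.of_dist_le_mul (K := ⟨L, hL⟩) hg).continuous
  obtain ⟨u0, hu0, -⟩ := h 0
  obtain ⟨u, hu, hmin⟩ := (isCompact_closedBall (0 : Eu n) (5 * r)).exists_isMinOn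
    ⟨u0, mem_closedBall_zero_iff.2 hu0⟩ (f := fun u => dist (g u) x) (by fun_prop)
  refine ⟨u, mem_closedBall_zero_iff.1 hu, dist_le_zero.1 ?_⟩
  have ht : Tendsto (fun i : ℕ => 4 * (ρ ^ i * r)) atTop (𝓝 (4 * (0 * r))) :=
    ((tendsto_pow_atTop_nhds_zero_of_lt_one hρ.le hρ1).mul_const r).const_mul 4
  rw [zero_mul, mul_zero] at ht
  refine ge_of_tendsto' ht fun i => ?_
  obtain ⟨v, hv, hv'⟩ := h i
  exact (hmin (mem_closedBall_zero_iff.2 hv)).trans hv'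

/-- The inductive statement. -/
def glueP (n : ℕ) (ρ r0 M : ℝ) (G : Set (Eu m)) (St : ℕ → Eu m → Prop) (k : ℕ) : Prop :=
  ∀ (j0 : ℕ) (x0 : Eu m) (G' : Set (Eu m)), G' ⊆ G ∩ ball x0 (ρ ^ j0 * r0) →
    (∀ x ∈ G', glueFew St k j0 x) → ∃ u : Eu m → Eu n, (∀ x ∈ G', ‖u x‖ ≤ 6 * (ρ ^ j0 * r0)) ∧
      ∀ x ∈ G', ∀ y ∈ G', dist x y ≤ M * dist (u x) (u y)

theorem glueP_zero (ρ r0 : ℝ) (G : Set (Eu m)) (St : ℕ → Eu m → Prop) :
    glueP n ρ r0 1 G St 0 := fun _ _ _ _ h =>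
  ⟨0, fun x hx => (glueFew_zero (h x hx)).elim, fun x hx => (glueFew_zero (h x hx)).elim⟩

theorem glueP_succ {ρ L r0 M : ℝ} (hρ : 0 < ρ) (hρ' : ρ ≤ 1 / 100) (hL : 1 ≤ L) (hM : 1 ≤ M)
    (hr0 : 0 < r0) {G : Set (Eu m)} {St : ℕ → Eu m → Prop}
    (H1 : ∀ j, ∀ x ∈ G, ∀ y ∈ G, St j x → dist x y ≤ 24 / ρ * (ρ ^ j * r0) →
      St j y ∧ dist x y < ρ ^ (j + 1) * r0)
    (H3 : ∀ (j0 : ℕ) (x0 : Eu m) (S : ℕ → Set (Eu m)), Antitone S →
      S 0 ⊆ G ∩ ball x0 (ρ ^ j0 * r0) → (∀ i, ∀ x ∈ S i, ¬ St (j0 + i) x) →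
      Cover n ρ L (ρ ^ j0 * r0) S)
    {k : ℕ} (ih : glueP n ρ r0 M G St k) : glueP n ρ r0 (6 * L * M) G St (k + 1) := by
  intro j0 x0 G' hG' hF
  have hρ1 : ρ < 1 := by linarith
  have hLM : 1 ≤ L * M := one_le_mul_of_one_le_of_one_le hL hM
  have hr : 0 < ρ ^ j0 * r0 := by positivity
  by_cases hA : ∃ x ∈ G', St j0 x
  · obtain ⟨x, hx, hs⟩ := hA
    have h1 : ∀ y ∈ G', St j0 y ∧ dist x y < ρ ^ (j0 + 1) * r0 := by
      intro y hy
      refine H1 j0 x (hG' hx).1 y (hG' hy).1 hs ?_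
      have a1 := mem_ball.1 (hG' hx).2
      have a2 := mem_ball.1 (hG' hy).2
      have a3 := dist_triangle_right x y x0
      have a4 : 2 ≤ 24 / ρ := by rw [le_div_iff₀ hρ]; linarith
      nlinarith
    obtain ⟨u, hu1, hu2⟩ := ih (j0 + 1) x G'
      (fun y hy => ⟨(hG' hy).1, mem_ball'.2 (h1 y hy).2⟩)
      fun y hy => glueFew_step (hF y hy) le_rfl (h1 y hy).1
    refine ⟨u, fun y hy => (hu1 y hy).trans ?_, fun y hy z hz => (hu2 y hy z hz).trans ?_⟩
    · rw [pow_succ]; nlinarith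
    · exact mul_le_mul_of_nonneg_right (by nlinarith) dist_nonneg
  push Not at hA
  set r := ρ ^ j0 * r0 with hrdef
  let S : ℕ → Set (Eu m) := fun i => {x | x ∈ G' ∧ ∀ l ≤ i, ¬ St (j0 + l) x}
  have hanti : Antitone S := fun i i' h x hx => ⟨hx.1, fun l hl => hx.2 l (hl.trans h)⟩
  obtain ⟨g, hg, hcov⟩ := H3 j0 x0 S hanti (fun x hx => hG' hx.1) fun i x hx => hx.2 i le_rfl
  let T : ℕ → Eu m → Prop := fun i x => x ∈ S i ∧ St (j0 + (i + 1)) x
  have hTle : ∀ {i i' x}, T i x → x ∈ S i' → i' ≤ i := fun {i i' x} h h' => by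
    by_contra hlt
    exact h'.2 (i + 1) (by omega) h.2
  have hdich : ∀ x ∈ G', (∀ i, x ∈ S i) ∨ ∃ i, T i x := by
    intro x hx
    by_contra hcon
    push Not at hcon
    obtain ⟨⟨i, hi⟩, h2⟩ := hcon
    refine hi ?_
    clear hi
    induction i with
    | zero => exact ⟨hx, fun l hl => by obtain rfl := Nat.le_zero.1 hl; exact hA x hx⟩
    | succ i ihi =>
      refine ⟨hx, fun l hl => ?_⟩
      rcases Nat.lt_or_eq_of_le hl with hl | rfl
      · exact ihi.2 l (by omega)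
      · exact fun hs => h2 i ⟨ihi, hs⟩
  have he1 : ∀ i, 24 / ρ * (ρ ^ (j0 + (i + 1)) * r0) = 24 * (ρ ^ i * r) := fun i => by
    rw [hrdef]; field_simp; ring
  have he2 : ∀ i, ρ ^ (j0 + (i + 1) + 1) * r0 = ρ ^ 2 * (ρ ^ i * r) := fun i => by
    rw [hrdef]; ring
  have hρ2 : ρ ^ 2 ≤ 1 / 100 := by nlinarith
  have hri : ∀ i, 0 < ρ ^ i * r := fun i => by positivity
  have hnear : ∀ {i x y}, T i x → y ∈ G' → dist x y ≤ 24 * (ρ ^ i * r) →
      St (j0 + (i + 1)) y ∧ dist x y < ρ ^ 2 * (ρ ^ i * r) := fun {i x y} hx hy hd => by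
    rw [← he2]
    exact H1 _ x (hG' hx.1.1).1 y (hG' hy).1 hx.2 (by rwa [he1])
  let cl : ℕ → Eu m → Set (Eu m) := fun i x => {y | T i y ∧ dist x y ≤ 24 * (ρ ^ i * r)}
  have hclsub : ∀ {i x y}, T i x → y ∈ cl i x → cl i y ⊆ cl i x := fun {i x y} hx hy z hz => by
    refine ⟨hz.1, ?_⟩
    have a1 := (hnear hx hy.1.1.1 hy.2).2
    have a2 := (hnear hy.1 hz.1.1.1 hz.2).2
    have a3 := dist_triangle x y z
    have := hri i
    nlinarith
  have hcleq : ∀ {i x y}, T i x → y ∈ cl i x → cl i y = cl i x := fun {i x y} hx hy =>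
    (hclsub hx hy).antisymm (hclsub hy.1 ⟨hx, by rw [dist_comm]; exact hy.2⟩)
  have hself : ∀ {i x}, T i x → x ∈ cl i x := fun {i x} hx =>
    ⟨hx, by rw [dist_self]; have := hri i; positivity⟩
  have hdata : ∀ (i : ℕ) (C : Set (Eu m)), ∃ (w : Eu n) (v : Eu m → Eu n),
      (∃ z, T i z ∧ C = cl i z) → ‖w‖ ≤ 5 * r ∧
        (∀ x ∈ C, dist (g w) x ≤ (4 + ρ ^ 2) * (ρ ^ i * r)) ∧
        (∀ x ∈ C, ‖v x‖ ≤ 6 * (ρ ^ 2 * (ρ ^ i * r))) ∧
        ∀ x ∈ C, ∀ y ∈ C, dist x y ≤ M * dist (v x) (v y) := by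
    intro i C
    by_cases hC : ∃ z, T i z ∧ C = cl i z
    · obtain ⟨z, hz, rfl⟩ := hC
      obtain ⟨w, hw1, hw2⟩ := hcov i z hz.1
      obtain ⟨v, hv1, hv2⟩ := ih (j0 + (i + 1) + 1) z (cl i z)
        (fun y hy => ⟨(hG' hy.1.1.1).1, mem_ball'.2 (by
          rw [he2]; exact (hnear hz hy.1.1.1 hy.2).2)⟩)
        fun y hy => glueFew_step (hF y hy.1.1.1) (Nat.le_add_right _ _) hy.1.2
      refine ⟨w, v, fun _ => ⟨hw1, fun x hx => ?_, fun x hx => by rw [← he2]; exact hv1 x hx, hv2⟩⟩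
      have a1 := (hnear hz hx.1.1.1 hx.2).2
      have a2 := dist_triangle (g w) z x
      linarith
    · exact ⟨0, 0, fun h => (hC h).elim⟩
  choose w v hwv using hdata
  have hu : ∀ x, ∃ ux : Eu n, ((∀ i, x ∈ S i) → ‖ux‖ ≤ 5 * r ∧ g ux = x) ∧
      ∀ i, T i x → ux = w i (cl i x) + (6 * L)⁻¹ • v i (cl i x) x := by
    intro x
    by_cases h1 : ∀ i, x ∈ S i
    · obtain ⟨ux, hux⟩ := glue_limit hρ hρ1 hg (by linarith) fun i => hcov i x (h1 i)
      exact ⟨ux, fun _ => hux, fun i hi => absurd (hTle hi (h1 (i + 1))) (by omega)⟩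
    · by_cases h2 : ∃ i, T i x
      · obtain ⟨i, hi⟩ := h2
        refine ⟨w i (cl i x) + (6 * L)⁻¹ • v i (cl i x) x, fun h => (h1 h).elim, fun i' hi' => ?_⟩
        obtain rfl : i = i' := le_antisymm (hTle hi' hi.1) (hTle hi hi'.1)
        rfl
      · exact ⟨0, fun h => (h1 h).elim, fun i hi => (h2 ⟨i, hi⟩).elim⟩
  choose u hu1 hu2 using hu
  have hL0 : 0 < 6 * L := by linarith
  have hsm : ∀ {i x}, T i x → L * ‖(6 * L)⁻¹ • v i (cl i x) x‖ ≤ ρ ^ 2 * (ρ ^ i * r) :=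
    fun {i x} hx => by
      have a1 := (hwv i _ ⟨x, hx, rfl⟩).2.2.1 x (hself hx)
      rw [norm_smul, Real.norm_of_nonneg (inv_nonneg.2 hL0.le), ← mul_assoc,
        show L * (6 * L)⁻¹ = 1 / 6 by field_simp]
      linarith
  have herr : ∀ {i y}, y ∈ S i → dist (g (u y)) y ≤ 5 * (ρ ^ i * r) := fun {i y} hy => by
    rcases hdich y hy.1 with h | ⟨i', h⟩
    · rw [(hu1 y h).2, dist_self]; have := hri i; positivity
    · have a1 := (hwv i' _ ⟨y, h, rfl⟩).2.1 y (hself h)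
      have a2 := hg (u y) (w i' (cl i' y))
      rw [hu2 y i' h, dist_eq_norm (_ + _), add_sub_cancel_left, ← hu2 y i' h] at a2
      have a3 := hsm h
      have a4 := dist_triangle (g (u y)) (g (w i' (cl i' y))) y
      have a5 : ρ ^ i' * r ≤ ρ ^ i * r :=
        mul_le_mul_of_nonneg_right (pow_le_pow_of_le_one hρ.le hρ1.le (hTle h hy)) hr.le
      have := hri i'
      nlinarith
  have hmain : ∀ {i x y}, T i x → y ∈ S i → dist x y ≤ 6 * L * M * dist (u x) (u y) :=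
    fun {i x y} hx hy => by
      by_cases hc : y ∈ cl i x
      · have a1 := (hwv i _ ⟨x, hx, rfl⟩).2.2.2 x (hself hx) y hc
        rw [hu2 x i hx, hu2 y i hc.1, hcleq hx hc, dist_add_left, dist_smul₀,
          Real.norm_of_nonneg (inv_nonneg.2 hL0.le)]
        refine a1.trans (le_of_eq ?_)
        field_simp
      · have a1 : 24 * (ρ ^ i * r) < dist x y := by
          by_contra hle
          push Not at hle
          exact hc ⟨⟨hy, (hnear hx hy.1 hle).1⟩, hle⟩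
        have a2 := herr hx.1
        have a3 := herr hy
        have a4 := hg (u x) (u y)
        have a5 := dist_triangle4 x (g (u x)) (g (u y)) y
        rw [dist_comm x (g (u x))] at a5
        have a6 : 0 ≤ L * dist (u x) (u y) := by positivity
        have a7 : L * dist (u x) (u y) ≤ L * dist (u x) (u y) * M := le_mul_of_one_le_right a6 hM
        nlinarith
  refine ⟨u, fun x hx => ?_, fun x hx y hy => ?_⟩
  · rcases hdich x hx with h | ⟨i, h⟩
    · linarith [(hu1 x h).1]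
    · rw [hu2 x i h]
      have a1 := (hwv i _ ⟨x, h, rfl⟩).1
      have a2 := hsm h
      have a3 := norm_add_le (w i (cl i x)) ((6 * L)⁻¹ • v i (cl i x) x)
      have a4 := le_mul_of_one_le_left (norm_nonneg ((6 * L)⁻¹ • v i (cl i x) x)) hL
      have a5 : ρ ^ i * r ≤ r := mul_le_of_le_one_left hr.le (pow_le_one₀ hρ.le hρ1.le)
      have := hri i
      nlinarith
  · rcases hdich x hx with h | ⟨i, h⟩ <;> rcases hdich y hy with h' | ⟨i', h'⟩
    · have a1 := hg (u x) (u y)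
      rw [(hu1 x h).2, (hu1 y h').2] at a1
      refine a1.trans (mul_le_mul_of_nonneg_right ?_ dist_nonneg)
      nlinarith
    · rw [dist_comm x, dist_comm (u x)]
      exact hmain h' (h i')
    · exact hmain h (h' i)
    · rcases le_total i i' with hi | hi
      · exact hmain h (hanti hi h'.1)
      · rw [dist_comm x, dist_comm (u x)]
        exact hmain h' (hanti hi h.1)

theorem glueP_all {ρ L r0 : ℝ} (hρ : 0 < ρ) (hρ' : ρ ≤ 1 / 100) (hL : 1 ≤ L)
    (hr0 : 0 < r0) {G : Set (Eu m)} {St : ℕ → Eu m → Prop}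
    (H1 : ∀ j, ∀ x ∈ G, ∀ y ∈ G, St j x → dist x y ≤ 24 / ρ * (ρ ^ j * r0) →
      St j y ∧ dist x y < ρ ^ (j + 1) * r0)
    (H3 : ∀ (j0 : ℕ) (x0 : Eu m) (S : ℕ → Set (Eu m)), Antitone S →
      S 0 ⊆ G ∩ ball x0 (ρ ^ j0 * r0) → (∀ i, ∀ x ∈ S i, ¬ St (j0 + i) x) →
      Cover n ρ L (ρ ^ j0 * r0) S) (k : ℕ) : glueP n ρ r0 ((6 * L) ^ k) G St k := by
  induction k with
  | zero => rw [pow_zero]; exact glueP_zero _ _ _ _
  | succ k ih =>
    rw [pow_succ']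
    exact glueP_succ hρ hρ' hL (one_le_pow₀ (by linarith)) hr0 H1 H3 ih

end Crest.Agent.R85
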