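import Crest.Agent.R85.Defs

/-!
# Colouring, coding and extension (auxiliary file for `Glue`)
-/

set_option autoImplicit false

open MeasureTheory Metric Filter Topology
open scoped ENNReal

noncomputable section

namespace Crest.Agent.R85

theorem ga_exists_colour (m : ℕ) (Λ : ℝ) {lam : ℝ} (hlam : 0 < lam) :
    ∃ M : ℕ, 0 < M ∧ ∀ r : ℝ, 0 < r → ∃ col : Eu m → Fin M, Measurable col ∧
      ∀ x y, col x = col y → dist x y ≤ Λ * r → dist x y ≤ lam * r := by
  classical
  obtain ⟨q0, hq0⟩ := exists_nat_gt (Λ * ((m : ℝ) + 1) / lam + 2)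
  set q : ℕ := q0 + 1 with hq
  have : NeZero q := ⟨by omega⟩
  refine ⟨Fintype.card (Fin m → ZMod q), Fintype.card_pos, fun r hr => ?_⟩
  have hm1 : (0 : ℝ) < (m : ℝ) + 1 := by positivity
  set l : ℝ := lam * r / ((m : ℝ) + 1) with hl
  have hlpos : 0 < l := by positivity
  let c : Eu m → (Fin m → ℤ) := fun x i => ⌊x i / l⌋
  have hc : Measurable c := by
    refine measurable_pi_lambda _ fun i => Measurable.floor ?_
    exact (Continuous.measurable (by fun_prop)).div_const l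
  let F : (Fin m → ℤ) → Fin (Fintype.card (Fin m → ZMod q)) :=
    fun z => Fintype.equivFin _ (fun i => ((z i : ℤ) : ZMod q))
  refine ⟨F ∘ c, (measurable_of_countable F).comp hc, fun x y hxy hd => ?_⟩
  have h1 : ∀ i, ((c x i : ℤ) : ZMod q) = ((c y i : ℤ) : ZMod q) := fun i =>
    congrFun ((Fintype.equivFin _).injective hxy) i
  have hco : ∀ i, |x i - y i| ≤ dist x y := fun i => by
    have := PiLp.dist_apply_le x y i
    rwa [Real.dist_eq] at this
  have h2 : ∀ i, |x i - y i| ≤ l := by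
    intro i
    have hdvd : (q : ℤ) ∣ c y i - c x i := (ZMod.intCast_eq_intCast_iff_dvd_sub _ _ _).1 (h1 i)
    have hb : |x i / l - y i / l| ≤ Λ * ((m : ℝ) + 1) / lam := by
      rw [← sub_div, abs_div, abs_of_pos hlpos, div_le_iff₀ hlpos]
      have : Λ * ((m : ℝ) + 1) / lam * l = Λ * r := by
        rw [hl]; field_simp
      rw [this]; exact (hco i).trans hd
    have hx1 := Int.floor_le (x i / l)
    have hx2 := Int.lt_floor_add_one (x i / l)
    have hy1 := Int.floor_le (y i / l)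
    have hy2 := Int.lt_floor_add_one (y i / l)
    have hb' := abs_le.1 hb
    have hlt : |c y i - c x i| < (q : ℤ) := by
      have : |((c y i - c x i : ℤ) : ℝ)| < ((q : ℤ) : ℝ) := by
        have hqq : ((q : ℤ) : ℝ) = (q0 : ℝ) + 1 := by rw [hq]; push_cast; ring
        rw [hqq, abs_lt]
        push_cast
        constructor <;> simp only [c] <;> linarith [hb'.1, hb'.2]
      exact_mod_cast this
    have h0 : c y i - c x i = 0 := Int.eq_zero_of_abs_lt_dvd hdvd hlt
    have heq : (⌊y i / l⌋ : ℝ) = (⌊x i / l⌋ : ℝ) := by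
      have : c y i = c x i := by omega
      exact_mod_cast this
    have h3 : |x i / l - y i / l| ≤ 1 := by
      rw [abs_le]; constructor <;> linarith
    rw [← sub_div, abs_div, abs_of_pos hlpos, div_le_iff₀ hlpos, one_mul] at h3
    exact h3
  have h4 : lam * r = ((m : ℝ) + 1) * l := by rw [hl]; field_simp
  rw [h4, EuclideanSpace.dist_eq]
  refine Real.sqrt_le_iff.2 ⟨by positivity, ?_⟩
  have h5 : ∑ i : Fin m, dist (x i) (y i) ^ 2 ≤ ∑ _i : Fin m, l ^ 2 := by
    refine Finset.sum_le_sum fun i _ => ?_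
    rw [Real.dist_eq]
    exact pow_le_pow_left₀ (abs_nonneg _) (h2 i) 2
  refine h5.trans ?_
  simp only [Finset.sum_const, Finset.card_univ, Fintype.card_fin, nsmul_eq_mul]
  have hm0 : (0 : ℝ) ≤ m := Nat.cast_nonneg m
  have : (m : ℝ) ≤ ((m : ℝ) + 1) ^ 2 := by nlinarith
  rw [mul_pow]
  exact mul_le_mul_of_nonneg_right this (by positivity)

open Classical in
/-- The factor by which a weight is multiplied in one coding step. -/
def gaFac {X : Type*} {M : ℕ} (B : Set X) (col : X → Fin M) (ω : Fin M) (x : X) : ℝ≥0∞ :=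
  if x ∈ B then (if col x = ω then (M : ℝ≥0∞) else 0) else 1

theorem gaFac_meas {X : Type*} [MeasurableSpace X] {M : ℕ} {B : Set X} (hB : MeasurableSet B)
    {col : X → Fin M} (hcol : Measurable col) (ω : Fin M) : Measurable (gaFac B col ω) := by
  unfold gaFac
  refine Measurable.ite hB (Measurable.ite ?_ measurable_const measurable_const) measurable_const
  exact hcol (measurableSet_singleton ω)

theorem gaFac_sum {X : Type*} {M : ℕ} (B : Set X) (col : X → Fin M) (x : X) :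
    ∑ ω, gaFac B col ω x = M := by
  unfold gaFac
  by_cases h : x ∈ B
  · simp [h]
  · simp [h]

theorem ga_step {X : Type*} [MeasurableSpace X] (ν : Measure X) {M : ℕ} (hM : 0 < M) {B : Set X}
    (hB : MeasurableSet B) {col : X → Fin M} (hcol : Measurable col) {w : X → ℝ≥0∞}
    (hw : Measurable w) :
    ∃ ω, ∫⁻ x, w x ∂ν ≤ ∫⁻ x, w x * gaFac B col ω x ∂ν := by
  have : Nonempty (Fin M) := ⟨⟨0, hM⟩⟩
  have h : ∑ _ω : Fin M, ∫⁻ x, w x ∂ν ≤ ∑ ω : Fin M, ∫⁻ x, w x * gaFac B col ω x ∂ν := by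
    rw [← lintegral_finsetSum (f := fun ω x => w x * gaFac B col ω x) _
      (fun ω _ => hw.mul (gaFac_meas hB hcol ω))]
    simp_rw [← Finset.mul_sum, gaFac_sum]
    rw [lintegral_mul_const _ hw]
    simp [mul_comm]
  obtain ⟨ω, -, hω⟩ := ENNReal.exists_le_of_sum_le Finset.univ_nonempty h
  exact ⟨ω, hω⟩

open Classical in
theorem ga_code_abs {X : Type*} [MeasurableSpace X] (ν : Measure X) [IsFiniteMeasure ν] {M : ℕ}
    (hM : 0 < M) (Nn : ℕ) (G : Set X) (WB : ℕ → Set X) (col : ℕ → X → Fin M)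
    (hcol : ∀ j, Measurable (col j)) (hG : MeasurableSet G) (hWB : ∀ j, MeasurableSet (WB j))
    (hN : ∀ x ∈ G, ∀ J, ((Finset.range J).filter (fun j => x ∈ WB j)).card ≤ Nn) :
    ∃ G' ⊆ G, ν G ≤ (M : ℝ≥0∞) ^ Nn * ν G' ∧ ∀ j, ∀ x ∈ G', ∀ y ∈ G', x ∈ WB j → y ∈ WB j →
      col j x = col j y := by
  have hstep : ∀ (j : ℕ) (w : {w : X → ℝ≥0∞ // Measurable w}),
      ∃ ω, ∫⁻ x, w.1 x ∂ν ≤ ∫⁻ x, w.1 x * gaFac (WB j) (col j) ω x ∂ν :=
    fun j w => ga_step ν hM (hWB j) (hcol j) w.2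
  choose ω hω using hstep
  let W : ℕ → {w : X → ℝ≥0∞ // Measurable w} := fun j => Nat.rec
    (⟨G.indicator 1, measurable_one.indicator hG⟩ : {w : X → ℝ≥0∞ // Measurable w})
    (fun j w => ⟨fun x => w.1 x * gaFac (WB j) (col j) (ω j w) x,
      w.2.mul (gaFac_meas (hWB j) (hcol j) _)⟩) j
  have W0 : (W 0).1 = G.indicator 1 := rfl
  have WS : ∀ j x, (W (j + 1)).1 x = (W j).1 x * gaFac (WB j) (col j) (ω j (W j)) x :=
    fun j x => rfl
  have hint : ∀ j, ν G ≤ ∫⁻ x, (W j).1 x ∂ν := by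
    intro j
    induction j with
    | zero => rw [W0, lintegral_indicator_one hG]
    | succ j ih => exact ih.trans (hω j (W j))
  have hM1 : (1 : ℝ≥0∞) ≤ M := by exact_mod_cast hM
  have hbd : ∀ j x,
      (W j).1 x ≤ (M : ℝ≥0∞) ^ ((Finset.range j).filter (fun i => x ∈ WB i)).card := by
    intro j x
    induction j with
    | zero =>
      rw [W0]
      by_cases h : x ∈ G <;> simp [h]
    | succ j ih =>
      rw [WS, Finset.range_add_one, Finset.filter_insert]
      by_cases h : x ∈ WB j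
      · rw [if_pos h, Finset.card_insert_of_notMem (by simp), pow_succ]
        refine mul_le_mul' ih ?_
        unfold gaFac
        rw [if_pos h]
        split_ifs <;> simp
      · rw [if_neg h]
        unfold gaFac
        rw [if_neg h, mul_one]
        exact ih
  let A : ℕ → Set X := fun j => {x | (W j).1 x ≠ 0}
  have hAm : ∀ j, MeasurableSet (A j) := fun j =>
    ((W j).2 (measurableSet_singleton 0)).compl
  have hAanti : Antitone A := by
    refine antitone_nat_of_succ_le fun j x hx => ?_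
    intro h0
    apply hx
    rw [WS, h0, zero_mul]
  have hAG : ∀ j, A j ⊆ G := by
    intro j x hx
    have h0 : x ∈ A 0 := hAanti (Nat.zero_le j) hx
    by_contra hxG
    apply h0
    rw [W0]
    simp [hxG]
  have hA : ∀ j, ν G ≤ (M : ℝ≥0∞) ^ Nn * ν (A j) := by
    intro j
    refine (hint j).trans ?_
    rw [← lintegral_indicator_const (hAm j)]
    refine lintegral_mono fun x => ?_
    by_cases hx : x ∈ A j
    · rw [Set.indicator_of_mem hx]
      exact (hbd j x).trans (pow_le_pow_right₀ hM1 (hN x (hAG j hx) j))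
    · have : (W j).1 x = 0 := by
        by_contra h
        exact hx h
      simp [this]
  refine ⟨⋂ j, A j, (Set.iInter_subset _ 0).trans (hAG 0), ?_, ?_⟩
  · rw [hAanti.measure_iInter (fun j => (hAm j).nullMeasurableSet) ⟨0, measure_ne_top _ _⟩,
      ENNReal.mul_iInf_of_ne (pow_ne_zero _ (by exact_mod_cast hM.ne'))
        (ENNReal.pow_ne_top (ENNReal.natCast_ne_top M))]
    exact le_iInf hA
  · intro j x hx y hy hxj hyj
    have key : ∀ z ∈ ⋂ j, A j, z ∈ WB j → col j z = ω j (W j) := by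
      intro z hz hzj
      have h1 : (W (j + 1)).1 z ≠ 0 := Set.mem_iInter.1 hz (j + 1)
      by_contra hne
      apply h1
      rw [WS]
      unfold gaFac
      rw [if_pos hzj, if_neg hne, mul_zero]
    rw [key x hx hxj, key y hy hyj]

open Classical in
theorem ga_code (m : ℕ) (Λ : ℝ) {lam : ℝ} (hlam : 0 < lam) (Nn : ℕ) :
    ∃ θ, 0 < θ ∧ ∀ (ν : Measure (Eu m)) [IsFiniteMeasure ν] (r : ℕ → ℝ) (G : Set (Eu m))
      (WB : ℕ → Set (Eu m)), (∀ j, 0 < r j) → MeasurableSet G → (∀ j, MeasurableSet (WB j)) →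
      (∀ x ∈ G, ∀ J, ((Finset.range J).filter (fun j => x ∈ WB j)).card ≤ Nn) →
      ∃ G' ⊆ G, θ * ν.real G ≤ ν.real G' ∧ ∀ j, ∀ x ∈ G', ∀ y ∈ G', x ∈ WB j → y ∈ WB j →
        dist x y ≤ Λ * r j → dist x y ≤ lam * r j := by
  obtain ⟨M, hM, hcol⟩ := ga_exists_colour m Λ hlam
  have hMr : (0 : ℝ) < (M : ℝ) ^ Nn := by positivity
  refine ⟨((M : ℝ) ^ Nn)⁻¹, by positivity, fun ν _ r G WB hr hG hWB hN => ?_⟩
  choose col hcm hcc using fun j => hcol (r j) (hr j)
  obtain ⟨G', hG', hle, hc⟩ := ga_code_abs ν hM Nn G WB col hcm hG hWB hN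
  refine ⟨G', hG', ?_, fun j x hx y hy hxj hyj hd => hcc j x y (hc j x hx y hy hxj hyj) hd⟩
  rw [inv_mul_le_iff₀ hMr]
  have h := ENNReal.toReal_mono
    (ENNReal.mul_ne_top (ENNReal.pow_ne_top (ENNReal.natCast_ne_top M)) (measure_ne_top ν G')) hle
  rw [ENNReal.toReal_mul, ENNReal.toReal_pow, ENNReal.toReal_natCast] at h
  exact h

theorem ga_extend (n m : ℕ) (M : ℝ) : ∃ M' : NNReal, ∀ (G : Set (Eu m)) (u : Eu m → Eu n),
    (∀ x ∈ G, ∀ y ∈ G, dist x y ≤ M * dist (u x) (u y)) →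
    ∃ g : Eu n → Eu m, LipschitzWith M' g ∧ ∀ x ∈ G, g (u x) = x := by
  refine ⟨lipschitzExtensionConstant (Eu m) * Real.toNNReal M, fun G u hu => ?_⟩
  have hinj : Set.InjOn u G := by
    intro x hx y hy hxy
    have := hu x hx y hy
    rw [hxy, dist_self, mul_zero] at this
    exact dist_le_zero.1 this
  have hleft : ∀ x ∈ G, Function.invFunOn u G (u x) = x := fun x hx =>
    hinj.leftInvOn_invFunOn hx
  have hL : LipschitzOnWith (Real.toNNReal M) (Function.invFunOn u G) (u '' G) := by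
    refine LipschitzOnWith.of_dist_le' ?_
    rintro _ ⟨x, hx, rfl⟩ _ ⟨y, hy, rfl⟩
    rw [hleft x hx, hleft y hy]
    exact hu x hx y hy
  obtain ⟨g, hg, hEq⟩ := hL.extend_finite_dimension
  exact ⟨g, hg, fun x hx => by rw [← hEq ⟨x, hx, rfl⟩, hleft x hx]⟩

end Crest.Agent.R85
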