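import Crest.Agent.R85.Plane
import Crest.Agent.R85.GlueBx
import Crest.Agent.R85.Glueax

/-!
# Colouring and gluing (task Glue)

`exists_colour`: `col x i = ⌊x i / l⌋ mod q` with `l = lam r / (m+1)` and `q > Λ (m+1)/lam + 2`.
`code`: weights `w 0 = 1_G`, `w (j+1) x = w j x · (if x ∈ WB j then (if col j x = ω j then M else 0)
else 1)`; the average over `ω j` of `∫ w (j+1)` is `∫ w j`, so some `ω j` does not decrease it.
`w j ≤ M^Nn 1_{G j}` with `G j` decreasing measurable; `G' = ⋂ G j`.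

`glue`: induction on `k` for the statement: for all `j0 x0` and `G' ⊆ G ∩ ball x0 r_{j0}` whose points
have `< k` indices `j ≥ j0` with `St j`, there is `u` with `‖u x‖ ≤ 6 r_{j0}` and
`dist x y ≤ M_k dist (u x) (u y)` (`k = 0`: `G' = ∅`; `M_{k+1} = 6 L M_k`, `M_0 = 1`).
If some point has `St j0`, all have, `G' ⊆ ball x r_{j0+1}`: induction hypothesis at `j0+1`.
Otherwise `S i = {x ∈ G' | ∀ l ≤ i, ¬ St (j0+l) x}`, `g` from the oracle.  A point in all `S i` is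
`g (u x)` with `‖u x‖ ≤ 5 r` (compactness).  A stopped point `x` has a first stopping index
`j x > j0`; the cluster `cl x = {y ∈ G' stopped | j y = j x, dist x y ≤ (24/ρ) r_{j x}}` is an
equivalence class of diameter `< r_{j+1}`; choose a representative `z` depending only on the class,
`u_z` with `dist (g u_z) z ≤ 4 r_{j-1}`, `u_c` from the induction hypothesis at `(j+1, z)`, and put
`u x = u_z + (6L)⁻¹ • u_c x`.  Then `dist (g (u x)) x ≤ (5/ρ) r_{j x}`, and points of different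
classes with `j x ≤ j y` (or `y` never stopped) have `dist x y > (24/ρ) r_{j x}`.

`extend`: `u` is injective on `G`, invert and use `LipschitzOnWith.extend_finite_dimension`.
-/

set_option autoImplicit false

open MeasureTheory Metric Filter Topology
open scoped RealInnerProductSpace

noncomputable section

namespace Crest.Agent.R85

variable {m : ℕ}

theorem exists_colour (m : ℕ) (Λ : ℝ) {lam : ℝ} (hlam : 0 < lam) :
    ∃ M : ℕ, 0 < M ∧ ∀ r : ℝ, 0 < r → ∃ col : Eu m → Fin M, Measurable col ∧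
      ∀ x y, col x = col y → dist x y ≤ Λ * r → dist x y ≤ lam * r :=
  ga_exists_colour m Λ hlam

open Classical in
theorem code (m : ℕ) (Λ : ℝ) {lam : ℝ} (hlam : 0 < lam) (Nn : ℕ) :
    ∃ θ, 0 < θ ∧ ∀ (ν : Measure (Eu m)) [IsFiniteMeasure ν] (r : ℕ → ℝ) (G : Set (Eu m))
      (WB : ℕ → Set (Eu m)), (∀ j, 0 < r j) → MeasurableSet G → (∀ j, MeasurableSet (WB j)) →
      (∀ x ∈ G, ∀ J, ((Finset.range J).filter (fun j => x ∈ WB j)).card ≤ Nn) →
      ∃ G' ⊆ G, θ * ν.real G ≤ ν.real G' ∧ ∀ j, ∀ x ∈ G', ∀ y ∈ G', x ∈ WB j → y ∈ WB j →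
        dist x y ≤ Λ * r j → dist x y ≤ lam * r j :=
  ga_code m Λ hlam Nn

open Classical in
theorem glue (n m : ℕ) {ρ L : ℝ} (hρ : 0 < ρ) (hρ' : ρ ≤ 1 / 100) (hL : 1 ≤ L) (k : ℕ) :
    ∃ M, 0 < M ∧ ∀ (r0 : ℝ) (G : Set (Eu m)) (St : ℕ → Eu m → Prop), 0 < r0 →
      (∀ j, ∀ x ∈ G, ∀ y ∈ G, St j x → dist x y ≤ 24 / ρ * (ρ ^ j * r0) →
        St j y ∧ dist x y < ρ ^ (j + 1) * r0) →
      (∀ x ∈ G, ∀ J, ((Finset.range J).filter (fun j => St j x)).card ≤ k) →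
      (∀ (j0 : ℕ) (x0 : Eu m) (S : ℕ → Set (Eu m)), Antitone S →
        S 0 ⊆ G ∩ ball x0 (ρ ^ j0 * r0) → (∀ i, ∀ x ∈ S i, ¬ St (j0 + i) x) →
        Cover n ρ L (ρ ^ j0 * r0) S) →
      ∀ x0, G ⊆ ball x0 r0 → ∃ u : Eu m → Eu n, (∀ x ∈ G, ‖u x‖ ≤ 6 * r0) ∧
        ∀ x ∈ G, ∀ y ∈ G, dist x y ≤ M * dist (u x) (u y) := by
  refine ⟨(6 * L) ^ (k + 1), by positivity, fun r0 G St hr0 H1 H2 H3 x0 hG => ?_⟩
  have h := glueP_all hρ hρ' hL hr0 H1 H3 (k + 1) 0 x0 G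
    (fun x hx => ⟨hx, by simpa using hG hx⟩) fun x hx J => by
      simpa [Nat.lt_succ_iff] using H2 x hx J
  simpa using h

theorem extend (n m : ℕ) (M : ℝ) : ∃ M' : NNReal, ∀ (G : Set (Eu m)) (u : Eu m → Eu n),
    (∀ x ∈ G, ∀ y ∈ G, dist x y ≤ M * dist (u x) (u y)) →
    ∃ g : Eu n → Eu m, LipschitzWith M' g ∧ ∀ x ∈ G, g (u x) = x :=
  ga_extend n m M

end Crest.Agent.R85
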