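import Crest.Agent.R85.KernB

/-!
# The renormalised transform `hh` and reflectionless measures (task HhA)

`hh_cauchy`: `∫ ψ • (hh s - hh t) = ∬ ψ(x) (K_s - K_t)(x-y) = ½ ∬ (ψ x - ψ y)(K_s - K_t)(x-y)`
(the integrand is integrable on `ν.prod ν`, swap the variables, `K` is odd), and
`|ψ x - ψ y| ‖K_s - K_t‖ ≤ L ‖x-y‖² (κ_t - κ_s) (1_B(x) + 1_B(y))`, `B = ball x0 R`; use `Up.diff`.

`refl_bound`: fix `x1` in the support, `ψ0 = cut x1 (1/2) (1/2) / ∫`, and let `c0` be the limit of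
`∫ ψ0 • hh s` (Cauchy by `hh_cauchy`).  For a test function `ψ`, `ψ - (∫ψ) ψ0` has mean zero, which
gives the second claim.  For `x` in the support and `s > 0` take the bump
`φ = cut x (s/2) (s/2) / ∫` (Lipschitz constant `≤ 2^(n+1) C / s^(n+1)`): `∫ φ • hh t → c0`,
`hh_cauchy` bounds `∫ φ • hh s - c0`, and `hh_lip` bounds `hh s x - ∫ φ • hh s`.
-/

set_option autoImplicit false

open MeasureTheory Metric Filter Topology
open scoped RealInnerProductSpace

noncomputable section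

namespace Crest.Agent.R85

variable {m : ℕ}

variable {n : ℕ} {C : ℝ} {ν : Measure (Eu m)}

theorem Up.hhA_abs (h : Up n C ν) : Up n |C| ν := h.mono (le_abs_self C)

theorem Up.hhA_sfinite (h : Up n C ν) : SFinite ν := by
  have := h.isLocallyFinite
  infer_instance

theorem hhA_continuous_KK_sub {s : ℝ} (hs : 0 < s) (x : Eu m) :
    Continuous fun y => KK n s (x - y) :=
  (continuous_KK n hs).comp (continuous_const.sub continuous_id)

theorem hh_integrable (h : Up n C ν) {s : ℝ} (hs : 0 < s) (x : Eu m) :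
    Integrable (fun y => KK n s (x - y) + KK n 1 y) ν := by
  obtain ⟨c, -, hc⟩ := hh_integrand_le (m := m) n hs ‖x‖
  refine ((h.hhA_abs.int_kap_one (abs_nonneg C)).1.const_mul c).mono'
    ((hhA_continuous_KK_sub hs x).add (continuous_KK n one_pos)).aestronglyMeasurable
    (Eventually.of_forall fun y => hc x y le_rfl)

theorem hh_lip (h : Up n C ν) (hC : 0 ≤ C) {s : ℝ} (hs : 0 < s) (x x' : Eu m) :
    ‖hh n ν s x - hh n ν s x'‖ ≤ 2 * (n + 2) * cK n * C / s * ‖x - x'‖ := by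
  have h1 := h.int_kap hC x hs 0
  have h2 := h.int_kap hC x' hs 0
  simp only [add_zero, pow_one] at h1 h2
  unfold hh
  rw [← integral_sub (hh_integrable h hs x) (hh_integrable h hs x')]
  have hb : ∀ y, ‖KK n s (x - y) + KK n 1 y - (KK n s (x' - y) + KK n 1 y)‖ ≤
      (n + 2) * ‖x - x'‖ * (kap (n + 1) s (x - y) + kap (n + 1) s (x' - y)) := fun y => by
    have := KK_lip n hs (x - y) (x' - y)
    rw [sub_sub_sub_cancel_right] at this
    rwa [add_sub_add_right_eq_sub]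
  refine (norm_integral_le_of_norm_le ((h1.1.add h2.1).const_mul ((n + 2) * ‖x - x'‖))
    (Eventually.of_forall hb)).trans ?_
  rw [integral_const_mul]
  have h3 : ∫ y, (kap (n + 1) s (x - y) + kap (n + 1) s (x' - y)) ∂ν ≤ 2 * (cK n * C / s) := by
    rw [integral_add h1.1 h2.1]; linarith [h1.2, h2.2]
  have h4 : (0 : ℝ) ≤ (n + 2) * ‖x - x'‖ := by positivity
  refine (mul_le_mul_of_nonneg_left h3 h4).trans (le_of_eq ?_)
  ring

theorem continuous_hh (h : Up n C ν) {s : ℝ} (hs : 0 < s) : Continuous (hh n ν s) := by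
  have hK : 0 ≤ 2 * (n + 2) * cK n * |C| / s := by
    have := cK_pos n
    positivity
  refine (LipschitzWith.of_dist_le_mul (K := ⟨_, hK⟩) fun x x' => ?_).continuous
  rw [dist_eq_norm, dist_eq_norm]
  exact hh_lip h.hhA_abs (abs_nonneg C) hs x x'

/-- Difference of two levels at a point. -/
theorem hh_sub (h : Up n C ν) {t s : ℝ} (ht : 0 < t) (hs : 0 < s) (x : Eu m) :
    Integrable (fun y => KK n t (x - y) - KK n s (x - y)) ν ∧
      hh n ν t x - hh n ν s x = ∫ y, (KK n t (x - y) - KK n s (x - y)) ∂ν := by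
  have e : (fun y => KK n t (x - y) - KK n s (x - y)) =
      fun y => KK n t (x - y) + KK n 1 y - (KK n s (x - y) + KK n 1 y) := by
    funext y; rw [add_sub_add_right_eq_sub]
  rw [e]
  exact ⟨(hh_integrable h ht x).sub (hh_integrable h hs x),
    (integral_sub (hh_integrable h ht x) (hh_integrable h hs x)).symm⟩

theorem Tst.integrable_smul_hh (h : Up n C ν) {s : ℝ} (hs : 0 < s) {L R : ℝ} {x0 : Eu m}
    {ψ : Eu m → ℝ} (hψ : Tst L x0 R ψ) : Integrable (fun x => ψ x • hh n ν s x) ν := by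
  have := h.isLocallyFinite
  exact (hψ.lip.continuous.smul (continuous_hh h hs)).integrable_of_hasCompactSupport
    (hψ.hasCompactSupport.smul_right (f' := hh n ν s))

/-- A weight times a kernel with uniformly bounded fibre integrals. -/
theorem hhA_prod [SFinite ν] {f : Eu m → ℝ} (hf : Integrable f ν) (hf0 : ∀ x, 0 ≤ f x)
    {k : Eu m × Eu m → ℝ} (hk : Measurable k) (hk0 : ∀ p, 0 ≤ k p) {A : ℝ}
    (hi : ∀ x, Integrable (fun y => k (x, y)) ν) (hA : ∀ x, ∫ y, k (x, y) ∂ν ≤ A) :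
    Integrable (fun p : Eu m × Eu m => f p.1 * k p) (ν.prod ν) ∧
      ∫ p : Eu m × Eu m, f p.1 * k p ∂(ν.prod ν) ≤ A * ∫ x, f x ∂ν := by
  have hm : AEStronglyMeasurable (fun p : Eu m × Eu m => f p.1 * k p) (ν.prod ν) :=
    hf.1.comp_fst.mul hk.aestronglyMeasurable
  have hb : ∀ x, ∫ y, f x * k (x, y) ∂ν ≤ A * f x := fun x => by
    rw [integral_const_mul, mul_comm]
    exact mul_le_mul_of_nonneg_right (hA x) (hf0 x)
  have hI : Integrable (fun p : Eu m × Eu m => f p.1 * k p) (ν.prod ν) := by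
    refine (integrable_prod_iff hm).2 ⟨Eventually.of_forall fun x => (hi x).const_mul (f x), ?_⟩
    refine (hf.const_mul A).mono' hm.norm.integral_prod_right' (Eventually.of_forall fun x => ?_)
    have e : (fun y => ‖f x * k (x, y)‖) = fun y => f x * k (x, y) := by
      funext y; exact Real.norm_of_nonneg (mul_nonneg (hf0 x) (hk0 _))
    dsimp only
    rw [e, Real.norm_of_nonneg (integral_nonneg fun y => mul_nonneg (hf0 x) (hk0 _))]
    exact hb x
  refine ⟨hI, ?_⟩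
  rw [integral_prod _ hI, ← integral_const_mul]
  exact integral_mono hI.integral_prod_left (hf.const_mul A) hb

theorem hhA_norm_diff {t s : ℝ} (ht : 0 < t) (hts : t ≤ s) (z : Eu m) :
    ‖KK n s z - KK n t z‖ = ‖z‖ * (kap (n + 1) t z - kap (n + 1) s z) := by
  unfold KK
  rw [← sub_smul, norm_smul, Real.norm_eq_abs, abs_sub_comm,
    abs_of_nonneg (sub_nonneg.2 (kap_anti _ ht.le hts (N_pos ht z))), mul_comm]

theorem hhA_norm_diff_le {t s : ℝ} (ht : 0 < t) (hts : t ≤ s) (z : Eu m) :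
    ‖KK n s z - KK n t z‖ ≤ (n + 1) * s ^ 2 * kap (n + 1 + 1) t z := by
  rw [hhA_norm_diff ht hts]
  have h1 := kap_diff_le (n + 1) ht.le hts (N_pos ht z)
  have h2 := norm_pow_mul_kap_le (n + 1 + 1) 1 t z
  rw [pow_one] at h2
  have h3 : (0 : ℝ) ≤ (n + 1) * s ^ 2 := by positivity
  calc _ ≤ ‖z‖ * (((n + 1 : ℕ) : ℝ) * s ^ 2 * kap (n + 1 + 2) t z) :=
        mul_le_mul_of_nonneg_left h1 (norm_nonneg _)
    _ = (n + 1) * s ^ 2 * (‖z‖ * kap (n + 1 + 1 + 1) t z) := by push_cast; ring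
    _ ≤ _ := mul_le_mul_of_nonneg_left h2 h3

theorem hh_cauchy (h : Up n C ν) (hn : 1 ≤ n) (hC : 0 ≤ C) {L R : ℝ} {x0 : Eu m}
    {ψ : Eu m → ℝ} (hψ : Tst L x0 R ψ) (hL : 0 ≤ L) (hR : 0 < R) {t s : ℝ} (ht : 0 < t)
    (hts : t ≤ s) :
    ‖∫ x, ψ x • hh n ν s x ∂ν - ∫ x, ψ x • hh n ν t x ∂ν‖
      ≤ (n + 2) * cK n * C ^ 2 * L * R ^ n * s := by
  have := h.hhA_sfinite
  have hs : 0 < s := ht.trans_le hts
  set G : Eu m → Eu m := fun z => KK n s z - KK n t z with hG
  have hGc : Continuous G := (continuous_KK n hs).sub (continuous_KK n ht)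
  have hGodd : ∀ x y : Eu m, G (y - x) = -G (x - y) := fun x y => by
    simp only [hG]
    rw [← neg_sub x y, KK_neg, KK_neg]; abel
  have hsubc : Continuous fun p : Eu m × Eu m => p.1 - p.2 := continuous_fst.sub continuous_snd
  -- integrability on the product
  have hF : Integrable (fun p : Eu m × Eu m => ψ p.1 • G (p.1 - p.2)) (ν.prod ν) := by
    have h1 := (hhA_prod (hψ.integrable h).norm (fun x => norm_nonneg _)
      (k := fun p => kap (n + 1 + 1) t (p.1 - p.2))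
      ((measurable_kap _ _).comp hsubc.measurable) (fun p => kap_nonneg _ _ _)
      (fun x => (h.int_kap hC x ht 1).1) fun x => (h.int_kap hC x ht 1).2).1
    refine (h1.const_mul ((n + 1) * s ^ 2)).mono'
      ((hψ.lip.continuous.comp continuous_fst).smul (hGc.comp hsubc)).aestronglyMeasurable
      (Eventually.of_forall fun p => ?_)
    rw [norm_smul]
    refine (mul_le_mul_of_nonneg_left (hhA_norm_diff_le ht hts _) (norm_nonneg _)).trans
      (le_of_eq ?_)
    ring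
  have hF' : Integrable (fun p : Eu m × Eu m => ψ p.2 • G (p.2 - p.1)) (ν.prod ν) := hF.swap
  have e1 : ∫ x, ψ x • hh n ν s x ∂ν - ∫ x, ψ x • hh n ν t x ∂ν =
      ∫ p : Eu m × Eu m, ψ p.1 • G (p.1 - p.2) ∂(ν.prod ν) := by
    rw [← integral_sub (hψ.integrable_smul_hh h hs) (hψ.integrable_smul_hh h ht),
      integral_prod _ hF]
    refine integral_congr_ae (Eventually.of_forall fun x => ?_)
    dsimp only
    rw [← smul_sub, (hh_sub h hs ht x).2, integral_smul]
  have e2 : ∫ p : Eu m × Eu m, ψ p.2 • G (p.2 - p.1) ∂(ν.prod ν) =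
      ∫ p : Eu m × Eu m, ψ p.1 • G (p.1 - p.2) ∂(ν.prod ν) :=
    integral_prod_swap (fun p : Eu m × Eu m => ψ p.1 • G (p.1 - p.2))
  -- the majorant
  set B := ball x0 R with hB
  set f : Eu m → ℝ := B.indicator fun _ => 1 with hf
  have hf0 : ∀ x, 0 ≤ f x := fun x => Set.indicator_nonneg (fun _ _ => zero_le_one) x
  have hfi : Integrable f ν :=
    (integrable_indicator_iff measurableSet_ball).2 (integrableOn_const (h.ball_lt_top x0 R).ne)
  set k : Eu m × Eu m → ℝ := fun p =>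
    ‖p.1 - p.2‖ ^ 2 * (kap (n + 1) t (p.1 - p.2) - kap (n + 1) s (p.1 - p.2)) with hk
  have hk0 : ∀ p, 0 ≤ k p := fun p => sq_mul_kap_diff_nonneg n ht.le hts _
  have hksymm : ∀ x y, k (y, x) = k (x, y) := fun x y => by
    simp only [hk]
    rw [norm_sub_rev, kap_sub_comm _ t y x, kap_sub_comm _ s y x]
  obtain ⟨hH, hHle⟩ := hhA_prod hfi hf0 (k := k)
    ((hsubc.norm.pow 2).measurable.mul (((measurable_kap _ _).comp hsubc.measurable).sub
      ((measurable_kap _ _).comp hsubc.measurable))) hk0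
    (fun x => (h.diff hn hC x ht.le hts hs).1) fun x => (h.diff hn hC x ht.le hts hs).2
  have hH' : Integrable (fun p : Eu m × Eu m => f p.2 * k (p.2, p.1)) (ν.prod ν) := hH.swap
  have e3 : ∫ p : Eu m × Eu m, f p.2 * k (p.2, p.1) ∂(ν.prod ν) =
      ∫ p : Eu m × Eu m, f p.1 * k p ∂(ν.prod ν) :=
    integral_prod_swap (fun p : Eu m × Eu m => f p.1 * k p)
  have hfint : ∫ x, f x ∂ν ≤ C * R ^ n := by
    rw [hf, integral_indicator measurableSet_ball, setIntegral_const, smul_eq_mul, mul_one]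
    exact h.real_le hC x0 hR
  have hpt : ∀ p : Eu m × Eu m, ‖ψ p.1 • G (p.1 - p.2) + ψ p.2 • G (p.2 - p.1)‖ ≤
      L * (f p.1 * k p + f p.2 * k (p.2, p.1)) := by
    rintro ⟨x, y⟩
    dsimp only
    rw [hGodd x y, smul_neg, ← sub_eq_add_neg, ← sub_smul, norm_smul, Real.norm_eq_abs,
      hksymm x y, ← add_mul]
    by_cases hxy : x ∈ B ∨ y ∈ B
    · have h1 : 1 ≤ f x + f y := by
        rcases hxy with hx | hy
        · have : f x = 1 := Set.indicator_of_mem hx _
          linarith [hf0 y]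
        · have : f y = 1 := Set.indicator_of_mem hy _
          linarith [hf0 x]
      have h2 : |ψ x - ψ y| * ‖G (x - y)‖ ≤ L * k (x, y) := by
        refine (mul_le_mul_of_nonneg_right (hψ.lip x y) (norm_nonneg _)).trans (le_of_eq ?_)
        simp only [hG, hk]
        rw [hhA_norm_diff ht hts]; ring
      refine h2.trans (mul_le_mul_of_nonneg_left ?_ hL)
      exact le_mul_of_one_le_left (hk0 _) h1
    · push Not at hxy
      rw [hψ.supp x (not_lt.1 hxy.1), hψ.supp y (not_lt.1 hxy.2), sub_self, abs_zero, zero_mul]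
      exact mul_nonneg hL (mul_nonneg (add_nonneg (hf0 _) (hf0 _)) (hk0 _))
  have hmain := norm_integral_le_of_norm_le ((hH.add hH').const_mul L) (Eventually.of_forall hpt)
  rw [integral_add hF hF', e2, ← two_smul ℝ, norm_smul, integral_const_mul] at hmain
  simp only [Pi.add_apply] at hmain
  rw [integral_add hH hH', e3, Real.norm_ofNat] at hmain
  rw [e1]
  have hA : (0 : ℝ) ≤ (n + 2) * cK n * C * s := by
    have := cK_pos n
    positivity
  have h5 := mul_le_mul_of_nonneg_left (hHle.trans (mul_le_mul_of_nonneg_left hfint hA)) hL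
  nlinarith

theorem Refl.tendsto (hr : Refl n ν) {L R : ℝ} {x0 : Eu m} {ψ : Eu m → ℝ} (hψ : Tst L x0 R ψ)
    (h0 : ∫ y, ψ y ∂ν = 0) :
    Tendsto (fun s => ∫ x, ψ x • hh n ν s x ∂ν) (𝓝[>] 0) (𝓝 0) :=
  hr L _ ψ (hψ.mono le_rfl le_rfl) h0

/-- Passing to the limit in `hh_cauchy`. -/
theorem hhA_limit (h : Up n C ν) (hn : 1 ≤ n) (hC : 0 ≤ C) {L R : ℝ} {x0 : Eu m}
    {ψ : Eu m → ℝ} (hψ : Tst L x0 R ψ) (hL : 0 ≤ L) (hR : 0 < R) {c : Eu m}
    (hc : Tendsto (fun s => ∫ x, ψ x • hh n ν s x ∂ν) (𝓝[>] 0) (𝓝 c)) {s : ℝ} (hs : 0 < s) :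
    ‖∫ x, ψ x • hh n ν s x ∂ν - c‖ ≤ (n + 2) * cK n * C ^ 2 * L * R ^ n * s := by
  refine le_of_tendsto ((tendsto_const_nhds.sub hc).norm) ?_
  filter_upwards [Ioo_mem_nhdsGT hs] with t ht
  exact hh_cauchy h hn hC hψ hL hR ht.1 ht.2.le

theorem Refl.bound (hr : Refl n ν) (h : Up n C ν) (hn : 1 ≤ n) (hC : 0 ≤ C) {L R : ℝ} {x0 : Eu m}
    {ψ : Eu m → ℝ} (hψ : Tst L x0 R ψ) (hL : 0 ≤ L) (hR : 0 < R) (h0 : ∫ y, ψ y ∂ν = 0)
    {s : ℝ} (hs : 0 < s) :
    ‖∫ x, ψ x • hh n ν s x ∂ν‖ ≤ (n + 2) * cK n * C ^ 2 * L * R ^ n * s := by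
  simpa using hhA_limit h hn hC hψ hL hR (hr.tendsto hψ h0) hs

/-- The weak limit exists. -/
theorem hhA_exists_limit (h : Up n C ν) (hn : 1 ≤ n) (hC : 0 ≤ C) {L R : ℝ} {x0 : Eu m}
    {ψ : Eu m → ℝ} (hψ : Tst L x0 R ψ) (hL : 0 ≤ L) (hR : 0 < R) :
    ∃ c, Tendsto (fun s => ∫ x, ψ x • hh n ν s x ∂ν) (𝓝[>] 0) (𝓝 c) := by
  set K := (n + 2) * cK n * C ^ 2 * L * R ^ n with hK
  have hK0 : 0 ≤ K := by
    have := cK_pos n
    positivity
  refine cauchy_map_iff_exists_tendsto.1 (Metric.cauchy_iff.2 ⟨inferInstance, fun ε hε => ?_⟩)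
  have hδ : 0 < ε / (K + 1) := by positivity
  refine ⟨_, image_mem_map (Ioo_mem_nhdsGT hδ), ?_⟩
  have key : ∀ a b : ℝ, a ∈ Set.Ioo 0 (ε / (K + 1)) → b ∈ Set.Ioo 0 (ε / (K + 1)) → b ≤ a →
      dist (∫ x, ψ x • hh n ν a x ∂ν) (∫ x, ψ x • hh n ν b x ∂ν) < ε := by
    intro a b ha hb hab
    rw [dist_eq_norm]
    refine (hh_cauchy h hn hC hψ hL hR hb.1 hab).trans_lt ?_
    have h1 := (lt_div_iff₀ (by positivity : 0 < K + 1)).1 ha.2
    have h2 := ha.1
    nlinarith
  rintro _ ⟨a, ha, rfl⟩ _ ⟨b, hb, rfl⟩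
  rcases le_total b a with hab | hab
  · exact key a b ha hb hab
  · rw [dist_comm]; exact key b a hb ha hab

/-- Normalised bumps. -/
theorem hhA_bump (hC : 1 ≤ C) (h : Up n C ν) (hl : LowAll n C ν) {x : Eu m}
    (hx : x ∈ ν.support) {s : ℝ} (hs : 0 < s) :
    ∃ φ : Eu m → ℝ, Tst (2 ^ (n + 1) * C / s ^ (n + 1)) x s φ ∧ (∀ y, 0 ≤ φ y) ∧
      ∫ y, φ y ∂ν = 1 := by
  have hs2 : 0 < s / 2 := half_pos hs
  have hT := cut_tst x (s / 2) hs2
  rw [add_halves] at hT
  set a := ∫ y, cut x (s / 2) (s / 2) y ∂ν with ha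
  have hC0 : 0 < C := by linarith
  have hlow : (s / 2) ^ n / C ≤ a := by
    refine (h.le_real (hl x hx _ hs2)).trans ?_
    rw [← mul_one (ν.real _), ← smul_eq_mul, ← setIntegral_const,
      ← integral_indicator measurableSet_ball]
    refine integral_mono ((integrable_indicator_iff measurableSet_ball).2
      (integrableOn_const (h.ball_lt_top x _).ne)) (hT.integrable h) fun y => ?_
    by_cases hy : y ∈ ball x (s / 2)
    · rw [Set.indicator_of_mem hy, cut_eq_one hs2 (le_of_lt hy)]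
    · rw [Set.indicator_of_notMem hy]; exact cut_nonneg _ _ _ _
  have ha0 : 0 < a := lt_of_lt_of_le (by positivity) hlow
  refine ⟨fun y => a⁻¹ * cut x (s / 2) (s / 2) y, (hT.const_mul a⁻¹).mono ?_ (by simp),
    fun y => mul_nonneg (inv_nonneg.2 ha0.le) (cut_nonneg _ _ _ _), ?_⟩
  · rw [abs_of_pos (inv_pos.2 ha0)]
    have h1 : a⁻¹ ≤ ((s / 2) ^ n / C)⁻¹ := inv_anti₀ (by positivity) hlow
    refine (mul_le_mul_of_nonneg_right h1 (by positivity)).trans (le_of_eq ?_)
    rw [div_pow]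
    field_simp
    ring
  · rw [integral_const_mul, ← ha, inv_mul_cancel₀ ha0.ne']

theorem hhA_split (h : Up n C ν) {L R : ℝ} {x0 : Eu m} {ψ : Eu m → ℝ} (hψ : Tst L x0 R ψ)
    (c : Eu m) {s : ℝ} (hs : 0 < s) :
    ∫ x, ψ x • (hh n ν s x - c) ∂ν = ∫ x, ψ x • hh n ν s x ∂ν - (∫ x, ψ x ∂ν) • c := by
  simp only [smul_sub]
  rw [integral_sub (hψ.integrable_smul_hh h hs) ((hψ.integrable h).smul_const c),
    integral_smul_const]

/-- For a reflectionless regular measure the smooth truncations are uniformly bounded modulo one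
constant vector, and converge weakly to it. -/
theorem refl_bound (hn : 1 ≤ n) (hC : 1 ≤ C) (h : Up n C ν) (hl : LowAll n C ν) (hr : Refl n ν) :
    ∃ (c0 : Eu m) (B : ℝ), (∀ x ∈ ν.support, ∀ s, 0 < s → ‖hh n ν s x - c0‖ ≤ B) ∧
      ∀ (L R : ℝ) (x0 : Eu m) (ψ : Eu m → ℝ), Tst L x0 R ψ →
        Tendsto (fun s => ∫ x, ψ x • (hh n ν s x - c0) ∂ν) (𝓝[>] 0) (𝓝 0) := by
  have hC0 : 0 ≤ C := by linarith
  rcases ν.support.eq_empty_or_nonempty with he | ⟨x1, hx1⟩
  · have h0 : ν = 0 := by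
      have := ν.measure_compl_support
      rw [he, Set.compl_empty] at this
      exact Measure.measure_univ_eq_zero.1 this
    refine ⟨0, 0, fun x hx => by simp [he] at hx, fun L R x0 ψ _ => ?_⟩
    simp [h0]
  obtain ⟨ψ0, hψ0, -, hψ1⟩ := hhA_bump hC h hl hx1 one_pos
  obtain ⟨c0, hc0⟩ := hhA_exists_limit h hn hC0 hψ0 (by positivity) one_pos
  have claim : ∀ (L R : ℝ) (x0 : Eu m) (ψ : Eu m → ℝ), Tst L x0 R ψ →
      Tendsto (fun s => ∫ x, ψ x • hh n ν s x ∂ν) (𝓝[>] 0) (𝓝 ((∫ x, ψ x ∂ν) • c0)) := by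
    intro L R x0 ψ hψ
    set a := ∫ x, ψ x ∂ν with ha
    have h1 := (hψ.mono (x1 := x1) (R' := max (dist x1 x0 + R) 1) le_rfl (le_max_left _ _)).add
      ((hψ0.const_mul (-a)).mono (x1 := x1) le_rfl (by simp))
    have h2 := hr.tendsto h1 (by
      rw [integral_add (hψ.integrable h) ((hψ0.integrable h).const_mul _), integral_const_mul,
        hψ1, ← ha]; ring)
    have h3 := h2.add (hc0.const_smul a)
    rw [zero_add] at h3
    refine h3.congr' ?_
    filter_upwards [self_mem_nhdsWithin] with s hs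
    have hs' : 0 < s := hs
    simp only [add_smul, mul_smul]
    have hi : Integrable (fun x => -a • ψ0 x • hh n ν s x) ν :=
      (hψ0.integrable_smul_hh h hs').smul (-a)
    rw [integral_add (hψ.integrable_smul_hh h hs') hi, integral_smul, neg_smul,
      neg_add_cancel_right]
  refine ⟨c0, 2 * (n + 2) * cK n * C + (n + 2) * cK n * C ^ 3 * 2 ^ (n + 1), ?_, ?_⟩
  · intro x hx s hs
    obtain ⟨φ, hφ, hφ0, hφ1⟩ := hhA_bump hC h hl hx hs
    have h1 := claim _ _ _ _ hφ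
    rw [hφ1, one_smul] at h1
    have h2 := hhA_limit h hn hC0 hφ (by positivity) hs h1 hs
    have h3 : ‖∫ y, φ y • hh n ν s y ∂ν - hh n ν s x‖ ≤ 2 * (n + 2) * cK n * C := by
      have e := hhA_split h hφ (hh n ν s x) hs
      rw [hφ1, one_smul] at e
      rw [← e]
      refine (norm_integral_le_of_norm_le ((hφ.integrable h).const_mul (2 * (n + 2) * cK n * C))
        (Eventually.of_forall fun y => ?_)).trans (by rw [integral_const_mul, hφ1, mul_one])
      rw [norm_smul, Real.norm_of_nonneg (hφ0 y), mul_comm]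
      by_cases hy : s ≤ dist y x
      · rw [hφ.supp y hy]; simp
      · refine mul_le_mul_of_nonneg_right ((hh_lip h hC0 hs y x).trans ?_) (hφ0 y)
        have hK : 0 ≤ 2 * (n + 2) * cK n * C / s := by
          have := cK_pos n
          positivity
        rw [← dist_eq_norm]
        refine (mul_le_mul_of_nonneg_left (not_le.1 hy).le hK).trans (le_of_eq ?_)
        field_simp
    have h4 : (n + 2) * cK n * C ^ 2 * (2 ^ (n + 1) * C / s ^ (n + 1)) * s ^ n * s =
        (n + 2) * cK n * C ^ 3 * 2 ^ (n + 1) := by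
      field_simp
      ring
    rw [h4] at h2
    calc ‖hh n ν s x - c0‖
        = ‖(∫ y, φ y • hh n ν s y ∂ν - c0) - (∫ y, φ y • hh n ν s y ∂ν - hh n ν s x)‖ := by
          congr 1; abel
      _ ≤ _ := (norm_sub_le _ _).trans (by linarith)
  · intro L R x0 ψ hψ
    have h1 := (claim L R x0 ψ hψ).sub_const ((∫ x, ψ x ∂ν) • c0)
    rw [sub_self] at h1
    refine h1.congr' ?_
    filter_upwards [self_mem_nhdsWithin] with s hs
    exact (hhA_split h hψ c0 hs).symm

end Crest.Agent.R85
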