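import Crest.Agent.R85.HhA

/-!
# Auxiliary lemmas for `HhB` (part a): double integrals of even kernels
-/

set_option autoImplicit false

open MeasureTheory Metric Filter Topology
open scoped RealInnerProductSpace

noncomputable section

namespace Crest.Agent.R85

variable {m : ℕ}

variable {n : ℕ} {C : ℝ} {ν : Measure (Eu m)}

theorem HhBa_ind [IsFiniteMeasure ν] {G : Eu m → ℝ} (hG : Measurable G) (h0 : ∀ z, 0 ≤ G z) {A : ℝ}
    (hA : ∀ x, Integrable (fun y => G (x - y)) ν ∧ ∫ y, G (x - y) ∂ν ≤ A) {B : Set (Eu m)}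
    (hB : MeasurableSet B) :
    Integrable (fun p : Eu m × Eu m => B.indicator 1 p.1 * G (p.1 - p.2)) (ν.prod ν) ∧
      ∫ p : Eu m × Eu m, B.indicator 1 p.1 * G (p.1 - p.2) ∂(ν.prod ν) ≤ ν.real B * A := by
  have hi : ∀ x, (0 : ℝ) ≤ B.indicator 1 x := fun x => Set.indicator_nonneg (fun _ _ => zero_le_one) x
  have hm : Measurable (fun p : Eu m × Eu m => B.indicator (1 : Eu m → ℝ) p.1 * G (p.1 - p.2)) :=
    ((measurable_one.indicator hB).comp measurable_fst).mul
      (hG.comp (measurable_fst.sub measurable_snd))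
  have hb : Integrable (fun x => B.indicator (1 : Eu m → ℝ) x * A) ν :=
    ((integrable_const (1 : ℝ)).indicator hB).mul_const A
  have hle : ∀ x, ∫ y, B.indicator (1 : Eu m → ℝ) x * G (x - y) ∂ν ≤ B.indicator 1 x * A := fun x => by
    rw [integral_const_mul]
    exact mul_le_mul_of_nonneg_left (hA x).2 (hi x)
  have h1 : Integrable (fun p : Eu m × Eu m => B.indicator 1 p.1 * G (p.1 - p.2)) (ν.prod ν) := by
    rw [integrable_prod_iff hm.aestronglyMeasurable]
    refine ⟨ae_of_all _ fun x => (hA x).1.const_mul (B.indicator 1 x), ?_⟩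
    refine hb.mono' hm.aestronglyMeasurable.norm.integral_prod_right' (ae_of_all _ fun x => ?_)
    rw [Real.norm_of_nonneg (integral_nonneg fun y => norm_nonneg _)]
    refine le_trans (le_of_eq (integral_congr_ae (ae_of_all _ fun y => ?_))) (hle x)
    exact Real.norm_of_nonneg (mul_nonneg (hi x) (h0 _))
  refine ⟨h1, ?_⟩
  rw [integral_prod _ h1]
  refine (integral_mono h1.integral_prod_left hb hle).trans (le_of_eq ?_)
  rw [integral_mul_const, integral_indicator_one hB]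

theorem HhBa_sym [IsFiniteMeasure ν] {G : Eu m → ℝ} (hG : Measurable G) (h0 : ∀ z, 0 ≤ G z)
    (he : ∀ x y, G (x - y) = G (y - x)) {A : ℝ}
    (hA : ∀ x, Integrable (fun y => G (x - y)) ν ∧ ∫ y, G (x - y) ∂ν ≤ A) {B : Set (Eu m)}
    (hB : MeasurableSet B) {F : Type*} [NormedAddCommGroup F] [NormedSpace ℝ F]
    {f : Eu m × Eu m → F} {L : ℝ} (hL : 0 ≤ L) (hf : ∀ p, ‖f p‖ ≤ L * G (p.1 - p.2))
    (hs : ∀ p : Eu m × Eu m, p.1 ∉ B → p.2 ∉ B → f p = 0) :
    ‖∫ p, f p ∂(ν.prod ν)‖ ≤ 2 * L * (ν.real B * A) := by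
  obtain ⟨h1, h2⟩ := HhBa_ind hG h0 hA hB
  have h3 : Integrable (fun p : Eu m × Eu m => B.indicator 1 p.2 * G (p.1 - p.2)) (ν.prod ν) := by
    simpa only [Function.comp_def, Prod.fst_swap, Prod.snd_swap, he _ (Prod.fst _)] using h1.swap
  have h4 : ∫ p : Eu m × Eu m, B.indicator 1 p.2 * G (p.1 - p.2) ∂(ν.prod ν) ≤ ν.real B * A := by
    rw [← integral_prod_swap]
    simpa only [Prod.fst_swap, Prod.snd_swap, he _ (Prod.fst _)] using h2
  refine (norm_integral_le_of_norm_le ((h1.add h3).const_mul L) (ae_of_all _ fun p => ?_)).trans ?_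
  · have := h0 (p.1 - p.2)
    have e := hf p
    by_cases a : p.1 ∈ B <;> by_cases b : p.2 ∈ B
    · simp only [Pi.add_apply, Set.indicator_of_mem a, Set.indicator_of_mem b, Pi.one_apply]
      nlinarith
    · simpa [Set.indicator_of_mem a, Set.indicator_of_notMem b] using e
    · simpa [Set.indicator_of_notMem a, Set.indicator_of_mem b] using e
    · simp [Set.indicator_of_notMem a, Set.indicator_of_notMem b, hs p a b]
  · rw [integral_const_mul]
    simp only [Pi.add_apply]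
    rw [integral_add h1 h3]
    nlinarith

theorem HhBa_min_meas (n : ℕ) (s : ℝ) :
    Measurable fun z : Eu m => min (‖z‖ ^ 2) (s ^ 2) * kap (n + 1) 0 z :=
  ((measurable_norm.pow_const 2).min measurable_const).mul (measurable_kap _ _)

theorem HhBa_min_nonneg (n : ℕ) (s : ℝ) (z : Eu m) :
    0 ≤ min (‖z‖ ^ 2) (s ^ 2) * kap (n + 1) 0 z :=
  mul_nonneg (le_min (sq_nonneg _) (sq_nonneg _)) (kap_nonneg _ _ _)

theorem HhBa_sq_le (hn : 1 ≤ n) {s : ℝ} (hs : 0 ≤ s) (z : Eu m) :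
    ‖z‖ ^ 2 * kap (n + 1) s z ≤ min (‖z‖ ^ 2) (1 ^ 2) * kap (n + 1) 0 z + 1 := by
  have h0 := HhBa_min_nonneg n 1 z
  rcases le_total ‖z‖ 1 with h | h
  · have h1 := sq_mul_kap_diff_nonneg n le_rfl hs z
    rw [min_eq_left (by gcongr)]
    linarith
  · obtain ⟨k, rfl⟩ : ∃ k, n = k + 1 := ⟨n - 1, by omega⟩
    have h1 := norm_pow_mul_kap_le k 2 s z
    have h2 := kap_le_norm k s (z := z) (by rintro rfl; norm_num at h)
    have h3 : (‖z‖ ^ k)⁻¹ ≤ 1 := inv_le_one_of_one_le₀ (one_le_pow₀ h)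
    linarith

theorem HhBa_KK_bound (n : ℕ) {s : ℝ} (hs : 0 < s) (z : Eu m) : ‖KK n s z‖ ≤ (s ^ n)⁻¹ :=
  (norm_KK_le n s z).trans (kap_le n hs z)

/-- for a finite measure and a mean-zero function the renormalisation drops out -/
theorem HhBa_two [IsFiniteMeasure ν] {ψ : Eu m → ℝ} (hψ : Integrable ψ ν)
    (h0 : ∫ y, ψ y ∂ν = 0) {s : ℝ} (hs : 0 < s) :
    (2 : ℝ) • ∫ x, ψ x • hh n ν s x ∂ν =
      ∫ p : Eu m × Eu m, (ψ p.1 - ψ p.2) • KK n s (p.1 - p.2) ∂(ν.prod ν) := by
  have hK : AEStronglyMeasurable (fun p : Eu m × Eu m => KK n s (p.1 - p.2)) (ν.prod ν) :=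
    ((continuous_KK n hs).comp (continuous_fst.sub continuous_snd)).aestronglyMeasurable
  have h1 : Integrable (fun p : Eu m × Eu m => ψ p.1 • KK n s (p.1 - p.2)) (ν.prod ν) :=
    (hψ.comp_fst ν).smul_of_top_left (memLp_top_of_bound hK _
      (ae_of_all _ fun p => HhBa_KK_bound n hs _))
  have h2 : Integrable (fun p : Eu m × Eu m => ψ p.2 • KK n s (p.1 - p.2)) (ν.prod ν) :=
    (hψ.comp_snd ν).smul_of_top_left (memLp_top_of_bound hK _
      (ae_of_all _ fun p => HhBa_KK_bound n hs _))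
  have h3 : ∫ p : Eu m × Eu m, ψ p.2 • KK n s (p.1 - p.2) ∂(ν.prod ν) =
      -∫ p : Eu m × Eu m, ψ p.1 • KK n s (p.1 - p.2) ∂(ν.prod ν) := by
    rw [← integral_prod_swap, ← integral_neg]
    refine integral_congr_ae (ae_of_all _ fun p => ?_)
    simp only [Prod.fst_swap, Prod.snd_swap]
    rw [← neg_sub p.1 p.2, KK_neg, smul_neg]
  have h4 : ∀ x, hh n ν s x = ∫ y, KK n s (x - y) ∂ν + ∫ y, KK n 1 y ∂ν := fun x =>
    integral_add ((integrable_const (s ^ n)⁻¹).mono'
        ((continuous_KK n hs).comp (continuous_const.sub continuous_id)).aestronglyMeasurable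
        (ae_of_all _ fun y => HhBa_KK_bound n hs _))
      ((integrable_const ((1 : ℝ) ^ n)⁻¹).mono' (continuous_KK n one_pos).aestronglyMeasurable
        (ae_of_all _ fun y => HhBa_KK_bound n one_pos _))
  have h5 := h1.integral_prod_left
  simp only [integral_smul] at h5
  simp only [sub_smul, h4, smul_add]
  rw [integral_sub h1 h2, h3, integral_add h5 (hψ.smul_const _), integral_smul_const, h0, zero_smul,
    add_zero, integral_prod _ h1, two_smul, sub_neg_eq_add]
  simp only [integral_smul]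

end Crest.Agent.R85
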