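import Crest.Agent.R85.KernB

/-! # Auxiliary lemmas for HhB (part b) -/

set_option autoImplicit false

open MeasureTheory Metric Filter Topology
open scoped RealInnerProductSpace

noncomputable section

namespace Crest.Agent.R85

variable {m : ℕ}

variable {n : ℕ} {C : ℝ} {ν : Measure (Eu m)}

theorem hbb_cont (p : ℕ) {s : ℝ} (hs : 0 < s) (x : Eu m) : Continuous fun y => kap p s (x - y) :=
  (continuous_kap p hs).comp (continuous_const.sub continuous_id)

theorem hbb_int_kap (h : Up n C ν) {s : ℝ} (hs : 0 < s) (x : Eu m) :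
    Integrable (fun y => kap (n + 1) s (x - y)) ν :=
  ((h.mono (le_max_left C 0)).int_kap (le_max_right C 0) x hs 0).1

theorem hbb_int_mul {ψ : Eu m → ℝ} (hψ : Integrable ψ ν) (p : ℕ) {s : ℝ} (hs : 0 < s) (x : Eu m) :
    Integrable (fun y => ψ y * kap p s (x - y)) ν :=
  hψ.mul_bdd (c := (s ^ p)⁻¹) (hbb_cont p hs x).aestronglyMeasurable
    (Eventually.of_forall fun y => by
      rw [Real.norm_of_nonneg (kap_nonneg _ _ _)]
      exact kap_le p hs _)

theorem hbb_bdd {L R : ℝ} {x0 : Eu m} {ψ : Eu m → ℝ} (hψ : Tst L x0 R ψ) :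
    ∃ M : ℝ, 0 ≤ M ∧ ∀ y, |ψ y| ≤ M := by
  obtain ⟨M, hM⟩ := hψ.lip.continuous.bounded_above_of_compact_support hψ.hasCompactSupport
  exact ⟨M, (norm_nonneg _).trans (hM 0), hM⟩

theorem hbb_prod [IsFiniteMeasure ν] {s : ℝ} (hs : 0 < s) {L L' R : ℝ} {x0 : Eu m} {f ψ : Eu m → ℝ}
    (hf : Lip L f) (hψ : Tst L' x0 R ψ) :
    Integrable (fun p : Eu m × Eu m => f p.1 * ((ψ p.1 - ψ p.2) * kap (n + 1) s (p.1 - p.2)))
      (ν.prod ν) := by
  obtain ⟨L'', hm⟩ := hψ.mul_lip hf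
  obtain ⟨M, hM0, hM⟩ := hbb_bdd hψ
  obtain ⟨M', hM0', hM'⟩ := hbb_bdd hm
  have c1 := hf.continuous
  have c2 := hψ.lip.continuous
  have c3 := continuous_kap (m := m) (n + 1) hs
  refine Integrable.of_bound (C := 2 * M' * (s ^ (n + 1))⁻¹ + M * (|L| * (s ^ n)⁻¹))
    (by fun_prop : Continuous fun p : Eu m × Eu m =>
      f p.1 * ((ψ p.1 - ψ p.2) * kap (n + 1) s (p.1 - p.2))).aestronglyMeasurable
    (Eventually.of_forall fun p => ?_)
  have e : f p.1 * ((ψ p.1 - ψ p.2) * kap (n + 1) s (p.1 - p.2)) =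
      (ψ p.1 * f p.1 - ψ p.2 * f p.2) * kap (n + 1) s (p.1 - p.2) -
        ψ p.2 * ((f p.1 - f p.2) * kap (n + 1) s (p.1 - p.2)) := by ring
  have hk := kap_nonneg (n + 1) s (p.1 - p.2)
  rw [e, Real.norm_eq_abs]
  refine (abs_sub _ _).trans (add_le_add ?_ ?_)
  · rw [abs_mul, abs_of_nonneg hk]
    refine mul_le_mul ((abs_sub _ _).trans ?_) (kap_le _ hs _) hk (by positivity)
    linarith [hM' p.1, hM' p.2]
  · rw [abs_mul, abs_mul, abs_of_nonneg hk]
    refine mul_le_mul (hM _) ?_ (by positivity) hM0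
    refine (mul_le_mul_of_nonneg_right (hf.abs p.1 p.2) hk).trans ?_
    rw [mul_assoc]
    refine mul_le_mul_of_nonneg_left (le_trans ?_ (kap_le n hs (p.1 - p.2))) (abs_nonneg L)
    have := norm_pow_mul_kap_le n 1 s (p.1 - p.2)
    rwa [pow_one] at this

theorem hbb_abs_int (hm : 1 ≤ m) (h : Up n C ν) (hC : 0 ≤ C) {L R : ℝ} {ψ : Eu m → ℝ}
    (hψ : Tst L 0 R ψ) (hL : 0 ≤ L) (hR : 0 < R) : ∫ y, |ψ y| ∂ν ≤ L * R * (C * R ^ n) := by
  rw [← setIntegral_eq_integral_of_forall_compl_eq_zero (s := ball 0 R) fun y hy => by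
    rw [hψ.supp y (not_lt.1 fun h' => hy (mem_ball.2 h')), abs_zero]]
  refine (le_abs_self _).trans ?_
  rw [← Real.norm_eq_abs]
  refine (norm_setIntegral_le_of_norm_le_const (h.ball_lt_top 0 R) fun y _ => ?_).trans
    (mul_le_mul_of_nonneg_left (h.real_le hC 0 hR) (by positivity))
  rw [Real.norm_eq_abs, abs_abs]
  exact hψ.abs_le hm hL hR.le y

theorem hbb_lip (hm : 1 ≤ m) (h : Up n C ν) (hC : 0 ≤ C) {s : ℝ} (hs : 0 < s) {L R : ℝ}
    {ψ : Eu m → ℝ} (hψ : Tst L 0 R ψ) (hL : 0 ≤ L) (hR : 0 < R) :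
    Lip ((cK n * C / s + 4 * R * (n + 1) * (cK n * C / s ^ 2)) * L) (Lam n ν s ψ) := by
  intro x x'
  have hi : ∀ z, Integrable (fun y => (ψ z - ψ y) * kap (n + 1) s (z - y)) ν := fun z => by
    simp only [sub_mul]
    exact ((hbb_int_kap h hs z).const_mul _).sub (hbb_int_mul (hψ.integrable h) _ hs z)
  obtain ⟨a1, a2⟩ := h.int_kap hC x hs 0
  obtain ⟨b1, b2⟩ := h.int_kap hC x hs 1
  obtain ⟨c1, c2⟩ := h.int_kap hC x' hs 1
  have hd := norm_nonneg (x - x')
  have bc : Integrable (fun y => kap (n + 1 + 1) s (x - y) + kap (n + 1 + 1) s (x' - y)) ν := b1.add c1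
  unfold Lam
  rw [← integral_sub (hi x) (hi x'), ← Real.norm_eq_abs]
  refine (norm_integral_le_of_norm_le (g := fun y => L * ‖x - x'‖ * kap (n + 1 + 0) s (x - y) +
      2 * (L * R) * ((n + 1) * ‖x - x'‖) * (kap (n + 1 + 1) s (x - y) + kap (n + 1 + 1) s (x' - y)))
    ((a1.const_mul _).add (bc.const_mul _)) (Eventually.of_forall fun y => ?_)).trans ?_
  · have e : (ψ x - ψ y) * kap (n + 1) s (x - y) - (ψ x' - ψ y) * kap (n + 1) s (x' - y) =
        (ψ x - ψ x') * kap (n + 1) s (x - y) +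
          (ψ x' - ψ y) * (kap (n + 1) s (x - y) - kap (n + 1) s (x' - y)) := by ring
    have hk := kap_nonneg (n + 1) s (x - y)
    rw [e, Real.norm_eq_abs]
    refine (abs_add_le _ _).trans (add_le_add ?_ ?_)
    · rw [abs_mul, abs_of_nonneg hk]
      exact mul_le_mul_of_nonneg_right (hψ.lip x x') hk
    · have d1 := kap_lip (n + 1) (N_pos hs (x - y)) (N_pos hs (x' - y))
      rw [sub_sub_sub_cancel_right] at d1
      push_cast at d1
      rw [abs_mul, mul_assoc (2 * (L * R))]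
      refine mul_le_mul ((abs_sub _ _).trans ?_) d1 (abs_nonneg _) (by positivity)
      linarith [hψ.abs_le hm hL hR.le x', hψ.abs_le hm hL hR.le y]
  · rw [integral_add (a1.const_mul _) (bc.const_mul _), integral_const_mul, integral_const_mul,
      integral_add b1 c1]
    simp only [add_zero, pow_one, Nat.reduceAdd] at a2 b2 c2 ⊢
    calc _ ≤ L * ‖x - x'‖ * (cK n * C / s) +
          2 * (L * R) * ((n + 1) * ‖x - x'‖) * (cK n * C / s ^ 2 + cK n * C / s ^ 2) := by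
          gcongr
      _ = _ := by ring

end Crest.Agent.R85
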