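import Crest.Agent.R85.HhA
import Crest.Agent.R85.HhBax
import Crest.Agent.R85.HhBbx

/-!
# The energy `En`, the pairing `TT` and the operator `Lam` (task HhB)

For finite `ν`: `‖z‖² κ_s(z) ≤ ‖z‖² κ_0(z) ≤ 1_{‖z‖<1} ‖z‖² κ_0(z) + 1` (as `n ≥ 1`), so
`‖x-y‖² κ_s(x-y)` is integrable on `ν.prod ν` (`Up.near`, `integrable_prod_iff`).
`TT_approx`: for finite `ν` and mean-zero `ψ`, `2 ∫ ψ • hh s = ∬ (ψ x - ψ y) • K_s(x-y)`; then argue
as in `hh_cauchy` with `t = 0`.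
-/

set_option autoImplicit false

open MeasureTheory Metric Filter Topology
open scoped RealInnerProductSpace

noncomputable section

namespace Crest.Agent.R85

variable {m : ℕ}

variable {n : ℕ} {C : ℝ} {ν : Measure (Eu m)}

theorem Up.integrable_sq_kap [IsFiniteMeasure ν] (h : Up n C ν) (hn : 1 ≤ n) {s : ℝ} (hs : 0 ≤ s) :
    Integrable (fun p : Eu m × Eu m => ‖p.1 - p.2‖ ^ 2 * kap (n + 1) s (p.1 - p.2)) (ν.prod ν) := by
  have h1 := (HhBa_ind (HhBa_min_meas n 1) (HhBa_min_nonneg n 1)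
    (fun x => (h.mono (le_abs_self C)).min_sq hn (abs_nonneg C) x one_pos) MeasurableSet.univ).1
  have hm : Measurable fun z : Eu m => ‖z‖ ^ 2 * kap (n + 1) s z :=
    (measurable_norm.pow_const 2).mul (measurable_kap _ _)
  refine (h1.add (integrable_const (1 : ℝ))).mono'
    (hm.comp (measurable_fst.sub measurable_snd)).aestronglyMeasurable (ae_of_all _ fun p => ?_)
  rw [Real.norm_of_nonneg (mul_nonneg (sq_nonneg _) (kap_nonneg _ _ _))]
  simpa using HhBa_sq_le hn hs (p.1 - p.2)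

theorem En_integrable [IsFiniteMeasure ν] (h : Up n C ν) (hn : 1 ≤ n) {s : ℝ} (hs : 0 ≤ s)
    {L L' : ℝ} {f g : Eu m → ℝ} (hf : Lip L f) (hg : Lip L' g) :
    Integrable (fun p : Eu m × Eu m =>
      (f p.1 - f p.2) * (g p.1 - g p.2) * kap (n + 1) s (p.1 - p.2)) (ν.prod ν) := by
  have hf' := hf.continuous
  have hg' := hg.continuous
  refine ((h.integrable_sq_kap hn hs).const_mul (|L| * |L'|)).mono'
    (Measurable.mul (Continuous.measurable (by fun_prop))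
      ((measurable_kap _ _).comp (measurable_fst.sub measurable_snd))).aestronglyMeasurable
    (ae_of_all _ fun p => ?_)
  have h0 := kap_nonneg (n + 1) s (p.1 - p.2)
  rw [Real.norm_eq_abs, abs_mul, abs_mul, abs_of_nonneg h0]
  calc _ ≤ (|L| * ‖p.1 - p.2‖) * (|L'| * ‖p.1 - p.2‖) * kap (n + 1) s (p.1 - p.2) := by
        gcongr
        exacts [hf.abs _ _, hg.abs _ _]
    _ = _ := by ring

theorem TT_integrable [IsFiniteMeasure ν] (h : Up n C ν) (hn : 1 ≤ n) {s : ℝ} (hs : 0 ≤ s)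
    {L : ℝ} {ψ : Eu m → ℝ} (hψ : Lip L ψ) :
    Integrable (fun p : Eu m × Eu m => (ψ p.1 - ψ p.2) • KK n s (p.1 - p.2)) (ν.prod ν) := by
  have hψ' := hψ.continuous
  refine ((h.integrable_sq_kap hn hs).const_mul |L|).mono'
    (Measurable.smul (f := fun p : Eu m × Eu m => ψ p.1 - ψ p.2)
      (Continuous.measurable (by fun_prop))
      ((measurable_KK _ _).comp (measurable_fst.sub measurable_snd))).aestronglyMeasurable
    (ae_of_all _ fun p => ?_)
  have h0 := kap_nonneg (n + 1) s (p.1 - p.2)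
  rw [norm_smul, norm_KK, Real.norm_eq_abs]
  calc _ ≤ (|L| * ‖p.1 - p.2‖) * (‖p.1 - p.2‖ * kap (n + 1) s (p.1 - p.2)) := by
        gcongr
        exact hψ.abs _ _
    _ = _ := by ring

theorem En_self_nonneg (s : ℝ) (f : Eu m → ℝ) : 0 ≤ En n s ν f f :=
  integral_nonneg fun _ => mul_nonneg (mul_self_nonneg _) (kap_nonneg _ _ _)

theorem En_comm (s : ℝ) (f g : Eu m → ℝ) : En n s ν f g = En n s ν g f := by
  unfold En
  exact integral_congr_ae (ae_of_all _ fun p => by ring)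

theorem En_const_mul (s a b : ℝ) (f g : Eu m → ℝ) :
    En n s ν (fun y => a * f y) (fun y => b * g y) = a * b * En n s ν f g := by
  unfold En
  rw [← integral_const_mul]
  exact integral_congr_ae (ae_of_all _ fun p => by ring)

theorem TT_const_mul (a : ℝ) (ψ : Eu m → ℝ) : TT n ν (fun y => a * ψ y) = a • TT n ν ψ := by
  unfold TT
  rw [← integral_smul]
  exact integral_congr_ae (ae_of_all _ fun p => by simp only [smul_smul, mul_sub])

theorem TT_add [IsFiniteMeasure ν] (h : Up n C ν) (hn : 1 ≤ n) {L L' : ℝ} {ψ φ : Eu m → ℝ}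
    (hψ : Lip L ψ) (hφ : Lip L' φ) :
    TT n ν (fun y => ψ y + φ y) = TT n ν ψ + TT n ν φ := by
  unfold TT
  rw [← integral_add (TT_integrable h hn le_rfl hψ) (TT_integrable h hn le_rfl hφ)]
  refine integral_congr_ae (ae_of_all _ fun p => ?_)
  simp only [← add_smul, add_sub_add_comm]

/-- THE KEY IDENTITY: affine functions solve the nonlocal equation with right side `TT`. -/
theorem En_affine [IsFiniteMeasure ν] (h : Up n C ν) (hn : 1 ≤ n) (v : Eu m) (b : ℝ) {L : ℝ}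
    {ψ : Eu m → ℝ} (hψ : Lip L ψ) :
    En n 0 ν (fun y => ⟪v, y⟫ + b) ψ = ⟪v, TT n ν ψ⟫ := by
  unfold En TT
  rw [← integral_inner (TT_integrable h hn le_rfl hψ)]
  refine integral_congr_ae (ae_of_all _ fun p => ?_)
  simp only [KK, real_inner_smul_right, inner_sub_right]
  ring

/-- Energy of a test function: `(ψx-ψy)² ≤ L² min(‖x-y‖², 4R²) (1_B x + 1_B y)`. -/
theorem En_tst_le [IsFiniteMeasure ν] (h : Up n C ν) (hn : 1 ≤ n) (hm : 1 ≤ m) (hC : 0 ≤ C)
    {L R : ℝ} {x0 : Eu m} {ψ : Eu m → ℝ} (hψ : Tst L x0 R ψ) (hL : 0 ≤ L) (hR : 0 < R) :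
    En n 0 ν ψ ψ ≤ 8 * cK n * C ^ 2 * L ^ 2 * R ^ (n + 1) := by
  have h1 := HhBa_sym (HhBa_min_meas n (2 * R)) (HhBa_min_nonneg n (2 * R))
    (fun x y => by rw [norm_sub_rev, kap_sub_comm])
    (fun x => h.min_sq hn hC x (by positivity)) (measurableSet_ball (x := x0) (ε := R))
    (f := fun p : Eu m × Eu m => (ψ p.1 - ψ p.2) * (ψ p.1 - ψ p.2) * kap (n + 1) 0 (p.1 - p.2))
    (sq_nonneg L) (fun p => by
      have h0 := kap_nonneg (n + 1) 0 (p.1 - p.2)
      rw [Real.norm_of_nonneg (mul_nonneg (mul_self_nonneg _) h0), ← mul_assoc,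
        mul_min_of_nonneg _ _ (sq_nonneg L), ← sq, ← sq_abs, ← mul_pow, ← mul_pow]
      have e1 := hψ.lip p.1 p.2
      have e2 : |ψ p.1 - ψ p.2| ≤ L * (2 * R) := by
        have := abs_sub (ψ p.1) (ψ p.2)
        linarith [hψ.abs_le hm hL hR.le p.1, hψ.abs_le hm hL hR.le p.2]
      gcongr
      exact le_min (by gcongr) (by gcongr))
    (fun p a b => by
      rw [hψ.supp _ (not_lt.1 a), hψ.supp _ (not_lt.1 b)]
      simp)
  refine ((le_abs_self _).trans h1).trans ?_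
  have h2 := h.real_le hC x0 hR
  have h3 := cK_pos n
  calc _ ≤ 2 * L ^ 2 * (C * R ^ n * (2 * cK n * C * (2 * R))) := by gcongr
    _ = _ := by ring

theorem TT_approx [IsFiniteMeasure ν] (h : Up n C ν) (hn : 1 ≤ n) (hC : 0 ≤ C) {L R : ℝ}
    {x0 : Eu m} {ψ : Eu m → ℝ} (hψ : Tst L x0 R ψ) (hL : 0 ≤ L) (hR : 0 < R)
    (h0 : ∫ y, ψ y ∂ν = 0) {s : ℝ} (hs : 0 < s) :
    ‖TT n ν ψ - (2 : ℝ) • ∫ x, ψ x • hh n ν s x ∂ν‖
      ≤ 2 * (n + 2) * cK n * C ^ 2 * L * R ^ n * s := by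
  rw [HhBa_two (hψ.integrable h) h0 hs, TT,
    ← integral_sub (TT_integrable h hn le_rfl hψ.lip) (TT_integrable h hn hs.le hψ.lip)]
  have h1 := HhBa_sym (G := fun z : Eu m => ‖z‖ ^ 2 * (kap (n + 1) 0 z - kap (n + 1) s z))
    ((measurable_norm.pow_const 2).mul ((measurable_kap _ _).sub (measurable_kap _ _)))
    (sq_mul_kap_diff_nonneg n le_rfl hs.le)
    (fun x y => by rw [norm_sub_rev, kap_sub_comm, kap_sub_comm _ s])
    (fun x => h.diff hn hC x le_rfl hs.le hs) (measurableSet_ball (x := x0) (ε := R))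
    (f := fun p : Eu m × Eu m =>
      (ψ p.1 - ψ p.2) • KK n 0 (p.1 - p.2) - (ψ p.1 - ψ p.2) • KK n s (p.1 - p.2))
    hL (fun p => by
      have e0 := sq_mul_kap_diff_nonneg n le_rfl hs.le (p.1 - p.2)
      rw [← abs_of_nonneg e0, ← smul_sub, KK, KK, ← sub_smul, norm_smul, norm_smul, abs_mul,
        Real.norm_eq_abs, Real.norm_eq_abs, abs_of_nonneg (sq_nonneg ‖p.1 - p.2‖)]
      calc _ ≤ (L * ‖p.1 - p.2‖) * (|kap (n + 1) 0 (p.1 - p.2) - kap (n + 1) s (p.1 - p.2)| *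
            ‖p.1 - p.2‖) := by
            gcongr
            exact hψ.lip _ _
        _ = _ := by ring)
    (fun p a b => by
      rw [hψ.supp _ (not_lt.1 a), hψ.supp _ (not_lt.1 b)]
      simp)
  refine h1.trans ?_
  have h2 := h.real_le hC x0 hR
  have h3 := cK_pos n
  calc _ ≤ 2 * L * (C * R ^ n * ((n + 2) * cK n * C * s)) := by gcongr
    _ = _ := by ring

theorem Small.mono [IsFiniteMeasure ν] {x0 x1 : Eu m} {R R' θ θ' : ℝ} (h : Small n ν x0 R θ)
    (hR : dist x0 x1 + R' ≤ R) (hθ : θ ≤ θ') : Small n ν x1 R' θ' := fun L ψ hψ h0 =>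
  (h L ψ (hψ.mono le_rfl hR) h0).trans (mul_le_mul_of_nonneg_right hθ (En_self_nonneg _ _))

/-- Symmetrisation: `En s f ψ = 2 ∫ f · Lam s ψ`. -/
theorem En_eq_Lam [IsFiniteMeasure ν] (h : Up n C ν) (hn : 1 ≤ n) {s : ℝ} (hs : 0 < s)
    {L L' R : ℝ} {x0 : Eu m} {f ψ : Eu m → ℝ} (hf : Lip L f) (hψ : Tst L' x0 R ψ) :
    Integrable (fun x => f x * Lam n ν s ψ x) ν ∧
      En n s ν f ψ = 2 * ∫ x, f x * Lam n ν s ψ x ∂ν := by
  have hF := hbb_prod (n := n) (ν := ν) hs hf hψ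
  have e : ∀ x, ∫ y, f x * ((ψ x - ψ y) * kap (n + 1) s (x - y)) ∂ν = f x * Lam n ν s ψ x :=
    fun x => integral_const_mul _ _
  have h1 := hF.integral_prod_left
  have h2 := integral_prod _ hF
  simp only [e] at h1 h2
  refine ⟨h1, ?_⟩
  have h3 := integral_prod_swap (μ := ν) (ν := ν)
    (fun p : Eu m × Eu m => f p.1 * ((ψ p.1 - ψ p.2) * kap (n + 1) s (p.1 - p.2)))
  rw [← h2, two_mul]
  conv_rhs => rw [← h3]
  conv_rhs => congr; rw [h3]
  have hF' : Integrable (fun z : Eu m × Eu m => f z.swap.1 * ((ψ z.swap.1 - ψ z.swap.2) *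
      kap (n + 1) s (z.swap.1 - z.swap.2))) (ν.prod ν) := hF.swap
  rw [← integral_add hF hF']
  refine integral_congr_ae (Eventually.of_forall fun p => ?_)
  simp only [Prod.fst_swap, Prod.snd_swap]
  rw [kap_sub_comm (n + 1) s p.2 p.1]
  ring

theorem Lam_eq (h : Up n C ν) {s : ℝ} (hs : 0 < s) {L R : ℝ} {x0 : Eu m} {ψ : Eu m → ℝ}
    (hψ : Tst L x0 R ψ) (x : Eu m) :
    Lam n ν s ψ x = ψ x * ∫ y, kap (n + 1) s (x - y) ∂ν - ∫ y, ψ y * kap (n + 1) s (x - y) ∂ν := by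
  unfold Lam
  simp only [sub_mul]
  rw [integral_sub ((hbb_int_kap h hs x).const_mul _) (hbb_int_mul (hψ.integrable h) _ hs x),
    integral_const_mul]

/-- Decay of the convolution of a mean-zero function with the kernel (`kap_sub_le`). -/
theorem conv_mean_zero (n m : ℕ) {s : ℝ} (hs : 0 < s) (R : ℝ) :
    ∃ c : ℝ, 0 ≤ c ∧ ∀ (ν : Measure (Eu m)) (ψ : Eu m → ℝ), Integrable ψ ν →
      (∀ y, R ≤ ‖y‖ → ψ y = 0) → ∫ y, ψ y ∂ν = 0 → ∀ x,
        |∫ y, ψ y * kap (n + 1) s (x - y) ∂ν| ≤ c * (∫ y, |ψ y| ∂ν) * kap (n + 2) 1 x := by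
  obtain ⟨c, hc, hk⟩ := kap_sub_le (m := m) n hs
  refine ⟨c * (1 + |R|) ^ (n + 3), by positivity, fun ν ψ hψ hs0 h0 x => ?_⟩
  have e : ∫ y, ψ y * kap (n + 1) s (x - y) ∂ν =
      ∫ y, ψ y * (kap (n + 1) s (x - y) - kap (n + 1) s x) ∂ν := by
    simp only [mul_sub]
    rw [integral_sub (hbb_int_mul hψ _ hs x) (hψ.mul_const _), integral_mul_const, h0, zero_mul,
      sub_zero]
  rw [e, ← Real.norm_eq_abs]
  refine (norm_integral_le_of_norm_le
    (g := fun y => |ψ y| * (c * (1 + |R|) ^ (n + 3) * kap (n + 2) 1 x)) (hψ.abs.mul_const _)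
    (Eventually.of_forall fun y => ?_)).trans (le_of_eq ?_)
  · rw [Real.norm_eq_abs, abs_mul]
    rcases le_or_gt R ‖y‖ with hy | hy
    · rw [hs0 y hy, abs_zero, zero_mul, zero_mul]
    · refine mul_le_mul_of_nonneg_left ((hk x y).trans ?_) (abs_nonneg _)
      have a1 : N 1 y ≤ 1 + |R| := (N_le zero_le_one y).trans (by linarith [le_abs_self R])
      have a2 := N_nonneg 1 y
      have a3 := kap_nonneg (n + 2) 1 x
      gcongr
  · rw [integral_mul_const]
    ring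

/-- `Lam s ψ` of a mean-zero test function decays like `kap (n+2) 1` and is Lipschitz, with
constants that do not depend on the measure. -/
theorem Lam_dec (n m : ℕ) (hm : 1 ≤ m) {C : ℝ} (hC : 0 ≤ C) {s : ℝ} (hs : 0 < s) {R : ℝ}
    (hR : 0 < R) :
    ∃ c : ℝ, 0 ≤ c ∧ ∀ (ν : Measure (Eu m)) (L : ℝ) (ψ : Eu m → ℝ), Up n C ν → 0 ≤ L →
      Tst L 0 R ψ → Lip (c * L) (Lam n ν s ψ) ∧
        (∫ y, ψ y ∂ν = 0 → Dec (n + 2) (c * L) (Lam n ν s ψ)) := by
  obtain ⟨c, hc, hk⟩ := conv_mean_zero n m hs R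
  have hK := (cK_pos n).le
  have h1 : 0 ≤ cK n * C / s + 4 * R * (n + 1) * (cK n * C / s ^ 2) := by positivity
  have h2 : 0 ≤ R * (cK n * C / s) * (1 + R) ^ (n + 2) + c * (R * (C * R ^ n)) := by positivity
  refine ⟨_, add_nonneg h1 h2, fun ν L ψ h hL hψ => ?_⟩
  have hl := hbb_lip hm h hC hs hψ hL hR
  refine ⟨hl.mono (mul_le_mul_of_nonneg_right (le_add_of_nonneg_right h2) hL), fun h0 =>
    ⟨hl.continuous, fun x => ?_⟩⟩
  have hkx := kap_nonneg (n + 2) 1 x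
  refine le_trans ?_ (mul_le_mul_of_nonneg_right
    (mul_le_mul_of_nonneg_right (le_add_of_nonneg_left h1) hL) hkx)
  rw [Lam_eq h hs hψ, add_mul, add_mul]
  refine (abs_sub _ _).trans (add_le_add ?_ ?_)
  · rcases le_or_gt R (dist x 0) with hx | hx
    · rw [hψ.supp x hx, zero_mul, abs_zero]
      positivity
    · rw [dist_zero_right] at hx
      have a1 := (h.int_kap hC x hs 0).2
      simp only [add_zero, pow_one] at a1
      have a2 : 0 ≤ ∫ y, kap (n + 1) s (x - y) ∂ν := integral_nonneg fun y => kap_nonneg _ _ _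
      have a3 : 1 ≤ (1 + R) ^ (n + 2) * kap (n + 2) 1 x := by
        rw [kap, ← div_eq_mul_inv, one_le_div (pow_pos (N_pos one_pos x) _)]
        exact pow_le_pow_left₀ (N_nonneg 1 x) ((N_le zero_le_one x).trans (by linarith)) _
      rw [abs_mul, abs_of_nonneg a2]
      calc _ ≤ L * R * (cK n * C / s) :=
            mul_le_mul (hψ.abs_le hm hL hR.le x) a1 a2 (by positivity)
        _ ≤ L * R * (cK n * C / s) * ((1 + R) ^ (n + 2) * kap (n + 2) 1 x) :=
            le_mul_of_one_le_right (by positivity) a3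
        _ = _ := by ring
  · refine (hk ν ψ (hψ.integrable h) (fun y hy => hψ.supp y (by rwa [dist_zero_right])) h0 x).trans ?_
    refine mul_le_mul_of_nonneg_right ?_ hkx
    calc _ ≤ c * (L * R * (C * R ^ n)) := mul_le_mul_of_nonneg_left (hbb_abs_int hm h hC hψ hL hR) hc
      _ = _ := by ring

end Crest.Agent.R85
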