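import Crest.Agent.R85.Defs

/-!
# Pointwise kernel estimates (task KernA)
All elementary.  `N s z` is the norm of `(s, z)`.  For `kap_lip` use
`|a^{-p} - b^{-p}| ≤ p |a-b| / min(a,b)^{p+1}` (induction on `p`, or `abs_pow_sub_pow_le`).
-/

set_option autoImplicit false

open MeasureTheory Metric Filter Topology
open scoped RealInnerProductSpace

noncomputable section

namespace Crest.Agent.R85

variable {m : ℕ}

theorem N_nonneg (s : ℝ) (z : Eu m) : 0 ≤ N s z := by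
  exact Real.sqrt_nonneg _

theorem N_sq (s : ℝ) (z : Eu m) : N s z ^ 2 = s ^ 2 + ‖z‖ ^ 2 := by
  exact Real.sq_sqrt (by positivity)

theorem le_N (s : ℝ) (z : Eu m) : s ≤ N s z := by
  exact Real.le_sqrt_of_sq_le (le_add_of_nonneg_right (sq_nonneg _))

theorem norm_le_N (s : ℝ) (z : Eu m) : ‖z‖ ≤ N s z := by
  exact Real.le_sqrt_of_sq_le (le_add_of_nonneg_left (sq_nonneg _))

theorem N_pos {s : ℝ} (hs : 0 < s) (z : Eu m) : 0 < N s z := by
  exact hs.trans_le (le_N s z)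

theorem one_le_N (z : Eu m) : 1 ≤ N 1 z := by
  exact le_N 1 z

theorem N_le {s : ℝ} (hs : 0 ≤ s) (z : Eu m) : N s z ≤ s + ‖z‖ := by
  refine Real.sqrt_le_iff.2 ⟨by positivity, ?_⟩
  nlinarith [mul_nonneg hs (norm_nonneg z)]

theorem N_zero (z : Eu m) : N 0 z = ‖z‖ := by
  simp [N]

theorem N_neg (s : ℝ) (z : Eu m) : N s (-z) = N s z := by
  simp only [N, norm_neg]

theorem N_sub_comm (s : ℝ) (x y : Eu m) : N s (x - y) = N s (y - x) := by
  simp only [N, norm_sub_rev x y]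

theorem N_mono {t s : ℝ} (ht : 0 ≤ t) (hts : t ≤ s) (z : Eu m) : N t z ≤ N s z := by
  exact Real.sqrt_le_sqrt (add_le_add_left (pow_le_pow_left₀ ht hts 2) _)

theorem N_mono_norm {m' : ℕ} (s : ℝ) {z : Eu m} {z' : Eu m'} (h : ‖z‖ ≤ ‖z'‖) :
    N s z ≤ N s z' := by
  exact Real.sqrt_le_sqrt (add_le_add_right (pow_le_pow_left₀ (norm_nonneg _) h 2) _)

theorem N_congr_norm {m' : ℕ} (s : ℝ) {z : Eu m} {z' : Eu m'} (h : ‖z‖ = ‖z'‖) :
    N s z = N s z' := by
  simp only [N, h]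

theorem kerna_N_le_add (s : ℝ) (z z' : Eu m) : N s z ≤ N s z' + ‖z - z'‖ := by
  have h0 := N_nonneg s z'
  refine Real.sqrt_le_iff.2 ⟨by positivity, ?_⟩
  have h1 : ‖z‖ ≤ ‖z'‖ + ‖z - z'‖ := norm_le_norm_add_norm_sub' z z'
  have h2 := pow_le_pow_left₀ (norm_nonneg _) h1 2
  have h3 := mul_le_mul_of_nonneg_right (norm_le_N s z') (norm_nonneg (z - z'))
  have h4 := N_sq s z'
  linarith

theorem N_lip (s : ℝ) (z z' : Eu m) : |N s z - N s z'| ≤ ‖z - z'‖ := by
  rw [abs_sub_le_iff]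
  constructor
  · linarith [kerna_N_le_add s z z']
  · linarith [kerna_N_le_add s z' z, norm_sub_rev z z']

theorem N_smul {r : ℝ} (hr : 0 < r) (s : ℝ) (z : Eu m) : N (r * s) (r • z) = r * N s z := by
  unfold N
  rw [norm_smul, Real.norm_of_nonneg hr.le, mul_pow, mul_pow, ← mul_add,
    Real.sqrt_mul (sq_nonneg _), Real.sqrt_sq hr.le]

/-- Peetre's inequality. -/
theorem N_peetre {s : ℝ} (hs : 0 < s) (z z' : Eu m) :
    N s z ≤ (1 + ‖z - z'‖ / s) * N s z' := by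
  refine (kerna_N_le_add s z z').trans ?_
  rw [add_mul, one_mul, div_mul_eq_mul_div]
  refine add_le_add_right ((le_div_iff₀ hs).2 ?_) _
  exact mul_le_mul_of_nonneg_left (le_N s z') (norm_nonneg _)

/-- Comparison of truncation levels. -/
theorem N_le_mul {t s : ℝ} (ht : 0 < t) (hts : t ≤ s) (z : Eu m) : N s z ≤ (s / t) * N t z := by
  have h1 : 1 ≤ s / t := (one_le_div ht).2 hts
  rw [← N_smul (by linarith), div_mul_cancel₀ _ ht.ne']
  refine N_mono_norm s ?_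
  rw [norm_smul, Real.norm_of_nonneg (by linarith)]
  exact le_mul_of_one_le_left (norm_nonneg _) h1

theorem continuous_N (s : ℝ) : Continuous (N s : Eu m → ℝ) := by
  unfold N
  fun_prop

theorem continuous_N₂ : Continuous (fun p : ℝ × Eu m => N p.1 p.2) := by
  unfold N
  fun_prop

theorem kap_nonneg (p : ℕ) (s : ℝ) (z : Eu m) : 0 ≤ kap p s z := by
  exact inv_nonneg.2 (pow_nonneg (N_nonneg s z) p)

theorem kap_pos (p : ℕ) {s : ℝ} (hs : 0 < s) (z : Eu m) : 0 < kap p s z := by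
  exact inv_pos.2 (pow_pos (N_pos hs z) p)

theorem kap_neg (p : ℕ) (s : ℝ) (z : Eu m) : kap p s (-z) = kap p s z := by
  rw [kap, kap, N_neg]

theorem kap_sub_comm (p : ℕ) (s : ℝ) (x y : Eu m) : kap p s (x - y) = kap p s (y - x) := by
  rw [kap, kap, N_sub_comm]

theorem kap_congr_norm {m' : ℕ} (p : ℕ) (s : ℝ) {z : Eu m} {z' : Eu m'} (h : ‖z‖ = ‖z'‖) :
    kap p s z = kap p s z' := by
  rw [kap, kap, N_congr_norm s h]

theorem kap_zero (p : ℕ) (z : Eu m) : kap p 0 z = (‖z‖ ^ p)⁻¹ := by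
  rw [kap, N_zero]

theorem kap_add (p q : ℕ) (s : ℝ) (z : Eu m) : kap (p + q) s z = kap p s z * kap q s z := by
  rw [kap, kap, kap, pow_add, mul_inv]

theorem kap_mul_N_pow (p q : ℕ) {s : ℝ} (hs : 0 < s) (z : Eu m) :
    kap (p + q) s z * N s z ^ q = kap p s z := by
  rw [kap_add, mul_assoc, kap, kap, inv_mul_cancel₀ (pow_pos (N_pos hs z) q).ne', mul_one]

theorem kap_le (p : ℕ) {s : ℝ} (hs : 0 < s) (z : Eu m) : kap p s z ≤ (s ^ p)⁻¹ := by
  exact inv_anti₀ (pow_pos hs p) (pow_le_pow_left₀ hs.le (le_N s z) p)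

theorem kap_le_one (p : ℕ) (z : Eu m) : kap p 1 z ≤ 1 := by
  simpa using kap_le p one_pos z

theorem kap_le_norm (p : ℕ) (s : ℝ) {z : Eu m} (hz : z ≠ 0) : kap p s z ≤ (‖z‖ ^ p)⁻¹ := by
  exact inv_anti₀ (pow_pos (norm_pos_iff.2 hz) p)
    (pow_le_pow_left₀ (norm_nonneg _) (norm_le_N s z) p)

theorem kap_add_le (p j : ℕ) {s : ℝ} (hs : 0 < s) (z : Eu m) :
    kap (p + j) s z ≤ kap p s z * (s ^ j)⁻¹ := by
  rw [kap_add]
  exact mul_le_mul_of_nonneg_left (kap_le j hs z) (kap_nonneg p s z)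

theorem kap_anti_exp {p q : ℕ} (h : p ≤ q) (z : Eu m) : kap q 1 z ≤ kap p 1 z := by
  exact inv_anti₀ (pow_pos (N_pos one_pos z) p) (pow_le_pow_right₀ (one_le_N z) h)

theorem norm_pow_mul_kap_le (p j : ℕ) (s : ℝ) (z : Eu m) :
    ‖z‖ ^ j * kap (p + j) s z ≤ kap p s z := by
  rw [kap_add, mul_left_comm]
  exact mul_le_of_le_one_right (kap_nonneg p s z) (mul_inv_le_one_of_le₀
    (pow_le_pow_left₀ (norm_nonneg _) (norm_le_N s z) j) (pow_nonneg (N_nonneg s z) j))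

theorem kap_anti (p : ℕ) {t s : ℝ} (ht : 0 ≤ t) (hts : t ≤ s) {z : Eu m} (h : 0 < N t z) :
    kap p s z ≤ kap p t z := by
  exact inv_anti₀ (pow_pos h p) (pow_le_pow_left₀ h.le (N_mono ht hts z) p)

theorem kap_smul (p : ℕ) {r : ℝ} (hr : 0 < r) (s : ℝ) (z : Eu m) :
    kap p (r * s) (r • z) = (r ^ p)⁻¹ * kap p s z := by
  rw [kap, kap, N_smul hr, mul_pow, mul_inv]

theorem kerna_kap_le (p : ℕ) {t s c : ℝ} {z z' : Eu m} (h : 0 < N t z) (h' : 0 < N s z')
    (hc : N s z' ≤ c * N t z) : kap p t z ≤ c ^ p * kap p s z' := by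
  rw [kap, kap, ← div_eq_mul_inv, le_div_iff₀ (pow_pos h' p), inv_mul_le_iff₀ (pow_pos h p),
    ← mul_pow, mul_comm]
  exact pow_le_pow_left₀ h'.le hc p

theorem kap_peetre (p : ℕ) {s : ℝ} (hs : 0 < s) (z z' : Eu m) :
    kap p s z ≤ (1 + ‖z - z'‖ / s) ^ p * kap p s z' := by
  refine kerna_kap_le p (N_pos hs z) (N_pos hs z') ?_
  rw [norm_sub_rev]
  exact N_peetre hs z' z

theorem kap_le_mul (p : ℕ) {t s : ℝ} (ht : 0 < t) (hts : t ≤ s) (z : Eu m) :
    kap p t z ≤ (s / t) ^ p * kap p s z := by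
  exact kerna_kap_le p (N_pos ht z) (N_pos (ht.trans_le hts) z) (N_le_mul ht hts z)

/-- Inside the ball of radius `s` the weight is comparable to `s^{-p}`. -/
theorem inv_le_kap (p : ℕ) {s : ℝ} (hs : 0 < s) {z : Eu m} (hz : ‖z‖ ≤ s) :
    ((2 * s) ^ p)⁻¹ ≤ kap p s z := by
  refine inv_anti₀ (pow_pos (N_pos hs z) p) (pow_le_pow_left₀ (N_nonneg s z) ?_ p)
  linarith [N_le hs.le z]

/-- Outside the ball of radius `s` the truncation does not matter. -/
theorem kap_zero_le (p : ℕ) {s : ℝ} (hs : 0 < s) {z : Eu m} (hz : s ≤ ‖z‖) :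
    kap p 0 z ≤ 2 ^ p * kap p s z := by
  refine kerna_kap_le p (by rw [N_zero]; linarith) (N_pos hs z) ?_
  rw [N_zero]
  linarith [N_le hs.le z]

theorem continuous_kap (p : ℕ) {s : ℝ} (hs : 0 < s) : Continuous (kap p s : Eu m → ℝ) := by
  exact ((continuous_N s).pow p).inv₀ fun z => (pow_pos (N_pos hs z) p).ne'

theorem measurable_kap (p : ℕ) (s : ℝ) : Measurable (kap p s : Eu m → ℝ) := by
  exact ((continuous_N s).pow p).measurable.inv

theorem tendsto_kap_zero (p : ℕ) {z : Eu m} (hz : z ≠ 0) :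
    Tendsto (fun s => kap p s z) (𝓝[>] 0) (𝓝 (kap p 0 z)) := by
  have h1 : Continuous fun s : ℝ => N s z ^ p :=
    (continuous_N₂.comp (f := fun s : ℝ => (s, z)) (by fun_prop)).pow p
  refine ((h1.tendsto 0).inv₀ ?_).mono_left nhdsWithin_le_nhds
  rw [N_zero]
  exact pow_ne_zero p (norm_ne_zero_iff.2 hz)

theorem kerna_inv_sub (p : ℕ) {a b : ℝ} (ha : 0 < a) (hab : a ≤ b) :
    (a ^ p)⁻¹ - (b ^ p)⁻¹ ≤ p * (b - a) * (a ^ (p + 1))⁻¹ := by
  have hb : 0 < b := ha.trans_le hab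
  have h1 := one_add_mul_le_pow (a := a / b - 1) (by linarith [div_pos ha hb]) p
  rw [add_sub_cancel, div_pow] at h1
  have h2 : 1 - a / b ≤ (b - a) / a := by
    rw [one_sub_div hb.ne']
    exact div_le_div_of_nonneg_left (sub_nonneg.2 hab) ha hab
  have h3 := mul_le_mul_of_nonneg_left h2 (p.cast_nonneg : (0 : ℝ) ≤ p)
  calc (a ^ p)⁻¹ - (b ^ p)⁻¹ = (1 - a ^ p / b ^ p) * (a ^ p)⁻¹ := by field_simp
    _ ≤ p * ((b - a) / a) * (a ^ p)⁻¹ :=
      mul_le_mul_of_nonneg_right (by linarith) (by positivity)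
    _ = _ := by
      field_simp
      ring

theorem kap_lip (p : ℕ) {s : ℝ} {z z' : Eu m} (h : 0 < N s z) (h' : 0 < N s z') :
    |kap p s z - kap p s z'| ≤ p * ‖z - z'‖ * (kap (p + 1) s z + kap (p + 1) s z') := by
  have key : ∀ z z' : Eu m, 0 < N s z → N s z ≤ N s z' → |kap p s z - kap p s z'| ≤
      p * ‖z - z'‖ * (kap (p + 1) s z + kap (p + 1) s z') := fun z z' h hle => by
    have h0 : kap p s z' ≤ kap p s z := inv_anti₀ (pow_pos h p) (pow_le_pow_left₀ h.le hle p)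
    rw [abs_of_nonneg (sub_nonneg.2 h0)]
    refine (kerna_inv_sub p h hle).trans (mul_le_mul (mul_le_mul_of_nonneg_left ?_ p.cast_nonneg)
      (le_add_of_nonneg_right (kap_nonneg _ _ _)) (kap_nonneg _ _ _) (by positivity))
    linarith [kerna_N_le_add s z' z, norm_sub_rev z z']
  rcases le_total (N s z) (N s z') with hle | hle
  · exact key z z' h hle
  · rw [abs_sub_comm, norm_sub_rev, add_comm (kap _ _ _)]
    exact key z' z h' hle

/-- Difference of two truncation levels. -/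
theorem kap_diff_le (p : ℕ) {t s : ℝ} (ht : 0 ≤ t) (hts : t ≤ s) {z : Eu m} (h : 0 < N t z) :
    kap p t z - kap p s z ≤ p * s ^ 2 * kap (p + 2) t z := by
  have hle := N_mono ht hts z
  refine (kerna_inv_sub p h hle).trans ?_
  have h1 : (N s z - N t z) * N t z ≤ s ^ 2 := by
    have := mul_le_mul_of_nonneg_left (le_add_of_nonneg_left (N_nonneg s z) : N t z ≤ _)
      (sub_nonneg.2 hle)
    linarith [N_sq s z, N_sq t z, sq_nonneg t]
  calc p * (N s z - N t z) * (N t z ^ (p + 1))⁻¹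
      = p * ((N s z - N t z) * N t z) * (N t z ^ (p + 2))⁻¹ := by
        field_simp
        ring
    _ ≤ _ := mul_le_mul_of_nonneg_right (mul_le_mul_of_nonneg_left h1 p.cast_nonneg)
      (kap_nonneg _ _ _)

theorem KK_neg (n : ℕ) (s : ℝ) (z : Eu m) : KK n s (-z) = -KK n s z := by
  rw [KK, KK, kap_neg, smul_neg]

theorem norm_KK_le (n : ℕ) (s : ℝ) (z : Eu m) : ‖KK n s z‖ ≤ kap n s z := by
  rw [KK, norm_smul, Real.norm_of_nonneg (kap_nonneg _ _ _), mul_comm]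
  simpa using norm_pow_mul_kap_le n 1 s z

theorem norm_KK (n : ℕ) (s : ℝ) (z : Eu m) : ‖KK n s z‖ = ‖z‖ * kap (n + 1) s z := by
  rw [KK, norm_smul, Real.norm_of_nonneg (kap_nonneg _ _ _), mul_comm]

theorem KK_smul (n : ℕ) {r : ℝ} (hr : 0 < r) (s : ℝ) (z : Eu m) :
    KK n (r * s) (r • z) = (r ^ n)⁻¹ • KK n s z := by
  rw [KK, KK, kap_smul _ hr, smul_smul, smul_smul]
  congr 1
  field_simp
  ring

theorem continuous_KK (n : ℕ) {s : ℝ} (hs : 0 < s) : Continuous (KK n s : Eu m → Eu m) := by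
  exact (continuous_kap _ hs).smul continuous_id

theorem measurable_KK (n : ℕ) (s : ℝ) : Measurable (KK n s : Eu m → Eu m) := by
  exact (measurable_kap _ s).smul measurable_id

theorem KK_lip (n : ℕ) {s : ℝ} (hs : 0 < s) (z z' : Eu m) :
    ‖KK n s z - KK n s z'‖ ≤ (n + 2) * ‖z - z'‖ * (kap (n + 1) s z + kap (n + 1) s z') := by
  have key : ∀ z z' : Eu m, ‖z'‖ ≤ ‖z‖ → ‖KK n s z - KK n s z'‖ ≤
      (n + 2) * ‖z - z'‖ * (kap (n + 1) s z + kap (n + 1) s z') := fun z z' hle => by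
    have e : KK n s z - KK n s z' =
        kap (n + 1) s z • (z - z') + (kap (n + 1) s z - kap (n + 1) s z') • z' := by
      rw [KK, KK, smul_sub, sub_smul]
      abel
    rw [e]
    refine (norm_add_le _ _).trans ?_
    rw [norm_smul, norm_smul, Real.norm_of_nonneg (kap_nonneg _ _ _), Real.norm_eq_abs]
    have h1 := mul_le_mul_of_nonneg_right (kap_lip (n + 1) (N_pos hs z) (N_pos hs z'))
      (norm_nonneg z')
    have h2 := norm_pow_mul_kap_le (n + 1) 1 s z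
    have h3 := norm_pow_mul_kap_le (n + 1) 1 s z'
    rw [pow_one] at h2 h3
    have h4 := mul_le_mul_of_nonneg_right hle (kap_nonneg (n + 1 + 1) s z)
    have h5 : (kap (n + 1 + 1) s z + kap (n + 1 + 1) s z') * ‖z'‖ ≤
        kap (n + 1) s z + kap (n + 1) s z' := by linarith
    have h6 := mul_le_mul_of_nonneg_left h5 (by positivity : 0 ≤ ((n + 1 : ℕ) : ℝ) * ‖z - z'‖)
    have h7 := mul_nonneg (norm_nonneg (z - z')) (kap_nonneg (n + 1) s z')
    push_cast at h1 h6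
    linarith
  rcases le_total ‖z'‖ ‖z‖ with hle | hle
  · exact key z z' hle
  · rw [norm_sub_rev, norm_sub_rev z, add_comm (kap _ _ _)]
    exact key z' z hle

theorem kerna_level (p : ℕ) {s : ℝ} (hs : 0 < s) (z : Eu m) :
    kap p s z ≤ (1 + s⁻¹) ^ p * kap p 1 z := by
  refine kerna_kap_le p (N_pos hs z) (N_pos one_pos z) ?_
  have h1 := mul_le_mul_of_nonneg_left (le_N s z) (inv_nonneg.2 hs.le)
  rw [inv_mul_cancel₀ hs.ne'] at h1
  linarith [N_le zero_le_one z, norm_le_N s z]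

theorem kerna_shift (p : ℕ) {s : ℝ} (hs : 0 < s) (x y : Eu m) :
    kap (p + 1) s x + kap (p + 1) s (x - y) ≤
      2 * (1 + s⁻¹) ^ (2 * (p + 1)) * N 1 y ^ (p + 1) * kap (p + 1) 1 x := by
  have h0 : 0 ≤ s⁻¹ := inv_nonneg.2 hs.le
  have h1 := kap_peetre (p + 1) hs (x - y) x
  rw [sub_sub_cancel_left, norm_neg] at h1
  have h2 : 1 + ‖y‖ / s ≤ (1 + s⁻¹) * N 1 y := by
    have := mul_le_mul_of_nonneg_left (norm_le_N 1 y) h0
    rw [div_eq_inv_mul]
    linarith [one_le_N y]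
  have h3 := mul_le_mul_of_nonneg_right (pow_le_pow_left₀ (by positivity) h2 (p + 1))
    (kap_nonneg (p + 1) s x)
  have h4 : kap (p + 1) s x ≤ ((1 + s⁻¹) * N 1 y) ^ (p + 1) * kap (p + 1) s x :=
    le_mul_of_one_le_left (kap_nonneg _ _ _) (one_le_pow₀ (le_trans (le_add_of_nonneg_right
      (by positivity)) h2))
  have h5 := mul_le_mul_of_nonneg_left (kerna_level (p + 1) hs x)
    (pow_nonneg (mul_nonneg (by positivity) (N_nonneg 1 y)) (p + 1) :
      0 ≤ ((1 + s⁻¹) * N 1 y) ^ (p + 1))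
  refine le_trans (by linarith : _ ≤ 2 * (((1 + s⁻¹) * N 1 y) ^ (p + 1) *
    ((1 + s⁻¹) ^ (p + 1) * kap (p + 1) 1 x))) (le_of_eq ?_)
  rw [mul_pow]
  ring

theorem kerna_diff (p : ℕ) {s : ℝ} (hs : 0 < s) (z : Eu m) :
    |kap p 1 z - kap p s z| ≤ p * ((1 + s ^ 2) * (1 + s⁻¹) ^ (p + 2)) * kap (p + 2) 1 z := by
  have h0 : 0 ≤ s⁻¹ := inv_nonneg.2 hs.le
  have h1 : 1 ≤ (1 + s⁻¹) ^ (p + 2) := one_le_pow₀ (by linarith)
  rcases le_total s 1 with h | h
  · rw [abs_sub_comm, abs_of_nonneg (sub_nonneg.2 (kap_anti p hs.le h (N_pos hs z)))]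
    refine (kap_diff_le p hs.le h (N_pos hs z)).trans ?_
    rw [one_pow, mul_one, mul_assoc]
    refine mul_le_mul_of_nonneg_left ((kerna_level _ hs z).trans (mul_le_mul_of_nonneg_right
      (le_mul_of_one_le_left (by positivity) (le_add_of_nonneg_right (sq_nonneg s)))
      (kap_nonneg _ _ _))) p.cast_nonneg
  · rw [abs_of_nonneg (sub_nonneg.2 (kap_anti p zero_le_one h (N_pos one_pos z)))]
    refine (kap_diff_le p zero_le_one h (N_pos one_pos z)).trans (mul_le_mul_of_nonneg_right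
      (mul_le_mul_of_nonneg_left ?_ p.cast_nonneg) (kap_nonneg _ _ _))
    exact (le_add_of_nonneg_left zero_le_one).trans (le_mul_of_one_le_right (by positivity) h1)

theorem kerna_hh (n : ℕ) {s : ℝ} (hs : 0 < s) :
    ∃ c : ℝ, 0 ≤ c ∧ ∀ x y : Eu m,
      ‖KK n s (x - y) + KK n 1 y‖ ≤ c * N 1 x ^ (n + 2) * kap (n + 1) 1 y := by
  refine ⟨(n + 1 : ℕ) * ((1 + s ^ 2) * (1 + s⁻¹) ^ (n + 1 + 2)) +
    (n + 2) * (2 * (1 + s⁻¹) ^ (2 * (n + 1))), by positivity, fun x y => ?_⟩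
  have e : KK n s (x - y) + KK n 1 y =
      (kap (n + 1) 1 y - kap (n + 1) s y) • y + (KK n s y - KK n s (y - x)) := by
    rw [← neg_sub y x, KK_neg, sub_smul, KK, KK, KK]
    abel
  rw [e, add_mul, add_mul]
  refine (norm_add_le _ _).trans (add_le_add ?_ ?_)
  · rw [norm_smul, Real.norm_eq_abs]
    refine (mul_le_mul_of_nonneg_right (kerna_diff (n + 1) hs y) (norm_nonneg y)).trans ?_
    rw [mul_assoc, mul_assoc _ (N 1 x ^ _)]
    refine mul_le_mul_of_nonneg_left ?_ (by positivity)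
    have h1 := norm_pow_mul_kap_le (n + 2) 1 1 y
    rw [pow_one, mul_comm] at h1
    exact (h1.trans (kap_anti_exp (Nat.le_succ _) y)).trans
      (le_mul_of_one_le_left (kap_nonneg _ _ _) (one_le_pow₀ (one_le_N x)))
  · refine (KK_lip n hs y (y - x)).trans ?_
    rw [sub_sub_cancel]
    refine (mul_le_mul (mul_le_mul_of_nonneg_left (norm_le_N 1 x) (by positivity))
      (kerna_shift n hs y x) (add_nonneg (kap_nonneg _ _ _) (kap_nonneg _ _ _))
      (mul_nonneg (by positivity) (N_nonneg _ _))).trans (le_of_eq ?_)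
    ring

/-- The integrand of `hh` decays like `kap (n+1) 1`, locally uniformly in `x`. -/
theorem hh_integrand_le (n : ℕ) {s : ℝ} (hs : 0 < s) (R : ℝ) :
    ∃ c : ℝ, 0 ≤ c ∧ ∀ x y : Eu m, ‖x‖ ≤ R →
      ‖KK n s (x - y) + KK n 1 y‖ ≤ c * kap (n + 1) 1 y := by
  obtain ⟨c, hc, h⟩ := kerna_hh (m := m) n hs
  refine ⟨c * (1 + |R|) ^ (n + 2), by positivity, fun x y hx => (h x y).trans ?_⟩
  refine mul_le_mul_of_nonneg_right (mul_le_mul_of_nonneg_left
    (pow_le_pow_left₀ (N_nonneg _ _) ?_ _) hc) (kap_nonneg _ _ _)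
  linarith [N_le zero_le_one x, le_abs_self R]

/-- Polynomial form in `x` (Peetre). -/
theorem hh_integrand_le' (n : ℕ) {s : ℝ} (hs : 0 < s) :
    ∃ c : ℝ, 0 ≤ c ∧ ∀ x y : Eu m,
      ‖KK n s (x - y) + KK n 1 y‖ ≤ c * N 1 x ^ (n + 2) * kap (n + 1) 1 y := by
  exact kerna_hh n hs

/-- Kernel difference used with mean-zero functions. -/
theorem kap_sub_le (n : ℕ) {s : ℝ} (hs : 0 < s) :
    ∃ c : ℝ, 0 ≤ c ∧ ∀ x y : Eu m,
      |kap (n + 1) s (x - y) - kap (n + 1) s x| ≤ c * N 1 y ^ (n + 3) * kap (n + 2) 1 x := by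
  refine ⟨(n + 1 : ℕ) * (2 * (1 + s⁻¹) ^ (2 * (n + 1 + 1))), by positivity, fun x y => ?_⟩
  rw [abs_sub_comm]
  refine (kap_lip (n + 1) (N_pos hs x) (N_pos hs (x - y))).trans ?_
  rw [sub_sub_cancel]
  refine (mul_le_mul (mul_le_mul_of_nonneg_left (norm_le_N 1 y) (by positivity))
    (kerna_shift (n + 1) hs x y) (add_nonneg (kap_nonneg _ _ _) (kap_nonneg _ _ _))
    (mul_nonneg (by positivity) (N_nonneg _ _))).trans (le_of_eq ?_)
  ring

theorem cK_pos (n : ℕ) : 0 < cK n := by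
  unfold cK
  positivity

/-! Lipschitz and test functions -/

theorem Lip.continuous {L : ℝ} {f : Eu m → ℝ} (h : Lip L f) : Continuous f := by
  refine (LipschitzWith.of_dist_le' (K := L) fun x y => ?_).continuous
  rw [Real.dist_eq, dist_eq_norm]
  exact h x y

theorem Lip.mono {L L' : ℝ} {f : Eu m → ℝ} (h : Lip L f) (hL : L ≤ L') : Lip L' f := by
  exact fun x y => (h x y).trans (mul_le_mul_of_nonneg_right hL (norm_nonneg _))

theorem Lip.abs {L : ℝ} {f : Eu m → ℝ} (h : Lip L f) : Lip |L| f := by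
  exact h.mono (le_abs_self L)

theorem Lip.add {L L' : ℝ} {f g : Eu m → ℝ} (h : Lip L f) (h' : Lip L' g) :
    Lip (L + L') (fun y => f y + g y) := by
  intro x y
  rw [add_sub_add_comm, add_mul]
  exact (abs_add_le _ _).trans (add_le_add (h x y) (h' x y))

theorem Lip.const_mul {L : ℝ} {f : Eu m → ℝ} (h : Lip L f) (a : ℝ) :
    Lip (|a| * L) (fun y => a * f y) := by
  intro x y
  rw [← mul_sub, abs_mul, mul_assoc]
  exact mul_le_mul_of_nonneg_left (h x y) (abs_nonneg a)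

theorem Lip.sub_const {L : ℝ} {f : Eu m → ℝ} (h : Lip L f) (a : ℝ) :
    Lip L (fun y => f y - a) := by
  intro x y
  rw [sub_sub_sub_cancel_right]
  exact h x y

theorem lip_affine (v : Eu m) (b : ℝ) : Lip ‖v‖ (fun y => ⟪v, y⟫ + b) := by
  intro x y
  rw [add_sub_add_right_eq_sub, ← inner_sub_right]
  exact abs_real_inner_le_norm _ _

theorem Lip.abs_le {L : ℝ} {f : Eu m → ℝ} (h : Lip L f) (y : Eu m) :
    |f y| ≤ (|f 0| + |L|) * N 1 y := by
  have h1 := h.abs y 0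
  rw [sub_zero] at h1
  have h2 := abs_sub_abs_le_abs_sub (f y) (f 0)
  have h3 := mul_le_mul_of_nonneg_left (norm_le_N 1 y) (abs_nonneg L)
  have h4 := mul_le_mul_of_nonneg_left (one_le_N y) (abs_nonneg (f 0))
  linarith

theorem Tst.hasCompactSupport {L R : ℝ} {x0 : Eu m} {ψ : Eu m → ℝ} (h : Tst L x0 R ψ) :
    HasCompactSupport ψ := by
  exact HasCompactSupport.intro (isCompact_closedBall x0 R) fun y hy =>
    h.supp y (not_le.1 hy).le

/-- Sup bound of a test function (needs `1 ≤ m`: there are points at distance exactly `R`). -/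
theorem Tst.abs_le (hm : 1 ≤ m) {L R : ℝ} {x0 : Eu m} {ψ : Eu m → ℝ} (h : Tst L x0 R ψ)
    (hL : 0 ≤ L) (hR : 0 ≤ R) (y : Eu m) : |ψ y| ≤ L * R := by
  obtain ⟨e, he⟩ : ∃ e : Eu m, ‖e‖ = R :=
    ⟨EuclideanSpace.single ⟨0, hm⟩ R, by simp [abs_of_nonneg hR]⟩
  have key : ∀ e : Eu m, ‖e‖ = R → R ≤ dist (y - e) x0 → |ψ y| ≤ L * R := fun e he h1 => by
    have h2 := h.lip y (y - e)
    rwa [h.supp _ h1, sub_zero, sub_sub_cancel, he] at h2
  by_cases h1 : R ≤ dist (y - e) x0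
  · exact key e he h1
  · refine key (-e) (by rw [norm_neg, he]) ?_
    have h2 := dist_triangle_right (y - -e) (y - e) x0
    rw [dist_eq_norm, sub_sub_sub_cancel_left, sub_neg_eq_add, ← two_smul ℝ e, norm_smul, he,
      Real.norm_ofNat] at h2
    linarith [not_le.1 h1]

theorem Tst.mono {L L' R R' : ℝ} {x0 x1 : Eu m} {ψ : Eu m → ℝ} (h : Tst L x0 R ψ) (hL : L ≤ L')
    (hR : dist x1 x0 + R ≤ R') : Tst L' x1 R' ψ := by
  refine ⟨h.lip.mono hL, fun y hy => h.supp y ?_⟩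
  linarith [dist_triangle_right y x1 x0]

theorem Tst.add {L L' R : ℝ} {x0 : Eu m} {ψ φ : Eu m → ℝ} (h : Tst L x0 R ψ) (h' : Tst L' x0 R φ) :
    Tst (L + L') x0 R (fun y => ψ y + φ y) := by
  exact ⟨h.lip.add h'.lip, fun y hy => by rw [h.supp y hy, h'.supp y hy, add_zero]⟩

theorem Tst.const_mul {L R : ℝ} {x0 : Eu m} {ψ : Eu m → ℝ} (h : Tst L x0 R ψ) (a : ℝ) :
    Tst (|a| * L) x0 R (fun y => a * ψ y) := by
  exact ⟨h.lip.const_mul a, fun y hy => by rw [h.supp y hy, mul_zero]⟩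

/-- Product of a test function with a Lipschitz function. -/
theorem Tst.mul_lip {L L' R : ℝ} {x0 : Eu m} {ψ f : Eu m → ℝ} (h : Tst L x0 R ψ) (h' : Lip L' f) :
    ∃ L'', Tst L'' x0 R (fun y => ψ y * f y) := by
  have bd : ∀ {K : ℝ} {g : Eu m → ℝ}, Lip K g → ∀ y, dist y x0 < R →
      |g y| ≤ |g x0| + |K| * |R| := fun {K g} hg y hy => by
    have h1 := hg.abs y x0
    rw [← dist_eq_norm] at h1
    have h2 := abs_sub_abs_le_abs_sub (g y) (g x0)
    have h3 := mul_le_mul_of_nonneg_left (hy.le.trans (le_abs_self R)) (abs_nonneg K)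
    linarith
  have hψ : ∀ y, |ψ y| ≤ |ψ x0| + |L| * |R| := fun y => by
    rcases lt_or_ge (dist y x0) R with hy | hy
    · exact bd h.lip y hy
    · rw [h.supp y hy, abs_zero]
      positivity
  have key : ∀ x y, dist x x0 < R → |ψ x * f x - ψ y * f y| ≤
      (|L| * (|f x0| + |L'| * |R|) + (|ψ x0| + |L| * |R|) * |L'|) * ‖x - y‖ := fun x y hx => by
    rw [show ψ x * f x - ψ y * f y = (ψ x - ψ y) * f x + ψ y * (f x - f y) by ring]
    refine (abs_add_le _ _).trans ?_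
    rw [abs_mul, abs_mul]
    refine (add_le_add (mul_le_mul (h.lip.abs x y) (bd h' x hx) (abs_nonneg _) (by positivity))
      (mul_le_mul (hψ y) (h'.abs x y) (abs_nonneg _) (by positivity))).trans (le_of_eq ?_)
    ring
  refine ⟨|L| * (|f x0| + |L'| * |R|) + (|ψ x0| + |L| * |R|) * |L'|, fun x y => ?_,
    fun y hy => by rw [h.supp y hy, zero_mul]⟩
  rcases lt_or_ge (dist x x0) R with hx | hx
  · exact key x y hx
  rcases lt_or_ge (dist y x0) R with hy | hy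
  · rw [abs_sub_comm, norm_sub_rev]
    exact key y x hy
  · simp only [h.supp x hx, h.supp y hy, zero_mul, sub_self, abs_zero]
    positivity

/-- The cutoff `clamp ((R + w - dist y x0)/w)`: `1` on `closedBall x0 R`, `0` off `ball x0 (R+w)`. -/
def cut (x0 : Eu m) (R w : ℝ) (y : Eu m) : ℝ := max 0 (min 1 ((R + w - dist y x0) / w))

theorem cut_nonneg (x0 : Eu m) (R w : ℝ) (y : Eu m) : 0 ≤ cut x0 R w y := by
  exact le_max_left _ _

theorem cut_le_one (x0 : Eu m) (R w : ℝ) (y : Eu m) : cut x0 R w y ≤ 1 := by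
  exact max_le zero_le_one (min_le_left _ _)

theorem cut_eq_one {x0 : Eu m} {R w : ℝ} (hw : 0 < w) {y : Eu m} (h : dist y x0 ≤ R) :
    cut x0 R w y = 1 := by
  rw [cut, min_eq_left ((one_le_div hw).2 (by linarith)), max_eq_right zero_le_one]

theorem cut_tst (x0 : Eu m) (R : ℝ) {w : ℝ} (hw : 0 < w) : Tst (1 / w) x0 (R + w) (cut x0 R w) := by
  refine ⟨fun x y => ?_, fun y hy => max_eq_left ((min_le_right _ _).trans
    (div_nonpos_of_nonpos_of_nonneg (sub_nonpos.2 hy) hw.le))⟩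
  refine (abs_max_sub_max_le_max _ _ _ _).trans (max_le (by simp; positivity)
    ((abs_min_sub_min_le_max _ _ _ _).trans (max_le (by simp; positivity) ?_)))
  rw [← sub_div, sub_sub_sub_cancel_left, abs_div, abs_of_pos hw, one_div, ← div_eq_inv_mul,
    ← dist_eq_norm, dist_comm x y]
  exact div_le_div_of_nonneg_right (abs_dist_sub_le _ _ _) hw.le

/-- A smooth compactly supported function is a test function. -/
theorem tst_of_contDiff {ψ : Eu m → ℝ} (h : ContDiff ℝ 1 ψ) (hc : HasCompactSupport ψ) :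
    ∃ L R, 0 ≤ L ∧ 0 < R ∧ Tst L 0 R ψ := by
  obtain ⟨C, hC⟩ := h.lipschitzWith_of_hasCompactSupport hc one_ne_zero
  obtain ⟨R, hR, hs⟩ := hc.isCompact.isBounded.subset_ball_lt 0 0
  refine ⟨C, R, C.2, hR, fun x y => ?_, fun y hy => image_eq_zero_of_notMem_tsupport fun h1 =>
    (mem_ball.1 (hs h1)).not_ge hy⟩
  rw [← Real.dist_eq, ← dist_eq_norm]
  exact hC.dist_le_mul x y

theorem dec_of_hasCompactSupport (p : ℕ) {φ : Eu m → ℝ} (h : Continuous φ)
    (hc : HasCompactSupport φ) : ∃ K, 0 ≤ K ∧ Dec p K φ := by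
  obtain ⟨M, hM⟩ := h.bounded_above_of_compact_support hc
  obtain ⟨R, hR, hs⟩ := hc.isCompact.isBounded.subset_ball_lt 0 0
  have hM0 : 0 ≤ M := (norm_nonneg _).trans (hM 0)
  refine ⟨M * (1 + R) ^ p, by positivity, h, fun y => ?_⟩
  by_cases hy : y ∈ tsupport φ
  · refine (hM y).trans ?_
    rw [mul_assoc, kap, ← div_eq_mul_inv]
    refine le_mul_of_one_le_right hM0 ((one_le_div (pow_pos (N_pos one_pos y) p)).2
      (pow_le_pow_left₀ (N_nonneg _ _) ?_ p))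
    linarith [N_le zero_le_one y, mem_ball_zero_iff.1 (hs hy)]
  · rw [image_eq_zero_of_notMem_tsupport hy, abs_zero]
    exact mul_nonneg (by positivity) (kap_nonneg _ _ _)

end Crest.Agent.R85
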