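import Crest.Agent.R85.KernA

/-!
# Auxiliary lemmas for KernB (part a): dyadic decomposition
-/

set_option autoImplicit false

open MeasureTheory Metric Filter Topology
open scoped RealInnerProductSpace

noncomputable section

namespace Crest.Agent.R85

variable {m : ℕ} {n : ℕ} {C : ℝ} {ν : Measure (Eu m)}

/-- Dyadic bound for the integral of a nonnegative function. -/
theorem Ka_dy {f : Eu m → ℝ} (hf : Measurable f) (h0 : ∀ y, 0 ≤ f y) {S : Set (Eu m)}
    (A : ℕ → Set (Eu m)) (hA : ∀ k, MeasurableSet (A k)) (hS : S ⊆ ⋃ k, A k) {T : ℝ} (hT : 0 ≤ T)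
    (b c : ℕ → ℝ) (hb0 : ∀ k, 0 ≤ b k) (hb : ∀ k, ∀ y ∈ A k, f y ≤ b k)
    (hc : ∀ k, ν (A k) ≤ ENNReal.ofReal (c k)) (hm : ∀ k, b k * c k ≤ T / 2 / 2 ^ k) :
    IntegrableOn f S ν ∧ ∫ y in S, f y ∂ν ≤ T := by
  have h1 : ∫⁻ y in S, ENNReal.ofReal (f y) ∂ν ≤ ENNReal.ofReal T := by
    refine (lintegral_mono_set hS).trans ((lintegral_iUnion_le _ _).trans ?_)
    rw [← tsum_geometric_two' T, ENNReal.ofReal_tsum_of_nonneg (fun k => by positivity)
      (summable_geometric_two' T)]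
    refine ENNReal.tsum_le_tsum fun k => ?_
    calc ∫⁻ y in A k, ENNReal.ofReal (f y) ∂ν ≤ ∫⁻ _ in A k, ENNReal.ofReal (b k) ∂ν :=
          setLIntegral_mono' (hA k) fun y hy => ENNReal.ofReal_le_ofReal (hb k y hy)
      _ = ENNReal.ofReal (b k) * ν (A k) := setLIntegral_const _ _
      _ ≤ ENNReal.ofReal (b k) * ENNReal.ofReal (c k) := by gcongr; exact hc k
      _ = ENNReal.ofReal (b k * c k) := (ENNReal.ofReal_mul (hb0 k)).symm
      _ ≤ _ := ENNReal.ofReal_le_ofReal (hm k)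
  refine ⟨⟨hf.aestronglyMeasurable, ?_⟩, ?_⟩
  · rw [hasFiniteIntegral_iff_ofReal (Eventually.of_forall h0)]
    exact h1.trans_lt ENNReal.ofReal_lt_top
  · rw [integral_eq_lintegral_of_nonneg_ae (Eventually.of_forall h0) hf.aestronglyMeasurable]
    exact ENNReal.toReal_le_of_le_ofReal hT h1

/-- Splitting into a set and its complement. -/
theorem Ka_split {f g g' : Eu m → ℝ} (hf : Measurable f) (h0 : ∀ y, 0 ≤ f y) {S : Set (Eu m)}
    (hS : MeasurableSet S) (hg : IntegrableOn g S ν) (hg' : IntegrableOn g' Sᶜ ν)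
    (h1 : ∀ y ∈ S, f y ≤ g y) (h2 : ∀ y ∈ Sᶜ, f y ≤ g' y) :
    Integrable f ν ∧ ∫ y, f y ∂ν ≤ ∫ y in S, g y ∂ν + ∫ y in Sᶜ, g' y ∂ν := by
  have a1 : IntegrableOn f S ν := hg.mono' hf.aestronglyMeasurable
    ((ae_restrict_iff' hS).2 (Eventually.of_forall fun y hy => by
      rw [Real.norm_of_nonneg (h0 y)]; exact h1 y hy))
  have a2 : IntegrableOn f Sᶜ ν := hg'.mono' hf.aestronglyMeasurable
    ((ae_restrict_iff' hS.compl).2 (Eventually.of_forall fun y hy => by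
      rw [Real.norm_of_nonneg (h0 y)]; exact h2 y hy))
  have a3 : Integrable f ν := by
    have := a1.union a2
    rwa [Set.union_compl_self, integrableOn_univ] at this
  refine ⟨a3, ?_⟩
  rw [← integral_add_compl hS a3]
  exact add_le_add (setIntegral_mono_on a1 hg hS h1) (setIntegral_mono_on a2 hg' hS.compl h2)

theorem Ka_meas (p : ℕ) (s : ℝ) (x : Eu m) : Measurable fun y => kap p s (x - y) :=
  (measurable_kap p s).comp (measurable_const.sub measurable_id)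

theorem Ka_meas_sq (x : Eu m) : Measurable fun y : Eu m => ‖x - y‖ ^ 2 :=
  (by fun_prop : Continuous fun y : Eu m => ‖x - y‖ ^ 2).measurable

theorem Ka_mem {x y : Eu m} {r : ℝ} : y ∈ ball x r ↔ ‖x - y‖ < r := by
  rw [mem_ball, dist_comm, dist_eq_norm]

theorem Ka_cK (n : ℕ) : 2 ^ (n + 1) + 1 ≤ cK n := by
  have h1 : (1 : ℝ) ≤ 2 ^ (n + 1) := one_le_pow₀ one_le_two
  have h2 : (0 : ℝ) ≤ n := Nat.cast_nonneg n
  unfold cK
  rw [pow_succ 2 (n + 1)]
  nlinarith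

theorem Ka_tail (h : Up n C ν) (hC : 0 ≤ C) (x : Eu m) (s : ℝ) {R : ℝ} (hR : 0 < R) :
    IntegrableOn (fun y => kap (n + 1) s (x - y)) (ball x R)ᶜ ν ∧
      ∫ y in (ball x R)ᶜ, kap (n + 1) s (x - y) ∂ν ≤ 2 ^ (n + 1) * C / R := by
  refine Ka_dy (Ka_meas _ _ _) (fun y => kap_nonneg _ _ _)
    (fun k => ball x (2 ^ (k + 1) * R) \ ball x (2 ^ k * R))
    (fun k => measurableSet_ball.diff measurableSet_ball) (fun y hy => ?_) (by positivity)
    (fun k => ((2 ^ k * R) ^ (n + 1))⁻¹) (fun k => C * (2 ^ (k + 1) * R) ^ n)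
    (fun k => by positivity) (fun k y hy => ?_)
    (fun k => (measure_mono Set.sdiff_subset).trans (h _ _ (by positivity))) fun k => le_of_eq ?_
  · rw [Set.mem_compl_iff, Ka_mem, not_lt] at hy
    obtain ⟨k, h1, h2⟩ := exists_nat_pow_near ((one_le_div hR).2 hy) one_lt_two
    refine Set.mem_iUnion.2 ⟨k, Ka_mem.2 ((div_lt_iff₀ hR).1 h2), ?_⟩
    rw [Ka_mem, not_lt]
    exact (le_div_iff₀ hR).1 h1
  · have h1 := hy.2
    rw [Ka_mem, not_lt] at h1
    have h2 : (0 : ℝ) < 2 ^ k * R := by positivity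
    refine (kap_le_norm _ _ (norm_pos_iff.1 (h2.trans_le h1))).trans ?_
    gcongr
  · simp only [mul_pow, pow_succ]
    field_simp

theorem Ka_near (h : Up n C ν) (hn : 1 ≤ n) (hC : 0 ≤ C) (x : Eu m) {s : ℝ} (hs : 0 < s) :
    IntegrableOn (fun y => ‖x - y‖ ^ 2 * kap (n + 1) 0 (x - y)) (ball x s) ν ∧
      ∫ y in ball x s, ‖x - y‖ ^ 2 * kap (n + 1) 0 (x - y) ∂ν ≤ 2 ^ n * C * s := by
  obtain ⟨p, rfl⟩ := Nat.exists_eq_add_of_le' hn
  refine Ka_dy ((Ka_meas_sq x).mul (Ka_meas _ _ _))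
    (fun y => mul_nonneg (sq_nonneg _) (kap_nonneg _ _ _))
    (fun k => ball x ((1 / 2) ^ k * s) \ (ball x ((1 / 2) ^ (k + 1) * s) \ {x}))
    (fun k => measurableSet_ball.diff (measurableSet_ball.diff (measurableSet_singleton x)))
    (fun y hy => ?_) (by positivity)
    (fun k => (((1 / 2) ^ (k + 1) * s) ^ p)⁻¹) (fun k => C * ((1 / 2) ^ k * s) ^ (p + 1))
    (fun k => by positivity) (fun k y hy => ?_)
    (fun k => (measure_mono Set.sdiff_subset).trans (h _ _ (by positivity))) fun k => le_of_eq ?_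
  · by_cases hx : y = x
    · subst hx
      exact Set.mem_iUnion.2 ⟨0, mem_ball_self (by positivity), fun h => h.2 rfl⟩
    · rw [Ka_mem] at hy
      have h0 : 0 < ‖x - y‖ := norm_pos_iff.2 (sub_ne_zero.2 (Ne.symm hx))
      obtain ⟨k, h1, h2⟩ : ∃ k : ℕ, (1 / 2 : ℝ) ^ (k + 1) ≤ ‖x - y‖ / s ∧ ‖x - y‖ / s < (1 / 2) ^ k := by
        have hex : ∃ k : ℕ, (1 / 2 : ℝ) ^ (k + 1) ≤ ‖x - y‖ / s := by
          obtain ⟨k, hk⟩ := exists_pow_lt_of_lt_one (div_pos h0 hs) (by norm_num : (1 / 2 : ℝ) < 1)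
          exact ⟨k, le_trans (pow_le_pow_of_le_one (by norm_num) (by norm_num) (Nat.le_succ k)) hk.le⟩
        refine ⟨Nat.find hex, Nat.find_spec hex, ?_⟩
        rcases hk : Nat.find hex with _ | k
        · rw [pow_zero]
          exact (div_lt_one hs).2 hy
        · exact not_le.1 (Nat.find_min hex (by omega))
      refine Set.mem_iUnion.2 ⟨k, Ka_mem.2 ((div_lt_iff₀ hs).1 h2), fun h3 => ?_⟩
      have h4 := Ka_mem.1 h3.1
      have h5 := (le_div_iff₀ hs).1 h1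
      linarith
  · by_cases hx : y = x
    · subst hx
      show ‖y - y‖ ^ 2 * kap (p + 1 + 1) 0 (y - y) ≤ _
      rw [sub_self, norm_zero, zero_pow two_ne_zero, zero_mul]
      positivity
    · have h1 : (1 / 2) ^ (k + 1) * s ≤ ‖x - y‖ := by
        by_contra h2
        exact hy.2 ⟨Ka_mem.2 (not_le.1 h2), hx⟩
      have h2 : (0 : ℝ) < (1 / 2) ^ (k + 1) * s := by positivity
      refine (norm_pow_mul_kap_le p 2 0 (x - y)).trans
        ((kap_le_norm _ _ (norm_pos_iff.1 (h2.trans_le h1))).trans ?_)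
      gcongr
  · simp only [mul_pow, pow_succ, one_div, inv_pow]
    field_simp

end Crest.Agent.R85
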