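import Crest.Agent.R85.Defs

/-! # Volume of balls, separated sets, nets (auxiliary file for `KernB`) -/

set_option autoImplicit false

open MeasureTheory Metric Filter Topology

noncomputable section

namespace Crest.Agent.R85

variable {m : ℕ}

theorem kbb_vol (n : ℕ) (x : Eu n) {r : ℝ} (hr : 0 < r) :
    volume (ball x r) = ENNReal.ofReal ((volume : Measure (Eu n)).real (ball 0 1) * r ^ n) := by
  rw [Measure.addHaar_ball_of_pos _ x hr, finrank_euclideanSpace_fin, mul_comm,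
    ENNReal.ofReal_mul measureReal_nonneg, ofReal_measureReal measure_ball_lt_top.ne]

theorem kbb_pos (n : ℕ) : 0 < (volume : Measure (Eu n)).real (ball 0 1) :=
  ENNReal.toReal_pos (measure_ball_pos _ _ one_pos).ne' measure_ball_lt_top.ne

theorem kbb_up_volume (n : ℕ) : ∃ C : ℝ, 1 ≤ C ∧ Up n C (volume : Measure (Eu n)) ∧
    ∀ (x : Eu n) (r : ℝ), 0 < r → ENNReal.ofReal (r ^ n / C) ≤ volume (ball x r) := by
  have hw := kbb_pos n
  set w := (volume : Measure (Eu n)).real (ball 0 1) with hwd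
  have hi : 0 < w⁻¹ := inv_pos.2 hw
  refine ⟨1 + w + w⁻¹, by linarith, fun x r hr => ?_, fun x r hr => ?_⟩
  · rw [kbb_vol n x hr]
    exact ENNReal.ofReal_le_ofReal (mul_le_mul_of_nonneg_right (by linarith) (by positivity))
  · rw [kbb_vol n x hr]
    refine ENNReal.ofReal_le_ofReal ?_
    rw [div_le_iff₀ (by linarith)]
    have h1 : w * w⁻¹ = 1 := mul_inv_cancel₀ hw.ne'
    have h2 : 0 < r ^ n := by positivity
    nlinarith [mul_pos hw h2, mul_pos (mul_pos hw hw) h2]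

theorem kbb_card_sep (m : ℕ) (A : ℝ) : ∃ M : ℕ, ∀ (X : Finset (Eu m)) (x : Eu m) (r : ℝ), 0 < r →
    (∀ a ∈ X, dist a x ≤ A * r) → (∀ a ∈ X, ∀ b ∈ X, a ≠ b → r ≤ dist a b) → X.card ≤ M := by
  refine ⟨⌈(2 * (|A| + 1)) ^ m⌉₊, fun X x r hr h1 h2 => ?_⟩
  have hw := kbb_pos m
  have hA : 0 < |A| + 1 := by positivity
  have hdis : (X : Set (Eu m)).PairwiseDisjoint fun a => ball a (r / 2) := fun a ha b hb hab =>
    ball_disjoint_ball (by linarith [h2 a ha b hb hab])
  have hsub : ⋃ a ∈ X, ball a (r / 2) ⊆ ball x ((|A| + 1) * r) := by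
    refine Set.iUnion₂_subset fun a ha => ball_subset_ball' ?_
    have := h1 a ha
    have := mul_le_mul_of_nonneg_right (le_abs_self A) hr.le
    linarith
  have h3 := measure_mono (μ := volume) hsub
  rw [measure_biUnion_finset hdis fun _ _ => measurableSet_ball,
    Finset.sum_congr rfl fun a _ => kbb_vol m a (half_pos hr), kbb_vol m x (mul_pos hA hr),
    Finset.sum_const, nsmul_eq_mul, ← ENNReal.ofReal_natCast,
    ← ENNReal.ofReal_mul (Nat.cast_nonneg _), ENNReal.ofReal_le_ofReal_iff (by positivity)] at h3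
  have h4 : (X.card : ℝ) ≤ (2 * (|A| + 1)) ^ m := by
    have e : ((|A| + 1) * r) ^ m = (2 * (|A| + 1)) ^ m * (r / 2) ^ m := by
      rw [← mul_pow]
      congr 1
      ring
    rw [e] at h3
    have hp : 0 < (volume : Measure (Eu m)).real (ball 0 1) * (r / 2) ^ m := by positivity
    refine le_of_mul_le_mul_right (h3.trans (le_of_eq ?_)) hp
    ring
  exact_mod_cast h4.trans (Nat.le_ceil _)

theorem kbb_net {S : Set (Eu m)} (hS : Bornology.IsBounded S) {r : ℝ} (hr : 0 < r) :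
    ∃ X : Finset (Eu m), (∀ a ∈ X, a ∈ S) ∧ (∀ a ∈ X, ∀ b ∈ X, a ≠ b → r ≤ dist a b) ∧
      ∀ x ∈ S, ∃ a ∈ X, dist x a < r := by
  classical
  obtain ⟨R, hR⟩ := hS.subset_closedBall 0
  obtain ⟨M, hM⟩ := kbb_card_sep m (R / r)
  let P : ℕ → Prop := fun k => ∃ X : Finset (Eu m), (∀ a ∈ X, a ∈ S) ∧
    (∀ a ∈ X, ∀ b ∈ X, a ≠ b → r ≤ dist a b) ∧ X.card = k
  have hle : ∀ k, P k → k ≤ M := by
    rintro _ ⟨X, h1, h2, rfl⟩
    refine hM X 0 r hr (fun a ha => ?_) h2
    rw [div_mul_cancel₀ _ hr.ne']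
    exact hR (h1 a ha)
  have h0 : P 0 := ⟨∅, by simp, by simp, rfl⟩
  obtain ⟨X, h1, h2, h3⟩ : P (Nat.findGreatest P M) := Nat.findGreatest_spec (Nat.zero_le M) h0
  refine ⟨X, h1, h2, fun x hx => ?_⟩
  by_contra hne
  have hfar : ∀ a ∈ X, r ≤ dist x a := fun a ha => not_lt.1 fun h => hne ⟨a, ha, h⟩
  have hxX : x ∉ X := fun h => by
    have := hfar x h
    rw [dist_self] at this
    linarith
  have hP : P (X.card + 1) := by
    refine ⟨insert x X, fun a ha => ?_, fun a ha b hb hab => ?_, Finset.card_insert_of_notMem hxX⟩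
    · rcases Finset.mem_insert.1 ha with rfl | ha
      · exact hx
      · exact h1 a ha
    · rcases Finset.mem_insert.1 ha with rfl | ha' <;> rcases Finset.mem_insert.1 hb with rfl | hb'
      · exact absurd rfl hab
      · exact hfar b hb'
      · rw [dist_comm]
        exact hfar a ha'
      · exact h2 a ha' b hb' hab
  have := Nat.le_findGreatest (hle _ hP) hP
  omega

theorem kbb_unif {ι : Type*} {l : Filter ι} {F : Type*} [NormedAddCommGroup F]
    {g : ι → Eu m → F} {g0 : Eu m → F} {R L : ℝ}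
    (hlip : ∀ᶠ k in l, ∀ x y, ‖x‖ ≤ R → ‖y‖ ≤ R → ‖g k x - g k y‖ ≤ L * ‖x - y‖)
    (hlip0 : ∀ x y, ‖x‖ ≤ R → ‖y‖ ≤ R → ‖g0 x - g0 y‖ ≤ L * ‖x - y‖)
    (hpt : ∀ x, ‖x‖ ≤ R → Tendsto (fun k => g k x) l (𝓝 (g0 x))) {ε : ℝ} (hε : 0 < ε) :
    ∀ᶠ k in l, ∀ x, ‖x‖ ≤ R → ‖g k x - g0 x‖ ≤ ε := by
  have hL : 0 < |L| + 1 := by positivity
  obtain ⟨X, h1, -, h3⟩ := kbb_net (S := closedBall (0 : Eu m) R) isBounded_closedBall
    (r := ε / 3 / (|L| + 1)) (by positivity)
  have hX : ∀ᶠ k in l, ∀ a ∈ X, ‖g k a - g0 a‖ < ε / 3 := by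
    rw [eventually_all_finset]
    intro a ha
    have := (hpt a (mem_closedBall_zero_iff.1 (h1 a ha))).eventually
      (ball_mem_nhds (g0 a) (show 0 < ε / 3 by positivity))
    simpa only [dist_eq_norm] using this
  filter_upwards [hlip, hX] with k hk hk' x hx
  obtain ⟨a, ha, hd⟩ := h3 x (mem_closedBall_zero_iff.2 hx)
  have haR := mem_closedBall_zero_iff.1 (h1 a ha)
  rw [dist_eq_norm, lt_div_iff₀ hL] at hd
  have b0 : L * ‖x - a‖ ≤ ε / 3 := by
    have := mul_le_mul_of_nonneg_right (le_abs_self L) (norm_nonneg (x - a))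
    nlinarith [norm_nonneg (x - a)]
  have b1 := (hk x a hx haR).trans b0
  have b2 := (hlip0 x a hx haR).trans b0
  have e : g k x - g0 x = (g k x - g k a) + (g k a - g0 a) - (g0 x - g0 a) := by abel
  rw [e]
  have := norm_sub_le (g k x - g k a + (g k a - g0 a)) (g0 x - g0 a)
  have := norm_add_le (g k x - g k a) (g k a - g0 a)
  have := hk' a ha
  linarith

end Crest.Agent.R85
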