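import Crest.Agent.R85.KernA
import Crest.Agent.R85.KernBax
import Crest.Agent.R85.KernBbx

/-!
# Kernel integrals against upper regular measures, nets (task KernB)
Dyadic decomposition: on `2^k s ≤ ‖z‖ < 2^(k+1) s` the kernel `kap (n+1)` is at most
`(2^k s)^{-(n+1)}` and the mass is at most `C (2^(k+1) s)^n`.  Work with `lintegral` and
`lintegral_tsum`/`lintegral_iUnion_le`, then convert.
`card_sep`: volume argument (disjoint balls of radius `r/2` inside `ball x ((A+1) r)`).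
`exists_net`: take a separated finset of maximal cardinality.
-/

set_option autoImplicit false

open MeasureTheory Metric Filter Topology
open scoped RealInnerProductSpace

noncomputable section

namespace Crest.Agent.R85

variable {m : ℕ}

variable {n : ℕ} {C : ℝ} {ν : Measure (Eu m)}

theorem Up.isLocallyFinite (h : Up n C ν) : IsLocallyFiniteMeasure ν :=
  ⟨fun x => ⟨ball x 1, ball_mem_nhds x one_pos, (h x 1 one_pos).trans_lt ENNReal.ofReal_lt_top⟩⟩

theorem Up.ball_lt_top (h : Up n C ν) (x : Eu m) (r : ℝ) : ν (ball x r) < ⊤ := by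
  rcases le_or_gt r 0 with hr | hr
  · rw [ball_eq_empty.2 hr, measure_empty]
    exact ENNReal.zero_lt_top
  · exact (h x r hr).trans_lt ENNReal.ofReal_lt_top

theorem Up.real_le (h : Up n C ν) (hC : 0 ≤ C) (x : Eu m) {r : ℝ} (hr : 0 < r) :
    ν.real (ball x r) ≤ C * r ^ n :=
  ENNReal.toReal_le_of_le_ofReal (by positivity) (h x r hr)

theorem Up.le_real (h : Up n C ν) {x : Eu m} {r a : ℝ}
    (hl : ENNReal.ofReal a ≤ ν (ball x r)) : a ≤ ν.real (ball x r) :=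
  (ENNReal.ofReal_le_iff_le_toReal (h.ball_lt_top x r).ne).1 hl

theorem Up.noAtoms (h : Up n C ν) (hn : 1 ≤ n) : NullSingletonClass ν := by
  refine ⟨fun x => le_antisymm ?_ bot_le⟩
  have h1 : Tendsto (fun r : ℝ => ENNReal.ofReal (C * r ^ n)) (𝓝[>] 0) (𝓝 0) := by
    have h2 : Continuous fun r : ℝ => ENNReal.ofReal (C * r ^ n) :=
      ENNReal.continuous_ofReal.comp (by fun_prop)
    have h3 := (h2.tendsto 0).mono_left (nhdsWithin_le_nhds (s := Set.Ioi 0))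
    rwa [zero_pow (by omega), mul_zero, ENNReal.ofReal_zero] at h3
  refine ge_of_tendsto h1 (eventually_nhdsWithin_of_forall fun r hr => ?_)
  exact (measure_mono (Set.singleton_subset_iff.2 (mem_ball_self hr))).trans (h x r hr)

theorem Up.mono {C' : ℝ} (h : Up n C ν) (hC : C ≤ C') : Up n C' ν := fun x r hr =>
  (h x r hr).trans (ENNReal.ofReal_le_ofReal (mul_le_mul_of_nonneg_right hC (by positivity)))

theorem Up.restrict (h : Up n C ν) (s : Set (Eu m)) : Up n C (ν.restrict s) := fun x r hr =>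
  (Measure.restrict_le_self _).trans (h x r hr)

/-- Lebesgue measure of `Eu n` is upper and lower regular. -/
theorem exists_up_volume (n : ℕ) : ∃ C : ℝ, 1 ≤ C ∧ Up n C (volume : Measure (Eu n)) ∧
    ∀ (x : Eu n) (r : ℝ), 0 < r → ENNReal.ofReal (r ^ n / C) ≤ volume (ball x r) :=
  kbb_up_volume n

theorem LowAll.low (h : LowAll n C ν) (x0 : Eu m) (R : ℝ) : Low n C ν x0 R :=
  fun x hx _ r hr _ => h x hx r hr

theorem Low.mono {x0 x1 : Eu m} {R R' : ℝ} (h : Low n C ν x0 R) (hR : dist x1 x0 + R' ≤ R) :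
    Low n C ν x1 R' := fun x hx h1 r hr h2 =>
  h x hx (by linarith [dist_triangle x x1 x0]) r hr (by linarith [dist_nonneg (x := x1) (y := x0)])

theorem Tst.integrable {L R : ℝ} {x0 : Eu m} {ψ : Eu m → ℝ} (h : Tst L x0 R ψ) (hν : Up n C ν) :
    Integrable ψ ν := by
  have := hν.isLocallyFinite
  exact h.lip.continuous.integrable_of_hasCompactSupport h.hasCompactSupport

/-- Tail of the kernel, any truncation level. -/
theorem Up.tail (h : Up n C ν) (hC : 0 ≤ C) (x : Eu m) (s : ℝ) {R : ℝ} (hR : 0 < R) :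
    IntegrableOn (fun y => kap (n + 1) s (x - y)) (ball x R)ᶜ ν ∧
      ∫ y in (ball x R)ᶜ, kap (n + 1) s (x - y) ∂ν ≤ cK n * C / R := by
  obtain ⟨h1, h2⟩ := Ka_tail h hC x s hR
  refine ⟨h1, h2.trans ?_⟩
  gcongr
  linarith [Ka_cK n]

theorem Up.int_kap (h : Up n C ν) (hC : 0 ≤ C) (x : Eu m) {s : ℝ} (hs : 0 < s) (j : ℕ) :
    Integrable (fun y => kap (n + 1 + j) s (x - y)) ν ∧
      ∫ y, kap (n + 1 + j) s (x - y) ∂ν ≤ cK n * C / s ^ (1 + j) := by
  obtain ⟨h1, h2⟩ := Ka_tail h hC x s hs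
  obtain ⟨h3, h4⟩ := Ka_split (ν := ν) (Ka_meas (n + 1 + j) s x) (fun y => kap_nonneg _ _ _)
    (g := fun _ => (s ^ (n + 1 + j))⁻¹) (g' := fun y => kap (n + 1) s (x - y) * (s ^ j)⁻¹)
    (measurableSet_ball (x := x) (ε := s)) (integrableOn_const (h.ball_lt_top x s).ne)
    (h1.mul_const _) (fun y _ => kap_le _ hs _) fun y _ => kap_add_le _ _ hs _
  refine ⟨h3, h4.trans ?_⟩
  rw [setIntegral_const, integral_mul_const, smul_eq_mul]
  calc _ ≤ C * s ^ n * (s ^ (n + 1 + j))⁻¹ + 2 ^ (n + 1) * C / s * (s ^ j)⁻¹ := by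
        gcongr
        exact h.real_le hC x hs
    _ = (2 ^ (n + 1) + 1) * C / s ^ (1 + j) := by
        simp only [pow_add s, pow_one]
        field_simp
        ring
    _ ≤ _ := by
        gcongr
        exact Ka_cK n

theorem Up.int_kap_one (h : Up n C ν) (hC : 0 ≤ C) :
    Integrable (fun y => kap (n + 1) 1 y) ν ∧ ∫ y, kap (n + 1) 1 y ∂ν ≤ cK n * C := by
  have := h.int_kap hC 0 one_pos 0
  simpa only [zero_sub, kap_neg, Nat.add_zero, one_pow, div_one] using this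

theorem Up.integrable_dec (h : Up n C ν) {K : ℝ} {φ : Eu m → ℝ} (hφ : Dec (n + 1) K φ) :
    Integrable φ ν :=
  (((h.mono (le_max_left C 0)).int_kap_one (le_max_right C 0)).1.const_mul K).mono'
    hφ.1.aestronglyMeasurable (Eventually.of_forall hφ.2)

/-- The singular part near the diagonal. -/
theorem Up.near (h : Up n C ν) (hn : 1 ≤ n) (hC : 0 ≤ C) (x : Eu m) {s : ℝ} (hs : 0 < s) :
    IntegrableOn (fun y => ‖x - y‖ ^ 2 * kap (n + 1) 0 (x - y)) (ball x s) ν ∧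
      ∫ y in ball x s, ‖x - y‖ ^ 2 * kap (n + 1) 0 (x - y) ∂ν ≤ cK n * C * s := by
  obtain ⟨h1, h2⟩ := Ka_near h hn hC x hs
  refine ⟨h1, h2.trans ?_⟩
  gcongr
  have h3 := Ka_cK n
  have h4 : (0 : ℝ) < 2 ^ n := by positivity
  rw [pow_succ] at h3
  linarith

/-- `∫ min(‖z‖², s²) κ₀ ≤ 2 cK C s`. -/
theorem Up.min_sq (h : Up n C ν) (hn : 1 ≤ n) (hC : 0 ≤ C) (x : Eu m) {s : ℝ} (hs : 0 < s) :
    Integrable (fun y => min (‖x - y‖ ^ 2) (s ^ 2) * kap (n + 1) 0 (x - y)) ν ∧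
      ∫ y, min (‖x - y‖ ^ 2) (s ^ 2) * kap (n + 1) 0 (x - y) ∂ν ≤ 2 * cK n * C * s := by
  obtain ⟨h1, h2⟩ := h.near hn hC x hs
  obtain ⟨h3, h4⟩ := h.tail hC x 0 hs
  obtain ⟨h5, h6⟩ := Ka_split (ν := ν)
    (f := fun y => min (‖x - y‖ ^ 2) (s ^ 2) * kap (n + 1) 0 (x - y))
    (((Ka_meas_sq x).min measurable_const).mul (Ka_meas _ _ _))
    (fun y => mul_nonneg (le_min (sq_nonneg _) (sq_nonneg _)) (kap_nonneg _ _ _))
    (g' := fun y => s ^ 2 * kap (n + 1) 0 (x - y)) measurableSet_ball h1 (h3.const_mul _)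
    (fun y _ => mul_le_mul_of_nonneg_right (min_le_left _ _) (kap_nonneg _ _ _))
    fun y _ => mul_le_mul_of_nonneg_right (min_le_right _ _) (kap_nonneg _ _ _)
  refine ⟨h5, h6.trans ?_⟩
  rw [integral_const_mul]
  calc _ ≤ cK n * C * s + s ^ 2 * (cK n * C / s) := by gcongr
    _ = _ := by
        field_simp
        ring

theorem sq_mul_kap_diff_nonneg (p : ℕ) {t s : ℝ} (ht : 0 ≤ t) (hts : t ≤ s) (z : Eu m) :
    0 ≤ ‖z‖ ^ 2 * (kap (p + 1) t z - kap (p + 1) s z) := by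
  rcases eq_or_ne z 0 with rfl | hz
  · simp
  · exact mul_nonneg (sq_nonneg _)
      (sub_nonneg.2 (kap_anti _ ht hts ((norm_pos_iff.2 hz).trans_le (norm_le_N t z))))

/-- Difference of two truncation levels (near part by `Up.near`, far part by `kap_diff_le` and
`Up.tail`). -/
theorem Up.diff (h : Up n C ν) (hn : 1 ≤ n) (hC : 0 ≤ C) (x : Eu m) {t s : ℝ} (ht : 0 ≤ t)
    (hts : t ≤ s) (hs : 0 < s) :
    Integrable (fun y => ‖x - y‖ ^ 2 * (kap (n + 1) t (x - y) - kap (n + 1) s (x - y))) ν ∧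
      ∫ y, ‖x - y‖ ^ 2 * (kap (n + 1) t (x - y) - kap (n + 1) s (x - y)) ∂ν
        ≤ (n + 2) * cK n * C * s := by
  obtain ⟨h1, h2⟩ := h.near hn hC x hs
  obtain ⟨h3, h4⟩ := h.tail hC x t hs
  obtain ⟨h5, h6⟩ := Ka_split (ν := ν)
    (f := fun y => ‖x - y‖ ^ 2 * (kap (n + 1) t (x - y) - kap (n + 1) s (x - y)))
    ((Ka_meas_sq x).mul ((Ka_meas _ _ _).sub (Ka_meas _ _ _)))
    (fun y => sq_mul_kap_diff_nonneg n ht hts _)
    (g' := fun y => (n + 1) * s ^ 2 * kap (n + 1) t (x - y)) measurableSet_ball h1 (h3.const_mul _)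
    (fun y _ => by
      rcases eq_or_ne (x - y) 0 with hz | hz
      · simp [hz]
      · have a1 := kap_anti (n + 1) le_rfl ht ((norm_pos_iff.2 hz).trans_le (norm_le_N 0 _))
        have a2 := kap_nonneg (n + 1) s (x - y)
        exact mul_le_mul_of_nonneg_left (by linarith) (sq_nonneg _))
    fun y hy => by
      rw [Set.mem_compl_iff, Ka_mem, not_lt] at hy
      have a1 := kap_diff_le (n + 1) ht hts ((hs.trans_le hy).trans_le (norm_le_N t (x - y)))
      have a2 := mul_le_mul_of_nonneg_left a1 (sq_nonneg ‖x - y‖)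
      have a3 := mul_le_mul_of_nonneg_left (norm_pow_mul_kap_le (n + 1) 2 t (x - y))
        (by positivity : (0 : ℝ) ≤ (n + 1) * s ^ 2)
      push_cast at a2
      linarith
  refine ⟨h5, h6.trans ?_⟩
  rw [integral_const_mul]
  calc _ ≤ cK n * C * s + (n + 1) * s ^ 2 * (cK n * C / s) := by gcongr
    _ = _ := by
        field_simp
        ring

/-- Bounded number of separated points in a ball. -/
theorem card_sep (m : ℕ) (A : ℝ) : ∃ M : ℕ, ∀ (X : Finset (Eu m)) (x : Eu m) (r : ℝ), 0 < r →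
    (∀ a ∈ X, dist a x ≤ A * r) → (∀ a ∈ X, ∀ b ∈ X, a ≠ b → r ≤ dist a b) → X.card ≤ M :=
  kbb_card_sep m A

/-- Maximal separated nets. -/
theorem exists_net {S : Set (Eu m)} (hS : Bornology.IsBounded S) {r : ℝ} (hr : 0 < r) :
    ∃ X : Finset (Eu m), (∀ a ∈ X, a ∈ S) ∧ (∀ a ∈ X, ∀ b ∈ X, a ≠ b → r ≤ dist a b) ∧
      ∀ x ∈ S, ∃ a ∈ X, dist x a < r := kbb_net hS hr

/-- Pointwise convergence of an equi-Lipschitz family along a filter is uniform on balls. -/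
theorem unif_of_equilip {ι : Type*} {l : Filter ι} {F : Type*} [NormedAddCommGroup F]
    {g : ι → Eu m → F} {g0 : Eu m → F} {R L : ℝ}
    (hlip : ∀ᶠ k in l, ∀ x y, ‖x‖ ≤ R → ‖y‖ ≤ R → ‖g k x - g k y‖ ≤ L * ‖x - y‖)
    (hlip0 : ∀ x y, ‖x‖ ≤ R → ‖y‖ ≤ R → ‖g0 x - g0 y‖ ≤ L * ‖x - y‖)
    (hpt : ∀ x, ‖x‖ ≤ R → Tendsto (fun k => g k x) l (𝓝 (g0 x))) {ε : ℝ} (hε : 0 < ε) :
    ∀ᶠ k in l, ∀ x, ‖x‖ ≤ R → ‖g k x - g0 x‖ ≤ ε := kbb_unif hlip hlip0 hpt hε

end Crest.Agent.R85
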