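import Crest.Agent.R85.KernB

/-!
# Auxiliary lemmas for `LiouA` (part a, helper82): calculus of the class `T2`
-/

set_option autoImplicit false

open MeasureTheory Metric Filter Topology
open scoped RealInnerProductSpace

noncomputable section

namespace Crest.Agent.R85

variable {m : ℕ}

theorem laa_nonneg {M : ℕ} {K : ℝ} {ψ : Eu m → ℝ} (h : T2 M K ψ) : 0 ≤ K :=
  nonneg_of_mul_nonneg_left ((abs_nonneg _).trans (h.d0 0)) (kap_pos M one_pos 0)

theorem laa_mono {M : ℕ} {K K' : ℝ} {ψ : Eu m → ℝ} (h : T2 M K ψ) (hK : K ≤ K') : T2 M K' ψ := by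
  refine ⟨h.cont, fun x => (h.d0 x).trans ?_, fun x z hz => (h.d1 x z hz).trans ?_,
    fun x z hz => (h.d2 x z hz).trans ?_⟩ <;> have := kap_nonneg M 1 x <;> gcongr

theorem laa_kap_ball (M : ℕ) {x y : Eu m} (h : y ∈ closedBall x 1) :
    kap M 1 y ≤ 2 ^ M * kap M 1 x := by
  refine (kap_peetre M one_pos y x).trans (mul_le_mul_of_nonneg_right ?_ (kap_nonneg M 1 x))
  rw [mem_closedBall, dist_eq_norm] at h
  exact pow_le_pow_left₀ (by positivity) (by linarith) M

/-- `T2` from bounds on the derivatives. -/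
theorem laa_of_bounds {M : ℕ} {A : ℝ} (hA : 0 ≤ A) {ψ : Eu m → ℝ} (h : ContDiff ℝ 2 ψ)
    (h0 : ∀ x, |ψ x| ≤ A * kap M 1 x) (h1 : ∀ x, ‖fderiv ℝ ψ x‖ ≤ A * kap M 1 x)
    (h2 : ∀ x, ‖fderiv ℝ (fderiv ℝ ψ) x‖ ≤ A * kap M 1 x) : T2 M (2 * 2 ^ M * A) ψ := by
  have hd : Differentiable ℝ ψ := h.differentiable (by norm_num)
  have hd' : Differentiable ℝ (fderiv ℝ ψ) :=
    (h.fderiv_right (m := 1) (by norm_num)).differentiable (by norm_num)
  have hp : (1 : ℝ) ≤ 2 ^ M := one_le_pow₀ one_le_two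
  refine ⟨h.continuous, fun x => (h0 x).trans ?_, fun x z hz => ?_, fun x z hz => ?_⟩
  · have := kap_nonneg M 1 x
    gcongr
    nlinarith
  · have k := kap_nonneg M 1 x
    have e := (convex_closedBall x 1).norm_image_sub_le_of_norm_fderiv_le (𝕜 := ℝ) (f := ψ)
      (C := A * (2 ^ M * kap M 1 x)) (fun y _ => hd y)
      (fun y hy => (h1 y).trans (mul_le_mul_of_nonneg_left (laa_kap_ball M hy) hA))
      (mem_closedBall_self zero_le_one) (y := x + z) (by simpa using hz)
    rw [add_sub_cancel_left, Real.norm_eq_abs] at e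
    refine e.trans ?_
    have : 0 ≤ 2 ^ M * A * ‖z‖ * kap M 1 x := by positivity
    nlinarith
  · have k := kap_nonneg M 1 x
    have hg : ∀ w, HasFDerivAt (fun w => ψ (x + w) + ψ (x - w))
        (fderiv ℝ ψ (x + w) - fderiv ℝ ψ (x - w)) w := fun w => by
      have a1 := (hd (x + w)).hasFDerivAt.comp w ((hasFDerivAt_id w).const_add x)
      have a2 := (hd (x - w)).hasFDerivAt.comp w ((hasFDerivAt_id w).const_sub x)
      refine (a1.add a2).congr_fderiv ?_
      ext v
      simp [sub_eq_add_neg]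
    have hb : ∀ w ∈ closedBall (0 : Eu m) ‖z‖, ‖fderiv ℝ ψ (x + w) - fderiv ℝ ψ (x - w)‖ ≤
        A * (2 ^ M * kap M 1 x) * (2 * ‖z‖) := fun w hw => by
      rw [mem_closedBall_zero_iff] at hw
      have e := (convex_closedBall x 1).norm_image_sub_le_of_norm_fderiv_le (𝕜 := ℝ)
        (f := fderiv ℝ ψ) (C := A * (2 ^ M * kap M 1 x)) (fun y _ => hd' y)
        (fun y hy => (h2 y).trans (mul_le_mul_of_nonneg_left (laa_kap_ball M hy) hA))
        (x := x - w) (by simpa using hw.trans hz) (y := x + w) (by simpa using hw.trans hz)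
      refine e.trans (mul_le_mul_of_nonneg_left ?_ (by positivity))
      rw [add_sub_sub_cancel]
      linarith [norm_add_le w w]
    have e := (convex_closedBall (0 : Eu m) ‖z‖).norm_image_sub_le_of_norm_hasFDerivWithin_le
      (fun w _ => (hg w).hasFDerivWithinAt) hb (mem_closedBall_self (norm_nonneg z))
      (y := z) (by simp)
    rw [sub_zero, add_zero, sub_zero, Real.norm_eq_abs, abs_sub_comm] at e
    calc |2 * ψ x - ψ (x + z) - ψ (x - z)| = |ψ x + ψ x - (ψ (x + z) + ψ (x - z))| := by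
          congr 1; ring
      _ ≤ _ := e
      _ = _ := by ring

theorem laa_one : T2 0 1 (fun _ : Eu m => (1 : ℝ)) := by
  refine ⟨continuous_const, fun x => by simp [kap], fun x z _ => by simp [kap], fun x z _ => ?_⟩
  norm_num [kap]

/-- Discrete Leibniz rule. -/
theorem laa_mul {M : ℕ} {B K : ℝ} {a ψ : Eu m → ℝ} (ha : T2 0 B a) (h : T2 M K ψ) :
    T2 M (4 * B * K) (fun y => a y * ψ y) := by
  have hB := laa_nonneg ha
  have hK := laa_nonneg h
  have a0 : ∀ x, |a x| ≤ B := fun x => by simpa [kap] using ha.d0 x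
  have a1 : ∀ x z, ‖z‖ ≤ 1 → |a (x + z) - a x| ≤ B * ‖z‖ := fun x z hz => by
    simpa [kap] using ha.d1 x z hz
  have a2 : ∀ x z, ‖z‖ ≤ 1 → |2 * a x - a (x + z) - a (x - z)| ≤ B * ‖z‖ ^ 2 := fun x z hz => by
    simpa [kap] using ha.d2 x z hz
  refine ⟨ha.cont.mul h.cont, fun x => ?_, fun x z hz => ?_, fun x z hz => ?_⟩
  · have k := kap_nonneg M 1 x
    rw [abs_mul]
    refine (mul_le_mul (a0 x) (h.d0 x) (abs_nonneg _) hB).trans ?_
    have : 0 ≤ B * K * kap M 1 x := by positivity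
    nlinarith
  · have k := kap_nonneg M 1 x
    have e : a (x + z) * ψ (x + z) - a x * ψ x =
        a (x + z) * (ψ (x + z) - ψ x) + (a (x + z) - a x) * ψ x := by ring
    rw [e]
    refine (abs_add_le _ _).trans ?_
    rw [abs_mul, abs_mul]
    refine (add_le_add (mul_le_mul (a0 _) (h.d1 x z hz) (abs_nonneg _) hB)
      (mul_le_mul (a1 x z hz) (h.d0 x) (abs_nonneg _) (by positivity))).trans ?_
    have : 0 ≤ B * K * ‖z‖ * kap M 1 x := by positivity
    nlinarith
  · have k := kap_nonneg M 1 x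
    have e : 2 * (a x * ψ x) - a (x + z) * ψ (x + z) - a (x - z) * ψ (x - z) =
        a x * (2 * ψ x - ψ (x + z) - ψ (x - z)) + (2 * a x - a (x + z) - a (x - z)) * ψ x -
          (a (x + z) - a x) * (ψ (x + z) - ψ x) - (a (x + -z) - a x) * (ψ (x + -z) - ψ x) := by
      rw [← sub_eq_add_neg]; ring
    have hz' : ‖-z‖ ≤ 1 := by rwa [norm_neg]
    have b1 := mul_le_mul (a0 x) (h.d2 x z hz) (abs_nonneg _) hB
    have b2 := mul_le_mul (a2 x z hz) (h.d0 x) (abs_nonneg _) (by positivity)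
    have b3 := mul_le_mul (a1 x z hz) (h.d1 x z hz) (abs_nonneg _) (by positivity)
    have b4 := mul_le_mul (a1 x (-z) hz') (h.d1 x (-z) hz') (abs_nonneg _) (by positivity)
    rw [← abs_mul] at b1 b2 b3 b4
    rw [norm_neg] at b4
    rw [e]
    refine (abs_sub _ _).trans ((add_le_add ((abs_sub _ _).trans
      (add_le_add ((abs_add_le _ _).trans (add_le_add b1 b2)) b3)) b4).trans (le_of_eq ?_))
    ring

/-- Dilations by a factor `R ≥ 1`. -/
theorem laa_dil {B R : ℝ} (hR : 1 ≤ R) {a : Eu m → ℝ} (ha : T2 0 B a) :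
    T2 0 B (fun y => a (R⁻¹ • y)) := by
  have hB := laa_nonneg ha
  have hn : ∀ z : Eu m, ‖R⁻¹ • z‖ ≤ ‖z‖ := fun z => by
    rw [norm_smul, norm_inv, Real.norm_of_nonneg (by linarith)]
    exact mul_le_of_le_one_left (norm_nonneg z) (inv_le_one_of_one_le₀ hR)
  refine ⟨ha.cont.comp (continuous_const_smul _), fun x => ?_, fun x z hz => ?_, fun x z hz => ?_⟩
  · simpa [kap] using ha.d0 (R⁻¹ • x)
  · have := ha.d1 (R⁻¹ • x) (R⁻¹ • z) ((hn z).trans hz)
    simp only [kap, pow_zero, inv_one, mul_one, smul_add] at this ⊢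
    exact this.trans (mul_le_mul_of_nonneg_left (hn z) hB)
  · have := ha.d2 (R⁻¹ • x) (R⁻¹ • z) ((hn z).trans hz)
    simp only [kap, pow_zero, inv_one, mul_one, smul_add, smul_sub] at this ⊢
    exact this.trans (mul_le_mul_of_nonneg_left (pow_le_pow_left₀ (norm_nonneg _) (hn z) 2) hB)

/-- Functions that vanish on a large ball gain from the decay. -/
theorem laa_far {M : ℕ} {K R : ℝ} (hR : 0 < R) {f : Eu m → ℝ} (h : T2 (M + 1) K f)
    (h0 : ∀ y, ‖y‖ ≤ R + 1 → f y = 0) : T2 M (K / R) f := by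
  have hK := laa_nonneg h
  have hk : ∀ x : Eu m, R ≤ ‖x‖ → K * kap (M + 1) 1 x ≤ K / R * kap M 1 x := fun x hx => by
    have e := norm_pow_mul_kap_le M 1 1 x
    have k := kap_nonneg (M + 1) 1 x
    rw [pow_one] at e
    rw [div_mul_eq_mul_div, le_div_iff₀ hR, mul_assoc]
    exact mul_le_mul_of_nonneg_left (by nlinarith) hK
  refine ⟨h.cont, fun x => ?_, fun x z hz => ?_, fun x z hz => ?_⟩ <;>
    have k := kap_nonneg M 1 x <;> rcases le_total R ‖x‖ with hx | hx
  · exact (h.d0 x).trans (hk x hx)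
  · rw [h0 x (by linarith), abs_zero]; positivity
  · refine (h.d1 x z hz).trans ?_
    rw [mul_right_comm, mul_right_comm (K / R)]
    exact mul_le_mul_of_nonneg_right (hk x hx) (norm_nonneg z)
  · rw [h0 x (by linarith), h0 (x + z) (by linarith [norm_add_le x z]), sub_zero, abs_zero]
    positivity
  · refine (h.d2 x z hz).trans ?_
    rw [mul_right_comm, mul_right_comm (K / R)]
    exact mul_le_mul_of_nonneg_right (hk x hx) (by positivity)
  · rw [h0 x (by linarith), h0 (x + z) (by linarith [norm_add_le x z]),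
      h0 (x - z) (by linarith [norm_sub_le x z])]
    simp only [mul_zero, sub_zero, abs_zero]
    positivity

theorem laa_schwartz_bd (ψ : SchwartzMap (Eu m) ℝ) (M : ℕ) : ∃ A, 0 ≤ A ∧ ∀ i ≤ 2, ∀ x,
    ‖iteratedFDeriv ℝ i ψ x‖ ≤ A * kap M 1 x := by
  refine ⟨2 ^ M * (Finset.Iic (M, 2)).sup (fun p => SchwartzMap.seminorm ℝ p.1 p.2) ψ,
    by positivity, fun i hi x => ?_⟩
  have h1 := SchwartzMap.one_add_le_sup_seminorm_apply (𝕜 := ℝ) (m := (M, 2)) (k := M) (n := i)
    le_rfl hi ψ x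
  have h2 : N 1 x ^ M ≤ (1 + ‖x‖) ^ M := pow_le_pow_left₀ (N_nonneg 1 x) (N_le zero_le_one x) M
  rw [kap, ← div_eq_mul_inv, le_div_iff₀ (pow_pos (N_pos one_pos x) M), mul_comm]
  exact (mul_le_mul_of_nonneg_right h2 (norm_nonneg _)).trans h1

end Crest.Agent.R85
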