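import Crest.Agent.R85.KernB

/-!
# The half Laplacian on `Eu n`: weighted estimates (helpers for `LiouA`, part b)
-/

set_option autoImplicit false

open MeasureTheory Metric Filter Topology
open scoped RealInnerProductSpace

noncomputable section

namespace Crest.Agent.R85

variable {n M : ℕ} {K : ℝ} {ψ : Eu n → ℝ}

theorem T2.LAb_nonneg (h : T2 M K ψ) : 0 ≤ K :=
  nonneg_of_mul_nonneg_left ((abs_nonneg _).trans (h.d0 0)) (kap_pos M one_pos 0)

theorem T2.LAb_abs_le (h : T2 M K ψ) (x : Eu n) : |ψ x| ≤ K :=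
  (h.d0 x).trans (mul_le_of_le_one_right h.LAb_nonneg (kap_le_one M x))

theorem LAb_abs3 (a b c : ℝ) : |2 * a - b - c| ≤ 2 * |a| + |b| + |c| := by
  have h1 := abs_sub (2 * a - b) c
  have h2 := abs_sub (2 * a) b
  rw [abs_mul, abs_two] at h2
  linarith

theorem T2.LAb_dom (h : T2 M K ψ) (x z : Eu n) :
    ‖(2 * ψ x - ψ (x + z) - ψ (x - z)) * kap (n + 1) 0 z‖ ≤
      4 * K * (min (‖z‖ ^ 2) (1 ^ 2) * kap (n + 1) 0 z) := by
  have hK := h.LAb_nonneg
  rw [Real.norm_eq_abs, abs_mul, abs_of_nonneg (kap_nonneg _ _ _), ← mul_assoc]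
  refine mul_le_mul_of_nonneg_right ?_ (kap_nonneg _ _ _)
  rcases le_total ‖z‖ 1 with hz | hz
  · rw [min_eq_left (pow_le_pow_left₀ (norm_nonneg _) hz 2)]
    have h1 : 0 ≤ K * ‖z‖ ^ 2 := by positivity
    have h2 := (h.d2 x z hz).trans (mul_le_of_le_one_right h1 (kap_le_one M x))
    linarith
  · rw [min_eq_right (pow_le_pow_left₀ zero_le_one hz 2)]
    linarith [LAb_abs3 (ψ x) (ψ (x + z)) (ψ (x - z)), h.LAb_abs_le x, h.LAb_abs_le (x + z),
      h.LAb_abs_le (x - z)]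

theorem LAb_int_min (hn : 1 ≤ n) :
    Integrable (fun z : Eu n => min (‖z‖ ^ 2) (1 ^ 2) * kap (n + 1) 0 z) := by
  obtain ⟨C, hC, hU, -⟩ := exists_up_volume n
  simpa only [zero_sub, norm_neg, kap_neg] using (hU.min_sq hn (by linarith) 0 one_pos).1

theorem LAb_int_kap {s : ℝ} (hs : 0 < s) (x : Eu n) :
    Integrable (fun y : Eu n => kap (n + 1) s (x - y)) := by
  obtain ⟨C, hC, hU, -⟩ := exists_up_volume n
  exact (hU.int_kap (by linarith) x hs 0).1

theorem LAb_int_kap0 {s : ℝ} (hs : 0 < s) : Integrable (fun y : Eu n => kap (n + 1) s y) := by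
  simpa only [zero_sub, kap_neg] using LAb_int_kap (n := n) hs 0

theorem T2.LAb_meas (h : T2 M K ψ) (x : Eu n) (s : ℝ) : AEStronglyMeasurable
    (fun z => (2 * ψ x - ψ (x + z) - ψ (x - z)) * kap (n + 1) s z) volume := by
  have h1 := h.cont
  exact (Measurable.mul (Continuous.measurable (by fun_prop))
    (measurable_kap _ _)).aestronglyMeasurable

theorem LAb_integrable (hn : 1 ≤ n) (h : T2 M K ψ) (x : Eu n) :
    Integrable (fun z => (2 * ψ x - ψ (x + z) - ψ (x - z)) * kap (n + 1) 0 z) :=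
  ((LAb_int_min hn).const_mul (4 * K)).mono' (h.LAb_meas x 0) (ae_of_all _ (h.LAb_dom x))

theorem LAb_sub (hn : 1 ≤ n) {K' : ℝ} {φ : Eu n → ℝ} (h : T2 M K ψ) (h' : T2 M K' φ)
    (x : Eu n) : Lam0 (fun y => ψ y - φ y) x = Lam0 ψ x - Lam0 φ x := by
  unfold Lam0
  rw [← mul_sub, ← integral_sub (LAb_integrable hn h x) (LAb_integrable hn h' x)]
  congr 2
  funext z
  ring

theorem LAb_continuous0 (hn : 1 ≤ n) (h : T2 M K ψ) : Continuous (Lam0 ψ) := by
  have h1 := h.cont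
  refine continuous_const.mul (continuous_of_dominated (fun x => h.LAb_meas x 0)
    (fun x => ae_of_all _ (h.LAb_dom x)) ((LAb_int_min hn).const_mul (4 * K))
    (ae_of_all _ fun z => ?_))
  fun_prop

theorem LAb_Lam_eq (s : ℝ) (ψ : Eu n → ℝ) (x : Eu n) :
    Lam n volume s ψ x = ∫ z, (ψ x - ψ (x - z)) * kap (n + 1) s z := by
  rw [Lam, ← integral_sub_left_eq_self (fun z => (ψ x - ψ (x - z)) * kap (n + 1) s z) volume x]
  simp only [sub_sub_cancel]

theorem T2.LAb_dom1 (h : T2 M K ψ) (s : ℝ) (x y z : Eu n) :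
    ‖(ψ x - ψ y) * kap (n + 1) s z‖ ≤ 2 * K * kap (n + 1) s z := by
  rw [Real.norm_eq_abs, abs_mul, abs_of_nonneg (kap_nonneg _ _ _)]
  refine mul_le_mul_of_nonneg_right ?_ (kap_nonneg _ _ _)
  linarith [abs_sub (ψ x) (ψ y), h.LAb_abs_le x, h.LAb_abs_le y]

theorem LAb_continuous (h : T2 M K ψ) {s : ℝ} (hs : 0 < s) :
    Continuous (Lam n volume s ψ) := by
  have h1 := h.cont
  have h2 := continuous_kap (m := n) (n + 1) hs
  rw [show Lam n volume s ψ = fun x => ∫ z, (ψ x - ψ (x - z)) * kap (n + 1) s z from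
    funext (LAb_Lam_eq s ψ)]
  refine continuous_of_dominated (fun x => Continuous.aestronglyMeasurable (by fun_prop))
    (fun x => ae_of_all _ fun z => h.LAb_dom1 s x (x - z) z) ((LAb_int_kap0 hs).const_mul (2 * K))
    (ae_of_all _ fun z => ?_)
  fun_prop

theorem T2.LAb_symm (h : T2 M K ψ) {s : ℝ} (hs : 0 < s) (x : Eu n) :
    Integrable (fun z => (2 * ψ x - ψ (x + z) - ψ (x - z)) * kap (n + 1) s z) ∧
    Lam n volume s ψ x = (1 / 2) * ∫ z, (2 * ψ x - ψ (x + z) - ψ (x - z)) * kap (n + 1) s z := by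
  have h1 := h.cont
  have h2 := continuous_kap (m := n) (n + 1) hs
  have i1 : Integrable (fun z => (ψ x - ψ (x - z)) * kap (n + 1) s z) :=
    ((LAb_int_kap0 hs).const_mul (2 * K)).mono' (Continuous.aestronglyMeasurable (by fun_prop))
      (ae_of_all _ fun z => h.LAb_dom1 s x (x - z) z)
  have i2 : Integrable (fun z => (ψ x - ψ (x + z)) * kap (n + 1) s z) :=
    ((LAb_int_kap0 hs).const_mul (2 * K)).mono' (Continuous.aestronglyMeasurable (by fun_prop))
      (ae_of_all _ fun z => h.LAb_dom1 s x (x + z) z)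
  have e1 : ∫ z, (ψ x - ψ (x + z)) * kap (n + 1) s z =
      ∫ z, (ψ x - ψ (x - z)) * kap (n + 1) s z := by
    rw [← integral_neg_eq_self (fun z => (ψ x - ψ (x - z)) * kap (n + 1) s z) volume]
    simp only [sub_neg_eq_add, kap_neg]
  have e2 : (fun z => (2 * ψ x - ψ (x + z) - ψ (x - z)) * kap (n + 1) s z) = fun z =>
      (ψ x - ψ (x - z)) * kap (n + 1) s z + (ψ x - ψ (x + z)) * kap (n + 1) s z := by
    funext z
    ring
  rw [e2]
  refine ⟨i1.add i2, ?_⟩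
  rw [integral_add i1 i2, e1, LAb_Lam_eq]
  ring

theorem LAb_half (p : ℕ) {x y : Eu n} (h : N 1 x ≤ 2 * N 1 y) :
    kap p 1 y ≤ 2 ^ p * kap p 1 x := by
  have h1 := N_pos one_pos x
  have h2 := N_pos one_pos y
  unfold kap
  rw [← div_eq_mul_inv, inv_eq_one_div, div_le_div_iff₀ (by positivity) (by positivity), one_mul,
    ← mul_pow]
  exact pow_le_pow_left₀ h1.le h p

theorem LAb_conv (p : ℕ) {x y z : Eu n} (h : ‖x - y‖ = ‖z‖) :
    kap p 1 y * kap p 1 z ≤ 2 ^ p * kap p 1 x * (kap p 1 y + kap p 1 z) := by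
  have h1 : N 1 x ≤ N 1 y + N 1 z := by
    linarith [(abs_le.1 (N_lip 1 x y)).2, norm_le_N 1 z]
  have hy := kap_nonneg p 1 y
  have hz := kap_nonneg p 1 z
  have hx : 0 ≤ 2 ^ p * kap p 1 x := mul_nonneg (by positivity) (kap_nonneg p 1 x)
  rcases le_total (N 1 z) (N 1 y) with h2 | h2
  · have := mul_le_mul_of_nonneg_right (LAb_half p (x := x) (y := y) (by linarith)) hz
    nlinarith [mul_nonneg hx hy]
  · have := mul_le_mul_of_nonneg_left (LAb_half p (x := x) (y := z) (by linarith)) hy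
    nlinarith [mul_nonneg hx hz]

theorem T2.LAb_far (h : T2 (2 * n + 4) K ψ) (x z : Eu n) :
    |2 * ψ x - ψ (x + z) - ψ (x - z)| * kap (n + 2) 1 z ≤ K * kap (n + 2) 1 x * (2 ^ (n + 2) *
      (4 * kap (n + 2) 1 z + kap (n + 2) 1 (-x - z) + kap (n + 2) 1 (x - z))) := by
  have hK := h.LAb_nonneg
  have hd : ∀ y, |ψ y| ≤ K * kap (n + 2) 1 y := fun y =>
    (h.d0 y).trans (mul_le_mul_of_nonneg_left (kap_anti_exp (by omega) y) hK)
  have hz := kap_nonneg (n + 2) 1 z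
  have h1 := mul_le_mul_of_nonneg_left (LAb_conv (n + 2) (x := x) (y := x + z) (z := z) (by simp)) hK
  have h2 := mul_le_mul_of_nonneg_left (LAb_conv (n + 2) (x := x) (y := x - z) (z := z) (by simp)) hK
  have h3 : |2 * ψ x - ψ (x + z) - ψ (x - z)| ≤ 2 * (K * kap (n + 2) 1 x) +
      K * kap (n + 2) 1 (x + z) + K * kap (n + 2) 1 (x - z) := by
    linarith [LAb_abs3 (ψ x) (ψ (x + z)) (ψ (x - z)), hd x, hd (x + z), hd (x - z)]
  have h4 := mul_le_mul_of_nonneg_right h3 hz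
  have h5 : K * kap (n + 2) 1 x * kap (n + 2) 1 z ≤
      2 ^ (n + 2) * (K * kap (n + 2) 1 x * kap (n + 2) 1 z) :=
    le_mul_of_one_le_left (mul_nonneg (mul_nonneg hK (kap_nonneg _ _ _)) hz)
      (one_le_pow₀ (by norm_num))
  rw [show -x - z = -(x + z) by abel, kap_neg]
  linarith

theorem T2.LAb_dom2 (h : T2 (2 * n + 4) K ψ) {s : ℝ} (hs : 0 < s) (hs1 : s ≤ 1) (x z : Eu n) :
    ‖(2 * ψ x - ψ (x + z) - ψ (x - z)) * kap (n + 1) s z -
      (2 * ψ x - ψ (x + z) - ψ (x - z)) * kap (n + 1) 0 z‖ ≤ K * kap (n + 2) 1 x *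
      (‖z‖ ^ 2 * (kap (n + 1) 0 z - kap (n + 1) s z) + (n + 1) * 2 ^ (n + 3) * 2 ^ (n + 2) * s *
        (4 * kap (n + 2) 1 z + kap (n + 2) 1 (-x - z) + kap (n + 2) 1 (x - z))) := by
  have hK := h.LAb_nonneg
  have hx : 0 ≤ K * kap (n + 2) 1 x := mul_nonneg hK (kap_nonneg _ _ _)
  have h1 := sq_mul_kap_diff_nonneg n le_rfl hs.le z
  have h2 : 0 ≤ 4 * kap (n + 2) 1 z + kap (n + 2) 1 (-x - z) + kap (n + 2) 1 (x - z) := by
    linarith [kap_nonneg (n + 2) 1 z, kap_nonneg (n + 2) 1 (-x - z), kap_nonneg (n + 2) 1 (x - z)]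
  by_cases hz0 : z = 0
  · refine le_trans (le_of_eq ?_) (mul_nonneg hx (add_nonneg h1 (by positivity)))
    rw [hz0, add_zero, sub_zero, show 2 * ψ x - ψ x - ψ x = 0 by ring]
    simp
  have hN : 0 < N 0 z := by
    rw [N_zero]
    exact norm_pos_iff.2 hz0
  have h3 : 0 ≤ kap (n + 1) 0 z - kap (n + 1) s z := sub_nonneg.2 (kap_anti _ le_rfl hs.le hN)
  rw [← mul_sub, Real.norm_eq_abs, abs_mul, abs_sub_comm (kap (n + 1) s z), abs_of_nonneg h3]
  rcases le_total ‖z‖ 1 with hz | hz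
  · refine le_trans ?_ (mul_le_mul_of_nonneg_left (le_add_of_nonneg_right (by positivity)) hx)
    rw [← mul_assoc]
    refine mul_le_mul_of_nonneg_right ((h.d2 x z hz).trans ?_) h3
    rw [mul_right_comm]
    exact mul_le_mul_of_nonneg_right
      (mul_le_mul_of_nonneg_left (kap_anti_exp (by omega) x) hK) (by positivity)
  · refine le_trans ?_ (mul_le_mul_of_nonneg_left (le_add_of_nonneg_left h1) hx)
    have h4 : kap (n + 1) 0 z - kap (n + 1) s z ≤
        (n + 1) * 2 ^ (n + 3) * s * kap (n + 2) 1 z := by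
      have h5 := kap_diff_le (n + 1) le_rfl hs.le hN
      have h6 := (kap_zero_le (n + 1 + 2) one_pos hz).trans (mul_le_mul_of_nonneg_left
        (kap_anti_exp (p := n + 2) (by omega) z) (by positivity))
      have h7 : s ^ 2 ≤ s := by nlinarith
      refine h5.trans (le_of_le_of_eq (mul_le_mul (mul_le_mul_of_nonneg_left h7 (by positivity))
        h6 (kap_nonneg _ _ _) (by positivity)) ?_)
      push_cast
      ring
    have h5 := mul_le_mul_of_nonneg_left (h.LAb_far x z)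
      (show 0 ≤ ((n : ℝ) + 1) * 2 ^ (n + 3) * s by positivity)
    refine (mul_le_mul_of_nonneg_left h4 (abs_nonneg _)).trans ?_
    linarith

theorem LAb_est1 (hn : 1 ≤ n) : ∃ c, 0 ≤ c ∧ ∀ (K : ℝ) (ψ : Eu n → ℝ), T2 (2 * n + 4) K ψ →
    ∀ s, 0 < s → s ≤ 1 → ∀ x, |Lam n volume s ψ x - Lam0 ψ x| ≤ c * K * s * kap (n + 2) 1 x := by
  obtain ⟨C, hC, hU, -⟩ := exists_up_volume n
  have hC0 : 0 ≤ C := by linarith
  have hc := cK_pos n
  refine ⟨(1 / 2) * ((n + 2) * cK n * C + (n + 1) * 2 ^ (n + 3) * 2 ^ (n + 2) * (6 * (cK n * C))),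
    by positivity, fun K ψ h s hs hs1 x => ?_⟩
  have hK := h.LAb_nonneg
  have hx : 0 ≤ K * kap (n + 2) 1 x := mul_nonneg hK (kap_nonneg _ _ _)
  obtain ⟨i0, e0⟩ := h.LAb_symm hs x
  obtain ⟨i1, e1⟩ := hU.diff hn hC0 0 le_rfl hs.le hs
  obtain ⟨i2, e2⟩ := hU.int_kap hC0 0 one_pos 1
  obtain ⟨i3, e3⟩ := hU.int_kap hC0 (-x) one_pos 1
  obtain ⟨i4, e4⟩ := hU.int_kap hC0 x one_pos 1
  simp only [zero_sub, norm_neg, kap_neg, one_pow, div_one] at i1 e1 i2 e2 e3 e4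
  have i6 : Integrable fun a : Eu n => 4 * kap (n + 1 + 1) 1 a + kap (n + 1 + 1) 1 (-x - a) :=
    (i2.const_mul 4).add i3
  have i5 : Integrable fun a : Eu n => 4 * kap (n + 1 + 1) 1 a + kap (n + 1 + 1) 1 (-x - a) +
      kap (n + 1 + 1) 1 (x - a) := i6.add i4
  have key := norm_integral_le_of_norm_le ((i1.add (i5.const_mul
    ((n + 1) * 2 ^ (n + 3) * 2 ^ (n + 2) * s))).const_mul (K * kap (n + 2) 1 x))
    (ae_of_all _ (h.LAb_dom2 hs hs1 x))
  simp only [Pi.add_apply] at key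
  rw [integral_sub i0 (LAb_integrable hn h x), integral_const_mul,
    integral_add i1 (i5.const_mul _), integral_const_mul, integral_add i6 i4,
    integral_add (i2.const_mul 4) i3, integral_const_mul] at key
  have h1 := mul_le_mul_of_nonneg_left (add_le_add e1 (mul_le_mul_of_nonneg_left
    (add_le_add (add_le_add (mul_le_mul_of_nonneg_left e2 (show (0 : ℝ) ≤ 4 by norm_num)) e3) e4)
    (show 0 ≤ ((n : ℝ) + 1) * 2 ^ (n + 3) * 2 ^ (n + 2) * s by positivity))) hx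
  rw [e0, Lam0, ← mul_sub, abs_mul, abs_of_pos (show (0 : ℝ) < 1 / 2 by norm_num)]
  refine (mul_le_mul_of_nonneg_left (key.trans h1) (by norm_num)).trans (le_of_eq ?_)
  ring

theorem LAb_est2 (n : ℕ) : ∃ c, 0 ≤ c ∧ ∀ (K : ℝ) (ψ : Eu n → ℝ), T2 (2 * n + 4) K ψ →
    ∫ y, ψ y = 0 → ∀ x, |Lam n volume 1 ψ x| ≤ c * K * kap (n + 2) 1 x := by
  obtain ⟨C, hC, hU, -⟩ := exists_up_volume n
  obtain ⟨c, hc0, hc⟩ := kap_sub_le (m := n) n one_pos
  have hC0 : 0 ≤ C := by linarith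
  have hcK := cK_pos n
  refine ⟨cK n * C + c * (cK n * C), by positivity, fun K ψ h h0 x => ?_⟩
  have hK := h.LAb_nonneg
  have hx : 0 ≤ K * kap (n + 2) 1 x := mul_nonneg hK (kap_nonneg _ _ _)
  have h1 := h.cont
  have h2 := continuous_kap (m := n) (n + 1) one_pos
  obtain ⟨i1, e1⟩ := hU.int_kap hC0 x one_pos 0
  obtain ⟨i2, e2⟩ := hU.int_kap_one hC0
  simp only [add_zero, one_pow, div_one] at i1 e1
  have i3 : Integrable ψ := hU.integrable_dec (K := K) ⟨h1, fun y =>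
    (h.d0 y).trans (mul_le_mul_of_nonneg_left (kap_anti_exp (by omega) y) hK)⟩
  have i4 : Integrable fun y => (ψ x - ψ y) * kap (n + 1) 1 (x - y) :=
    (i1.const_mul (2 * K)).mono' (Continuous.aestronglyMeasurable (by fun_prop))
      (ae_of_all _ fun y => h.LAb_dom1 1 x y (x - y))
  have key := norm_integral_le_of_norm_le (μ := volume)
    (f := fun y => (ψ x - ψ y) * kap (n + 1) 1 (x - y) + kap (n + 1) 1 x * ψ y)
    ((i1.add (i2.const_mul c)).const_mul (K * kap (n + 2) 1 x)) (ae_of_all _ fun y => by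
      have h3 : |ψ x| ≤ K * kap (n + 2) 1 x :=
        (h.d0 x).trans (mul_le_mul_of_nonneg_left (kap_anti_exp (by omega) x) hK)
      have h4 := mul_le_mul (h.d0 y) (hc x y) (abs_nonneg _) (mul_nonneg hK (kap_nonneg _ _ _))
      have h5 := kap_mul_N_pow (n + 1) (n + 3) one_pos y
      rw [show n + 1 + (n + 3) = 2 * n + 4 by ring] at h5
      have h6 := mul_le_mul_of_nonneg_right h3 (kap_nonneg (n + 1) 1 (x - y))
      rw [show (ψ x - ψ y) * kap (n + 1) 1 (x - y) + kap (n + 1) 1 x * ψ y =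
        ψ x * kap (n + 1) 1 (x - y) - ψ y * (kap (n + 1) 1 (x - y) - kap (n + 1) 1 x) by ring]
      refine (abs_sub _ _).trans ?_
      rw [abs_mul, abs_mul, abs_of_nonneg (kap_nonneg _ _ _), Pi.add_apply, ← h5]
      linarith)
  simp only [Pi.add_apply] at key
  rw [integral_add i4 (i3.const_mul _), integral_const_mul, h0, mul_zero, add_zero,
    integral_const_mul, integral_add i1 (i2.const_mul c), integral_const_mul] at key
  refine (key.trans (mul_le_mul_of_nonneg_left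
    (add_le_add e1 (mul_le_mul_of_nonneg_left e2 hc0)) hx)).trans (le_of_eq ?_)
  ring

theorem LAb_est (n : ℕ) (hn : 1 ≤ n) : ∃ c, 0 ≤ c ∧ ∀ (K : ℝ) (ψ : Eu n → ℝ),
    T2 (2 * n + 4) K ψ →
      (∀ s, 0 < s → s ≤ 1 → ∀ x,
        |Lam n volume s ψ x - Lam0 ψ x| ≤ c * K * s * kap (n + 2) 1 x) ∧
      (∫ y, ψ y = 0 → ∀ x, |Lam0 ψ x| ≤ c * K * kap (n + 2) 1 x) := by
  obtain ⟨c1, hc1, h1⟩ := LAb_est1 hn
  obtain ⟨c2, hc2, h2⟩ := LAb_est2 n
  refine ⟨c1 + c2, by positivity, fun K ψ h => ⟨fun s hs hs1 x => ?_, fun h0 x => ?_⟩⟩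
  · have hK := h.LAb_nonneg
    have h3 : 0 ≤ c2 * K * s * kap (n + 2) 1 x := mul_nonneg (by positivity) (kap_nonneg _ _ _)
    linarith [h1 K ψ h s hs hs1 x]
  · have h3 := abs_sub (Lam n volume 1 ψ x) (Lam n volume 1 ψ x - Lam0 ψ x)
    rw [sub_sub_cancel] at h3
    linarith [h1 K ψ h 1 one_pos le_rfl x, h2 K ψ h h0 x]

end Crest.Agent.R85
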