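import Crest.Agent.R85.KernB
import Crest.Agent.R85.LiouAbx
import Crest.Agent.R85.LiouAax

/-!
# The half Laplacian on `Eu n`: weighted estimates (task LiouA)

Use `exists_up_volume` so that all kernel integrals of `KernB` apply to `volume`.
For `s > 0`, `Lam n volume s ψ x = ½ ∫ (2ψ x - ψ(x+z) - ψ(x-z)) κ_s z dz` (change variables
`y = x - z`, `z ↦ -z`).  So `Lam0 ψ x - Lam s ψ x = ½ ∫ (second difference)(κ_0 - κ_s)`.
On `‖z‖ ≤ 1` use `d2` and `Up.diff`; on `‖z‖ > 1` use `κ_0 - κ_s ≤ (n+1) s² kap (n+3) 0 z` and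
`N 1 x ^(n+2) ≤ 2^(n+2) (N 1 (x±z)^(n+2) + ‖z‖^(n+2))`-type splitting:
`N 1 x^(n+2) |ψ(x±z)| kap (n+3) 0 z ≤ c (K kap (n+3) 0 z + |ψ(x±z)|)`.
With `s = 1`: `Lam 1 ψ x = ψ x ∫κ_1 - ∫ ψ y (κ_1(x-y) - κ_1 x) dy`, `kap_sub_le`.
`T2` for Schwartz maps: mean value inequality along segments for `ψ` and `fderiv ψ`, decay
seminorms (`SchwartzMap.decay`/`one_add_le_sup_seminorm_apply`), Peetre for `‖z‖ ≤ 1`.
`t2_cutoff`: `χ_R x = χ (R⁻¹ • x)` with a smooth bump `χ`; discrete Leibniz rule for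
`(1 - χ_R) ψ`, which vanishes on `‖x‖ ≤ R`, gives `T2 M (c K / R)`.  Correct the mean with a fixed
bump of integral one.
-/

set_option autoImplicit false

open MeasureTheory Metric Filter Topology
open scoped RealInnerProductSpace

noncomputable section

namespace Crest.Agent.R85

variable {m : ℕ}

variable {n : ℕ}

theorem T2.add {M : ℕ} {K K' : ℝ} {ψ φ : Eu m → ℝ} (h : T2 M K ψ) (h' : T2 M K' φ) :
    T2 M (K + K') (fun y => ψ y + φ y) := by
  refine ⟨h.cont.add h'.cont, fun x => ?_, fun x z hz => ?_, fun x z hz => ?_⟩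
  · exact (abs_add_le _ _).trans ((add_le_add (h.d0 x) (h'.d0 x)).trans (le_of_eq (by ring)))
  · rw [add_sub_add_comm]
    exact (abs_add_le _ _).trans
      ((add_le_add (h.d1 x z hz) (h'.d1 x z hz)).trans (le_of_eq (by ring)))
  · have e : 2 * (ψ x + φ x) - (ψ (x + z) + φ (x + z)) - (ψ (x - z) + φ (x - z)) =
        (2 * ψ x - ψ (x + z) - ψ (x - z)) + (2 * φ x - φ (x + z) - φ (x - z)) := by ring
    rw [e]
    exact (abs_add_le _ _).trans
      ((add_le_add (h.d2 x z hz) (h'.d2 x z hz)).trans (le_of_eq (by ring)))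

theorem T2.const_mul {M : ℕ} {K : ℝ} {ψ : Eu m → ℝ} (h : T2 M K ψ) (a : ℝ) :
    T2 M (|a| * K) (fun y => a * ψ y) := by
  refine ⟨continuous_const.mul h.cont, fun x => ?_, fun x z hz => ?_, fun x z hz => ?_⟩
  · rw [abs_mul, mul_assoc]
    exact mul_le_mul_of_nonneg_left (h.d0 x) (abs_nonneg a)
  · rw [← mul_sub, abs_mul, mul_assoc, mul_assoc, ← mul_assoc K]
    exact mul_le_mul_of_nonneg_left (h.d1 x z hz) (abs_nonneg a)
  · rw [mul_left_comm, ← mul_sub, ← mul_sub, abs_mul, mul_assoc, mul_assoc, ← mul_assoc K]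
    exact mul_le_mul_of_nonneg_left (h.d2 x z hz) (abs_nonneg a)

theorem t2_schwartz (ψ : SchwartzMap (Eu m) ℝ) (M : ℕ) : ∃ K, 0 ≤ K ∧ T2 M K ψ := by
  obtain ⟨A, hA, h⟩ := laa_schwartz_bd ψ M
  refine ⟨2 * 2 ^ M * A, by positivity, laa_of_bounds hA (ψ.smooth 2) (fun x => ?_) (fun x => ?_)
    fun x => ?_⟩
  · simpa using h 0 (by norm_num) x
  · simpa using h 1 (by norm_num) x
  · rw [← norm_iteratedFDeriv_one, norm_iteratedFDeriv_fderiv]
    exact h 2 le_rfl x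

theorem t2_of_contDiff {ψ : Eu m → ℝ} (h : ContDiff ℝ (⊤ : ℕ∞) ψ) (hc : HasCompactSupport ψ)
    (M : ℕ) : ∃ K, 0 ≤ K ∧ T2 M K ψ := by
  exact t2_schwartz (hc.toSchwartzMap h) M

theorem Lam0_integrable (hn : 1 ≤ n) {M : ℕ} {K : ℝ} {ψ : Eu n → ℝ} (h : T2 M K ψ) (x : Eu n) :
    Integrable (fun z => (2 * ψ x - ψ (x + z) - ψ (x - z)) * kap (n + 1) 0 z) :=
  LAb_integrable hn h x

theorem Lam0_sub (hn : 1 ≤ n) {M : ℕ} {K K' : ℝ} {ψ φ : Eu n → ℝ} (h : T2 M K ψ) (h' : T2 M K' φ)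
    (x : Eu n) : Lam0 (fun y => ψ y - φ y) x = Lam0 ψ x - Lam0 φ x := LAb_sub hn h h' x

theorem continuous_Lam0 (hn : 1 ≤ n) {M : ℕ} {K : ℝ} {ψ : Eu n → ℝ} (h : T2 M K ψ) :
    Continuous (Lam0 ψ) := LAb_continuous0 hn h

theorem continuous_Lam_volume {M : ℕ} {K : ℝ} {ψ : Eu n → ℝ} (h : T2 M K ψ) {s : ℝ}
    (hs : 0 < s) : Continuous (Lam n volume s ψ) := LAb_continuous h hs

theorem lam_est (n : ℕ) (hn : 1 ≤ n) : ∃ c, 0 ≤ c ∧ ∀ (K : ℝ) (ψ : Eu n → ℝ),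
    T2 (2 * n + 4) K ψ →
      (∀ s, 0 < s → s ≤ 1 → ∀ x,
        |Lam n volume s ψ x - Lam0 ψ x| ≤ c * K * s * kap (n + 2) 1 x) ∧
      (∫ y, ψ y = 0 → ∀ x, |Lam0 ψ x| ≤ c * K * kap (n + 2) 1 x) := LAb_est n hn

/-- Mean-zero Schwartz functions are `T2`-limits of mean-zero smooth compactly supported ones. -/
theorem t2_cutoff (ψ : SchwartzMap (Eu m) ℝ) (h0 : ∫ y, ψ y = 0) (M : ℕ) (hM : m + 1 ≤ M) {ε : ℝ}
    (hε : 0 < ε) : ∃ φ : Eu m → ℝ, ContDiff ℝ (⊤ : ℕ∞) φ ∧ HasCompactSupport φ ∧ ∫ y, φ y = 0 ∧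
      T2 M ε (fun y => ψ y - φ y) := by
  let χ : ContDiffBump (0 : Eu m) := ⟨1, 2, one_pos, one_lt_two⟩
  obtain ⟨B, hB, hχ⟩ := t2_of_contDiff (χ.contDiff (n := ⊤)) χ.hasCompactSupport 0
  obtain ⟨K, hK, hψ⟩ := t2_schwartz ψ (M + 1)
  obtain ⟨K', hK', hη⟩ := t2_of_contDiff (χ.contDiff_normed (μ := volume) (n := ⊤))
    χ.hasCompactSupport_normed M
  obtain ⟨C, hC, hup, -⟩ := exists_up_volume m
  have hint := (hup.int_kap_one (zero_le_one.trans hC)).1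
  set I : ℝ := ∫ y : Eu m, kap (m + 1) 1 y with hI
  have hI0 : 0 ≤ I := integral_nonneg fun y => kap_nonneg _ _ y
  set K₁ : ℝ := 4 * (1 + |(-1 : ℝ)| * B) * K with hK₁
  have hK₁0 : 0 ≤ K₁ := by positivity
  set R : ℝ := K₁ * (1 + I * K') / ε + 1 with hR
  have hR1 : 1 ≤ R := le_add_of_nonneg_left (by positivity)
  have hR0 : 0 < R := by linarith
  have hcut : T2 0 (1 + |(-1 : ℝ)| * B) (fun y : Eu m => 1 + (-1) * χ ((R + 1)⁻¹ • y)) :=
    laa_one.add ((laa_dil (by linarith) hχ).const_mul (-1))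
  have hf : T2 M (K₁ / R) (fun y => (1 + (-1) * χ ((R + 1)⁻¹ • y)) * ψ y) := by
    refine laa_far hR0 (laa_mul hcut hψ) fun y hy => ?_
    rw [χ.one_of_mem_closedBall, mul_one, add_neg_cancel, zero_mul]
    rw [mem_closedBall_zero_iff, norm_smul, norm_inv, Real.norm_of_nonneg (by linarith),
      inv_mul_le_iff₀ (by linarith)]
    simpa [χ] using hy
  have hc1 : ContDiff ℝ (⊤ : ℕ∞) fun y : Eu m => χ ((R + 1)⁻¹ • y) * ψ y :=
    (χ.contDiff.comp (contDiff_const_smul _)).mul (ψ.smooth ⊤)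
  have hs1 : HasCompactSupport fun y : Eu m => χ ((R + 1)⁻¹ • y) * ψ y :=
    (χ.hasCompactSupport.comp_smul (inv_ne_zero (by linarith))).mul_right
  have hi1 := hc1.continuous.integrable_of_hasCompactSupport (μ := volume) hs1
  set c : ℝ := ∫ y : Eu m, χ ((R + 1)⁻¹ • y) * ψ y with hc
  have hcb : |c| ≤ K₁ / R * I := by
    have e : ∫ y : Eu m, (1 + (-1) * χ ((R + 1)⁻¹ • y)) * ψ y = -c := by
      rw [← zero_sub c, ← h0, hc, ← integral_sub ψ.integrable hi1]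
      exact integral_congr_ae (Eventually.of_forall fun y => by ring)
    rw [← abs_neg, ← e, ← Real.norm_eq_abs, hI, ← integral_const_mul]
    refine norm_integral_le_of_norm_le (hint.const_mul _) (Eventually.of_forall fun y => ?_)
    exact (hf.d0 y).trans (mul_le_mul_of_nonneg_left (kap_anti_exp hM y) (by positivity))
  refine ⟨fun y => χ ((R + 1)⁻¹ • y) * ψ y - c * χ.normed volume y,
    hc1.sub (contDiff_const.mul χ.contDiff_normed),
    hs1.sub χ.hasCompactSupport_normed.mul_left, ?_, ?_⟩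
  · rw [integral_sub hi1 (χ.integrable_normed.const_mul c), integral_const_mul, χ.integral_normed,
      mul_one, sub_self]
  · have e : (fun y => ψ y - (χ ((R + 1)⁻¹ • y) * ψ y - c * χ.normed volume y)) =
        fun y => (1 + (-1) * χ ((R + 1)⁻¹ • y)) * ψ y + c * χ.normed volume y := by
      funext y; ring
    rw [e]
    refine laa_mono (hf.add (hη.const_mul c)) ?_
    calc K₁ / R + |c| * K' ≤ K₁ / R + K₁ / R * I * K' := by gcongr
      _ = K₁ * (1 + I * K') / R := by ring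
      _ ≤ ε := by
        rw [div_le_iff₀ hR0, hR, mul_add ε, mul_div_cancel₀ _ hε.ne']
        linarith

end Crest.Agent.R85
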