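import Crest.Agent.R85.KernB

/-!
# The symbol of the half Laplacian (auxiliary file of LiouB)
-/

set_option autoImplicit false

open MeasureTheory Metric Filter Topology
open scoped RealInnerProductSpace

noncomputable section

namespace Crest.Agent.R85

variable {n : ℕ}

/-- The integrand of the symbol. -/
def LiouBa_f (ξ z : Eu n) : ℝ := (1 - Real.cos (2 * Real.pi * ⟪ξ, z⟫)) * kap (n + 1) 0 z

theorem LiouBa_nonneg (ξ z : Eu n) : 0 ≤ LiouBa_f ξ z :=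
  mul_nonneg (sub_nonneg.2 (Real.cos_le_one _)) (kap_nonneg _ _ _)

theorem LiouBa_cos_le (ξ z : Eu n) : 1 - Real.cos (2 * Real.pi * ⟪ξ, z⟫) ≤
    (2 * Real.pi ^ 2 * ‖ξ‖ ^ 2 + 2) * min (‖z‖ ^ 2) 1 := by
  have h0 : 0 ≤ 2 * Real.pi ^ 2 * ‖ξ‖ ^ 2 := by positivity
  rcases le_total (‖z‖ ^ 2) 1 with h | h
  · rw [min_eq_left h]
    have h1 := Real.one_sub_sq_div_two_le_cos (x := 2 * Real.pi * ⟪ξ, z⟫)
    have h2 : ⟪ξ, z⟫ ^ 2 ≤ (‖ξ‖ * ‖z‖) ^ 2 :=
      sq_le_sq' (by linarith [neg_abs_le ⟪ξ, z⟫, abs_real_inner_le_norm ξ z]) (real_inner_le_norm ξ z)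
    have h3 := mul_le_mul_of_nonneg_left h2 (show 0 ≤ 2 * Real.pi ^ 2 by positivity)
    nlinarith [sq_nonneg ‖z‖]
  · rw [min_eq_right h]
    linarith [Real.neg_one_le_cos (2 * Real.pi * ⟪ξ, z⟫)]

theorem LiouBa_integrable (hn : 1 ≤ n) (ξ : Eu n) : Integrable (LiouBa_f ξ) := by
  obtain ⟨C, hC, hU, -⟩ := exists_up_volume n
  have h1 := (hU.min_sq hn (by linarith) 0 one_pos).1
  simp only [zero_sub, norm_neg, kap_neg, one_pow] at h1
  refine (h1.const_mul (2 * Real.pi ^ 2 * ‖ξ‖ ^ 2 + 2)).mono' ?_ (Eventually.of_forall fun z => ?_)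
  · refine Measurable.aestronglyMeasurable (Measurable.mul ?_ (measurable_kap _ _))
    exact Continuous.measurable (by fun_prop)
  · rw [Real.norm_of_nonneg (LiouBa_nonneg ξ z), ← mul_assoc]
    exact mul_le_mul_of_nonneg_right (LiouBa_cos_le ξ z) (kap_nonneg _ _ _)

theorem LiouBa_rot {ξ ξ' : Eu n} (h : ‖ξ‖ = ‖ξ'‖) : ∫ z, LiouBa_f ξ z = ∫ z, LiouBa_f ξ' z := by
  have h1 := Submodule.reflection_sub h
  set R := (ℝ ∙ (ξ - ξ'))ᗮ.reflection
  rw [← R.measurePreserving.integral_comp R.toHomeomorph.measurableEmbedding (LiouBa_f ξ')]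
  refine integral_congr_ae (Eventually.of_forall fun z => ?_)
  simp only [LiouBa_f]
  rw [← h1, R.inner_map_map, kap_congr_norm _ _ (R.norm_map z)]

theorem LiouBa_smul (ξ : Eu n) {r : ℝ} (hr : 0 < r) :
    ∫ z, LiouBa_f (r • ξ) z = r * ∫ z, LiouBa_f ξ z := by
  have h1 := Measure.integral_comp_smul volume (LiouBa_f ξ) r
  rw [finrank_euclideanSpace_fin, abs_of_pos (by positivity), smul_eq_mul] at h1
  have h2 : ∀ z, LiouBa_f (r • ξ) z = r ^ (n + 1) * LiouBa_f ξ (r • z) := by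
    intro z
    have h3 := kap_smul (n + 1) hr 0 z
    rw [mul_zero] at h3
    simp only [LiouBa_f, h3, real_inner_smul_left, real_inner_smul_right]
    field_simp
  simp only [h2]
  rw [integral_const_mul, h1, pow_succ]
  field_simp

theorem LiouBa_pos (hn : 1 ≤ n) {e : Eu n} (he : ‖e‖ = 1) : 0 < ∫ z, LiouBa_f e z := by
  rw [integral_pos_iff_support_of_nonneg (LiouBa_nonneg e) (LiouBa_integrable hn e)]
  have hO : IsOpen {z : Eu n | Real.cos (2 * Real.pi * ⟪e, z⟫) < 1} :=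
    isOpen_lt (by fun_prop) continuous_const
  refine (hO.measure_pos volume ⟨(1 / 2 : ℝ) • e, ?_⟩).trans_le (measure_mono fun z hz => ?_)
  · simp only [Set.mem_ofPred_eq, real_inner_smul_right, real_inner_self_eq_norm_sq, he]
    rw [show 2 * Real.pi * (1 / 2 * 1 ^ 2) = Real.pi by ring, Real.cos_pi]
    norm_num
  · have hz0 : z ≠ 0 := by
      rintro rfl
      simp at hz
    refine (mul_pos (sub_pos.2 hz) ?_).ne'
    rw [kap_zero]
    have := norm_pos_iff.2 hz0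
    positivity

theorem LiouBa_symbol (n : ℕ) (hn : 1 ≤ n) : ∃ c : ℝ, 0 < c ∧ ∀ ξ : Eu n,
    Integrable (LiouBa_f ξ) ∧ ∫ z, LiouBa_f ξ z = c * ‖ξ‖ := by
  set e : Eu n := EuclideanSpace.single ⟨0, hn⟩ 1
  have he : ‖e‖ = 1 := by simp [e]
  refine ⟨_, LiouBa_pos hn he, fun ξ => ⟨LiouBa_integrable hn ξ, ?_⟩⟩
  rcases eq_or_ne ξ 0 with rfl | h0
  · simp [LiouBa_f]
  · rw [LiouBa_rot (ξ' := ‖ξ‖ • e) (by rw [norm_smul, he, norm_norm, mul_one]),
      LiouBa_smul e (norm_pos_iff.2 h0), mul_comm]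

end Crest.Agent.R85
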