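import Crest.Agent.R85.Defs

/-!
# Cosine transforms and the half Laplacian (auxiliary file for `LiouB.exists_eta`)
-/

set_option autoImplicit false

open MeasureTheory Metric Filter Topology
open scoped RealInnerProductSpace FourierTransform

noncomputable section

namespace Crest.Agent.R85

variable {n : ℕ}

/-- the cosine transform -/
def lbCos (g : Eu n → ℝ) (y : Eu n) : ℝ := ∫ ξ, Real.cos (2 * Real.pi * ⟪ξ, y⟫) * g ξ

theorem lb_int {g : Eu n → ℝ} (hg : Integrable g) (y : Eu n) :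
    Integrable fun ξ => Real.cos (2 * Real.pi * ⟪ξ, y⟫) * g ξ := by
  refine hg.bdd_mul (c := 1) (Continuous.aestronglyMeasurable (by fun_prop)) ?_
  exact Eventually.of_forall fun ξ => Real.abs_cos_le_one _

theorem lb_schwartz {g : Eu n → ℝ} (hg : ContDiff ℝ (⊤ : ℕ∞) g) (hc : HasCompactSupport g) :
    ∃ ψ : SchwartzMap (Eu n) ℝ, (∀ y, ψ y = lbCos g y) ∧ ∫ y, ψ y = g 0 := by
  have hc' : HasCompactSupport fun ξ => ((g ξ : ℝ) : ℂ) :=
    hc.comp_left (g := fun r : ℝ => (r : ℂ)) Complex.ofReal_zero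
  let G : SchwartzMap (Eu n) ℂ := hc'.toSchwartzMap (Complex.ofRealCLM.contDiff.comp hg)
  have hG : ∀ ξ, G ξ = (g ξ : ℂ) := fun _ => rfl
  refine ⟨SchwartzMap.postcompCLM Complex.reCLM (𝓕⁻ G), fun y => ?_, ?_⟩
  · rw [SchwartzMap.postcompCLM_apply, SchwartzMap.fourierInv_coe, Real.fourierInv_eq']
    have hi : Integrable fun v : Eu n =>
        Complex.exp ((2 * Real.pi * ⟪v, y⟫ : ℝ) * Complex.I) • G v := by
      refine G.integrable.bdd_mul (c := 1) (Continuous.aestronglyMeasurable (by fun_prop)) ?_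
      exact Eventually.of_forall fun ξ => (Complex.norm_exp_ofReal_mul_I _).le
    rw [← ContinuousLinearMap.integral_comp_comm _ hi, lbCos]
    refine integral_congr_ae (Eventually.of_forall fun ξ => ?_)
    simp only [hG, smul_eq_mul, Complex.reCLM_apply, Complex.re_mul_ofReal,
      Complex.exp_ofReal_mul_I_re]
  · have h1 : (𝓕 (𝓕⁻ G) : SchwartzMap (Eu n) ℂ) 0 = G 0 := by
      rw [FourierTransform.fourier_fourierInv_eq]
    rw [SchwartzMap.fourier_coe, Real.fourier_eq] at h1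
    simp only [inner_zero_right, neg_zero, AddChar.map_zero_eq_one, one_smul] at h1
    simp only [SchwartzMap.postcompCLM_apply]
    rw [ContinuousLinearMap.integral_comp_comm _ (𝓕⁻ G).integrable, h1, hG]
    simp

theorem lb_dil (g : Eu n → ℝ) {s : ℝ} (hs : 0 < s) (y : Eu n) :
    dil (lbCos g) s y = lbCos (fun ξ => g (s • ξ)) y := by
  have h := Measure.integral_comp_smul (volume : Measure (Eu n))
    (fun ξ => Real.cos (2 * Real.pi * ⟪ξ, s⁻¹ • y⟫) * g ξ) s
  rw [finrank_euclideanSpace_fin, abs_of_pos (inv_pos.2 (pow_pos hs n)), smul_eq_mul] at h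
  rw [dil, lbCos, ← h, lbCos]
  refine integral_congr_ae (Eventually.of_forall fun ξ => ?_)
  simp only [real_inner_smul_left, real_inner_smul_right]
  rw [← mul_assoc s⁻¹, inv_mul_cancel₀ hs.ne', one_mul]

theorem lb_meas_kap (p : ℕ) (s : ℝ) : Measurable (kap p s : Eu n → ℝ) := by
  unfold kap N
  fun_prop

theorem lb_kap_nonneg (p : ℕ) (s : ℝ) (z : Eu n) : 0 ≤ kap p s z := by
  unfold kap N
  positivity

theorem lb_lam {c : ℝ} (hsym : ∀ ξ : Eu n,
    Integrable (fun z : Eu n => (1 - Real.cos (2 * Real.pi * ⟪ξ, z⟫)) * kap (n + 1) 0 z) ∧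
    ∫ z : Eu n, (1 - Real.cos (2 * Real.pi * ⟪ξ, z⟫)) * kap (n + 1) 0 z = c * ‖ξ‖)
    {g : Eu n → ℝ} (hg : Continuous g) (hc : HasCompactSupport g) (y : Eu n) :
    Lam0 (lbCos g) y = lbCos (fun ξ => c * ‖ξ‖ * g ξ) y := by
  have hi : Integrable g := hg.integrable_of_hasCompactSupport hc
  have h1 : ∀ z, (2 * lbCos g y - lbCos g (y + z) - lbCos g (y - z)) * kap (n + 1) 0 z =
      ∫ ξ, 2 * (Real.cos (2 * Real.pi * ⟪ξ, y⟫) * g ξ) *
        ((1 - Real.cos (2 * Real.pi * ⟪ξ, z⟫)) * kap (n + 1) 0 z) := by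
    intro z
    have i1 : Integrable fun ξ : Eu n => 2 * (Real.cos (2 * Real.pi * ⟪ξ, y⟫) * g ξ) -
        Real.cos (2 * Real.pi * ⟪ξ, y + z⟫) * g ξ := ((lb_int hi y).const_mul 2).sub (lb_int hi _)
    rw [lbCos, lbCos, lbCos, ← integral_const_mul,
      ← integral_sub ((lb_int hi y).const_mul 2) (lb_int hi _), ← integral_sub i1 (lb_int hi _),
      ← integral_mul_const]
    refine integral_congr_ae (Eventually.of_forall fun ξ => ?_)
    simp only [inner_add_right, inner_sub_right, mul_add, mul_sub, Real.cos_add,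
      Real.cos_sub]
    ring
  have hF : Integrable (Function.uncurry fun (ξ z : Eu n) =>
      2 * (Real.cos (2 * Real.pi * ⟪ξ, y⟫) * g ξ) *
        ((1 - Real.cos (2 * Real.pi * ⟪ξ, z⟫)) * kap (n + 1) 0 z)) (volume.prod volume) := by
    have hm : Measurable (Function.uncurry fun (ξ z : Eu n) =>
        2 * (Real.cos (2 * Real.pi * ⟪ξ, y⟫) * g ξ) *
          ((1 - Real.cos (2 * Real.pi * ⟪ξ, z⟫)) * kap (n + 1) 0 z)) := by
      refine Measurable.mul (Continuous.measurable ?_) (Measurable.mul (Continuous.measurable ?_)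
        ((lb_meas_kap (n + 1) 0).comp measurable_snd))
      · fun_prop
      · fun_prop
    rw [integrable_prod_iff hm.aestronglyMeasurable]
    refine ⟨Eventually.of_forall fun ξ => ?_, ?_⟩
    · simp only [Function.uncurry_apply_pair]
      exact (hsym ξ).1.const_mul _
    have h2 : Integrable fun ξ : Eu n =>
        |2 * (Real.cos (2 * Real.pi * ⟪ξ, y⟫) * g ξ)| * (c * ‖ξ‖) := by
      refine Continuous.integrable_of_hasCompactSupport (by fun_prop) ?_
      exact (hc.mul_left.mul_left.abs).mul_right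
    refine h2.congr (Eventually.of_forall fun ξ => ?_)
    simp only [Function.uncurry_apply_pair]
    rw [← (hsym ξ).2, ← integral_const_mul]
    refine integral_congr_ae (Eventually.of_forall fun z => ?_)
    have h3 : 0 ≤ (1 - Real.cos (2 * Real.pi * ⟪ξ, z⟫)) * kap (n + 1) 0 z :=
      mul_nonneg (sub_nonneg.2 (Real.cos_le_one _)) (lb_kap_nonneg _ _ _)
    simp only [Real.norm_eq_abs]
    rw [abs_mul (_ * _) (_ * _), abs_of_nonneg h3]
  rw [Lam0]
  simp_rw [h1]
  rw [← integral_integral_swap hF, lbCos, ← integral_const_mul]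
  refine integral_congr_ae (Eventually.of_forall fun ξ => ?_)
  simp only
  rw [integral_const_mul, (hsym ξ).2]
  ring

theorem lb_shift (ψ : Eu n → ℝ) (x y : Eu n) : Lam0 (fun u => ψ (u - x)) y = Lam0 ψ (y - x) := by
  unfold Lam0
  simp_rw [add_sub_right_comm, sub_right_comm y _ x]

theorem lb_smul_supp {β : Eu n → ℝ} (hc : HasCompactSupport β) {s : ℝ} (hs : 0 < s) :
    HasCompactSupport fun ξ => β (s • ξ) :=
  hc.comp_homeomorph (Homeomorph.smulOfNeZero s hs.ne')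

theorem lb_quot {β : Eu n → ℝ} (hβ : ContDiff ℝ (⊤ : ℕ∞) β) (h1 : ∀ ξ, ‖ξ‖ ≤ 1 → β ξ = 1)
    {s t c : ℝ} (hc : 0 < c) :
    ContDiff ℝ (⊤ : ℕ∞) fun ξ : Eu n => (β (s • ξ) - β (t • ξ)) / (c * ‖ξ‖) := by
  rw [contDiff_iff_contDiffAt]
  intro ξ
  rcases eq_or_ne ξ 0 with rfl | hξ
  · have e : ∀ u : ℝ, ∀ᶠ ξ : Eu n in 𝓝 0, β (u • ξ) = 1 := by
      intro u
      have hu : Continuous fun ξ : Eu n => ‖u • ξ‖ := by fun_prop
      have : ∀ᶠ ξ : Eu n in 𝓝 0, ‖u • ξ‖ < 1 :=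
        hu.continuousAt.eventually_lt continuousAt_const (by simp)
      exact this.mono fun ξ h => h1 _ h.le
    refine (contDiffAt_const (c := (0 : ℝ))).congr_of_eventuallyEq ?_
    filter_upwards [e s, e t] with ξ a b
    rw [a, b, sub_self, zero_div]
  · refine ContDiffAt.div (ContDiff.contDiffAt ?_)
      (contDiffAt_const.mul (contDiffAt_norm ℝ hξ)) (mul_pos hc (norm_pos_iff.2 hξ)).ne'
    exact (hβ.comp (contDiff_const_smul s)).sub (hβ.comp (contDiff_const_smul t))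

theorem lb_eta {c : ℝ} (hc : 0 < c) (hsym : ∀ ξ : Eu n,
    Integrable (fun z : Eu n => (1 - Real.cos (2 * Real.pi * ⟪ξ, z⟫)) * kap (n + 1) 0 z) ∧
    ∫ z : Eu n, (1 - Real.cos (2 * Real.pi * ⟪ξ, z⟫)) * kap (n + 1) 0 z = c * ‖ξ‖) :
    ∃ η : SchwartzMap (Eu n) ℝ, ∫ y, η y = 1 ∧
      ∀ (s t : ℝ) (x : Eu n), 0 < s → 0 < t → ∃ ψ : SchwartzMap (Eu n) ℝ, ∫ y, ψ y = 0 ∧
        ∀ y, Lam0 ψ y = dil η s (y - x) - dil η t (y - x) := by
  let b : ContDiffBump (0 : Eu n) := ⟨1, 2, one_pos, one_lt_two⟩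
  have hβ : ContDiff ℝ (⊤ : ℕ∞) b := b.contDiff
  have hs0 : HasCompactSupport b := b.hasCompactSupport
  have h1 : ∀ ξ, ‖ξ‖ ≤ 1 → b ξ = 1 := fun ξ h =>
    b.one_of_mem_closedBall (mem_closedBall_zero_iff.2 h)
  obtain ⟨η, hη, hη1⟩ := lb_schwartz hβ hs0
  refine ⟨η, by rw [hη1, h1 0 (by simp)], fun s t x hs ht => ?_⟩
  have hq := lb_quot hβ h1 (s := s) (t := t) hc
  have hqc : HasCompactSupport fun ξ : Eu n => (b (s • ξ) - b (t • ξ)) / (c * ‖ξ‖) := by
    simp_rw [div_eq_mul_inv]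
    exact ((lb_smul_supp hs0 hs).sub (lb_smul_supp hs0 ht)).mul_right
  obtain ⟨ψ, hψ, hψ0⟩ := lb_schwartz hq hqc
  refine ⟨SchwartzMap.compSubConstCLM ℝ x ψ, ?_, fun y => ?_⟩
  · simp only [SchwartzMap.compSubConstCLM_apply]
    rw [integral_sub_right_eq_self (fun u => ψ u) x, hψ0]
    simp
  · have e1 : (SchwartzMap.compSubConstCLM ℝ x ψ : Eu n → ℝ) = fun u => ψ (u - x) := rfl
    have i1 : ∀ u : ℝ, 0 < u → Integrable fun ξ : Eu n => b (u • ξ) := fun u hu =>
      (hβ.continuous.comp (continuous_const_smul u)).integrable_of_hasCompactSupport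
        (lb_smul_supp hs0 hu)
    rw [e1, lb_shift, funext hψ, funext hη, lb_lam hsym hq.continuous hqc, lb_dil _ hs,
      lb_dil _ ht, lbCos, lbCos, lbCos, ← integral_sub (lb_int (i1 s hs) _) (lb_int (i1 t ht) _)]
    refine integral_congr_ae (Eventually.of_forall fun ξ => ?_)
    simp only
    rw [← mul_sub]
    congr 1
    rcases eq_or_ne ξ 0 with rfl | hξ
    · simp
    · have := norm_pos_iff.2 hξ
      field_simp

end Crest.Agent.R85
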