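import Crest.Agent.R85.LiouA
import Crest.Agent.R85.LiouBax
import Crest.Agent.R85.LiouBbx

/-!
# Inverting the half Laplacian away from the origin (task LiouB)

Symbol: `sym ξ = ∫ (1 - cos (2π ⟪ξ, z⟫)) κ_0 z dz = c ‖ξ‖` with `c > 0` (rotation invariance by a
linear isometry taking `ξ` to `‖ξ‖ • e`, scaling, positivity).  For a complex Schwartz map `g`
put `Ψ = 𝓕⁻ g`; then `½ ∫ (2Ψ x - Ψ(x+z) - Ψ(x-z)) κ_0 z dz = ∫ g ξ · sym ξ · e(⟪ξ,x⟫) dξ` (Fubini;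
`|1 - cos| ≤ min(2, 2π²‖ξ‖²‖z‖²)`).
Take a smooth bump `β` (`= 1` on `ball 0 1`, compact support), `η = re (𝓕⁻ β)`; `∫ η = β 0 = 1`.
`dil η s (y - x) = re 𝓕⁻ (ξ ↦ e(-⟪ξ,x⟫) β(s ξ)) y`.  The function
`g ξ = e(-⟪ξ,x⟫) (β(sξ) - β(tξ)) / (c ‖ξ‖)` is smooth (it vanishes near `0`) with compact support,
hence Schwartz (`HasCompactSupport.toSchwartzMap`); `ψ = re (𝓕⁻ g)` has `∫ ψ = re (g 0) = 0`.
-/

set_option autoImplicit false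

open MeasureTheory Metric Filter Topology
open scoped RealInnerProductSpace

noncomputable section

namespace Crest.Agent.R85

variable {m : ℕ}

theorem exists_symbol (n : ℕ) (hn : 1 ≤ n) : ∃ c : ℝ, 0 < c ∧ ∀ ξ : Eu n,
    Integrable (fun z : Eu n => (1 - Real.cos (2 * Real.pi * ⟪ξ, z⟫)) * kap (n + 1) 0 z) ∧
    ∫ z : Eu n, (1 - Real.cos (2 * Real.pi * ⟪ξ, z⟫)) * kap (n + 1) 0 z = c * ‖ξ‖ :=
  LiouBa_symbol n hn

theorem exists_eta (n : ℕ) (hn : 1 ≤ n) : ∃ η : SchwartzMap (Eu n) ℝ, ∫ y, η y = 1 ∧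
    ∀ (s t : ℝ) (x : Eu n), 0 < s → 0 < t → ∃ ψ : SchwartzMap (Eu n) ℝ, ∫ y, ψ y = 0 ∧
      ∀ y, Lam0 ψ y = dil η s (y - x) - dil η t (y - x) := by
  obtain ⟨c, hc, hsym⟩ := exists_symbol n hn
  exact lb_eta hc hsym

end Crest.Agent.R85
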