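import Crest.Agent.R85.KernB

/-!
# Representation of bounded functionals (auxiliary file of LiouC)
-/

set_option autoImplicit false

open MeasureTheory Metric Filter Topology
open scoped RealInnerProductSpace

noncomputable section

namespace Crest.Agent.R85

variable {n : ℕ}

theorem LiouCa_integrable_sq {K : ℝ} {φ : Eu n → ℝ} (h : Dec (n + 2) K φ) :
    Integrable (fun y => φ y ^ 2 * N 1 y ^ (n + 3)) := by
  obtain ⟨C, -, hU, -⟩ := exists_up_volume n
  refine hU.integrable_dec (K := K ^ 2) ⟨(h.1.pow 2).mul ((continuous_N 1).pow _), fun y => ?_⟩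
  have h0 : 0 ≤ N 1 y ^ (n + 3) := pow_nonneg (N_nonneg _ _) _
  have h1 : φ y ^ 2 ≤ (K * kap (n + 2) 1 y) ^ 2 := by
    rw [← sq_abs (φ y)]
    exact pow_le_pow_left₀ (abs_nonneg _) (h.2 y) 2
  rw [abs_of_nonneg (mul_nonneg (sq_nonneg _) h0), ← kap_mul_N_pow (n + 1) (n + 3) one_pos y,
    show n + 1 + (n + 3) = n + 2 + (n + 2) by ring, kap_add]
  calc _ ≤ (K * kap (n + 2) 1 y) ^ 2 * N 1 y ^ (n + 3) := mul_le_mul_of_nonneg_right h1 h0
    _ = _ := by ring

/-- A functional dominated by the norm of a map to a Hilbert space is an inner product. -/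
theorem LiouCa_riesz {D H : Type*} [AddCommGroup D] [Module ℝ D] [NormedAddCommGroup H]
    [InnerProductSpace ℝ H] [CompleteSpace H] (T : D →ₗ[ℝ] H) (Φ : D →ₗ[ℝ] ℝ) {C : ℝ}
    (h : ∀ v, ‖Φ v‖ ≤ C * ‖T v‖) : ∃ G : H, ∀ v, Φ v = ⟪G, T v⟫ := by
  obtain ⟨g, hg⟩ := T.rangeRestrict.exists_rightInverse_of_surjective T.range_rangeRestrict
  have hg' : ∀ x : LinearMap.range T, T (g x) = x := fun x =>
    congrArg Subtype.val (LinearMap.congr_fun hg x)
  obtain ⟨k, hk, -⟩ := exists_extension_norm_eq (LinearMap.range T)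
    ((Φ ∘ₗ g).mkContinuous C fun x => by
      have := h (g x)
      rwa [hg'] at this)
  refine ⟨(InnerProductSpace.toDual ℝ H).symm k, fun v => ?_⟩
  rw [InnerProductSpace.toDual_symm_apply]
  have h1 := hk ⟨T v, LinearMap.mem_range_self T v⟩
  have h2 := h (v - g ⟨T v, LinearMap.mem_range_self T v⟩)
  rw [map_sub T, hg', sub_self, norm_zero, mul_zero, norm_le_zero_iff, map_sub, sub_eq_zero] at h2
  rw [h2]
  exact h1.symm

/-- The functions with decay of order `p`. -/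
def LiouCa_D (n p : ℕ) : Submodule ℝ (Eu n → ℝ) where
  carrier := {φ | ∃ K, Dec p K φ}
  add_mem' := by
    rintro φ ψ ⟨K, h⟩ ⟨K', h'⟩
    refine ⟨K + K', h.1.add h'.1, fun y => (abs_add_le _ _).trans ?_⟩
    linarith [h.2 y, h'.2 y]
  zero_mem' := ⟨0, continuous_const, fun y => by simp⟩
  smul_mem' := by
    rintro a φ ⟨K, h⟩
    refine ⟨|a| * K, h.1.const_smul a, fun y => ?_⟩
    rw [Pi.smul_apply, smul_eq_mul, abs_mul, mul_assoc]
    exact mul_le_mul_of_nonneg_left (h.2 y) (abs_nonneg a)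

/-- The square root of the weight. -/
def LiouCa_w (y : Eu n) : ℝ := √(N 1 y ^ (n + 3))

theorem LiouCa_w_sq (y : Eu n) : LiouCa_w y ^ 2 = N 1 y ^ (n + 3) :=
  Real.sq_sqrt (pow_nonneg (N_nonneg _ _) _)

theorem LiouCa_w_cont : Continuous (LiouCa_w : Eu n → ℝ) := ((continuous_N 1).pow _).sqrt

theorem LiouCa_memLp {K : ℝ} {φ : Eu n → ℝ} (h : Dec (n + 2) K φ) :
    MemLp (fun y => φ y * LiouCa_w y) 2 volume := by
  refine (memLp_two_iff_integrable_sq (h.1.mul LiouCa_w_cont).aestronglyMeasurable).2 ?_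
  simpa only [Pi.mul_apply, mul_pow, LiouCa_w_sq] using LiouCa_integrable_sq h

/-- Multiplication by the weight, with values in `L²`. -/
def LiouCa_T (n : ℕ) : LiouCa_D n (n + 2) →ₗ[ℝ] Lp ℝ 2 (volume : Measure (Eu n)) where
  toFun φ := (LiouCa_memLp φ.2.choose_spec).toLp _
  map_add' φ ψ := by
    rw [← MemLp.toLp_add]
    congr 1
    funext y
    simp [add_mul]
  map_smul' a φ := by
    rw [← MemLp.toLp_const_smul]
    congr 1
    funext y
    simp [mul_assoc]

theorem LiouCa_T_ae (φ : LiouCa_D n (n + 2)) :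
    LiouCa_T n φ =ᵐ[volume] fun y => φ.1 y * LiouCa_w y :=
  (LiouCa_memLp φ.2.choose_spec).coeFn_toLp

theorem LiouCa_rep {B : ℝ} {Φ : (Eu n → ℝ) → ℝ} (h : Fnl B Φ) :
    ∃ F : Eu n → ℝ, Measurable F ∧ Integrable (fun y => F y ^ 2 * kap (n + 3) 1 y) ∧
      ∀ K φ, Dec (n + 2) K φ → Integrable (fun y => φ y * F y) ∧ Φ φ = ∫ y, φ y * F y := by
  let Φ' : LiouCa_D n (n + 2) →ₗ[ℝ] ℝ :=
    { toFun := fun φ => Φ φ.1
      map_add' := fun φ ψ => h.add _ _ _ _ φ.2.choose_spec ψ.2.choose_spec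
      map_smul' := fun a φ => h.smul _ _ a φ.2.choose_spec }
  obtain ⟨G, hG⟩ := LiouCa_riesz (LiouCa_T n) Φ' (C := |B|) fun φ => by
    have h1 := h.bound _ _ φ.2.choose_spec
    have h2 : ‖LiouCa_T n φ‖ ^ 2 = ∫ y, φ.1 y ^ 2 * N 1 y ^ (n + 3) := by
      rw [← real_inner_self_eq_norm_sq, L2.inner_def]
      refine integral_congr_ae ?_
      filter_upwards [LiouCa_T_ae φ] with y hy
      rw [hy, real_inner_self_eq_norm_sq, Real.norm_eq_abs, sq_abs, mul_pow, LiouCa_w_sq]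
    rw [← h2, ← sq_abs B, ← mul_pow] at h1
    exact abs_le_of_sq_le_sq h1 (by positivity)
  refine ⟨fun y => G y * LiouCa_w y, (Lp.stronglyMeasurable G).measurable.mul LiouCa_w_cont.measurable,
    ?_, fun K φ hφ => ⟨?_, ?_⟩⟩
  · refine (Lp.memLp G).integrable_sq.congr (Eventually.of_forall fun y => ?_)
    have := N_pos one_pos y
    simp only [mul_pow, LiouCa_w_sq, kap]
    field_simp
  · refine ((LiouCa_memLp hφ).integrable_mul (Lp.memLp G)).congr (Eventually.of_forall fun y => ?_)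
    simp only [Pi.mul_apply]
    ring
  · refine (hG ⟨φ, K, hφ⟩).trans ?_
    rw [L2.inner_def]
    refine integral_congr_ae ?_
    filter_upwards [LiouCa_T_ae ⟨φ, K, hφ⟩] with y hy
    rw [hy]
    simp only [RCLike.inner_apply, conj_trivial]
    ring

end Crest.Agent.R85
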