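import Crest.Agent.R85.Oracle
import Crest.Agent.R85.Glue
import Crest.Agent.R85.Count

/-!
# Big pieces of Lipschitz images (owner)
-/

set_option autoImplicit false

open MeasureTheory Metric Filter Topology
open scoped RealInnerProductSpace

noncomputable section

namespace Crest.Agent.R85

variable {m : ℕ}

theorem Main_good {n : ℕ} (hnm : n ≤ m) {C : ℝ} (hC : 1 ≤ C) {ν : Measure (Eu m)}
    [IsFiniteMeasure ν] (hup : Up n C ν) (x0 : Eu m) {r0 : ℝ} (r : ℕ → ℝ) (hr : ∀ j, 0 < r j)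
    {Nn a : ℝ} (hNn : 0 < Nn)
    (hint : ∀ J, ∫ x in ball x0 r0, ∑ j ∈ Finset.range J, bb n ν x (r j) ∂ν ≤ Nn * a) :
    ν.real (ball x0 r0) - a ≤ ν.real {x | x ∈ ball x0 r0 ∧ x ∈ ν.support ∧
      ∀ J, ∑ j ∈ Finset.range J, bb n ν x (r j) ≤ Nn} := by
  have hcont : ∀ J, Continuous (fun x => ∑ j ∈ Finset.range J, bb n ν x (r j)) := fun J =>
    continuous_finsetSum _ fun j _ => continuous_bb hnm hup (hr j)
  have hnn : ∀ J x, 0 ≤ ∑ j ∈ Finset.range J, bb n ν x (r j) := fun J x =>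
    Finset.sum_nonneg fun j _ => bb_nonneg x (hr j)
  have hinteg : ∀ J, Integrable (fun x => ∑ j ∈ Finset.range J, bb n ν x (r j))
      (ν.restrict (ball x0 r0)) := by
    intro J
    refine integrable_finsetSum _ fun j _ => ?_
    refine Integrable.of_bound (continuous_bb hnm hup (hr j)).aestronglyMeasurable (cK n * C) ?_
    refine Eventually.of_forall fun x => ?_
    rw [Real.norm_eq_abs, abs_of_nonneg (bb_nonneg x (hr j))]
    exact bb_le_const hnm hup (by linarith) x (hr j)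
  obtain ⟨Bad, hBad⟩ : ∃ Bad : ℕ → Set (Eu m), Bad = fun J =>
      {x | Nn ≤ ∑ j ∈ Finset.range J, bb n ν x (r j)} ∩ ball x0 r0 := ⟨_, rfl⟩
  have ha : 0 ≤ a := by
    have h1 := hint 0
    simp only [Finset.range_zero, Finset.sum_empty, integral_zero] at h1
    by_contra hneg
    push Not at hneg
    have := mul_neg_of_pos_of_neg hNn hneg
    linarith
  have hB1 : ∀ J, ν (Bad J) ≤ ENNReal.ofReal a := by
    intro J
    have h1 := mul_meas_ge_le_integral_of_nonneg (μ := ν.restrict (ball x0 r0))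
      (Eventually.of_forall (hnn J)) (hinteg J) Nn
    have h2 : (ν.restrict (ball x0 r0)).real {x | Nn ≤ ∑ j ∈ Finset.range J, bb n ν x (r j)}
        = ν.real (Bad J) := by
      rw [hBad, measureReal_def, measureReal_def, Measure.restrict_apply' measurableSet_ball]
    rw [h2] at h1
    have h3 : ν.real (Bad J) ≤ a := le_of_mul_le_mul_left (h1.trans (hint J)) hNn
    rw [← ENNReal.ofReal_toReal (measure_ne_top ν (Bad J))]
    exact ENNReal.ofReal_le_ofReal h3
  have hmono : Monotone Bad := by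
    intro J J' hJ x hx
    rw [hBad] at hx ⊢
    have h1 : Nn ≤ ∑ j ∈ Finset.range J, bb n ν x (r j) := hx.1
    have h2 : Nn ≤ ∑ j ∈ Finset.range J', bb n ν x (r j) :=
      h1.trans (Finset.sum_le_sum_of_subset_of_nonneg (Finset.range_mono hJ)
        fun j _ _ => bb_nonneg x (hr j))
    exact ⟨h2, hx.2⟩
  have hB2 : ν.real (⋃ J, Bad J) ≤ a := by
    have : ν (⋃ J, Bad J) ≤ ENNReal.ofReal a := by
      rw [hmono.measure_iUnion]
      exact iSup_le hB1
    rw [measureReal_def]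
    exact ENNReal.toReal_le_of_le_ofReal ha this
  have hsub : ball x0 r0 ⊆ ({x | x ∈ ball x0 r0 ∧ x ∈ ν.support ∧
      ∀ J, ∑ j ∈ Finset.range J, bb n ν x (r j) ≤ Nn} ∪ ⋃ J, Bad J) ∪ ν.supportᶜ := by
    intro x hx
    by_cases hs : x ∈ ν.support
    · left
      by_cases hJ : ∀ J, ∑ j ∈ Finset.range J, bb n ν x (r j) ≤ Nn
      · exact Or.inl ⟨hx, hs, hJ⟩
      · push Not at hJ
        obtain ⟨J, hJ⟩ := hJ
        right
        refine Set.mem_iUnion.2 ⟨J, ?_⟩
        rw [hBad]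
        exact ⟨hJ.le, hx⟩
    · exact Or.inr hs
  have h0 : ν.real ν.supportᶜ = 0 := by
    rw [measureReal_def, Measure.measure_compl_support]; rfl
  have h1 := measureReal_mono (μ := ν) hsub
  have h2 := measureReal_union_le (μ := ν) ({x | x ∈ ball x0 r0 ∧ x ∈ ν.support ∧
      ∀ J, ∑ j ∈ Finset.range J, bb n ν x (r j) ≤ Nn} ∪ ⋃ J, Bad J) ν.supportᶜ
  have h3 := measureReal_union_le (μ := ν) {x | x ∈ ball x0 r0 ∧ x ∈ ν.support ∧
      ∀ J, ∑ j ∈ Finset.range J, bb n ν x (r j) ≤ Nn} (⋃ J, Bad J)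
  linarith



theorem bpli (n m : ℕ) (hn : 1 ≤ n) (hnm : n ≤ m) {C : ℝ} (hC : 1 ≤ C) :
    ∃ A0, 10 ≤ A0 ∧ ∀ B, 0 ≤ B → ∃ θ, 0 < θ ∧ ∃ M : NNReal,
      ∀ (ν : Measure (Eu m)) [IsFiniteMeasure ν] (x0 : Eu m) (r0 : ℝ), Up n C ν → 0 < r0 →
        x0 ∈ ν.support → Low n C ν x0 (A0 * r0) → TBound n ν (B * r0 ^ n) →
        ∃ g : Eu n → Eu m, LipschitzWith M g ∧
          θ * r0 ^ n ≤ ν.real (g '' ball 0 (7 * r0)) := by
  classical
  obtain ⟨ρ, hρ, hρ', A0, hA0, K, hK, hcount⟩ := count n m hn hnm hC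
  refine ⟨A0, hA0, fun B hB => ?_⟩
  obtain ⟨ε, hε, horc⟩ := oracle n m hn hnm hC hρ hρ'
  obtain ⟨Nn, hNn⟩ : ∃ Nn : ℝ, Nn = 2 * C * (K * (1 + B)) := ⟨_, rfl⟩
  have hC0 : 0 < C := by linarith
  have hNn0 : 0 < Nn := by rw [hNn]; positivity
  obtain ⟨L, hL, horc⟩ := horc Nn
  obtain ⟨Λ, hΛ⟩ : ∃ Λ : ℝ, Λ = 24 / ρ + 1 := ⟨_, rfl⟩
  have hΛ0 : 0 < Λ := by rw [hΛ]; positivity
  obtain ⟨c2, hc2⟩ : ∃ c2 : ℝ, c2 = (1 + Λ) ^ (n + 3) := ⟨_, rfl⟩
  have hc21 : 1 ≤ c2 := by rw [hc2]; exact one_le_pow₀ (by linarith)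
  have hc20 : 0 < c2 := by linarith
  obtain ⟨k, hk⟩ := exists_nat_ge (Nn * c2 / ε)
  obtain ⟨θ1, hθ1, hcode⟩ := code m Λ (lam := ρ / 4) (by positivity) k
  obtain ⟨M, hM, hglue⟩ := glue n m hρ hρ' hL k
  obtain ⟨M', hext⟩ := extend n m M
  refine ⟨θ1 / (2 * C), by positivity, M', ?_⟩
  intro ν _ x0 r0 hup hr0 hx0 hlow hT
  have hr : ∀ j : ℕ, 0 < ρ ^ j * r0 := fun j => by positivity
  have hrle : ∀ j : ℕ, ρ ^ j * r0 ≤ r0 := fun j =>
    mul_le_of_le_one_left hr0.le (pow_le_one₀ hρ.le (by linarith))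
  have hA0r : r0 ≤ A0 * r0 := le_mul_of_one_le_left hr0.le (by linarith)
  have hgood := Main_good hnm hC hup x0 (r0 := r0) (fun j => ρ ^ j * r0) hr
    (a := r0 ^ n / (2 * C)) hNn0 (by
      intro J
      refine (hcount ν x0 r0 B hup hr0 hlow hB hT J).trans (le_of_eq ?_)
      rw [hNn]; field_simp)
  obtain ⟨G, hG⟩ : ∃ G : Set (Eu m), G = {x | x ∈ ball x0 r0 ∧ x ∈ ν.support ∧
      ∀ J, ∑ j ∈ Finset.range J, bb n ν x (ρ ^ j * r0) ≤ Nn} := ⟨_, rfl⟩
  rw [← hG] at hgood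
  have hGmem : ∀ x ∈ G, x ∈ ball x0 r0 ∧ x ∈ ν.support ∧
      ∀ J, ∑ j ∈ Finset.range J, bb n ν x (ρ ^ j * r0) ≤ Nn := by
    intro x hx; rw [hG] at hx; exact hx
  have hball : r0 ^ n / C ≤ ν.real (ball x0 r0) :=
    hup.le_real (hlow x0 hx0 (by rw [dist_self]; positivity) r0 hr0 hA0r)
  have hGm : r0 ^ n / (2 * C) ≤ ν.real G := by
    have : r0 ^ n / C = r0 ^ n / (2 * C) + r0 ^ n / (2 * C) := by field_simp; ring
    linarith
  have hGmeas : MeasurableSet G := by
    have : G = ball x0 r0 ∩ (ν.support ∩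
        ⋂ J, {x | ∑ j ∈ Finset.range J, bb n ν x (ρ ^ j * r0) ≤ Nn}) := by
      rw [hG]; ext x; simp only [Set.mem_ofPred_eq, Set.mem_inter_iff, Set.mem_iInter]
    rw [this]
    refine measurableSet_ball.inter (Measure.isClosed_support.measurableSet.inter
      (MeasurableSet.iInter fun J => ?_))
    exact (isClosed_le (continuous_finsetSum _ fun j _ => continuous_bb hnm hup (hr j))
      continuous_const).measurableSet
  obtain ⟨WB, hWB⟩ : ∃ WB : ℕ → Set (Eu m), WB = fun j =>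
      {x | ε / c2 < bb n ν x (ρ ^ j * r0)} := ⟨_, rfl⟩
  have hWBmem : ∀ j x, x ∈ WB j ↔ ε / c2 < bb n ν x (ρ ^ j * r0) := by
    intro j x; rw [hWB]; rfl
  have hWBmeas : ∀ j, MeasurableSet (WB j) := by
    intro j; rw [hWB]
    exact (isOpen_lt continuous_const (continuous_bb hnm hup (hr j))).measurableSet
  have hWBcard : ∀ x ∈ G, ∀ J, ((Finset.range J).filter (fun j => x ∈ WB j)).card ≤ k := by
    intro x hx J
    have h1 : (((Finset.range J).filter (fun j => x ∈ WB j)).card : ℝ) * (ε / c2) ≤ Nn := by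
      calc (((Finset.range J).filter (fun j => x ∈ WB j)).card : ℝ) * (ε / c2)
          = ∑ j ∈ (Finset.range J).filter (fun j => x ∈ WB j), ε / c2 := by
            rw [Finset.sum_const, nsmul_eq_mul]
        _ ≤ ∑ j ∈ (Finset.range J).filter (fun j => x ∈ WB j), bb n ν x (ρ ^ j * r0) :=
            Finset.sum_le_sum fun j hj => ((hWBmem j x).1 (Finset.mem_filter.1 hj).2).le
        _ ≤ ∑ j ∈ Finset.range J, bb n ν x (ρ ^ j * r0) :=
            Finset.sum_le_sum_of_subset_of_nonneg (Finset.filter_subset _ _)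
              fun j _ _ => bb_nonneg x (hr j)
        _ ≤ Nn := (hGmem x hx).2.2 J
    have h2 : (((Finset.range J).filter (fun j => x ∈ WB j)).card : ℝ) ≤ Nn * c2 / ε := by
      rw [le_div_iff₀ hε]
      have h3 := mul_le_mul_of_nonneg_right h1 hc20.le
      rwa [mul_assoc, div_mul_cancel₀ _ hc20.ne'] at h3
    exact_mod_cast h2.trans hk
  obtain ⟨G', hG'G, hG'm, hG'⟩ := hcode ν (fun j => ρ ^ j * r0) G WB hr hGmeas hWBmeas
    (by intro x hx J; convert hWBcard x hx J)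
  have hcmp : ∀ j x z, dist x z ≤ Λ * (ρ ^ j * r0) → ε < bb n ν z (ρ ^ j * r0) → x ∈ WB j := by
    intro j x z hxz hz
    rw [hWBmem, div_lt_iff₀ hc20]
    have h1 := bb_le_mul hnm hup x z (hr j) le_rfl
    rw [div_self (hr j).ne', one_pow, mul_one] at h1
    have h2 : (1 + dist x z / (ρ ^ j * r0)) ^ (n + 3) ≤ c2 := by
      rw [hc2]
      refine pow_le_pow_left₀ (by have := hr j; positivity) ?_ _
      have : dist x z / (ρ ^ j * r0) ≤ Λ := by rw [div_le_iff₀ (hr j)]; exact hxz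
      linarith
    have h3 := mul_le_mul_of_nonneg_right h2 (bb_nonneg (n := n) (ν := ν) x (hr j))
    linarith
  obtain ⟨St, hSt⟩ : ∃ St : ℕ → Eu m → Prop, St = fun j x =>
      ∃ z ∈ G', dist x z ≤ Λ * (ρ ^ j * r0) ∧ ε < bb n ν z (ρ ^ j * r0) := ⟨_, rfl⟩
  have hStiff : ∀ j x, St j x ↔
      ∃ z ∈ G', dist x z ≤ Λ * (ρ ^ j * r0) ∧ ε < bb n ν z (ρ ^ j * r0) := by
    intro j x; rw [hSt]
  have hclose : ∀ j, ∀ x ∈ G', ∀ z ∈ G', dist x z ≤ Λ * (ρ ^ j * r0) →
      ε < bb n ν z (ρ ^ j * r0) → dist x z ≤ ρ / 4 * (ρ ^ j * r0) := by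
    intro j x hx z hz hxz hb
    refine hG' j x hx z hz (hcmp j x z hxz hb) (hcmp j z z ?_ hb) hxz
    rw [dist_self]; have := hr j; positivity
  obtain ⟨u, hu, huM⟩ := hglue r0 G' St hr0 (by
      intro j x hx y hy hs hxy
      obtain ⟨z, hz, hxz, hb⟩ := (hStiff j x).1 hs
      have h1 := hclose j x hx z hz hxz hb
      have hrj := hr j
      have h2 : dist y z ≤ Λ * (ρ ^ j * r0) := by
        have h3 := dist_triangle y x z
        rw [dist_comm y x] at h3
        have h4 : ρ / 4 * (ρ ^ j * r0) ≤ 1 * (ρ ^ j * r0) :=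
          mul_le_mul_of_nonneg_right (by linarith) hrj.le
        rw [hΛ, add_mul]; linarith
      refine ⟨(hStiff j y).2 ⟨z, hz, h2, hb⟩, ?_⟩
      have h5 := hclose j y hy z hz h2 hb
      have h6 := dist_triangle_right x y z
      have h7 : ρ ^ (j + 1) * r0 = ρ * (ρ ^ j * r0) := by ring
      have h8 : 0 < ρ * (ρ ^ j * r0) := by positivity
      rw [h7]; linarith)
    (by
      intro x hx J
      refine le_trans (Finset.card_le_card ?_) (hWBcard x (hG'G hx) J)
      intro j hj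
      rw [Finset.mem_filter] at hj ⊢
      obtain ⟨z, _, hxz, hb⟩ := (hStiff j x).1 hj.2
      exact ⟨hj.1, hcmp j x z hxz hb⟩)
    (by
      intro j0 x1 S hS hS0 hns
      have hSG : ∀ i, ∀ x ∈ S i, x ∈ G' := fun i x hx => (hS0 (hS (Nat.zero_le i) hx)).1
      have hsc : ∀ i : ℕ, ρ ^ i * (ρ ^ j0 * r0) = ρ ^ (j0 + i) * r0 := fun i => by ring
      refine horc ν _ x1 S hup (hr j0) hS (fun x hx => (hS0 hx).2) ?_ ?_ ?_
      · intro x hx s hs hsr
        obtain ⟨h1, h2, -⟩ := hGmem x (hG'G (hSG 0 x hx))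
        exact hlow x h2 (lt_of_lt_of_le (mem_ball.1 h1) hA0r) s hs
          (hsr.trans ((hrle j0).trans hA0r))
      · intro i x hx
        rw [hsc]
        by_contra hlt
        push Not at hlt
        refine hns i x hx ((hStiff _ x).2 ⟨x, hSG i x hx, ?_, hlt⟩)
        rw [dist_self]; have := hr (j0 + i); positivity
      · intro i x hx
        obtain ⟨-, -, h3⟩ := hGmem x (hG'G (hSG i x hx))
        refine le_trans ?_ (h3 (j0 + (i + 1)))
        rw [Finset.sum_range_add _ j0 (i + 1)]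
        simp only [hsc]
        have : 0 ≤ ∑ l ∈ Finset.range j0, bb n ν x (ρ ^ l * r0) :=
          Finset.sum_nonneg fun j _ => bb_nonneg x (hr j)
        linarith)
    x0 (fun x hx => (hGmem x (hG'G hx)).1)
  obtain ⟨g, hg, hgu⟩ := hext G' u huM
  refine ⟨g, hg, ?_⟩
  have hsub : G' ⊆ g '' ball 0 (7 * r0) := by
    intro x hx
    refine ⟨u x, ?_, hgu x hx⟩
    rw [mem_ball_zero_iff]
    have := hu x hx
    linarith
  calc θ1 / (2 * C) * r0 ^ n = θ1 * (r0 ^ n / (2 * C)) := by ring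
    _ ≤ θ1 * ν.real G := mul_le_mul_of_nonneg_left hGm hθ1.le
    _ ≤ ν.real G' := hG'm
    _ ≤ _ := measureReal_mono hsub

theorem Main_up {d n : ℕ} {C : ℝ} {μ : Measure (Eu d)} (h : Crest.AnalysisR.IsADRegular n C μ)
    {x : Eu d} (hx : x ∈ μ.support) {r : ℝ} (hr : Crest.AnalysisR.IsAdmissibleRadius μ r) :
    Up n (2 ^ n * C) (μ.restrict (ball x r)) := by
  intro y s hs
  have hC : 0 ≤ C := by linarith [h.1]
  have he : 2 ^ n * C * s ^ n = C * (2 * s) ^ n := by rw [mul_pow]; ring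
  rw [he]
  by_cases h2 : 2 * s ≤ r
  · refine le_trans (Measure.restrict_apply_le _ _) ?_
    by_cases hne : (ball y s ∩ μ.support).Nonempty
    · obtain ⟨z, hz, hzs⟩ := hne
      have hsub : ball y s ⊆ ball z (2 * s) := by
        intro w hw
        rw [mem_ball] at hw hz ⊢
        have := dist_triangle_right w z y
        linarith
      refine (measure_mono hsub).trans (h.2 z hzs (2 * s) ⟨by linarith, ?_⟩).2
      exact (ENNReal.ofReal_le_ofReal h2).trans hr.2
    · have hsub : ball y s ⊆ μ.supportᶜ := by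
        intro w hw hws
        exact hne ⟨w, hw, hws⟩
      rw [measure_mono_null hsub Measure.measure_compl_support]
      exact zero_le
  · push Not at h2
    rw [Measure.restrict_apply' measurableSet_ball]
    refine (measure_mono Set.inter_subset_right).trans ((h.2 x hx r hr).2.trans ?_)
    exact ENNReal.ofReal_le_ofReal
      (mul_le_mul_of_nonneg_left (pow_le_pow_left₀ hr.1.le h2.le n) hC)

theorem Main_low {d n : ℕ} {C : ℝ} {μ : Measure (Eu d)} (h : Crest.AnalysisR.IsADRegular n C μ)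
    (x : Eu d) {r : ℝ} (hr : Crest.AnalysisR.IsAdmissibleRadius μ r) :
    Low n (2 ^ n * C) (μ.restrict (ball x r)) x (r / 2) := by
  intro y hy hyx s hs hsr
  have hC : 0 < C := by linarith [h.1]
  have hy' : y ∈ μ.support := Measure.support_mono Measure.restrict_le_self hy
  have hsub : ball y s ⊆ ball x r := by
    intro w hw
    rw [mem_ball] at hw ⊢
    have := dist_triangle w y x
    linarith
  rw [Measure.restrict_apply' measurableSet_ball, Set.inter_eq_left.2 hsub]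
  refine le_trans (ENNReal.ofReal_le_ofReal ?_) (h.2 y hy' s ⟨hs, ?_⟩).1
  · rw [inv_mul_eq_div]
    refine div_le_div_of_nonneg_left (by positivity) hC ?_
    exact le_mul_of_one_le_left hC.le (one_le_pow₀ (by norm_num))
  · exact (ENNReal.ofReal_le_ofReal (by linarith [hr.1])).trans hr.2



theorem main (d n : ℕ) (hn : 1 ≤ n) (hnd : n ≤ d) (C_AD C_R : ℝ) :
    ∃ θ : ℝ, 0 < θ ∧ ∃ M : NNReal, ∀ μ : Measure (Eu d),
      Crest.AnalysisR.IsADRegular n C_AD μ → Crest.AnalysisR.HasRieszBound n C_R μ →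
        Crest.AnalysisR.IsUniformlyRectifiable n θ M μ := by
  by_cases hC1 : 1 ≤ C_AD
  swap
  · exact ⟨1, one_pos, 0, fun μ h => absurd h.1 hC1⟩
  have hC : 1 ≤ 2 ^ n * C_AD := one_le_mul_of_one_le_of_one_le (one_le_pow₀ (by norm_num)) hC1
  obtain ⟨A0, hA0, hb⟩ := bpli n d hn hnd hC
  have hA : 0 < 2 * A0 := by linarith
  obtain ⟨θ, hθ, M, hb⟩ := hb (4 * C_R ^ 2 * C_AD * (2 * A0) ^ n) (by positivity)
  refine ⟨θ / (2 * A0) ^ n, by positivity, M, ?_⟩
  intro μ hAD hR x hx r hr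
  have hr0 := hr.1
  have hup := Main_up hAD hx hr
  have hlow := Main_low hAD x hr
  have hfin : μ (ball x r) ≤ ENNReal.ofReal (C_AD * r ^ n) := (hAD.2 x hx r hr).2
  have : IsFiniteMeasure (μ.restrict (ball x r)) :=
    isFiniteMeasure_restrict.2 (ne_top_of_le_ne_top ENNReal.ofReal_ne_top hfin)
  have hT := link hn hR x r hup
  have hx' : x ∈ (μ.restrict (ball x r)).support := by
    rw [Measure.mem_support_iff_forall] at hx ⊢
    intro U hU
    rw [Measure.restrict_apply' measurableSet_ball]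
    exact hx _ (inter_mem hU (ball_mem_nhds x hr0))
  obtain ⟨g, hg, hm⟩ := hb (μ.restrict (ball x r)) x (r / (2 * A0)) hup (by positivity) hx'
    (by
      have : A0 * (r / (2 * A0)) = r / 2 := by field_simp
      rw [this]; exact hlow)
    (by
      intro L y R ψ hψ
      refine (hT L y R ψ hψ).trans (mul_le_mul_of_nonneg_right ?_
        (integral_nonneg fun y => sq_nonneg _))
      have h1 : μ.real (ball x r) ≤ C_AD * r ^ n :=
        ENNReal.toReal_le_of_le_ofReal (by positivity) hfin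
      have h2 : 4 * C_R ^ 2 * C_AD * (2 * A0) ^ n * (r / (2 * A0)) ^ n
          = 4 * C_R ^ 2 * (C_AD * r ^ n) := by
        rw [div_pow]; field_simp
      rw [h2]
      exact mul_le_mul_of_nonneg_left h1 (by positivity))
  refine ⟨g, hg.lipschitzOnWith, ?_⟩
  have h7 : 7 * (r / (2 * A0)) ≤ r := by
    rw [← mul_div_assoc, div_le_iff₀ hA]; nlinarith
  have h3 : θ / (2 * A0) ^ n * r ^ n = θ * (r / (2 * A0)) ^ n := by rw [div_pow]; ring
  rw [h3]
  refine (ENNReal.ofReal_le_ofReal hm).trans ?_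
  rw [measureReal_def, ENNReal.ofReal_toReal (measure_ne_top _ _),
    Measure.restrict_apply' measurableSet_ball, Set.inter_comm]
  exact measure_mono (Set.inter_subset_inter_right _ (Set.image_mono (ball_subset_ball h7)))

end Crest.Agent.R85
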