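import Crest.Agent.R85.DT3
import Crest.Agent.R85.NC

/-!
# From small `bb` to a Lipschitz cover (task Oracle)

If `S 0 = ∅` everything is empty.  Fix `x* ∈ S 0`, slack `s_j = ε 2^{-j}`; `P j x` with
`bP (P j x) x r_j < bb x r_j + s_j` for `j ≥ 1`, and `P 0 x = P0` near optimal at `(x*, r)`.  By
`bP_le_mul`, `bb_le_mul`: `bP (P j x) x r_j ≤ c (bb x r_j + s_j)` for all `x ∈ S j`, and the same for
the neighbours `y` (`dist ≤ 20 r_j`) and for the next scale.  Put `η j x = K √(c' (bb x r_j + s_j))`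
with `K` from `pc`; `near` is `D_le_of_bP`.
-/

set_option autoImplicit false

open MeasureTheory Metric Filter Topology
open scoped RealInnerProductSpace

noncomputable section

namespace Crest.Agent.R85

variable {m : ℕ}

theorem Oracle_one_le {n : ℕ} {x x' : Eu m} {r : ℝ} (hr : 0 < r) (hd : dist x x' ≤ 20 * r) :
    (1 + dist x x' / r) ^ (n + 3) * (r / r) ^ (n + 2) ≤ 21 ^ (n + 3) := by
  rw [div_self hr.ne', one_pow, mul_one]
  have h1 : dist x x' / r ≤ 20 := by rwa [div_le_iff₀ hr]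
  exact pow_le_pow_left₀ (by positivity) (by linarith) _

theorem Oracle_bP {n : ℕ} {C : ℝ} {ν : Measure (Eu m)} (h : Up n C ν) (P : Pl n m) {x x' : Eu m}
    {r : ℝ} (hr : 0 < r) (hd : dist x x' ≤ 20 * r) :
    bP ν P x' r ≤ 21 ^ (n + 3) * bP ν P x r :=
  (bP_le_mul h P x x' hr le_rfl).trans
    (mul_le_mul_of_nonneg_right (Oracle_one_le hr hd) (bP_nonneg P x hr))

theorem Oracle_bb {n : ℕ} {C : ℝ} {ν : Measure (Eu m)} (hnm : n ≤ m) (h : Up n C ν) {x x' : Eu m}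
    {r : ℝ} (hr : 0 < r) (hd : dist x x' ≤ 20 * r) :
    bb n ν x' r ≤ 21 ^ (n + 3) * bb n ν x r :=
  (bb_le_mul hnm h x x' hr le_rfl).trans
    (mul_le_mul_of_nonneg_right (Oracle_one_le hr hd) (bb_nonneg x hr))

theorem Oracle_scale {n : ℕ} (x : Eu m) {r ρ : ℝ} (hr : 0 < r) (hρ : 0 < ρ) :
    (1 + dist x x / r) ^ (n + 3) * (r / (ρ * r)) ^ (n + 2) = ρ⁻¹ ^ (n + 2) := by
  rw [dist_self, zero_div, add_zero, one_pow, one_mul]
  congr 1
  field_simp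

theorem oracle (n m : ℕ) (hn : 1 ≤ n) (hnm : n ≤ m) {C : ℝ} (hC : 1 ≤ C) {ρ : ℝ} (hρ : 0 < ρ)
    (hρ' : ρ ≤ 1 / 100) : ∃ ε, 0 < ε ∧ ∀ Nn : ℝ, ∃ L, 1 ≤ L ∧
      ∀ (ν : Measure (Eu m)) (r : ℝ) (x0 : Eu m) (S : ℕ → Set (Eu m)), Up n C ν → 0 < r →
        Antitone S → S 0 ⊆ ball x0 r →
        (∀ x ∈ S 0, ∀ s, 0 < s → s ≤ r → ENNReal.ofReal (s ^ n / C) ≤ ν (ball x s)) →
        (∀ i, ∀ x ∈ S i, bb n ν x (ρ ^ i * r) ≤ ε) →
        (∀ i, ∀ x ∈ S i, ∑ l ∈ Finset.range (i + 1), bb n ν x (ρ ^ l * r) ≤ Nn) →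
        Cover n ρ L r S := by
  obtain ⟨ε0, hε0, hdt⟩ := dt n m hρ hρ'
  obtain ⟨η0, hη0, K, hK, hpc⟩ := pc n m hn hC
  obtain ⟨η1, hη1, hD⟩ := D_le_of_bP n hC hε0
  obtain ⟨A, hA⟩ : ∃ A : ℝ, A = 21 ^ (n + 3) := ⟨_, rfl⟩
  obtain ⟨B, hB⟩ : ∃ B : ℝ, B = ρ⁻¹ ^ (n + 2) := ⟨_, rfl⟩
  have hρ1 : ρ ≤ 1 := by linarith
  have hA1 : 1 ≤ A := hA ▸ one_le_pow₀ (by norm_num)
  have hB1 : 1 ≤ B := hB ▸ one_le_pow₀ ((one_le_inv₀ hρ).2 hρ1)
  obtain ⟨c, hc⟩ : ∃ c : ℝ, c = 2 * A * (A * A * B) := ⟨_, rfl⟩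
  have hAA : 1 ≤ A * A := one_le_mul_of_one_le_of_one_le hA1 hA1
  have hc1 : 2 * A * (A * A) ≤ c := by
    rw [hc]
    exact mul_le_mul_of_nonneg_left (le_mul_of_one_le_right (by positivity) hB1) (by positivity)
  have hc2 : 2 * A * B ≤ c := by
    rw [hc]
    exact mul_le_mul_of_nonneg_left (le_mul_of_one_le_left (by positivity) hAA) (by positivity)
  have hc3 : 2 * A ≤ c := (le_mul_of_one_le_right (by positivity) hB1).trans hc2
  have hc0 : 0 < c := by linarith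
  obtain ⟨ε, hε, hεa, hεb, hεc⟩ : ∃ ε : ℝ, 0 < ε ∧ c * (2 * ε) ≤ η0 ∧ c * (2 * ε) ≤ η1 ∧
      c * (2 * ε) ≤ (ε0 / K) ^ 2 := by
    refine ⟨min (min η0 η1) ((ε0 / K) ^ 2) / (2 * c), by positivity, ?_⟩
    have e : c * (2 * (min (min η0 η1) ((ε0 / K) ^ 2) / (2 * c))) =
        min (min η0 η1) ((ε0 / K) ^ 2) := by field_simp
    rw [e]
    exact ⟨(min_le_left _ _).trans (min_le_left _ _), (min_le_left _ _).trans (min_le_right _ _),
      min_le_right _ _⟩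
  refine ⟨ε, hε, fun Nn => ?_⟩
  obtain ⟨L, hL, hcov⟩ := hdt (K ^ 2 * c * (Nn + 2 * ε))
  refine ⟨L, hL, fun ν r x0 S hU hr hS hS0 hlow hbb hsum => ?_⟩
  have hrj : ∀ j : ℕ, 0 < ρ ^ j * r := fun j => by positivity
  have hrj' : ∀ j : ℕ, ρ ^ j * r ≤ r := fun j =>
    mul_le_of_le_one_left hr.le (pow_le_one₀ hρ.le hρ1)
  have hsj : ∀ j : ℕ, 0 < ε * (1 / 2) ^ j := fun j => by positivity
  have hsj' : ∀ j : ℕ, ε * (1 / 2) ^ j ≤ ε := fun j =>
    mul_le_of_le_one_right hε.le (pow_le_one₀ (by norm_num) (by norm_num))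
  have hS' : ∀ {j : ℕ} {x : Eu m}, x ∈ S j → x ∈ S 0 := fun hx => hS (Nat.zero_le _) hx
  choose Q hQ using fun (j : ℕ) (x : Eu m) =>
    exists_bP_lt (ν := ν) hnm (lt_add_of_pos_right (bb n ν x (ρ ^ j * r)) (hsj j))
  obtain ⟨xs, hxs⟩ : ∃ xs, ∀ x ∈ S 0, xs ∈ S 0 := by
    rcases (S 0).eq_empty_or_nonempty with h | ⟨xs, h⟩
    · exact ⟨x0, by simp [h]⟩
    · exact ⟨xs, fun _ _ => h⟩
  obtain ⟨u, hu⟩ : ∃ u : ℕ → Eu m → ℝ, ∀ j x, u j x = bb n ν x (ρ ^ j * r) + ε * (1 / 2) ^ j :=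
    ⟨_, fun _ _ => rfl⟩
  have hu0 : ∀ j x, 0 ≤ u j x := fun j x =>
    hu j x ▸ add_nonneg (bb_nonneg x (hrj j)) (hsj j).le
  have hu1 : ∀ j, ∀ x ∈ S j, u j x ≤ 2 * ε := fun j x hx => by
    rw [hu]; linarith [hbb j x hx, hsj' j]
  obtain ⟨P, hP0, hP⟩ : ∃ P : ℕ → Eu m → Pl n m, (∀ x, P 0 x = Q 0 xs) ∧
      ∀ j, ∀ x ∈ S j, bP ν (P j x) x (ρ ^ j * r) ≤ 2 * A * u j x := by
    refine ⟨fun j x => if j = 0 then Q 0 xs else Q j x, fun x => if_pos rfl, fun j x hx => ?_⟩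
    by_cases hj : j = 0
    · subst hj
      have h1 : dist xs x ≤ 20 * (ρ ^ 0 * r) := by
        have h2 := mem_ball.1 (hS0 hx)
        have h3 := mem_ball.1 (hS0 (hxs x hx))
        rw [pow_zero, one_mul]
        linarith [dist_triangle_right xs x x0]
      have h2 := Oracle_bP hU (Q 0 xs) (hrj 0) h1
      have h3 := (hQ 0 xs).le
      rw [← hu] at h3
      have h4 := hu1 0 xs (hxs x hx)
      have h5 : ε ≤ u 0 x := by
        rw [hu]; simpa using bb_nonneg (n := n) (ν := ν) x hr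
      rw [← hA] at h2
      simp only [if_true]
      nlinarith
    · simp only [if_neg hj]
      have h3 := (hQ j x).le
      rw [← hu] at h3
      nlinarith [hu0 j x]
  have hsq : ∀ j x, √(c * u j x) ^ 2 = c * u j x := fun j x =>
    Real.sq_sqrt (mul_nonneg hc0.le (hu0 j x))
  have hcu : ∀ j, ∀ x ∈ S j, c * u j x ≤ c * (2 * ε) := fun j x hx =>
    mul_le_mul_of_nonneg_left (hu1 j x hx) hc0.le
  have hP' : ∀ j, ∀ x ∈ S j, bP ν (P j x) x (ρ ^ j * r) ≤ c * u j x := fun j x hx =>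
    (hP j x hx).trans (mul_le_mul_of_nonneg_right hc3 (hu0 j x))
  refine hcov r x0 S P (Q 0 xs) (fun j x => K * √(c * u j x))
    ⟨hr, hS, hS0, fun x _ => hP0 x, fun j x hx => ⟨by positivity, ?_⟩, fun j x hx => ?_,
      fun j x hx y hy hxy => ?_, fun j x hx => ?_, fun j x hx => ?_⟩
  · have h1 : √(c * u j x) ≤ ε0 / K := Real.sqrt_le_iff.2 ⟨by positivity, (hcu j x hx).trans hεc⟩
    rwa [le_div_iff₀' hK] at h1
  · exact hD ν _ x _ hU (hrj j) (fun s hs hs' => hlow x (hS' hx) s hs (hs'.trans (hrj' j)))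
      ((hP' j x hx).trans ((hcu j x hx).trans hεb))
  · refine hpc ν _ _ x _ _ hU (hrj j) (hlow x (hS' hx) _ (hrj j) (hrj' j)) (Real.sqrt_nonneg _)
      ?_ ?_ ?_ <;> rw [hsq]
    · exact (hcu j x hx).trans hεa
    · exact hP' j x hx
    · have h1 := Oracle_bP hU (P j y) (hrj j) (dist_comm x y ▸ hxy)
      have h2 := Oracle_bb hnm hU (hrj j) hxy
      rw [← hA] at h1 h2
      have h3 : u j y ≤ A * u j x := by
        rw [hu, hu, mul_add]
        exact add_le_add h2 (le_mul_of_one_le_left (hsj j).le hA1)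
      calc _ ≤ A * (2 * A * (A * u j x)) := h1.trans (mul_le_mul_of_nonneg_left
            ((hP j y hy).trans (mul_le_mul_of_nonneg_left h3 (by positivity))) (by positivity))
        _ = 2 * A * (A * A) * u j x := by ring
        _ ≤ _ := mul_le_mul_of_nonneg_right hc1 (hu0 j x)
  · have hx' : x ∈ S j := hS (Nat.le_succ j) hx
    have e : ρ ^ (j + 1) * r = ρ * (ρ ^ j * r) := by ring
    have hle : ρ * (ρ ^ j * r) ≤ ρ ^ j * r := mul_le_of_le_one_left (hrj j).le hρ1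
    refine hpc ν _ _ x _ _ hU (hrj _) (hlow x (hS' hx) _ (hrj _) (hrj' _)) (Real.sqrt_nonneg _)
      ?_ ?_ ?_ <;> rw [hsq]
    · exact (hcu j x hx').trans hεa
    · have h2 := bb_le_mul hnm hU x x (mul_pos hρ (hrj j)) hle
      rw [Oracle_scale x (hrj j) hρ, ← hB, ← e] at h2
      have h3 : u (j + 1) x ≤ B * u j x := by
        rw [hu, hu, mul_add]
        refine add_le_add h2 (le_trans ?_ (le_mul_of_one_le_left (hsj j).le hB1))
        rw [pow_succ]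
        linarith [hsj j]
      calc _ ≤ 2 * A * (B * u j x) :=
            (hP _ x hx).trans (mul_le_mul_of_nonneg_left h3 (by positivity))
        _ = 2 * A * B * u j x := by ring
        _ ≤ _ := mul_le_mul_of_nonneg_right hc2 (hu0 j x)
    · have h2 := bP_le_mul hU (P j x) x x (mul_pos hρ (hrj j)) hle
      rw [Oracle_scale x (hrj j) hρ, ← hB, ← e] at h2
      calc _ ≤ B * (2 * A * u j x) :=
            h2.trans (mul_le_mul_of_nonneg_left (hP j x hx') (by positivity))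
        _ = 2 * A * B * u j x := by ring
        _ ≤ _ := mul_le_mul_of_nonneg_right hc2 (hu0 j x)
  · have h1 : ∑ i ∈ Finset.range (j + 1), (K * √(c * u i x)) ^ 2 =
        K ^ 2 * c * (∑ i ∈ Finset.range (j + 1), bb n ν x (ρ ^ i * r) +
          ε * ∑ i ∈ Finset.range (j + 1), (1 / 2 : ℝ) ^ i) := by
      rw [Finset.mul_sum, ← Finset.sum_add_distrib, Finset.mul_sum]
      refine Finset.sum_congr rfl fun i _ => ?_
      rw [mul_pow, hsq, hu, mul_assoc]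
    rw [h1]
    have h2 := sum_geometric_two_le (j + 1)
    have h3 := hsum j x hx
    refine mul_le_mul_of_nonneg_left ?_ (by positivity)
    nlinarith

end Crest.Agent.R85
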