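import Crest.Agent.R85.HhB
import Crest.Prelude.Def_RieszRectifiability

/-!
# Auxiliary lemmas for `link` (task Riesz-a, helper63)
-/

set_option autoImplicit false

open MeasureTheory Metric Filter Topology
open scoped RealInnerProductSpace

noncomputable section

namespace Crest.Agent.R85

variable {m : ℕ}

/-- Cauchy–Schwarz for real `L²` functions. -/
theorem rza_cs {α : Type*} [MeasurableSpace α] {ν : Measure α} {f g : α → ℝ} (hf : MemLp f 2 ν)
    (hg : MemLp g 2 ν) :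
    (∫ x, f x * g x ∂ν) ^ 2 ≤ (∫ x, f x ^ 2 ∂ν) * ∫ x, g x ^ 2 ∂ν := by
  have hff : Integrable (fun x => f x ^ 2) ν := hf.integrable_sq
  have hgg : Integrable (fun x => g x ^ 2) ν := hg.integrable_sq
  have hfg : Integrable (fun x => f x * g x) ν := hf.integrable_mul hg
  have key : ∀ t : ℝ, 0 ≤ (∫ x, f x ^ 2 ∂ν) * (t * t) + (2 * ∫ x, f x * g x ∂ν) * t
      + ∫ x, g x ^ 2 ∂ν := by
    intro t
    have h0 : 0 ≤ ∫ x, (t * f x + g x) ^ 2 ∂ν := integral_nonneg fun x => sq_nonneg _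
    have h1 : ∫ x, (t * f x + g x) ^ 2 ∂ν
        = ∫ x, (t ^ 2 * f x ^ 2 + 2 * t * (f x * g x) + g x ^ 2) ∂ν :=
      integral_congr_ae (Eventually.of_forall fun x => by ring)
    have hi : Integrable (fun x => t ^ 2 * f x ^ 2 + 2 * t * (f x * g x)) ν :=
      (hff.const_mul _).add (hfg.const_mul _)
    rw [h1, integral_add hi hgg,
      integral_add (hff.const_mul _) (hfg.const_mul _), integral_const_mul,
      integral_const_mul] at h0
    nlinarith [h0]
  have hd := discrim_le_zero key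
  unfold discrim at hd
  nlinarith [hd]

/-- The hard truncation of the Riesz kernel. -/
def rzaK (n : ℕ) (ε : ℝ) (z : Eu m) : Eu m := if ε < ‖z‖ then KK n 0 z else 0

theorem rzaK_neg (n : ℕ) (ε : ℝ) (z : Eu m) : rzaK n ε (-z) = -rzaK n ε z := by
  unfold rzaK
  rw [norm_neg, KK_neg]
  split_ifs <;> simp

theorem measurable_rzaK (n : ℕ) (ε : ℝ) : Measurable (rzaK n ε : Eu m → Eu m) := by
  unfold rzaK
  exact Measurable.ite (measurableSet_lt measurable_const measurable_norm) (measurable_KK n 0)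
    measurable_const

theorem norm_rzaK_le (n : ℕ) {ε : ℝ} (hε : 0 < ε) (z : Eu m) : ‖rzaK n ε z‖ ≤ (ε ^ n)⁻¹ := by
  unfold rzaK
  split_ifs with hz
  · refine (norm_KK_le n 0 z).trans ?_
    rw [kap_zero]
    exact inv_anti₀ (pow_pos hε n) (pow_le_pow_left₀ hε.le hz.le n)
  · rw [norm_zero]; positivity

/-- The truncated transform of a finite measure. -/
def rzaR (n : ℕ) (ν : Measure (Eu m)) (ε : ℝ) (x : Eu m) : Eu m := ∫ y, rzaK n ε (x - y) ∂ν

theorem rzaR_eq (n : ℕ) (μ : Measure (Eu m)) (ε : ℝ) (x0 : Eu m) (r : ℝ) :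
    Crest.AnalysisR.rieszTruncation n μ ε ((ball x0 r).indicator fun _ => (1 : ℝ))
      = rzaR n (μ.restrict (ball x0 r)) ε := by
  funext x
  unfold Crest.AnalysisR.rieszTruncation rzaR
  have hm : MeasurableSet {y : Eu m | ε < dist x y} :=
    measurableSet_lt measurable_const (measurable_const.dist measurable_id)
  rw [← integral_indicator hm, ← integral_indicator measurableSet_ball]
  refine integral_congr_ae (Eventually.of_forall fun y => ?_)
  simp only [Set.indicator, Set.mem_ofPred_eq, rzaK, dist_eq_norm, KK, kap_zero]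
  split_ifs <;> simp

theorem measurable_rzaR (n : ℕ) (ν : Measure (Eu m)) [IsFiniteMeasure ν] (ε : ℝ) :
    StronglyMeasurable (rzaR n ν ε) := by
  have : StronglyMeasurable (Function.uncurry fun x y : Eu m => rzaK n ε (x - y)) :=
    ((measurable_rzaK n ε).comp (measurable_fst.sub measurable_snd)).stronglyMeasurable
  exact this.integral_prod_right

theorem memLp_rzaR (n : ℕ) (ν : Measure (Eu m)) [IsFiniteMeasure ν] {ε : ℝ} (hε : 0 < ε) :
    MemLp (rzaR n ν ε) 2 ν := by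
  refine MemLp.of_bound (measurable_rzaR n ν ε).aestronglyMeasurable
    ((ε ^ n)⁻¹ * ν.real Set.univ) (Eventually.of_forall fun x => ?_)
  exact norm_integral_le_of_norm_le_const (Eventually.of_forall fun y => norm_rzaK_le n hε _)

/-- Symmetrisation. -/
theorem rza_symm (n : ℕ) (ν : Measure (Eu m)) [IsFiniteMeasure ν] {ε : ℝ} (hε : 0 < ε)
    {ψ : Eu m → ℝ} (hψ : Integrable ψ ν) :
    ∫ p : Eu m × Eu m, (ψ p.1 - ψ p.2) • rzaK n ε (p.1 - p.2) ∂(ν.prod ν)
      = (2 : ℝ) • ∫ x, ψ x • rzaR n ν ε x ∂ν := by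
  have hK : AEStronglyMeasurable (fun p : Eu m × Eu m => rzaK n ε (p.1 - p.2)) (ν.prod ν) :=
    ((measurable_rzaK n ε).comp (measurable_fst.sub measurable_snd)).aestronglyMeasurable
  have h1 : Integrable (fun p : Eu m × Eu m => ψ p.1 • rzaK n ε (p.1 - p.2)) (ν.prod ν) := by
    have := (hψ.comp_fst ν).smul_bdd ((ε ^ n)⁻¹) hK
      (Eventually.of_forall fun p => norm_rzaK_le n hε _)
    exact this
  have h2 : Integrable (fun p : Eu m × Eu m => ψ p.2 • rzaK n ε (p.1 - p.2)) (ν.prod ν) := by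
    have := (hψ.comp_snd ν).smul_bdd ((ε ^ n)⁻¹) hK
      (Eventually.of_forall fun p => norm_rzaK_le n hε _)
    exact this
  have e1 : ∫ p : Eu m × Eu m, ψ p.1 • rzaK n ε (p.1 - p.2) ∂(ν.prod ν)
      = ∫ x, ψ x • rzaR n ν ε x ∂ν := by
    rw [integral_prod _ h1]
    refine integral_congr_ae (Eventually.of_forall fun x => ?_)
    simp only [rzaR, integral_smul]
  have e2 : ∫ p : Eu m × Eu m, ψ p.2 • rzaK n ε (p.1 - p.2) ∂(ν.prod ν)
      = -∫ p : Eu m × Eu m, ψ p.1 • rzaK n ε (p.1 - p.2) ∂(ν.prod ν) := by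
    rw [← integral_prod_swap, ← integral_neg]
    refine integral_congr_ae (Eventually.of_forall fun p => ?_)
    simp only [Prod.fst_swap, Prod.snd_swap]
    rw [← neg_sub p.1 p.2, rzaK_neg, smul_neg]
  simp only [sub_smul]
  rw [integral_sub h1 h2, e2, e1, sub_neg_eq_add, two_smul]

/-- The truncated pairings converge to `TT`. -/
theorem rza_tendsto {n : ℕ} (hn : 1 ≤ n) {C : ℝ} {ν : Measure (Eu m)} [IsFiniteMeasure ν]
    (h : Up n C ν) {L : ℝ} {ψ : Eu m → ℝ} (hψ : Lip L ψ) :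
    Tendsto (fun k : ℕ => ∫ p : Eu m × Eu m,
      (ψ p.1 - ψ p.2) • rzaK n (1 / ((k : ℝ) + 1)) (p.1 - p.2) ∂(ν.prod ν)) atTop
      (𝓝 (TT n ν ψ)) := by
  have hI := TT_integrable h hn (le_refl (0 : ℝ)) hψ
  have hc := hψ.continuous
  unfold TT
  refine tendsto_integral_of_dominated_convergence
    (fun p => ‖(ψ p.1 - ψ p.2) • KK n 0 (p.1 - p.2)‖) (fun k => ?_) hI.norm (fun k => ?_) ?_
  · have h1 : Measurable (fun p : Eu m × Eu m => ψ p.1 - ψ p.2) :=
      ((hc.comp continuous_fst).sub (hc.comp continuous_snd)).measurable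
    exact (h1.smul
      ((measurable_rzaK n _).comp (measurable_fst.sub measurable_snd))).aestronglyMeasurable
  · refine Eventually.of_forall fun p => ?_
    unfold rzaK
    split_ifs
    · exact le_rfl
    · rw [smul_zero, norm_zero]; exact norm_nonneg _
  · refine Eventually.of_forall fun p => ?_
    by_cases hp : p.1 = p.2
    · simp only [hp, sub_self, zero_smul]
      exact tendsto_const_nhds
    · have hpos : 0 < ‖p.1 - p.2‖ := norm_pos_iff.2 (sub_ne_zero.2 hp)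
      have hev : ∀ᶠ k : ℕ in atTop, 1 / ((k : ℝ) + 1) < ‖p.1 - p.2‖ :=
        (tendsto_one_div_add_atTop_nhds_zero_nat (𝕜 := ℝ)).eventually (gt_mem_nhds hpos)
      refine tendsto_const_nhds.congr' (hev.mono fun k hk => ?_)
      simp only [rzaK, if_pos hk]

/-- The `L²` bound for the truncated transform of the restricted measure. -/
theorem rza_sq_le {n : ℕ} {CR : ℝ} {μ : Measure (Eu m)}
    (hR : Crest.AnalysisR.HasRieszBound n CR μ) (x0 : Eu m) (r : ℝ)
    [IsFiniteMeasure (μ.restrict (ball x0 r))] {ε : ℝ} (hε : 0 < ε) :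
    ∫ x, ‖rzaR n (μ.restrict (ball x0 r)) ε x‖ ^ 2 ∂(μ.restrict (ball x0 r))
      ≤ CR ^ 2 * μ.real (ball x0 r) := by
  have hfin : μ (ball x0 r) ≠ ⊤ := by
    have := measure_ne_top (μ.restrict (ball x0 r)) Set.univ
    rwa [Measure.restrict_apply_univ] at this
  have hf : MemLp ((ball x0 r).indicator fun _ => (1 : ℝ)) 2 μ :=
    memLp_indicator_const 2 measurableSet_ball 1 (Or.inr hfin)
  have h1 := hR _ hf ε hε
  rw [rzaR_eq] at h1
  have h2 := (eLpNorm_mono_measure _ (Measure.restrict_le_self (s := ball x0 r))).trans h1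
  have hM := memLp_rzaR n (μ.restrict (ball x0 r)) hε
  rw [hM.eLpNorm_eq_integral_rpow_norm (by norm_num) (by norm_num),
    eLpNorm_indicator_const measurableSet_ball (by norm_num) (by norm_num)] at h2
  simp only [ENNReal.toReal_ofNat, enorm_one, one_mul] at h2
  have hI : 0 ≤ ∫ x, ‖rzaR n (μ.restrict (ball x0 r)) ε x‖ ^ 2 ∂(μ.restrict (ball x0 r)) :=
    integral_nonneg fun x => sq_nonneg _
  have e : ∫ x, ‖rzaR n (μ.restrict (ball x0 r)) ε x‖ ^ (2 : ℝ) ∂(μ.restrict (ball x0 r))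
      = ∫ x, ‖rzaR n (μ.restrict (ball x0 r)) ε x‖ ^ 2 ∂(μ.restrict (ball x0 r)) :=
    integral_congr_ae (Eventually.of_forall fun x => by simp only [Real.rpow_two])
  rw [e] at h2
  generalize ∫ x, ‖rzaR n (μ.restrict (ball x0 r)) ε x‖ ^ 2 ∂(μ.restrict (ball x0 r)) = I at h2 hI
  have hne : ENNReal.ofReal CR * μ (ball x0 r) ^ (1 / (2 : ℝ)) ≠ ⊤ :=
    ENNReal.mul_ne_top ENNReal.ofReal_ne_top (ENNReal.rpow_ne_top_of_nonneg (by norm_num) hfin)
  have h3 := ENNReal.toReal_mono hne h2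
  rw [ENNReal.toReal_ofReal (Real.rpow_nonneg hI _), ENNReal.toReal_mul,
    ← ENNReal.toReal_rpow, ENNReal.toReal_ofReal'] at h3
  have hb : 0 ≤ μ.real (ball x0 r) := measureReal_nonneg
  have h4 : (I ^ (2 : ℝ)⁻¹) ^ 2 = I := by
    rw [← Real.rpow_two, ← Real.rpow_mul hI]; norm_num
  have h5 : ((μ (ball x0 r)).toReal ^ (1 / (2 : ℝ))) ^ 2 = μ.real (ball x0 r) := by
    rw [← Real.rpow_two, ← Real.rpow_mul ENNReal.toReal_nonneg]; norm_num [Measure.real]
  have h6 : max CR 0 ^ 2 ≤ CR ^ 2 := by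
    rcases le_total CR 0 with hc | hc
    · rw [max_eq_right hc]; simpa using sq_nonneg CR
    · rw [max_eq_left hc]
  calc I = (I ^ (2 : ℝ)⁻¹) ^ 2 := h4.symm
    _ ≤ (max CR 0 * (μ (ball x0 r)).toReal ^ (1 / (2 : ℝ))) ^ 2 :=
        pow_le_pow_left₀ (Real.rpow_nonneg hI _) h3 2
    _ = max CR 0 ^ 2 * μ.real (ball x0 r) := by rw [mul_pow, h5]
    _ ≤ CR ^ 2 * μ.real (ball x0 r) := mul_le_mul_of_nonneg_right h6 hb

theorem rza_link {n : ℕ} (hn : 1 ≤ n) {C CR : ℝ} {μ : Measure (Eu m)}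
    (hR : Crest.AnalysisR.HasRieszBound n CR μ) (x0 : Eu m) (r : ℝ)
    [IsFiniteMeasure (μ.restrict (ball x0 r))] (h : Up n C (μ.restrict (ball x0 r))) :
    TBound n (μ.restrict (ball x0 r)) (4 * CR ^ 2 * μ.real (ball x0 r)) := by
  intro L x R ψ hψ
  have hsq := fun ε (hε : 0 < ε) => rza_sq_le hR x0 r hε
  generalize μ.restrict (ball x0 r) = ν at *
  generalize μ.real (ball x0 r) = a at *
  have hψ2 : MemLp ψ 2 ν := hψ.lip.continuous.memLp_of_hasCompactSupport hψ.hasCompactSupport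
  have hψ1 : Integrable ψ ν := hψ.integrable h
  have hlim := ((rza_tendsto hn h hψ.lip).norm).pow 2
  refine le_of_tendsto' hlim fun k => ?_
  have hε : (0 : ℝ) < 1 / ((k : ℝ) + 1) := by positivity
  generalize 1 / ((k : ℝ) + 1) = ε at hε ⊢
  rw [rza_symm n ν hε hψ1, norm_smul, Real.norm_two]
  have hM := memLp_rzaR n ν hε
  have h1 : ‖∫ x, ψ x • rzaR n ν ε x ∂ν‖ ≤ ∫ x, ‖ψ x‖ * ‖rzaR n ν ε x‖ ∂ν := by
    refine (norm_integral_le_integral_norm _).trans (le_of_eq ?_)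
    simp only [norm_smul]
  have h2 := rza_cs hψ2.norm hM.norm
  have h3 : ∫ x, ‖ψ x‖ ^ 2 ∂ν = ∫ x, ψ x ^ 2 ∂ν := by
    simp only [Real.norm_eq_abs, sq_abs]
  rw [h3] at h2
  have h4 : 0 ≤ ∫ x, ψ x ^ 2 ∂ν := integral_nonneg fun x => sq_nonneg _
  have h5 := pow_le_pow_left₀ (norm_nonneg _) h1 2
  have h6 := mul_le_mul_of_nonneg_left (hsq ε hε) h4
  calc (2 * ‖∫ x, ψ x • rzaR n ν ε x ∂ν‖) ^ 2 = 4 * ‖∫ x, ψ x • rzaR n ν ε x ∂ν‖ ^ 2 := by ring
    _ ≤ 4 * ((∫ x, ψ x ^ 2 ∂ν) * (CR ^ 2 * a)) := by linarith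
    _ = 4 * CR ^ 2 * a * ∫ x, ψ x ^ 2 ∂ν := by ring

end Crest.Agent.R85
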