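import Crest.Agent.R85.HhB

/-!
# Auxiliary lemmas for `poincare` and `rs` (task Riesz-b)
-/

set_option autoImplicit false

open MeasureTheory Metric Filter Topology
open scoped RealInnerProductSpace

noncomputable section

namespace Crest.Agent.R85

variable {m : ℕ}

theorem rzb_intOn {ν : Measure (Eu m)} [IsFiniteMeasure ν] {φ : Eu m → ℝ} (hφ : Continuous φ)
    (a : Eu m) (R : ℝ) : IntegrableOn φ (ball a R) ν :=
  (hφ.continuousOn.integrableOn_compact (isCompact_closedBall a R)).mono_set ball_subset_closedBall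

/-- the local energy -/
def rzbE (n : ℕ) (ν : Measure (Eu m)) (f : Eu m → ℝ) (a : Eu m) (R : ℝ) : ℝ :=
  ∫ p in ball a R ×ˢ ball a R, (f p.1 - f p.2) ^ 2 * kap (n + 1) 0 (p.1 - p.2) ∂(ν.prod ν)

theorem rzb_En (n : ℕ) (ν : Measure (Eu m)) (f : Eu m → ℝ) : En n 0 ν f f =
    ∫ p : Eu m × Eu m, (f p.1 - f p.2) ^ 2 * kap (n + 1) 0 (p.1 - p.2) ∂(ν.prod ν) := by
  simp only [En, sq]

variable {n : ℕ} {C : ℝ} {ν : Measure (Eu m)} [IsFiniteMeasure ν]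

theorem rzb_En_int (h : Up n C ν) (hn : 1 ≤ n) {L : ℝ} {f : Eu m → ℝ} (hf : Lip L f) :
    Integrable (fun p : Eu m × Eu m => (f p.1 - f p.2) ^ 2 * kap (n + 1) 0 (p.1 - p.2))
      (ν.prod ν) := by
  simpa only [sq] using En_integrable h hn le_rfl hf hf

theorem rzb_poincare (hn : 1 ≤ n) (hC : 1 ≤ C) (h : Up n C ν) {a : Eu m} {R : ℝ} (hR : 0 < R)
    (hl : ENNReal.ofReal (R ^ n / C) ≤ ν (ball a R)) {L : ℝ} {f : Eu m → ℝ} (hf : Lip L f) :
    ∫ x in ball a R, (f x - (ν.real (ball a R))⁻¹ * ∫ y in ball a R, f y ∂ν) ^ 2 ∂ν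
      ≤ 2 ^ (n + 1) * C * R * rzbE n ν f a R := by
  have hv := h.le_real hl
  have hC0 : 0 < C := by linarith
  have hv0 : 0 < ν.real (ball a R) := lt_of_lt_of_le (by positivity) hv
  obtain ⟨c, hc⟩ : ∃ c, c = (ν.real (ball a R))⁻¹ * ∫ y in ball a R, f y ∂ν := ⟨_, rfl⟩
  rw [← hc]
  have cg : Continuous fun x => f x - c := hf.continuous.sub continuous_const
  have i1 : Integrable (fun x => f x - c) (ν.restrict (ball a R)) := rzb_intOn cg a R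
  have i2 : Integrable (fun x => (f x - c) ^ 2) (ν.restrict (ball a R)) := rzb_intOn (cg.pow 2) a R
  have i0 : Integrable (fun _ : Eu m => (1 : ℝ)) (ν.restrict (ball a R)) := integrable_const _
  have e0 : ∫ x in ball a R, (f x - c) ∂ν = 0 := by
    rw [integral_sub (rzb_intOn hf.continuous a R) (integrable_const _), setIntegral_const, hc,
      smul_eq_mul, mul_inv_cancel_left₀ hv0.ne', sub_self]
  have j1 := i2.mul_prod i0
  have j2 := i0.mul_prod i2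
  have j3 := (i1.mul_prod i1).const_mul 2
  have e1 : ∀ p : Eu m × Eu m, (f p.1 - f p.2) ^ 2 =
      (f p.1 - c) ^ 2 * 1 + 1 * (f p.2 - c) ^ 2 - 2 * ((f p.1 - c) * (f p.2 - c)) := fun p => by ring
  have e2 : ∫ p : Eu m × Eu m, (f p.1 - f p.2) ^ 2
      ∂((ν.restrict (ball a R)).prod (ν.restrict (ball a R))) =
      2 * ν.real (ball a R) * ∫ x in ball a R, (f x - c) ^ 2 ∂ν := by
    simp only [e1]
    have j5 : Integrable (fun p : Eu m × Eu m => (f p.1 - c) ^ 2 * 1 + 1 * (f p.2 - c) ^ 2)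
      ((ν.restrict (ball a R)).prod (ν.restrict (ball a R))) := j1.add j2
    rw [integral_sub j5 j3, integral_add j1 j2,
      integral_prod_mul (fun x => (f x - c) ^ 2) (fun _ => (1 : ℝ)),
      integral_prod_mul (fun _ => (1 : ℝ)) (fun x => (f x - c) ^ 2), integral_const_mul,
      integral_prod_mul (fun x => f x - c) (fun x => f x - c), e0, setIntegral_const, smul_eq_mul]
    ring
  have j4 : Integrable (fun p : Eu m × Eu m => (f p.1 - f p.2) ^ 2)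
      ((ν.restrict (ball a R)).prod (ν.restrict (ball a R))) := by
    simp only [e1]
    exact (j1.add j2).sub j3
  rw [Measure.prod_restrict] at e2 j4
  have h1 : ∫ p in ball a R ×ˢ ball a R, (f p.1 - f p.2) ^ 2 ∂(ν.prod ν) ≤
      (2 * R) ^ (n + 1) * rzbE n ν f a R := by
    rw [rzbE, ← integral_const_mul]
    refine setIntegral_mono_on j4 ((rzb_En_int h hn hf).const_mul _).integrableOn
      (measurableSet_ball.prod measurableSet_ball) fun p hp => ?_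
    by_cases hp0 : p.1 = p.2
    · simp [hp0]
    · have a1 : 0 < ‖p.1 - p.2‖ := norm_pos_iff.2 (sub_ne_zero.2 hp0)
      have a2 : ‖p.1 - p.2‖ ≤ 2 * R := by
        rw [← dist_eq_norm]
        linarith [dist_triangle_right p.1 p.2 a, mem_ball.1 hp.1, mem_ball.1 hp.2]
      rw [mul_left_comm, kap_zero]
      refine le_mul_of_one_le_right (sq_nonneg _) ?_
      rw [← div_eq_mul_inv, one_le_div (by positivity)]
      exact pow_le_pow_left₀ a1.le a2 _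
  have h2 : 0 ≤ ∫ x in ball a R, (f x - c) ^ 2 ∂ν := integral_nonneg fun x => sq_nonneg _
  rw [e2] at h1
  have h3 : R ^ n / C * ∫ x in ball a R, (f x - c) ^ 2 ∂ν ≤ (2 * R) ^ (n + 1) * rzbE n ν f a R := by
    refine le_trans (mul_le_mul_of_nonneg_right ?_ h2) h1
    linarith
  refine le_of_mul_le_mul_left (h3.trans (le_of_eq ?_)) (by positivity : 0 < R ^ n / C)
  rw [mul_pow]
  field_simp
  ring

theorem rzb_sq_sum {α : Type*} (X : Finset α) (u : α → ℝ) (P : α → Prop) [DecidablePred P] {M : ℝ}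
    (hM : ((X.filter P).card : ℝ) ≤ M) (hu : ∀ a ∈ X, ¬ P a → u a = 0) :
    (∑ a ∈ X, u a) ^ 2 ≤ M * ∑ a ∈ X, u a ^ 2 := by
  rw [← Finset.sum_filter_of_ne (p := P) fun a ha h0 => by_contra fun hp => h0 (hu a ha hp)]
  refine sq_sum_le_card_mul_sum_sq.trans (mul_le_mul hM (Finset.sum_le_sum_of_subset_of_nonneg
    (Finset.filter_subset _ _) fun _ _ _ => sq_nonneg _) (Finset.sum_nonneg fun _ _ => sq_nonneg _)
    ((Nat.cast_nonneg _).trans hM))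

/-- test functions with unspecified parameters -/
def rzbT (ψ : Eu m → ℝ) : Prop := ∃ L R, Tst L 0 R ψ

theorem Tst.rzbT {L R : ℝ} {a : Eu m} {ψ : Eu m → ℝ} (h : Tst L a R ψ) : rzbT ψ :=
  ⟨L, _, h.mono le_rfl le_rfl⟩

theorem rzbT.lip {ψ : Eu m → ℝ} (h : rzbT ψ) : ∃ L, Lip L ψ := by
  obtain ⟨L, R, h⟩ := h
  exact ⟨L, h.lip⟩

theorem rzbT.cont {ψ : Eu m → ℝ} (h : rzbT ψ) : Continuous ψ := by
  obtain ⟨L, h⟩ := h.lip
  exact h.continuous

theorem rzbT.const_mul {ψ : Eu m → ℝ} (h : rzbT ψ) (c : ℝ) : rzbT fun y => c * ψ y := by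
  obtain ⟨L, R, h⟩ := h
  exact ⟨_, _, h.const_mul c⟩

theorem rzbT.add {ψ φ : Eu m → ℝ} (h : rzbT ψ) (h' : rzbT φ) : rzbT fun y => ψ y + φ y := by
  obtain ⟨L, R, h⟩ := h
  obtain ⟨L', R', h'⟩ := h'
  exact ⟨_, max R R', (h.mono le_rfl (by simp)).add (h'.mono le_rfl (by simp))⟩

theorem rzb_tst_zero (a : Eu m) (R : ℝ) : Tst 0 a R fun _ => 0 :=
  ⟨fun x y => by simp, fun _ _ => rfl⟩

theorem rzbT.sum {α : Type*} (X : Finset α) {ψ : α → Eu m → ℝ} (h : ∀ a ∈ X, rzbT (ψ a)) :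
    rzbT fun y => ∑ a ∈ X, ψ a y := by
  classical
  induction X using Finset.induction_on with
  | empty => simpa using (rzb_tst_zero (0 : Eu m) 0).rzbT
  | insert a X ha ih =>
    simp only [Finset.sum_insert ha]
    exact (h a (Finset.mem_insert_self _ _)).add (ih fun b hb => h b (Finset.mem_insert_of_mem hb))

theorem rzbT.int_mul {ψ φ : Eu m → ℝ} (h : rzbT ψ) (hφ : Continuous φ) :
    Integrable (fun y => φ y * ψ y) ν := by
  obtain ⟨L, R, h'⟩ := id h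
  exact (hφ.mul h.cont).integrable_of_hasCompactSupport h'.hasCompactSupport.mul_left

theorem rzbT.int_sq {ψ : Eu m → ℝ} (h : rzbT ψ) : Integrable (fun y => ψ y ^ 2) ν := by
  simpa only [sq] using h.int_mul h.cont

theorem rzb_TT_sum (h : Up n C ν) (hn : 1 ≤ n) {α : Type*} (X : Finset α) {ψ : α → Eu m → ℝ}
    (hψ : ∀ a ∈ X, rzbT (ψ a)) : TT n ν (fun y => ∑ a ∈ X, ψ a y) = ∑ a ∈ X, TT n ν (ψ a) := by
  classical
  induction X using Finset.induction_on with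
  | empty => simp [TT]
  | insert a X ha ih =>
    have h1 := fun b hb => hψ b (Finset.mem_insert_of_mem hb)
    obtain ⟨L, h2⟩ := (hψ a (Finset.mem_insert_self _ _)).lip
    obtain ⟨L', h3⟩ := (rzbT.sum X h1).lip
    simp only [Finset.sum_insert ha]
    rw [TT_add h hn h2 h3, ih h1]

omit [IsFiniteMeasure ν] in
theorem rzb_supp {L R : ℝ} {a : Eu m} {ψ : Eu m → ℝ} (h : Tst L a R ψ) (φ : Eu m → ℝ) :
    ∫ y in ball a R, φ y * ψ y ∂ν = ∫ y, φ y * ψ y ∂ν :=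
  setIntegral_eq_integral_of_forall_compl_eq_zero fun y hy => by
    rw [h.supp y (not_lt.1 fun h' => hy (mem_ball.2 h')), mul_zero]

/-- Poincaré inequality for admissible functions -/
theorem rzb_tst_sq (hn : 1 ≤ n) (hC : 1 ≤ C) (h : Up n C ν) {a : Eu m} {R : ℝ} (hR : 0 < R)
    (hl : ENNReal.ofReal (R ^ n / C) ≤ ν (ball a R)) {L : ℝ} {ψ : Eu m → ℝ} (hψ : Tst L a R ψ)
    (h0 : ∫ y, ψ y ∂ν = 0) : ∫ y, ψ y ^ 2 ∂ν ≤ 2 ^ (n + 1) * C * R * En n 0 ν ψ ψ := by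
  have h1 := rzb_poincare hn hC h hR hl hψ.lip
  have h2 := rzb_supp (ν := ν) hψ fun _ => 1
  have h3 := rzb_supp (ν := ν) hψ ψ
  simp only [one_mul] at h2
  simp only [← sq] at h3
  rw [h2, h0] at h1
  simp only [mul_zero, sub_zero] at h1
  rw [← h3]
  refine h1.trans (mul_le_mul_of_nonneg_left ?_ (by positivity))
  rw [rzb_En]
  exact setIntegral_le_integral (rzb_En_int h hn hψ.lip)
    (ae_of_all _ fun p => mul_nonneg (sq_nonneg _) (kap_nonneg _ _ _))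

/-- pairing of a Lipschitz function with an admissible function -/
theorem rzb_cross (hn : 1 ≤ n) (hC : 1 ≤ C) (h : Up n C ν) {a : Eu m} {R : ℝ} (hR : 0 < R)
    (hl : ENNReal.ofReal (R ^ n / C) ≤ ν (ball a R)) {L L' : ℝ} {f ψ : Eu m → ℝ} (hf : Lip L f)
    (hψ : Tst L' a R ψ) (h0 : ∫ y, ψ y ∂ν = 0) (c : ℝ) {t : ℝ} (ht : 0 < t) :
    ∫ y, f y * (c * ψ y) ∂ν ≤
      t⁻¹ * (2 ^ (n + 1) * C * R * rzbE n ν f a R) + t * c ^ 2 * ∫ y, ψ y ^ 2 ∂ν := by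
  have h1 := rzb_poincare hn hC h hR hl hf
  obtain ⟨b, hb⟩ : ∃ c, c = (ν.real (ball a R))⁻¹ * ∫ y in ball a R, f y ∂ν := ⟨_, rfl⟩
  rw [← hb] at h1
  have cg : Continuous fun x => f x - b := hf.continuous.sub continuous_const
  have h3 := rzb_supp (ν := ν) hψ ψ
  simp only [← sq] at h3
  have e : ∫ y, f y * (c * ψ y) ∂ν = ∫ y in ball a R, (f y - b) * c * ψ y ∂ν := by
    rw [rzb_supp hψ fun y => (f y - b) * c]
    have e1 : ∀ y, (f y - b) * c * ψ y = f y * (c * ψ y) - b * c * ψ y := fun y => by ring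
    simp only [e1]
    rw [integral_sub ((hψ.rzbT.const_mul c).int_mul hf.continuous)
      (hψ.rzbT.int_mul continuous_const), integral_const_mul, h0, mul_zero, sub_zero]
  have cψ := hψ.lip.continuous
  have i1 : Integrable (fun y => t⁻¹ * (f y - b) ^ 2) (ν.restrict (ball a R)) :=
    (rzb_intOn (ν := ν) (cg.pow 2) a R).const_mul t⁻¹
  have i2 : Integrable (fun y => t * c ^ 2 * ψ y ^ 2) (ν.restrict (ball a R)) :=
    (rzb_intOn (ν := ν) (cψ.pow 2) a R).const_mul (t * c ^ 2)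
  rw [e, ← h3]
  refine le_trans ?_ (add_le_add (mul_le_mul_of_nonneg_left h1 (by positivity)) le_rfl)
  rw [← integral_const_mul, ← integral_const_mul, ← integral_add i1 i2]
  refine integral_mono (rzb_intOn ((cg.mul continuous_const).mul cψ) a R) (i1.add i2) fun y => ?_
  beta_reduce
  have e2 : t⁻¹ * (f y - b) ^ 2 + t * c ^ 2 * ψ y ^ 2 - (f y - b) * c * ψ y =
      t⁻¹ * ((f y - b - t * c * ψ y / 2) ^ 2 + 3 / 4 * (t * c * ψ y) ^ 2) := by
    field_simp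
    ring
  rw [← sub_nonneg, e2]
  positivity

/-- bounded overlap of the local energies -/
theorem rzb_sum_E (hn : 1 ≤ n) (h : Up n C ν) {L : ℝ} {f : Eu m → ℝ} (hf : Lip L f)
    (X : Finset (Eu m)) (R : ℝ) {M : ℝ} (hM : ∀ y, ((X.filter fun a => dist y a < R).card : ℝ) ≤ M) :
    ∑ a ∈ X, rzbE n ν f a R ≤ M * En n 0 ν f f := by
  classical
  have hi := rzb_En_int h hn hf
  have hm : ∀ a : Eu m, MeasurableSet (ball a R ×ˢ ball a R) := fun a =>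
    measurableSet_ball.prod measurableSet_ball
  simp only [rzbE, ← integral_indicator (hm _)]
  rw [← integral_finsetSum _ fun a _ => hi.indicator (hm a), rzb_En, ← integral_const_mul]
  refine integral_mono (integrable_finsetSum _ fun a _ => hi.indicator (hm a)) (hi.const_mul _)
    fun p => ?_
  have h0 : 0 ≤ (f p.1 - f p.2) ^ 2 * kap (n + 1) 0 (p.1 - p.2) :=
    mul_nonneg (sq_nonneg _) (kap_nonneg _ _ _)
  beta_reduce
  rw [← Finset.sum_filter_of_ne (p := fun a => dist p.1 a < R) fun a _ h1 =>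
    mem_ball.1 (Set.mem_of_indicator_ne_zero h1).1]
  refine (Finset.sum_le_card_nsmul _ _ _ fun a _ => Set.indicator_le_self' (fun _ _ =>
    mul_nonneg (sq_nonneg _) (kap_nonneg _ _ _)) p).trans ?_
  rw [nsmul_eq_mul]
  exact mul_le_mul_of_nonneg_right (hM _) h0

theorem rzb_geo (i J : ℕ) : ∑ j ∈ Finset.range J, (3 / 4 : ℝ) ^ (i - j + (j - i)) ≤ 7 := by
  have key : ∑ j ∈ Finset.range J, (3 / 4 : ℝ) ^ (i - j + (j - i)) ≤
      3 * (3 / 4) ^ (i - J) + 4 - 4 * (3 / 4) ^ (J - i) := by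
    induction J with
    | zero => simp; positivity
    | succ J ih =>
      rw [Finset.sum_range_succ]
      rcases lt_or_ge J i with hJ | hJ
      · rw [show J - i = 0 by omega, show i - J = i - (J + 1) + 1 by omega] at *
        rw [show J + 1 - i = 0 by omega]
        rw [add_zero, pow_succ] at *
        linarith
      · rw [show i - J = 0 by omega] at *
        rw [show i - (J + 1) = 0 by omega, show J + 1 - i = J - i + 1 by omega, zero_add, pow_succ]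
        linarith
  have h1 : (3 / 4 : ℝ) ^ (i - J) ≤ 1 := pow_le_one₀ (by norm_num) (by norm_num)
  have h2 : (0 : ℝ) ≤ (3 / 4 : ℝ) ^ (J - i) := by positivity
  linarith

theorem rzb_schur (J : ℕ) (s : ℕ → ℝ) (hs : ∀ i, 0 ≤ s i) :
    ∑ i ∈ Finset.range J, ∑ j ∈ Finset.range J, (3 / 4 : ℝ) ^ (i - j + (j - i)) * (s i + s j) ≤
      14 * ∑ i ∈ Finset.range J, s i := by
  have h1 : ∑ i ∈ Finset.range J, ∑ j ∈ Finset.range J, (3 / 4 : ℝ) ^ (i - j + (j - i)) * s i ≤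
      7 * ∑ i ∈ Finset.range J, s i := by
    rw [Finset.mul_sum]
    refine Finset.sum_le_sum fun i _ => ?_
    rw [← Finset.sum_mul]
    exact mul_le_mul_of_nonneg_right (rzb_geo i J) (hs i)
  have h2 : ∑ i ∈ Finset.range J, ∑ j ∈ Finset.range J, (3 / 4 : ℝ) ^ (i - j + (j - i)) * s j =
      ∑ i ∈ Finset.range J, ∑ j ∈ Finset.range J, (3 / 4 : ℝ) ^ (i - j + (j - i)) * s i := by
    rw [Finset.sum_comm]
    exact Finset.sum_congr rfl fun i _ => Finset.sum_congr rfl fun j _ => by rw [add_comm]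
  simp only [mul_add, Finset.sum_add_distrib]
  linarith

/-- one generation of admissible functions -/
structure RzbGen (n : ℕ) (C : ℝ) (ν : Measure (Eu m)) (A M r : ℝ) (X : Finset (Eu m))
    (ψ : Eu m → Eu m → ℝ) : Prop where
  r_pos : 0 < r
  low : ∀ a ∈ X, ENNReal.ofReal ((A * r) ^ n / C) ≤ ν (ball a (A * r))
  ov : ∀ y, ((X.filter fun a => dist y a < A * r).card : ℝ) ≤ M
  tst : ∀ a ∈ X, ∃ L, Tst L a (A * r) (ψ a)
  zero : ∀ a ∈ X, ∫ y, ψ a y ∂ν = 0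
  en : ∀ a ∈ X, r * En n 0 ν (ψ a) (ψ a) ≤ 1

section gen

variable {A M r : ℝ} {X : Finset (Eu m)} {ψ : Eu m → Eu m → ℝ}

omit [IsFiniteMeasure ν] in
theorem RzbGen.M_nonneg (g : RzbGen n C ν A M r X ψ) : 0 ≤ M := (Nat.cast_nonneg _).trans (g.ov 0)

omit [IsFiniteMeasure ν] in
theorem RzbGen.T (g : RzbGen n C ν A M r X ψ) {a : Eu m} (ha : a ∈ X) : rzbT (ψ a) := by
  obtain ⟨L, h⟩ := g.tst a ha
  exact h.rzbT

omit [IsFiniteMeasure ν] in
theorem RzbGen.TF (g : RzbGen n C ν A M r X ψ) (c : Eu m → ℝ) :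
    rzbT fun y => ∑ a ∈ X, c a * ψ a y := rzbT.sum X fun _ ha => (g.T ha).const_mul _

theorem RzbGen.sq_le (g : RzbGen n C ν A M r X ψ) (hn : 1 ≤ n) (hC : 1 ≤ C) (h : Up n C ν)
    (hA : 1 ≤ A) {a : Eu m} (ha : a ∈ X) : ∫ y, ψ a y ^ 2 ∂ν ≤ 2 ^ (n + 1) * C * A := by
  obtain ⟨L, h1⟩ := g.tst a ha
  have hr := g.r_pos
  refine (rzb_tst_sq hn hC h (by positivity) (g.low a ha) h1 (g.zero a ha)).trans ?_
  calc 2 ^ (n + 1) * C * (A * r) * En n 0 ν (ψ a) (ψ a)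
      = 2 ^ (n + 1) * C * A * (r * En n 0 ν (ψ a) (ψ a)) := by ring
    _ ≤ _ := mul_le_of_le_one_right (by positivity) (g.en a ha)

theorem RzbGen.diag (g : RzbGen n C ν A M r X ψ) (hn : 1 ≤ n) (hC : 1 ≤ C) (h : Up n C ν)
    (hA : 1 ≤ A) (c : Eu m → ℝ) :
    ∫ y, (∑ a ∈ X, c a * ψ a y) ^ 2 ∂ν ≤ M * (2 ^ (n + 1) * C * A * ∑ a ∈ X, c a ^ 2) := by
  have hi : ∀ a ∈ X, Integrable (fun y => (c a * ψ a y) ^ 2) ν := fun a ha =>
    ((g.T ha).const_mul _).int_sq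
  refine (integral_mono (g.TF c).int_sq ((integrable_finsetSum _ hi).const_mul M) fun y =>
    rzb_sq_sum X _ _ (g.ov y) fun a ha hp => ?_).trans ?_
  · obtain ⟨L, h1⟩ := g.tst a ha
    rw [h1.supp y (not_lt.1 hp), mul_zero]
  · rw [integral_const_mul, integral_finsetSum _ hi, Finset.mul_sum _ _ (2 ^ (n + 1) * C * A)]
    refine mul_le_mul_of_nonneg_left (Finset.sum_le_sum fun a ha => ?_) g.M_nonneg
    simp only [mul_pow]
    rw [integral_const_mul, mul_comm]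
    exact mul_le_mul_of_nonneg_right (g.sq_le hn hC h hA ha) (sq_nonneg _)

theorem RzbGen.energy (g : RzbGen n C ν A M r X ψ) (hn : 1 ≤ n) (h : Up n C ν) (c : Eu m → ℝ) :
    r * En n 0 ν (fun y => ∑ a ∈ X, c a * ψ a y) (fun y => ∑ a ∈ X, c a * ψ a y) ≤
      2 * M * ∑ a ∈ X, c a ^ 2 := by
  classical
  obtain ⟨L, hL⟩ := (g.TF c).lip
  have hi : ∀ a ∈ X, Integrable (fun p : Eu m × Eu m =>
      c a ^ 2 * ((ψ a p.1 - ψ a p.2) ^ 2 * kap (n + 1) 0 (p.1 - p.2))) (ν.prod ν) := fun a ha => by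
    obtain ⟨L, h1⟩ := g.tst a ha
    exact (rzb_En_int h hn h1.lip).const_mul _
  have h1 : En n 0 ν (fun y => ∑ a ∈ X, c a * ψ a y) (fun y => ∑ a ∈ X, c a * ψ a y) ≤
      2 * M * ∑ a ∈ X, c a ^ 2 * En n 0 ν (ψ a) (ψ a) := by
    simp only [rzb_En, ← integral_const_mul]
    rw [← integral_finsetSum _ hi, ← integral_const_mul]
    refine integral_mono (rzb_En_int h hn hL) ((integrable_finsetSum _ hi).const_mul _) fun p => ?_
    have h2 := rzb_sq_sum X (fun a => c a * (ψ a p.1 - ψ a p.2))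
      (fun a => dist p.1 a < A * r ∨ dist p.2 a < A * r) (M := 2 * M) (by
        rw [Finset.filter_or]
        have a1 : (((X.filter fun a => dist p.1 a < A * r) ∪
            (X.filter fun a => dist p.2 a < A * r)).card : ℝ) ≤
            (X.filter fun a => dist p.1 a < A * r).card +
              (X.filter fun a => dist p.2 a < A * r).card := by
          exact_mod_cast Finset.card_union_le _ _
        linarith [g.ov p.1, g.ov p.2]) (fun a ha hp => by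
        obtain ⟨L, h1⟩ := g.tst a ha
        rw [not_or, not_lt, not_lt] at hp
        rw [h1.supp _ hp.1, h1.supp _ hp.2, sub_self, mul_zero])
    have h3 := mul_le_mul_of_nonneg_right h2 (kap_nonneg (n + 1) 0 (p.1 - p.2))
    beta_reduce
    rw [← Finset.sum_sub_distrib]
    simp only [← mul_sub]
    refine h3.trans (le_of_eq ?_)
    rw [mul_assoc, Finset.sum_mul]
    congr 1
    exact Finset.sum_congr rfl fun a _ => by ring
  refine (mul_le_mul_of_nonneg_left h1 g.r_pos.le).trans ?_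
  rw [mul_left_comm, Finset.mul_sum]
  refine mul_le_mul_of_nonneg_left (Finset.sum_le_sum fun a ha => ?_)
    (mul_nonneg two_pos.le g.M_nonneg)
  rw [mul_left_comm]
  exact mul_le_of_le_one_right (sq_nonneg _) (g.en a ha)

theorem RzbGen.off {r' : ℝ} {X' : Finset (Eu m)} {ψ' : Eu m → Eu m → ℝ} (g : RzbGen n C ν A M r X ψ)
    (g' : RzbGen n C ν A M r' X' ψ') (hn : 1 ≤ n) (hC : 1 ≤ C) (h : Up n C ν) (hA : 1 ≤ A)
    (c c' : Eu m → ℝ) {t : ℝ} (ht : 0 < t) (hr : r' ≤ t ^ 2 * r) :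
    ∫ y, (∑ a ∈ X, c a * ψ a y) * ∑ a ∈ X', c' a * ψ' a y ∂ν ≤
      2 ^ (n + 1) * C * A * (2 * M ^ 2 + 1) * (t * (∑ a ∈ X, c a ^ 2 + ∑ a ∈ X', c' a ^ 2)) := by
  obtain ⟨L, hL⟩ := (g.TF c).lip
  have h1 := g.energy hn h c
  have h2 := rzb_sum_E hn h hL X' (A * r') g'.ov
  have h0 := En_self_nonneg (n := n) (ν := ν) 0 fun y => ∑ a ∈ X, c a * ψ a y
  obtain ⟨F, hF⟩ : ∃ F : Eu m → ℝ, F = fun y => ∑ a ∈ X, c a * ψ a y := ⟨_, rfl⟩
  have e : ∀ y, ∑ a ∈ X, c a * ψ a y = F y := fun y => by rw [hF]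
  rw [← hF] at hL h1 h2 h0
  have hr' := g'.r_pos
  have hM := g.M_nonneg
  obtain ⟨κ, hκ⟩ : ∃ κ : ℝ, κ = 2 ^ (n + 1) * C * A := ⟨_, rfl⟩
  have hκ0 : 0 < κ := by rw [hκ]; positivity
  have s1 : 0 ≤ ∑ a ∈ X, c a ^ 2 := Finset.sum_nonneg fun _ _ => sq_nonneg _
  have s2 : 0 ≤ ∑ a ∈ X', c' a ^ 2 := Finset.sum_nonneg fun _ _ => sq_nonneg _
  simp only [e, Finset.mul_sum X']
  rw [integral_finsetSum _ fun a ha => ((g'.T ha).const_mul _).int_mul hL.continuous, ← hκ]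
  calc ∑ a ∈ X', ∫ y, F y * (c' a * ψ' a y) ∂ν
      ≤ ∑ a ∈ X', (t⁻¹ * κ * r' * rzbE n ν F a (A * r') + t * κ * c' a ^ 2) := by
        refine Finset.sum_le_sum fun a ha => ?_
        obtain ⟨L', h3⟩ := g'.tst a ha
        refine (rzb_cross hn hC h (by positivity) (g'.low a ha) hL h3 (g'.zero a ha) (c' a) ht).trans
          (add_le_add (le_of_eq (by rw [hκ]; ring)) ?_)
        rw [mul_right_comm t κ, hκ]
        exact mul_le_mul_of_nonneg_left (g'.sq_le hn hC h hA ha) (by positivity)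
    _ = t⁻¹ * κ * r' * ∑ a ∈ X', rzbE n ν F a (A * r') + t * κ * ∑ a ∈ X', c' a ^ 2 := by
        rw [Finset.sum_add_distrib, Finset.mul_sum, Finset.mul_sum]
    _ ≤ t⁻¹ * κ * (t ^ 2 * r) * (M * En n 0 ν F F) + t * κ * ∑ a ∈ X', c' a ^ 2 :=
        add_le_add ((mul_le_mul_of_nonneg_left h2 (by positivity)).trans
          (mul_le_mul_of_nonneg_right (mul_le_mul_of_nonneg_left hr (by positivity))
            (by positivity))) le_rfl
    _ = t * κ * (M * (r * En n 0 ν F F) + ∑ a ∈ X', c' a ^ 2) := by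
        field_simp
    _ ≤ t * κ * (M * (2 * M * ∑ a ∈ X, c a ^ 2) + ∑ a ∈ X', c' a ^ 2) := by gcongr
    _ ≤ t * κ * ((2 * M ^ 2 + 1) * (∑ a ∈ X, c a ^ 2 + ∑ a ∈ X', c' a ^ 2)) := by
        refine mul_le_mul_of_nonneg_left ?_ (by positivity)
        nlinarith [mul_nonneg (sq_nonneg M) s2]
    _ = _ := by ring

end gen

/-- the almost orthogonality estimate -/
theorem rzb_bessel (hn : 1 ≤ n) (hC : 1 ≤ C) (h : Up n C ν) {A M ρ r0 : ℝ} (hA : 1 ≤ A) (hρ : 0 < ρ)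
    (hρ' : ρ ≤ 1 / 2) {X : ℕ → Finset (Eu m)} {ψ : ℕ → Eu m → Eu m → ℝ}
    (g : ∀ j, RzbGen n C ν A M (ρ ^ j * r0) (X j) (ψ j)) (c : ℕ → Eu m → ℝ) (J : ℕ) :
    ∫ y, (∑ j ∈ Finset.range J, ∑ a ∈ X j, c j a * ψ j a y) ^ 2 ∂ν ≤
      14 * (2 ^ (n + 1) * C * A * (2 * M ^ 2 + 1)) * ∑ j ∈ Finset.range J, ∑ a ∈ X j, c j a ^ 2 := by
  have hs : ∀ j, 0 ≤ ∑ a ∈ X j, c j a ^ 2 := fun j => Finset.sum_nonneg fun _ _ => sq_nonneg _
  have hM := (g 0).M_nonneg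
  have hlt : ∀ i j, i < j → ∫ y, (∑ a ∈ X i, c i a * ψ i a y) * ∑ a ∈ X j, c j a * ψ j a y ∂ν ≤
      2 ^ (n + 1) * C * A * (2 * M ^ 2 + 1) * ((3 / 4 : ℝ) ^ (j - i) *
        (∑ a ∈ X i, c i a ^ 2 + ∑ a ∈ X j, c j a ^ 2)) := by
    intro i j hij
    refine (g i).off (g j) hn hC h hA _ _ (by positivity) ?_
    obtain ⟨d, rfl⟩ := Nat.exists_eq_add_of_le hij.le
    rw [Nat.add_sub_cancel_left, pow_add, mul_comm (ρ ^ i), mul_assoc, ← pow_mul, mul_comm d, pow_mul]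
    exact mul_le_mul_of_nonneg_right (pow_le_pow_left₀ hρ.le (by linarith) d) (g i).r_pos.le
  have hall : ∀ i j, ∫ y, (∑ a ∈ X i, c i a * ψ i a y) * ∑ a ∈ X j, c j a * ψ j a y ∂ν ≤
      2 ^ (n + 1) * C * A * (2 * M ^ 2 + 1) * ((3 / 4 : ℝ) ^ (i - j + (j - i)) *
        (∑ a ∈ X i, c i a ^ 2 + ∑ a ∈ X j, c j a ^ 2)) := by
    intro i j
    rcases lt_trichotomy i j with hij | rfl | hij
    · rw [show i - j = 0 by omega, zero_add]
      exact hlt i j hij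
    · simp only [← sq]
      refine ((g i).diag hn hC h hA (c i)).trans ?_
      rw [Nat.sub_self, add_zero, pow_zero, one_mul, mul_left_comm, mul_assoc _ (2 * M ^ 2 + 1)]
      refine mul_le_mul_of_nonneg_left ?_ (by positivity)
      nlinarith [mul_nonneg (sq_nonneg (2 * M - 1)) (hs i), mul_nonneg hM (hs i), hs i]
    · rw [show j - i = 0 by omega, add_zero, add_comm (∑ a ∈ X i, c i a ^ 2)]
      simp only [mul_comm (∑ a ∈ X i, c i a * ψ i a _)]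
      exact hlt j i hij
  have hi : ∀ i j, Integrable (fun y =>
      (∑ a ∈ X i, c i a * ψ i a y) * ∑ a ∈ X j, c j a * ψ j a y) ν := fun i j =>
    ((g j).TF (c j)).int_mul ((g i).TF (c i)).cont
  simp only [sq (∑ j ∈ Finset.range J, _), Finset.sum_mul_sum (Finset.range J)]
  rw [integral_finsetSum _ fun i _ => integrable_finsetSum _ fun j _ => hi i j]
  refine (Finset.sum_le_sum fun i _ => (integral_finsetSum _ fun j _ => hi i j).le.trans
    (Finset.sum_le_sum fun j _ => hall i j)).trans ?_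
  simp only [← Finset.mul_sum]
  rw [mul_comm (14 : ℝ), mul_assoc _ (14 : ℝ)]
  exact mul_le_mul_of_nonneg_left (rzb_schur J _ hs) (by positivity)

theorem rzb_TT_le (hn : 1 ≤ n) (hC : 1 ≤ C) (h : Up n C ν) {A M ρ r0 B : ℝ} (hA : 1 ≤ A) (hρ : 0 < ρ)
    (hρ' : ρ ≤ 1 / 2) (hB : 0 ≤ B) (hT : TBound n ν B) {X : ℕ → Finset (Eu m)}
    {ψ : ℕ → Eu m → Eu m → ℝ} (g : ∀ j, RzbGen n C ν A M (ρ ^ j * r0) (X j) (ψ j)) (J : ℕ) :
    ∑ j ∈ Finset.range J, ∑ a ∈ X j, ‖TT n ν (ψ j a)‖ ^ 2 ≤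
      m * (B * (14 * (2 ^ (n + 1) * C * A * (2 * M ^ 2 + 1)))) := by
  obtain ⟨K, hK⟩ : ∃ K : ℝ, K = 14 * (2 ^ (n + 1) * C * A * (2 * M ^ 2 + 1)) := ⟨_, rfl⟩
  have hK0 : 0 ≤ K := by rw [hK]; positivity
  rw [← hK]
  have key : ∀ i : Fin m, ∑ j ∈ Finset.range J, ∑ a ∈ X j, TT n ν (ψ j a) i ^ 2 ≤ B * K := by
    intro i
    have h1 := rzb_bessel hn hC h hA hρ hρ' g (fun j a => TT n ν (ψ j a) i) J
    rw [← hK] at h1
    obtain ⟨L, R, h2⟩ := rzbT.sum (Finset.range J) fun j _ => (g j).TF fun a => TT n ν (ψ j a) i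
    have h3 := (hT _ _ _ _ h2).trans (mul_le_mul_of_nonneg_left h1 hB)
    have h4 : TT n ν (fun y => ∑ j ∈ Finset.range J, ∑ a ∈ X j, TT n ν (ψ j a) i * ψ j a y) i =
        ∑ j ∈ Finset.range J, ∑ a ∈ X j, TT n ν (ψ j a) i ^ 2 := by
      rw [rzb_TT_sum h hn _ fun j _ => (g j).TF fun a => TT n ν (ψ j a) i, WithLp.ofLp_sum,
        Finset.sum_apply]
      refine Finset.sum_congr rfl fun j _ => ?_
      rw [rzb_TT_sum h hn _ fun a ha => ((g j).T ha).const_mul _, WithLp.ofLp_sum, Finset.sum_apply]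
      refine Finset.sum_congr rfl fun a _ => ?_
      rw [TT_const_mul, sq]
      rfl
    have h5 := pow_le_pow_left₀ (norm_nonneg _) (PiLp.norm_apply_le (TT n ν fun y =>
      ∑ j ∈ Finset.range J, ∑ a ∈ X j, TT n ν (ψ j a) i * ψ j a y) i) 2
    rw [h4, Real.norm_eq_abs, sq_abs] at h5
    replace h5 := h5.trans h3
    have h6 : 0 ≤ ∑ j ∈ Finset.range J, ∑ a ∈ X j, TT n ν (ψ j a) i ^ 2 :=
      Finset.sum_nonneg fun _ _ => Finset.sum_nonneg fun _ _ => sq_nonneg _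
    rcases h6.eq_or_lt with h7 | h7
    · rw [← h7]; positivity
    · rw [sq, ← mul_assoc] at h5
      exact le_of_mul_le_mul_right h5 h7
  calc ∑ j ∈ Finset.range J, ∑ a ∈ X j, ‖TT n ν (ψ j a)‖ ^ 2
      = ∑ i : Fin m, ∑ j ∈ Finset.range J, ∑ a ∈ X j, TT n ν (ψ j a) i ^ 2 := by
        simp only [EuclideanSpace.real_norm_sq_eq]
        rw [Finset.sum_comm]
        exact Finset.sum_congr rfl fun j _ => Finset.sum_comm
    _ ≤ _ := by
        refine (Finset.sum_le_card_nsmul _ _ _ fun i _ => key i).trans (le_of_eq ?_)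
        rw [Finset.card_univ, Fintype.card_fin, nsmul_eq_mul]

/-- the supremum defining `θ` -/
theorem rzb_sup (hn : 1 ≤ n) (hC : 1 ≤ C) (h : Up n C ν) {A r B : ℝ} (hA : 1 ≤ A) (hr : 0 < r)
    (hB : 0 ≤ B) (hT : TBound n ν B) {a : Eu m}
    (hl : ENNReal.ofReal ((A * r) ^ n / C) ≤ ν (ball a (A * r))) :
    ∃ (σ : ℝ) (ψ : Eu m → ℝ), 0 ≤ σ ∧ Small n ν a (A * r) (σ * r) ∧ (∃ L, Tst L a (A * r) ψ) ∧
      ∫ y, ψ y ∂ν = 0 ∧ r * En n 0 ν ψ ψ ≤ 1 ∧ σ ≤ 2 * ‖TT n ν ψ‖ ^ 2 := by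
  obtain ⟨S, hS⟩ : ∃ S : Set ℝ, S = {t | ∃ ψ : Eu m → ℝ, (∃ L, Tst L a (A * r) ψ) ∧
    ∫ y, ψ y ∂ν = 0 ∧ r * En n 0 ν ψ ψ ≤ 1 ∧ t = ‖TT n ν ψ‖ ^ 2} := ⟨_, rfl⟩
  have h1 : ∀ (L : ℝ) (ψ : Eu m → ℝ), Tst L a (A * r) ψ → ∫ y, ψ y ∂ν = 0 →
      ‖TT n ν ψ‖ ^ 2 ≤ B * (2 ^ (n + 1) * C * A) * (r * En n 0 ν ψ ψ) := fun L ψ hψ h0 =>
    (hT _ _ _ _ hψ).trans ((mul_le_mul_of_nonneg_left
      (rzb_tst_sq hn hC h (by positivity) hl hψ h0) hB).trans (le_of_eq (by ring)))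
  have hbd : BddAbove S := ⟨B * (2 ^ (n + 1) * C * A), by
    rw [hS]
    rintro t ⟨ψ, ⟨L, hψ⟩, h0, he, rfl⟩
    exact (h1 L ψ hψ h0).trans (mul_le_of_le_one_right (by positivity) he)⟩
  have hz : (∃ L, Tst L a (A * r) fun _ => (0 : ℝ)) ∧ ∫ _y, (0 : ℝ) ∂ν = 0 ∧
      r * En n 0 ν (fun _ => 0) (fun _ => 0) ≤ 1 :=
    ⟨⟨0, rzb_tst_zero _ _⟩, by simp, by simp [En]⟩
  have h0 : 0 ≤ sSup S := Real.sSup_nonneg fun t ht => by
    rw [hS] at ht
    obtain ⟨ψ, -, -, -, rfl⟩ := ht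
    positivity
  have hsm : Small n ν a (A * r) (sSup S * r) := by
    intro L ψ hψ hm
    rcases (En_self_nonneg (n := n) (ν := ν) 0 ψ).eq_or_lt with he | he
    · have := h1 L ψ hψ hm
      rw [← he] at this ⊢
      simpa using this
    · have hp : 0 < r * En n 0 ν ψ ψ := mul_pos hr he
      obtain ⟨u, hu⟩ : ∃ u : ℝ, u = (√(r * En n 0 ν ψ ψ))⁻¹ := ⟨_, rfl⟩
      have hu2 : u ^ 2 * (r * En n 0 ν ψ ψ) = 1 := by
        rw [hu, inv_pow, Real.sq_sqrt hp.le, inv_mul_cancel₀ hp.ne']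
      have h2 : ‖TT n ν fun y => u * ψ y‖ ^ 2 ≤ sSup S := by
        refine le_csSup hbd ?_
        rw [hS]
        refine ⟨_, ⟨_, hψ.const_mul u⟩, by rw [integral_const_mul, hm, mul_zero], le_of_eq ?_, rfl⟩
        rw [En_const_mul, ← hu2]
        ring
      rw [TT_const_mul, norm_smul, mul_pow, Real.norm_eq_abs, sq_abs] at h2
      calc ‖TT n ν ψ‖ ^ 2 = u ^ 2 * ‖TT n ν ψ‖ ^ 2 * (r * En n 0 ν ψ ψ) := by
            rw [mul_right_comm, hu2, one_mul]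
        _ ≤ sSup S * (r * En n 0 ν ψ ψ) := mul_le_mul_of_nonneg_right h2 hp.le
        _ = _ := by ring
  rcases h0.eq_or_lt with h2 | h2
  · exact ⟨sSup S, fun _ => 0, h0, hsm, hz.1, hz.2.1, hz.2.2, by rw [← h2]; positivity⟩
  · obtain ⟨t, ht, h3⟩ := exists_lt_of_lt_csSup (s := S) (b := sSup S / 2)
      (by rw [hS]; exact ⟨_, _, hz.1, hz.2.1, hz.2.2, rfl⟩) (by linarith)
    rw [hS] at ht
    obtain ⟨ψ, a1, a2, a3, rfl⟩ := ht
    exact ⟨sSup S, ψ, h0, hsm, a1, a2, a3, by linarith⟩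

theorem rzb_rs (n m : ℕ) (hn : 1 ≤ n) {C : ℝ} (hC : 1 ≤ C) {ρ : ℝ} (hρ : 0 < ρ) (hρ' : ρ ≤ 1 / 2)
    {A : ℝ} (hA : 1 ≤ A) : ∃ K, 0 < K ∧ ∀ (ν : Measure (Eu m)) [IsFiniteMeasure ν] (B r0 : ℝ)
      (X : ℕ → Finset (Eu m)), Up n C ν → 0 ≤ B → 0 < r0 → TBound n ν B →
      (∀ j, ∀ a ∈ X j, ENNReal.ofReal ((A * (ρ ^ j * r0)) ^ n / C) ≤ ν (ball a (A * (ρ ^ j * r0)))) →
      (∀ j, ∀ a ∈ X j, ∀ b ∈ X j, a ≠ b → ρ ^ j * r0 ≤ dist a b) →
      ∃ θ : ℕ → Eu m → ℝ, (∀ j a, 0 ≤ θ j a) ∧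
        (∀ j, ∀ a ∈ X j, Small n ν a (A * (ρ ^ j * r0)) (θ j a * (ρ ^ j * r0) ^ (n + 1))) ∧
        ∀ J, ∑ j ∈ Finset.range J, ∑ a ∈ X j, θ j a * (ρ ^ j * r0) ^ n ≤ K * B := by
  obtain ⟨M, hM⟩ := card_sep m A
  refine ⟨2 * (m + 1) * (14 * (2 ^ (n + 1) * C * A * (2 * (M : ℝ) ^ 2 + 1))), by positivity,
    fun ν _ B r0 X h hB hr0 hT hl hsep => ?_⟩
  have hr : ∀ j, 0 < ρ ^ j * r0 := fun j => by positivity
  have key : ∀ j a, ∃ (σ : ℝ) (ψ : Eu m → ℝ), 0 ≤ σ ∧ (a ∈ X j →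
      Small n ν a (A * (ρ ^ j * r0)) (σ * (ρ ^ j * r0)) ∧ (∃ L, Tst L a (A * (ρ ^ j * r0)) ψ) ∧
      ∫ y, ψ y ∂ν = 0 ∧ ρ ^ j * r0 * En n 0 ν ψ ψ ≤ 1 ∧ σ ≤ 2 * ‖TT n ν ψ‖ ^ 2) := fun j a => by
    by_cases ha : a ∈ X j
    · obtain ⟨σ, ψ, h1, h2⟩ := rzb_sup hn hC h hA (hr j) hB hT (hl j a ha)
      exact ⟨σ, ψ, h1, fun _ => h2⟩
    · exact ⟨0, fun _ => 0, le_rfl, fun h => absurd h ha⟩
  choose σ ψ h0 h1 using key
  have g : ∀ j, RzbGen n C ν A M (ρ ^ j * r0) (X j) (ψ j) := fun j =>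
    ⟨hr j, hl j, fun y => by
      exact_mod_cast hM _ y _ (hr j) (fun a ha => by
        rw [dist_comm]; exact (Finset.mem_filter.1 ha).2.le)
        fun a ha b hb => hsep j a (Finset.mem_filter.1 ha).1 b (Finset.mem_filter.1 hb).1,
      fun a ha => (h1 j a ha).2.1, fun a ha => (h1 j a ha).2.2.1, fun a ha => (h1 j a ha).2.2.2.1⟩
  have e : ∀ j a, σ j a / (ρ ^ j * r0) ^ n * (ρ ^ j * r0) ^ n = σ j a := fun j a =>
    div_mul_cancel₀ _ (pow_pos (hr j) n).ne'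
  refine ⟨fun j a => σ j a / (ρ ^ j * r0) ^ n, fun j a => div_nonneg (h0 j a) (pow_pos (hr j) n).le,
    fun j a ha => ?_, fun J => ?_⟩
  · rw [pow_succ, ← mul_assoc _ _ (ρ ^ j * r0), e]
    exact (h1 j a ha).1
  · simp only [e]
    have h2 := rzb_TT_le hn hC h hA hρ hρ' hB hT g J
    refine (Finset.sum_le_sum fun j _ => Finset.sum_le_sum fun a ha => (h1 j a ha).2.2.2.2).trans ?_
    simp only [← Finset.mul_sum]
    have h3 : 0 ≤ B * (14 * (2 ^ (n + 1) * C * A * (2 * (M : ℝ) ^ 2 + 1))) := by positivity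
    nlinarith

end Crest.Agent.R85
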