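import Crest.Agent.R85.HhB
import Crest.Agent.R85.Rieszax
import Crest.Agent.R85.Rieszbx
import Crest.Prelude.Def_RieszRectifiability

/-!
# The Riesz bound and the Carleson estimate for `θ` (task Riesz)

`link`: with `f = indicator (ball x0 r) 1`, `rieszTruncation n μ ε f x = ∫_{ε < dist x y} K_0(x-y) dν`.
Fubini and oddness: `2 ∫ ψ • R_ε dν = ∬_{ε < dist} (ψx - ψy) • K_0(x-y) → TT ψ` (dominated
convergence along `ε = 1/(k+1)`), Cauchy–Schwarz and `ν ≤ μ`.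

`poincare`: `∫_B (ψ - avg)² ≤ ν(B)⁻¹ ∬_{B×B} (ψx-ψy)²` and `1 ≤ (2R)^(n+1) κ_0(x-y)` off the diagonal.

`rs`: `θ j a = sSup {‖TT ψ‖² | ψ admissible, r_j En ψ ψ ≤ 1} / r_j^n` (bounded above by `TBound` and
`poincare`); homogeneity gives `Small`.  For admissible `ψ_{j,a}` and reals `c_{j,a}` put
`F_j = ∑_a c_{j,a} ψ_{j,a}`.  With the overlap bound `M` from `card_sep`:
`∫ F_j² ≤ M c ∑ c²`, `En F_i F_i ≤ 2M ∑ c² / r_i`, and for `i < j`,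
`∫ F_i F_j = ∑_b c_{j,b} ∫_{B_b} (F_i - avg) ψ_{j,b} ≤ c |c_j| √(M r_j En F_i F_i)`, so
`|∫ F_i F_j| ≤ c 2^{-(j-i)/2} |c_i| |c_j|` and `∫ (∑_j F_j)² ≤ K ∑ c²` (Schur, `√(1/2) ≤ 3/4`).
Take `c = ⟪e_i, TT ψ_{j,a}⟫` for each coordinate `i`: `∑ c² = ⟪e_i, TT (∑ c ψ)⟫ ≤ √(B K ∑ c²)`.
-/

set_option autoImplicit false

open MeasureTheory Metric Filter Topology
open scoped RealInnerProductSpace

noncomputable section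

namespace Crest.Agent.R85

variable {m : ℕ}

theorem link {n : ℕ} (hn : 1 ≤ n) {C CR : ℝ} {μ : Measure (Eu m)}
    (hR : Crest.AnalysisR.HasRieszBound n CR μ) (x0 : Eu m) (r : ℝ)
    [IsFiniteMeasure (μ.restrict (ball x0 r))] (h : Up n C (μ.restrict (ball x0 r))) :
    TBound n (μ.restrict (ball x0 r)) (4 * CR ^ 2 * μ.real (ball x0 r)) :=
  rza_link hn hR x0 r h

/-- Fractional Poincaré inequality on a ball. -/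
theorem poincare {n : ℕ} (hn : 1 ≤ n) {C : ℝ} (hC : 1 ≤ C) {ν : Measure (Eu m)} [IsFiniteMeasure ν]
    (h : Up n C ν) {a : Eu m} {R : ℝ} (hR : 0 < R) (hl : ENNReal.ofReal (R ^ n / C) ≤ ν (ball a R))
    {L : ℝ} {f : Eu m → ℝ} (hf : Lip L f) :
    ∫ x in ball a R, (f x - (ν.real (ball a R))⁻¹ * ∫ y in ball a R, f y ∂ν) ^ 2 ∂ν
      ≤ 2 ^ (n + 1) * C * R * ∫ p in ball a R ×ˢ ball a R,
        (f p.1 - f p.2) ^ 2 * kap (n + 1) 0 (p.1 - p.2) ∂(ν.prod ν) :=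
  rzb_poincare hn hC h hR hl hf

theorem rs (n m : ℕ) (hn : 1 ≤ n) {C : ℝ} (hC : 1 ≤ C) {ρ : ℝ} (hρ : 0 < ρ) (hρ' : ρ ≤ 1 / 2)
    {A : ℝ} (hA : 1 ≤ A) : ∃ K, 0 < K ∧ ∀ (ν : Measure (Eu m)) [IsFiniteMeasure ν] (B r0 : ℝ)
      (X : ℕ → Finset (Eu m)), Up n C ν → 0 ≤ B → 0 < r0 → TBound n ν B →
      (∀ j, ∀ a ∈ X j, ENNReal.ofReal ((A * (ρ ^ j * r0)) ^ n / C) ≤ ν (ball a (A * (ρ ^ j * r0)))) →
      (∀ j, ∀ a ∈ X j, ∀ b ∈ X j, a ≠ b → ρ ^ j * r0 ≤ dist a b) →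
      ∃ θ : ℕ → Eu m → ℝ, (∀ j a, 0 ≤ θ j a) ∧
        (∀ j, ∀ a ∈ X j, Small n ν a (A * (ρ ^ j * r0)) (θ j a * (ρ ^ j * r0) ^ (n + 1))) ∧
        ∀ J, ∑ j ∈ Finset.range J, ∑ a ∈ X j, θ j a * (ρ ^ j * r0) ^ n ≤ K * B :=
  rzb_rs n m hn hC hρ hρ' hA

end Crest.Agent.R85
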